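import Crest.Agent.R112.Avg
import Crest.Prelude.Def_MaximalSobolev

/-!
# R112/Approx1: `C¹_c` is dense in `W^{1,1}`

`scheffe`: if `F n → F₀` a.e., all integrable, and `∫ ‖F n‖ ≤ ∫ ‖F₀‖`, then `∫ ‖F n - F₀‖ → 0`
(Fatou `lintegral_liminf_le'` for `‖F n‖ + ‖F₀‖ - ‖F n - F₀‖ ≥ 0`).

`cutoff`: let `χ₀` be a smooth bump (`ContDiffBump (0 : E)`, `rIn = 1`, `rOut = 2`),
`χ R y = χ₀ (R⁻¹ • y)`, `‖∇(χ R)‖ ≤ C / R`. Then `f' = χ R * f` has the weak gradient
`g' = χ R • g + f • ∇(χ R)` (test the definition with `χ R * φ`, product rule), both have compact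
support, and `∫ |f' - f|`, `∫ ‖g' - g‖` tend to `0` as `R → ∞` (dominated convergence).

`mollify`: for a `ContDiffBump` `φ` centred at `0`, `h = φ.normed volume ⋆[lsmul ℝ ℝ] f'` is smooth
with compact support (`HasCompactSupport.contDiff_convolution_left`, `HasCompactSupport.convolution`),
`fderiv h x v = ∫ y, fderiv (φ.normed) (x - y) v * f' y` (`HasCompactSupport.hasFDerivAt_convolution_left`)
`= ∫ y, φ.normed (x - y) * ⟪g' y, v⟫` (weak gradient tested with `y ↦ φ.normed (x - y)`), i.e.
`∇h = φ.normed ⋆ g'`. For bumps with `rOut → 0`, `rOut ≤ 2 rIn`: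
`ContDiffBump.ae_convolution_tendsto_right_of_locallyIntegrable` gives a.e. convergence, the `L¹`
norms do not increase (`integral_convolution` for the norms, or Fubini), and `scheffe` concludes.
-/

namespace Crest.Agent.R112

open MeasureTheory Metric Set Filter Topology
open scoped RealInnerProductSpace NNReal

open Crest.AnalysisR

theorem scheffe {F' : Type*} [NormedAddCommGroup F'] {F : ℕ → E → F'} {F₀ : E → F'}
    (hF : ∀ n, Integrable (F n)) (h0 : Integrable F₀)
    (hae : ∀ᵐ x, Tendsto (fun n => F n x) atTop (𝓝 (F₀ x)))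
    (hle : ∀ n, ∫ x, ‖F n x‖ ≤ ∫ x, ‖F₀ x‖) :
    Tendsto (fun n => ∫ x, ‖F n x - F₀ x‖) atTop (𝓝 0) := by
  have h1 := tendsto_integral_of_dominated_convergence (μ := volume)
    (F := fun n x => ‖F n x - F₀ x‖ - ‖F n x‖) (f := fun x => ‖F₀ x - F₀ x‖ - ‖F₀ x‖)
    (fun x => ‖F₀ x‖) (fun n => (((hF n).sub h0).norm.sub (hF n).norm).aestronglyMeasurable)
    h0.norm (fun n => Eventually.of_forall fun x => by
      rw [Real.norm_eq_abs]
      refine (abs_norm_sub_norm_le _ _).trans_eq ?_
      simp)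
    (hae.mono fun x hx => (hx.sub_const _).norm.sub hx.norm)
  have h2 := h1.add_const (∫ x, ‖F₀ x‖)
  simp only [sub_self, norm_zero, zero_sub, integral_neg, neg_add_cancel] at h2
  refine squeeze_zero (fun n => integral_nonneg fun x => norm_nonneg _) (fun n => ?_) h2
  rw [integral_sub (f := fun x => ‖F n x - F₀ x‖) ((hF n).sub h0).norm (hF n).norm]
  linarith [hle n]

section aux

open scoped ContDiff Convolution
open ContinuousLinearMap (lsmul)

theorem Approx1.c1c {χ : E → ℝ} (h : ContDiff ℝ ∞ χ) (hc : HasCompactSupport χ) : C1c χ :=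
  ⟨h.of_le (by exact_mod_cast le_top), hc⟩

theorem Approx1.int_mul {f c : E → ℝ} (hf : Integrable f) (hc : Continuous c)
    (hs : HasCompactSupport c) : Integrable fun x => f x * c x :=
  hf.locallyIntegrable.integrable_smul_right_of_hasCompactSupport hc hs

theorem Approx1.cut_weak {f : E → ℝ} {g : E → E} (hf : Integrable f) (hg : Integrable g)
    (hw : IsWeakGradient f g) {χ : E → ℝ} (h : ContDiff ℝ ∞ χ) (hc : HasCompactSupport χ) :
    IsWeakGradient (fun x => χ x • f x) fun x => χ x • g x + f x • gradient χ x := by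
  have h1 := Approx1.c1c h hc
  refine ⟨(hf.locallyIntegrable.integrable_smul_left_of_hasCompactSupport h.continuous
    hc).locallyIntegrable, ((hg.locallyIntegrable.integrable_smul_left_of_hasCompactSupport
    h.continuous hc).add (hf.locallyIntegrable.integrable_smul_right_of_hasCompactSupport
    h1.continuous_gradient h1.hasCompactSupport_gradient)).locallyIntegrable,
    fun φ hφ hφc v => ?_⟩
  have h2 := hw.2.2 (fun x => χ x * φ x) (h.mul hφ) hc.mul_right v
  have dχ : Differentiable ℝ χ := h.differentiable (by simp)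
  have dφ : Differentiable ℝ φ := hφ.differentiable (by simp)
  have cχ : Continuous fun x => fderiv ℝ χ x v := (h.continuous_fderiv (by simp)).clm_apply
    continuous_const
  have cφ : Continuous fun x => fderiv ℝ φ x v := (hφ.continuous_fderiv (by simp)).clm_apply
    continuous_const
  have i1 : Integrable fun x => f x * (χ x * fderiv ℝ φ x v) :=
    Approx1.int_mul hf (h.continuous.mul cφ) hc.mul_right
  have i2 : Integrable fun x => f x * (φ x * fderiv ℝ χ x v) :=
    Approx1.int_mul hf (hφ.continuous.mul cχ) hφc.mul_right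
  have i3 : Integrable fun x => ⟪g x, v⟫ * (χ x * φ x) :=
    Approx1.int_mul (hg.inner_const v) (h.continuous.mul hφ.continuous) hc.mul_right
  have e1 : ∀ x, f x * fderiv ℝ (fun x => χ x * φ x) x v
      = f x * (χ x * fderiv ℝ φ x v) + f x * (φ x * fderiv ℝ χ x v) := fun x => by
    rw [fderiv_fun_mul (dχ x) (dφ x)]
    simp only [add_apply, smul_apply, smul_eq_mul]
    ring
  have e2 : ∀ x, ⟪χ x • g x + f x • gradient χ x, v⟫ * φ x
      = ⟪g x, v⟫ * (χ x * φ x) + f x * (φ x * fderiv ℝ χ x v) := fun x => by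
    rw [inner_add_left, real_inner_smul_left, real_inner_smul_left,
      real_inner_comm v (gradient χ x), inner_gradient]
    ring
  have e3 : ∀ x, χ x • f x * fderiv ℝ φ x v = f x * (χ x * fderiv ℝ φ x v) := fun x => by
    rw [smul_eq_mul]; ring
  simp only [e1] at h2
  simp only [e2, e3]
  rw [integral_add i1 i2] at h2
  rw [integral_add i3 i2]
  linarith

theorem Approx1.exists_cut : ∃ (χ : ℕ → E → ℝ) (C : ℝ), (∀ n, ContDiff ℝ ∞ (χ n)) ∧
    (∀ n, HasCompactSupport (χ n)) ∧ (∀ n x, |χ n x| ≤ 1) ∧ (∀ x, ∀ᶠ n in atTop, χ n x = 1) ∧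
    ∀ n x, ‖gradient (χ n) x‖ ≤ C * (1 / ((n : ℝ) + 1)) := by
  let b : ContDiffBump (0 : E) := ⟨1, 2, one_pos, one_lt_two⟩
  have hb : ContDiff ℝ ∞ b := b.contDiff
  obtain ⟨C, hC⟩ := (hb.continuous_fderiv (by simp)).bounded_above_of_compact_support
    (b.hasCompactSupport.fderiv ℝ)
  refine ⟨fun n x => b ((1 / ((n : ℝ) + 1)) • x), C, fun n => hb.comp (contDiff_id.const_smul _),
    fun n => b.hasCompactSupport.comp_smul (by positivity), fun n x => ?_, fun x => ?_,
    fun n x => ?_⟩
  · rw [abs_of_nonneg b.nonneg]; exact b.le_one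
  · have := (tendsto_one_div_add_atTop_nhds_zero_nat (𝕜 := ℝ)).smul_const x
    rw [zero_smul] at this
    exact this.eventually b.eventuallyEq_one
  · have h1 : HasFDerivAt (fun x : E => (1 / ((n : ℝ) + 1)) • x)
        ((1 / ((n : ℝ) + 1)) • ContinuousLinearMap.id ℝ E) x :=
      (hasFDerivAt_id x).const_smul (1 / ((n : ℝ) + 1))
    have h2 := ((hb.differentiable (by simp)) _).hasFDerivAt.comp x h1
    rw [norm_gradient, show fderiv ℝ (fun x : E => b ((1 / ((n : ℝ) + 1)) • x)) x = _ from
      h2.fderiv]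
    refine (ContinuousLinearMap.opNorm_comp_le _ _).trans ?_
    rw [norm_smul, ContinuousLinearMap.norm_id, mul_one, Real.norm_of_nonneg (by positivity)]
    gcongr
    exact hC _

theorem Approx1.conv_int {F' : Type*} [NormedAddCommGroup F'] [NormedSpace ℝ F']
    [CompleteSpace F'] (φ : ContDiffBump (0 : E)) {G : E → F'} (hG : Integrable G) :
    ∫ x, ‖(φ.normed volume ⋆[lsmul ℝ ℝ] G) x‖ ≤ ∫ x, ‖G x‖ := by
  have h1 := integral_convolution (lsmul ℝ ℝ) (φ.integrable_normed (μ := volume)) hG.norm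
  rw [φ.integral_normed, ContinuousLinearMap.lsmul_apply, one_smul] at h1
  rw [← h1]
  refine integral_mono (φ.integrable_normed.integrable_convolution _ hG).norm
    (φ.integrable_normed.integrable_convolution _ hG.norm) fun x => ?_
  simp only [convolution_lsmul]
  refine (norm_integral_le_integral_norm _).trans_eq ?_
  simp only [norm_smul, Real.norm_of_nonneg (φ.nonneg_normed _), smul_eq_mul]

theorem Approx1.grad_conv {f : E → ℝ} {g : E → E} (hw : IsWeakGradient f g) {ρ : E → ℝ}
    (hρ : ContDiff ℝ ∞ ρ) (hc : HasCompactSupport ρ) (x : E) :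
    gradient (ρ ⋆[lsmul ℝ ℝ] f) x = (ρ ⋆[lsmul ℝ ℝ] g) x := by
  refine ext_inner_left ℝ fun v => ?_
  have h1 := hc.hasFDerivAt_convolution_right (lsmul ℝ ℝ : ℝ →L[ℝ] ℝ →L[ℝ] ℝ).flip hw.1
    (Approx1.c1c hρ hc).1 x
  rw [convolution_flip] at h1
  rw [inner_gradient, h1.fderiv, convolution_precompR_apply _ hw.1 (hc.fderiv ℝ)
    (hρ.continuous_fderiv (by simp)), convolution_def, convolution_lsmul_swap]
  have hψ : ContDiff ℝ ∞ fun t => ρ (x - t) := hρ.comp (contDiff_const.sub contDiff_id)
  have hψc : HasCompactSupport fun t => ρ (x - t) := hc.comp_homeomorph (Homeomorph.subLeft x)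
  have h2 := hw.2.2 _ hψ hψc v
  have e : ∀ t, fderiv ℝ (fun t => ρ (x - t)) t v = -fderiv ℝ ρ (x - t) v := fun t => by
    have h3 := ((hρ.differentiable (by simp)) (x - t)).hasFDerivAt.comp t
      ((hasFDerivAt_id t).const_sub x)
    rw [show fderiv ℝ (fun t => ρ (x - t)) t = _ from h3.fderiv]
    simp
  simp only [e, mul_neg, integral_neg, neg_inj] at h2
  rw [← integral_inner (hw.2.1.integrable_smul_left_of_hasCompactSupport hψ.continuous hψc)]
  simp only [ContinuousLinearMap.flip_apply, ContinuousLinearMap.lsmul_apply, smul_eq_mul,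
    real_inner_smul_right]
  simp only [mul_comm (fderiv ℝ ρ _ v), h2]
  simp only [real_inner_comm v, mul_comm]

end aux

theorem cutoff {f : E → ℝ} {g : E → E} (hf : Integrable f) (hg : Integrable g)
    (hw : IsWeakGradient f g) {ε : ℝ} (hε : 0 < ε) :
    ∃ (f' : E → ℝ) (g' : E → E), Integrable f' ∧ Integrable g' ∧ IsWeakGradient f' g' ∧
      HasCompactSupport f' ∧ ∫ x, |f' x - f x| ≤ ε ∧ ∫ x, ‖g' x - g x‖ ≤ ε := by
  obtain ⟨χ, C, h1, h2, h3, h4, h5⟩ := Approx1.exists_cut
  have key : ∀ {F' : Type} [NormedAddCommGroup F'] [NormedSpace ℝ F'] {G : E → F'},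
      Integrable G → (∀ n, Integrable fun x => χ n x • G x) ∧
        Tendsto (fun n => ∫ x, ‖χ n x • G x - G x‖) atTop (𝓝 0) := by
    intro F' _ _ G hG
    have i1 : ∀ n, Integrable fun x => χ n x • G x := fun n =>
      hG.locallyIntegrable.integrable_smul_left_of_hasCompactSupport (h1 n).continuous (h2 n)
    refine ⟨i1, scheffe i1 hG (Eventually.of_forall fun x => ?_) fun n =>
      integral_mono (i1 n).norm hG.norm fun x => ?_⟩
    · exact tendsto_const_nhds.congr' ((h4 x).mono fun n hn => by simp [hn])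
    · simp only [norm_smul, Real.norm_eq_abs]
      exact mul_le_of_le_one_left (norm_nonneg _) (h3 n x)
  obtain ⟨i1, t1⟩ := key hf
  obtain ⟨i2, t2⟩ := key hg
  have t3 := t2.add (((tendsto_one_div_add_atTop_nhds_zero_nat (𝕜 := ℝ)).const_mul C).const_mul
    (∫ x, ‖f x‖))
  simp only [mul_zero, add_zero] at t3
  obtain ⟨n, a1, a2⟩ := ((t1.eventually (ge_mem_nhds hε)).and
    (t3.eventually (ge_mem_nhds hε))).exists
  have c1 := Approx1.c1c (h1 n) (h2 n)
  have i3 : Integrable fun x => f x • gradient (χ n) x :=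
    hf.locallyIntegrable.integrable_smul_right_of_hasCompactSupport c1.continuous_gradient
      c1.hasCompactSupport_gradient
  refine ⟨fun x => χ n x • f x, fun x => χ n x • g x + f x • gradient (χ n) x, i1 n,
    (i2 n).add i3, Approx1.cut_weak hf hg hw (h1 n) (h2 n), (h2 n).mul_right, a1,
    le_trans ?_ a2⟩
  rw [← integral_mul_const, ← integral_add (f := fun x => ‖χ n x • g x - g x‖)
    ((i2 n).sub hg).norm (hf.norm.mul_const _)]
  refine integral_mono (((i2 n).add i3).sub hg).norm
    (((i2 n).sub hg).norm.add (hf.norm.mul_const _)) fun x => ?_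
  simp only
  rw [add_sub_right_comm]
  refine (norm_add_le _ _).trans ?_
  rw [norm_smul (f x)]
  gcongr
  exact h5 n x

theorem mollify {f : E → ℝ} {g : E → E} (hf : Integrable f) (hg : Integrable g)
    (hw : IsWeakGradient f g) (hc : HasCompactSupport f) {ε : ℝ} (hε : 0 < ε) :
    ∃ h, C1c h ∧ ∫ x, |h x - f x| ≤ ε ∧ ∫ x, ‖gradient h x - g x‖ ≤ ε := by
  let φ : ℕ → ContDiffBump (0 : E) := fun n =>
    ⟨1 / ((n : ℝ) + 1) / 2, 1 / ((n : ℝ) + 1), by positivity, half_lt_self (by positivity)⟩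
  have hφ : Tendsto (fun n => (φ n).rOut) atTop (𝓝 0) := tendsto_one_div_add_atTop_nhds_zero_nat
  have hφ' : ∀ᶠ n in atTop, (φ n).rOut ≤ 2 * (φ n).rIn :=
    Eventually.of_forall fun n => by simp only [φ]; linarith
  have t1 := scheffe (fun n => (φ n).integrable_normed.integrable_convolution _ hf) hf
    (ContDiffBump.ae_convolution_tendsto_right_of_locallyIntegrable hφ hφ' hw.1)
    fun n => Approx1.conv_int (φ n) hf
  have t2 := scheffe (fun n => (φ n).integrable_normed.integrable_convolution _ hg) hg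
    (ContDiffBump.ae_convolution_tendsto_right_of_locallyIntegrable hφ hφ' hw.2.1)
    fun n => Approx1.conv_int (φ n) hg
  obtain ⟨n, a1, a2⟩ := ((t1.eventually (ge_mem_nhds hε)).and
    (t2.eventually (ge_mem_nhds hε))).exists
  refine ⟨_, ⟨(φ n).hasCompactSupport_normed.contDiff_convolution_left _ (n := 1)
    (φ n).contDiff_normed hw.1, (φ n).hasCompactSupport_normed.convolution _ hc⟩, a1, ?_⟩
  simpa only [Approx1.grad_conv hw (φ n).contDiff_normed (φ n).hasCompactSupport_normed] using a2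

theorem approx1 {f : E → ℝ} {g : E → E} (hf : Integrable f) (hg : Integrable g)
    (hw : IsWeakGradient f g) {ε : ℝ} (hε : 0 < ε) :
    ∃ h, C1c h ∧ ∫ x, |h x - f x| ≤ ε ∧ ∫ x, ‖gradient h x - g x‖ ≤ ε := by
  obtain ⟨f', g', i1, i2, w, c, a1, a2⟩ := cutoff hf hg hw (half_pos hε)
  obtain ⟨h, hh, b1, b2⟩ := mollify i1 i2 w c (half_pos hε)
  refine ⟨h, hh, ?_, ?_⟩
  · refine le_trans (integral_mono (hh.integrable.sub hf).abs
      ((hh.integrable.sub i1).abs.add (i1.sub hf).abs) fun x => abs_sub_le (h x) (f' x) (f x)) ?_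
    rw [integral_add' (hh.integrable.sub i1).abs (i1.sub hf).abs]
    exact (add_le_add b1 a1).trans_eq (add_halves ε)
  · refine le_trans (integral_mono (hh.integrable_gradient.sub hg).norm
      ((hh.integrable_gradient.sub i2).norm.add (i2.sub hg).norm) fun x =>
        norm_sub_le_norm_sub_add_norm_sub (gradient h x) (g' x) (g x)) ?_
    rw [integral_add' (hh.integrable_gradient.sub i2).norm (i2.sub hg).norm]
    exact (add_le_add b2 a2).trans_eq (add_halves ε)

end Crest.Agent.R112
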