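import Crest.Agent.R112.Avg

/-!
# R112/Approx2: the absolute value of a `W^{1,1}` function

`G₀ x = sign (f x) • g x`. For `η > 0` let `F η t = √(t² + η²) - η`: smooth, `F η 0 = 0`,
`0 ≤ F η t`, `|F η t - |t|| ≤ min η |t|`, derivative `F' η t = t / √(t² + η²)`, `|F'| ≤ 1`, `F η` is
`1`-Lipschitz and `F' η` is `(1/η)`-Lipschitz (or just continuous), `F' η t → sign t` as `η → 0`.
Given `ε`, first choose `η` with `∫ |F η (f x) - |f x|| ≤ ε/2` and `∫ ‖F' η (f x) • g x - G₀ x‖ ≤ ε/4`
(dominated convergence along `η = 1/(n+1)`). For `h₁` from the hypothesis put `h = F η ∘ h₁`: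
`C1c h`, `0 ≤ h`, `∇h = F' η (h₁ x) • ∇h₁ x`, `∫ |h - F η f| ≤ ∫ |h₁ - f|`, and
`‖∇h - F' η (f) • g‖ ≤ ‖∇h₁ - g‖ + |F' η (h₁ x) - F' η (f x)| ‖g x‖`. For the last term split
`‖g‖ ≤ min ‖g‖ M + (‖g‖ - M)⁺`: it integrates to at most `M / η * ∫ |h₁ - f| + 2 ∫ (‖g‖ - M)⁺`, and
`∫ (‖g‖ - M)⁺ → 0` as `M → ∞` (dominated convergence).
-/

namespace Crest.Agent.R112

open MeasureTheory Metric Set Filter Topology
open scoped RealInnerProductSpace NNReal

/-- smoothed absolute value -/
noncomputable def approx2_s (η t : ℝ) : ℝ := √(t ^ 2 + η ^ 2)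

theorem approx2_cont (η : ℝ) : Continuous (approx2_s η) := by
  unfold approx2_s; fun_prop

theorem approx2_ge {η : ℝ} (_hη : 0 < η) (t : ℝ) : η ≤ approx2_s η t :=
  Real.le_sqrt_of_sq_le (by nlinarith [sq_nonneg t])

theorem approx2_abs_le (η t : ℝ) : |t| ≤ approx2_s η t :=
  Real.le_sqrt_of_sq_le (by rw [sq_abs]; nlinarith [sq_nonneg η])

theorem approx2_le {η : ℝ} (hη : 0 < η) (t : ℝ) : approx2_s η t ≤ |t| + η := by
  refine Real.sqrt_le_iff.2 ⟨by positivity, ?_⟩
  rw [← sq_abs t]
  nlinarith [abs_nonneg t]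

theorem approx2_sq (η t : ℝ) : approx2_s η t ^ 2 = t ^ 2 + η ^ 2 := Real.sq_sqrt (by positivity)

theorem approx2_lip {η : ℝ} (hη : 0 < η) (a b : ℝ) : |approx2_s η a - approx2_s η b| ≤ |a - b| := by
  have hA := approx2_ge hη a
  have hB := approx2_ge hη b
  have hs : 0 < approx2_s η a + approx2_s η b := by linarith
  refine le_of_mul_le_mul_right ?_ hs
  have e : (approx2_s η a - approx2_s η b) * (approx2_s η a + approx2_s η b) =
      (a - b) * (a + b) := by
    linear_combination approx2_sq η a - approx2_sq η b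
  calc |approx2_s η a - approx2_s η b| * (approx2_s η a + approx2_s η b)
      = |(approx2_s η a - approx2_s η b) * (approx2_s η a + approx2_s η b)| := by
        rw [abs_mul, abs_of_pos hs]
    _ = |a - b| * |a + b| := by rw [e, abs_mul]
    _ ≤ _ := mul_le_mul_of_nonneg_left ((abs_add_le a b).trans
        (add_le_add (approx2_abs_le η a) (approx2_abs_le η b))) (abs_nonneg _)

theorem approx2_c_le {η : ℝ} (hη : 0 < η) (t : ℝ) : |t / approx2_s η t| ≤ 1 := by
  have h := hη.trans_le (approx2_ge hη t)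
  rw [abs_div, abs_of_pos h, div_le_one h]
  exact approx2_abs_le η t

theorem approx2_c_lip {η : ℝ} (hη : 0 < η) (a b : ℝ) :
    |a / approx2_s η a - b / approx2_s η b| ≤ 2 / η * |a - b| := by
  have hA := approx2_ge hη a
  have hA0 := hη.trans_le hA
  have hB0 := hη.trans_le (approx2_ge hη b)
  have e : a / approx2_s η a - b / approx2_s η b =
      ((a - b) - b / approx2_s η b * (approx2_s η a - approx2_s η b)) / approx2_s η a := by
    field_simp
    ring
  have h1 : |(a - b) - b / approx2_s η b * (approx2_s η a - approx2_s η b)| ≤ 2 * |a - b| := by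
    refine (abs_sub _ _).trans ?_
    rw [abs_mul]
    have := mul_le_mul (approx2_c_le hη b) (approx2_lip hη a b) (abs_nonneg _) zero_le_one
    linarith
  rw [e, abs_div, abs_of_pos hA0]
  calc _ ≤ 2 * |a - b| / η := div_le_div₀ (by positivity) h1 hη hA
    _ = _ := by ring

theorem approx2_lim (t : ℝ) :
    Tendsto (fun n : ℕ => t / approx2_s (1 / ((n : ℝ) + 1)) t) atTop (𝓝 (t / |t|)) := by
  by_cases ht : t = 0
  · simp [ht]
  · refine tendsto_const_nhds.div ?_ (abs_ne_zero.2 ht)
    have hc : Continuous fun η : ℝ => approx2_s η t := by unfold approx2_s; fun_prop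
    have := (hc.tendsto 0).comp tendsto_one_div_add_atTop_nhds_zero_nat
    have e : approx2_s 0 t = |t| := by simp [approx2_s, Real.sqrt_sq_eq_abs]
    rwa [e] at this

theorem approx2_deriv {η : ℝ} (hη : 0 < η) (t : ℝ) :
    HasDerivAt (fun t => approx2_s η t - η) (t / approx2_s η t) t := by
  have h : HasDerivAt (fun t : ℝ => t ^ 2 + η ^ 2) (2 * t) t := by
    simpa using (hasDerivAt_pow 2 t).add_const (η ^ 2)
  have h2 := (h.sqrt (by positivity)).sub_const η
  rw [mul_div_mul_left _ _ two_ne_zero] at h2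
  exact h2

theorem approx2_C1c {η : ℝ} (hη : 0 < η) {h : E → ℝ} (hh : C1c h) :
    C1c fun x => approx2_s η (h x) - η := by
  refine ⟨?_, hh.2.comp_left (g := fun t => approx2_s η t - η) ?_⟩
  · unfold approx2_s
    exact (((hh.1.pow 2).add contDiff_const).sqrt fun x => by positivity).sub contDiff_const
  · simp [approx2_s, Real.sqrt_sq hη.le]

theorem approx2_grad {η : ℝ} (hη : 0 < η) {h : E → ℝ} (hh : C1c h) (x : E) :
    gradient (fun x => approx2_s η (h x) - η) x = (h x / approx2_s η (h x)) • gradient h x := by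
  have h1 : HasFDerivAt (fun x => approx2_s η (h x) - η)
      ((h x / approx2_s η (h x)) • fderiv ℝ h x) x :=
    (approx2_deriv hη (h x)).comp_hasFDerivAt x (hh.1.differentiable one_ne_zero x).hasFDerivAt
  unfold gradient
  rw [h1.fderiv, map_smulₛₗ]
  simp

theorem approx2_small (F : ℕ → E → ℝ) {B : E → ℝ} (hm : ∀ n, AEStronglyMeasurable (F n) volume)
    (hB : Integrable B) (hle : ∀ n x, ‖F n x‖ ≤ B x)
    (hlim : ∀ x, Tendsto (fun n => F n x) atTop (𝓝 0)) {ε : ℝ} (hε : 0 < ε) :
    ∀ᶠ n in atTop, ∫ x, F n x ≤ ε := by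
  have := tendsto_integral_of_dominated_convergence (f := fun _ => 0) B hm hB
    (fun n => Eventually.of_forall (hle n)) (Eventually.of_forall hlim)
  rw [integral_zero] at this
  exact this.eventually (eventually_le_nhds hε)

theorem approx2 {f : E → ℝ} {g : E → E} (hf : Integrable f) (hg : Integrable g)
    (H : ∀ ε > 0, ∃ h, C1c h ∧ ∫ x, |h x - f x| ≤ ε ∧ ∫ x, ‖gradient h x - g x‖ ≤ ε) :
    ∃ G₀ : E → E, (∀ x, ‖G₀ x‖ ≤ ‖g x‖) ∧ Appr (fun x => |f x|) G₀ := by
  have hfm := hf.aestronglyMeasurable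
  have hgm := hg.aestronglyMeasurable
  let G₀ : E → E := fun x => (f x / |f x|) • g x
  have hG : ∀ x, ‖G₀ x‖ ≤ ‖g x‖ := fun x => by
    simp only [G₀]
    rw [norm_smul, Real.norm_eq_abs, abs_div, abs_abs]
    exact mul_le_of_le_one_left (norm_nonneg _) (div_self_le_one _)
  have hGm : AEStronglyMeasurable G₀ volume :=
    (hfm.aemeasurable.div hf.abs.aestronglyMeasurable.aemeasurable).aestronglyMeasurable.smul hgm
  have hGi : Integrable G₀ := hg.norm.mono' hGm (Eventually.of_forall hG)
  refine ⟨G₀, hG, hf.abs, fun x => abs_nonneg _, hGi, fun ε hε => ?_⟩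
  have hsm : ∀ η, AEStronglyMeasurable (fun x => approx2_s η (f x)) volume := fun η =>
    (approx2_cont η).comp_aestronglyMeasurable hfm
  have hcm : ∀ η, AEStronglyMeasurable (fun x => (f x / approx2_s η (f x)) • g x) volume :=
    fun η => (hfm.aemeasurable.div (hsm η).aemeasurable).aestronglyMeasurable.smul hgm
  have hη0 : ∀ n : ℕ, (0 : ℝ) < 1 / ((n : ℝ) + 1) := fun n => Nat.one_div_pos_of_nat
  have b1 : ∀ {η : ℝ}, 0 < η → ∀ x, ‖|approx2_s η (f x) - η - (|f x|)|‖ ≤ |f x| := by
    intro η hη x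
    rw [Real.norm_eq_abs, abs_abs, abs_le]
    constructor <;> linarith [approx2_le hη (f x), approx2_ge hη (f x), abs_nonneg (f x)]
  have b2 : ∀ {η : ℝ}, 0 < η → ∀ x, ‖‖(f x / approx2_s η (f x)) • g x - G₀ x‖‖ ≤ 2 * ‖g x‖ := by
    intro η hη x
    rw [norm_norm]
    refine (norm_sub_le _ _).trans ?_
    rw [norm_smul, Real.norm_eq_abs]
    have := mul_le_of_le_one_left (norm_nonneg (g x)) (approx2_c_le hη (f x))
    linarith [hG x]
  have b3 : ∀ {M : ℝ}, 0 ≤ M → ∀ x, ‖max (‖g x‖ - M) 0‖ ≤ ‖g x‖ := by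
    intro M hM x
    rw [Real.norm_of_nonneg (le_max_right _ _)]
    exact max_le (by linarith) (norm_nonneg _)
  have m1 : ∀ η : ℝ, AEStronglyMeasurable (fun x => |approx2_s η (f x) - η - (|f x|)|) volume :=
    fun η => continuous_abs.comp_aestronglyMeasurable
      (((hsm η).sub aestronglyMeasurable_const).sub hf.abs.aestronglyMeasurable)
  have m2 : ∀ η : ℝ,
      AEStronglyMeasurable (fun x => ‖(f x / approx2_s η (f x)) • g x - G₀ x‖) volume :=
    fun η => ((hcm η).sub hGm).norm
  have m3 : ∀ M : ℝ, AEStronglyMeasurable (fun x => max (‖g x‖ - M) 0) volume := fun M =>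
    ((hgm.norm.sub aestronglyMeasurable_const).aemeasurable.max
      aemeasurable_const).aestronglyMeasurable
  have e1 := approx2_small (fun (n : ℕ) x => |approx2_s (1 / ((n : ℝ) + 1)) (f x) -
      1 / ((n : ℝ) + 1) - (|f x|)|) (fun n => m1 _) hf.abs (fun n => b1 (hη0 n)) (fun x => by
    refine squeeze_zero (fun n => abs_nonneg _) (fun n => ?_) tendsto_one_div_add_atTop_nhds_zero_nat
    rw [abs_le]
    constructor <;> linarith [approx2_le (hη0 n) (f x), approx2_abs_le (1 / ((n : ℝ) + 1)) (f x),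
      hη0 n]) (half_pos hε)
  have e2 := approx2_small (fun (n : ℕ) x =>
      ‖(f x / approx2_s (1 / ((n : ℝ) + 1)) (f x)) • g x - G₀ x‖) (fun n => m2 _)
    (hg.norm.const_mul 2) (fun n => b2 (hη0 n)) (fun x => by
      rw [← tendsto_iff_norm_sub_tendsto_zero]
      exact (approx2_lim (f x)).smul_const (g x)) (show 0 < ε / 4 by positivity)
  have e3 := approx2_small (fun (n : ℕ) x => max (‖g x‖ - n) 0) (fun n => m3 _) hg.norm
    (fun n => b3 (Nat.cast_nonneg n)) (fun x => by
      refine tendsto_const_nhds.congr' ?_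
      filter_upwards [eventually_ge_atTop ⌈‖g x‖⌉₊] with n hn
      have : ‖g x‖ ≤ n := Nat.ceil_le.1 hn
      exact (max_eq_right (by linarith)).symm) (show 0 < ε / 8 by positivity)
  obtain ⟨n, hn1, hn2⟩ := (e1.and e2).exists
  obtain ⟨N, hN⟩ := e3.exists
  have hη := hη0 n
  generalize 1 / ((n : ℝ) + 1) = η at hη hn1 hn2
  have hM : (0 : ℝ) ≤ N := Nat.cast_nonneg N
  generalize (N : ℝ) = M at hM hN
  have hL : 0 ≤ 2 * M / η := by positivity
  obtain ⟨h₁, hh₁, a1, a2⟩ := H (ε / 4 / (1 + 2 * M / η)) (by positivity)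
  have hδ : ε / 4 / (1 + 2 * M / η) * (1 + 2 * M / η) = ε / 4 := div_mul_cancel₀ _ (by positivity)
  have hδ0 : 0 ≤ ε / 4 / (1 + 2 * M / η) := by positivity
  generalize ε / 4 / (1 + 2 * M / η) = δ at a1 a2 hδ hδ0
  have hδ1 : δ ≤ ε / 4 := by nlinarith
  have i1 : Integrable fun x => |h₁ x - f x| := (hh₁.integrable.sub hf).abs
  have i2 : Integrable fun x => ‖gradient h₁ x - g x‖ := (hh₁.integrable_gradient.sub hg).norm
  have i3 : Integrable fun x => |approx2_s η (f x) - η - (|f x|)| :=
    hf.abs.mono' (m1 η) (Eventually.of_forall (b1 hη))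
  have i4 : Integrable fun x => ‖(f x / approx2_s η (f x)) • g x - G₀ x‖ :=
    (hg.norm.const_mul 2).mono' (m2 η) (Eventually.of_forall (b2 hη))
  have i5 : Integrable fun x => max (‖g x‖ - M) 0 :=
    hg.norm.mono' (m3 M) (Eventually.of_forall (b3 hM))
  refine ⟨fun x => approx2_s η (h₁ x) - η, approx2_C1c hη hh₁,
    fun x => sub_nonneg.2 (approx2_ge hη _), ?_, ?_⟩
  · calc ∫ x, |approx2_s η (h₁ x) - η - (|f x|)|
        ≤ ∫ x, (|h₁ x - f x| + |approx2_s η (f x) - η - (|f x|)|) := by
          refine integral_mono_of_nonneg (Eventually.of_forall fun x => abs_nonneg _) (i1.add i3)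
            (Eventually.of_forall fun x => ?_)
          have h1 := approx2_lip hη (h₁ x) (f x)
          have h2 := abs_add_le (approx2_s η (h₁ x) - approx2_s η (f x))
            (approx2_s η (f x) - η - |f x|)
          have h3 : approx2_s η (h₁ x) - approx2_s η (f x) + (approx2_s η (f x) - η - |f x|) =
            approx2_s η (h₁ x) - η - |f x| := by ring
          rw [h3] at h2
          simp only
          linarith
      _ ≤ ε := by rw [integral_add i1 i3]; linarith
  · calc ∫ x, ‖gradient (fun x => approx2_s η (h₁ x) - η) x - G₀ x‖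
        ≤ ∫ x, (‖gradient h₁ x - g x‖ + 2 * M / η * |h₁ x - f x| + 2 * max (‖g x‖ - M) 0 +
            ‖(f x / approx2_s η (f x)) • g x - G₀ x‖) := by
          refine integral_mono_of_nonneg (Eventually.of_forall fun x => norm_nonneg _)
            (((i2.add (i1.const_mul _)).add (i5.const_mul _)).add i4)
            (Eventually.of_forall fun x => ?_)
          simp only
          rw [approx2_grad hη hh₁]
          set c₁ := h₁ x / approx2_s η (h₁ x) with hc₁
          set c := f x / approx2_s η (f x) with hc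
          have e : c₁ • gradient h₁ x - G₀ x =
              c₁ • (gradient h₁ x - g x) + (c₁ - c) • g x + (c • g x - G₀ x) := by
            rw [smul_sub, sub_smul]; abel
          have k1 : |c₁| ≤ 1 := approx2_c_le hη _
          have k2 : |c| ≤ 1 := approx2_c_le hη _
          have k3 : |c₁ - c| ≤ 2 / η * |h₁ x - f x| := approx2_c_lip hη _ _
          have k4 : |c₁ - c| ≤ 2 := (abs_sub _ _).trans (by linarith)
          have k5 : ‖g x‖ ≤ M + max (‖g x‖ - M) 0 := by linarith [le_max_left (‖g x‖ - M) 0]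
          have k6 : ‖(c₁ - c) • g x‖ ≤ 2 * M / η * |h₁ x - f x| + 2 * max (‖g x‖ - M) 0 := by
            rw [norm_smul, Real.norm_eq_abs]
            calc |c₁ - c| * ‖g x‖ ≤ |c₁ - c| * (M + max (‖g x‖ - M) 0) :=
                  mul_le_mul_of_nonneg_left k5 (abs_nonneg _)
              _ = |c₁ - c| * M + |c₁ - c| * max (‖g x‖ - M) 0 := mul_add _ _ _
              _ ≤ 2 / η * |h₁ x - f x| * M + 2 * max (‖g x‖ - M) 0 :=
                  add_le_add (mul_le_mul_of_nonneg_right k3 hM)
                    (mul_le_mul_of_nonneg_right k4 (le_max_right _ _))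
              _ = _ := by ring
          have k7 : ‖c₁ • (gradient h₁ x - g x)‖ ≤ ‖gradient h₁ x - g x‖ := by
            rw [norm_smul, Real.norm_eq_abs]
            exact mul_le_of_le_one_left (norm_nonneg _) k1
          rw [e]
          refine (norm_add₃_le).trans ?_
          linarith
      _ ≤ ε := by
          have j1 := i1.const_mul (2 * M / η)
          have j2 := i5.const_mul 2
          have j3 : Integrable fun x => ‖gradient h₁ x - g x‖ + 2 * M / η * |h₁ x - f x| :=
            i2.add j1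
          have j4 : Integrable fun x => ‖gradient h₁ x - g x‖ + 2 * M / η * |h₁ x - f x| +
              2 * max (‖g x‖ - M) 0 := j3.add j2
          rw [integral_add j4 i4, integral_add j3 j2, integral_add i2 j1, integral_const_mul,
            integral_const_mul]
          have := mul_le_mul_of_nonneg_left a1 hL
          nlinarith

end Crest.Agent.R112
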