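import Crest.Agent.R112.Grid2

/-!
# R112/Arr: refining arrays, defects, transport of weights

`dfc_nonneg`: `ng` is subadditive and positively homogeneous (`ng_sum_le`, `ng_mul_of_nonneg`).
`dfc_neg`: `ng (-t) = ng t + t`, and the linear terms cancel by `Refines`.
`transport`: expand `u (pt (i+1) z')` with `interp_dom` (level `i`), exchange the sums, use the
definition of `dfc`.  The other statements are telescoping sums of `transport`
(`|t| = ng t + ng (-t)`), and linearity of the integral (`interp_dom` for `ht k Z` on the support of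
`w`, which lies in `G.dom`).
-/

namespace Crest.Agent.R112

open MeasureTheory Metric Set
open scoped RealInnerProductSpace

namespace Grid

variable (G : Grid)

theorem Refines.lin {G : Grid} {K : ℕ} {m m' : Arr} (h : G.Refines K m) (h' : G.Refines K m')
    (α β : ℝ) : G.Refines K (fun k z => α * m k z + β * m' k z) := by
  intro k hk Z hZ
  show α * m k Z + β * m' k Z = _
  rw [h k hk Z hZ, h' k hk Z hZ, Finset.mul_sum, Finset.mul_sum, ← Finset.sum_add_distrib]
  refine Finset.sum_congr rfl fun z _ => ?_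
  ring

theorem Refines.const_mul {G : Grid} {K : ℕ} {m : Arr} (h : G.Refines K m) (α : ℝ) :
    G.Refines K (fun k z => α * m k z) := by
  intro k hk Z hZ
  show α * m k Z = _
  rw [h k hk Z hZ, Finset.mul_sum]
  refine Finset.sum_congr rfl fun z _ => ?_
  ring

theorem arr_ht_nonneg (k : ℕ) (z : ℤ × ℤ) (y : E) : 0 ≤ G.ht k z y := hat_nonneg _ _ _

theorem arr_ht_le_one (k : ℕ) (z : ℤ × ℤ) (y : E) : G.ht k z y ≤ 1 := hat_le_one _ _ _

theorem arr_continuous_ht (k : ℕ) (z : ℤ × ℤ) : Continuous (G.ht k z) := continuous_hat _ _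

theorem dfc_nonneg {K : ℕ} {m : Arr} (h : G.Refines K m) {k : ℕ} (hk : k < K) {Z : ℤ × ℤ}
    (hZ : Z ∈ G.nodes k) : 0 ≤ G.dfc m k Z := by
  unfold dfc
  rw [sub_nonneg, h k hk Z hZ]
  refine (ng_sum_le _ _).trans (le_of_eq ?_)
  refine Finset.sum_congr rfl fun z _ => ?_
  exact ng_mul_of_nonneg (G.arr_ht_nonneg _ _ _) _

theorem dfc_neg {K : ℕ} {m : Arr} (h : G.Refines K m) {k : ℕ} (hk : k < K) {Z : ℤ × ℤ}
    (hZ : Z ∈ G.nodes k) : G.dfc (fun k z => -m k z) k Z = G.dfc m k Z := by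
  unfold dfc
  have h1 : ∀ t : ℝ, ng (-t) = ng t + t := fun t => by linarith [ng_neg_sub t]
  simp only [h1, mul_add, Finset.sum_add_distrib]
  rw [← h k hk Z hZ]
  ring

theorem dfc_sg {K : ℕ} {m : Arr} (h : G.Refines K m) {k : ℕ} (hk : k < K) {Z : ℤ × ℤ}
    (hZ : Z ∈ G.nodes k) (b : Bool) : G.dfc (fun k z => sg b * m k z) k Z = G.dfc m k Z := by
  cases b
  · have : (fun k z => sg false * m k z) = fun k z => -m k z := by
      funext k z; simp [sg]
    rw [this]; exact G.dfc_neg h hk hZ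
  · have : (fun k z => sg true * m k z) = m := by
      funext k z; simp [sg]
    rw [this]

/-- transport of a weight from level `i` to level `i+1` -/
theorem transport (m : Arr) (i : ℕ) {u : E → ℝ} (hu : Interp (G.mesh i) u) :
    ∑ z ∈ G.nodes (i + 1), u (G.pt (i + 1) z) * ng (m (i + 1) z) =
      ∑ z ∈ G.nodes i, u (G.pt i z) * (ng (m i z) + G.dfc m i z) := by
  have h1 : ∀ z' ∈ G.nodes (i + 1), u (G.pt (i + 1) z') * ng (m (i + 1) z') =
      ∑ z ∈ G.nodes i, u (G.pt i z) * (G.ht i z (G.pt (i + 1) z') * ng (m (i + 1) z')) := by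
    intro z' hz'
    rw [G.interp_dom hu (G.pt_mem_dom hz'), Finset.sum_mul]
    refine Finset.sum_congr rfl fun z _ => ?_
    ring
  rw [Finset.sum_congr rfl h1, Finset.sum_comm]
  refine Finset.sum_congr rfl fun z _ => ?_
  rw [← Finset.mul_sum]
  unfold dfc
  congr 1
  ring

theorem arr_transport_abs_step {K : ℕ} {m : Arr} (h : G.Refines K m) {i : ℕ} (hi : i < K)
    {u : E → ℝ} (hu : Interp (G.mesh i) u) :
    ∑ z ∈ G.nodes (i + 1), u (G.pt (i + 1) z) * |m (i + 1) z| =
      ∑ z ∈ G.nodes i, u (G.pt i z) * |m i z| +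
        2 * ∑ z ∈ G.nodes i, u (G.pt i z) * G.dfc m i z := by
  have h1 := G.transport m i hu
  have h2 := G.transport (fun k z => -m k z) i hu
  have h3 : ∑ z ∈ G.nodes i, u (G.pt i z) * (ng (-m i z) + G.dfc (fun k z => -m k z) i z) =
      ∑ z ∈ G.nodes i, u (G.pt i z) * (ng (-m i z) + G.dfc m i z) :=
    Finset.sum_congr rfl fun z hz => by rw [G.dfc_neg h hi hz]
  rw [h3] at h2
  have h4 : ∑ z ∈ G.nodes (i + 1), u (G.pt (i + 1) z) * |m (i + 1) z| =
      ∑ z ∈ G.nodes (i + 1), u (G.pt (i + 1) z) * ng (m (i + 1) z) +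
        ∑ z ∈ G.nodes (i + 1), u (G.pt (i + 1) z) * ng (-m (i + 1) z) := by
    rw [← Finset.sum_add_distrib]
    refine Finset.sum_congr rfl fun z _ => ?_
    rw [← ng_add_ng_neg]; ring
  rw [h4, h1, h2, Finset.mul_sum, ← Finset.sum_add_distrib, ← Finset.sum_add_distrib]
  refine Finset.sum_congr rfl fun z _ => ?_
  rw [← ng_add_ng_neg]; ring

theorem transport_abs {K : ℕ} {m : Arr} (h : G.Refines K m) {l i : ℕ} (hl : l ≤ i) (hi : i ≤ K)
    {u : E → ℝ} (hu : Interp (G.mesh l) u) :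
    ∑ z ∈ G.nodes i, u (G.pt i z) * |m i z| = ∑ z ∈ G.nodes l, u (G.pt l z) * |m l z| +
      2 * ∑ j ∈ Finset.Ico l i, ∑ z ∈ G.nodes j, u (G.pt j z) * G.dfc m j z := by
  induction i, hl using Nat.le_induction with
  | base => simp
  | succ i hli ih =>
    rw [G.arr_transport_abs_step h (Nat.lt_of_succ_le hi) (G.interp_mono hli hu),
      ih (Nat.le_of_succ_le hi), Finset.sum_Ico_succ_top hli]
    ring

theorem sum_dfc_eq (m : Arr) (K : ℕ) :
    ∑ z ∈ G.nodes 0, ng (m 0 z) + ∑ j ∈ Finset.range K, ∑ z ∈ G.nodes j, G.dfc m j z =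
      ∑ z ∈ G.nodes K, ng (m K z) := by
  induction K with
  | zero => simp
  | succ K ih =>
    have h1 := G.transport m K (interp_const (G.mesh K) 1)
    simp only [one_mul] at h1
    rw [h1, Finset.sum_range_succ, ← add_assoc, ih, Finset.sum_add_distrib]

theorem sum_dfc_le (m : Arr) (K : ℕ) :
    ∑ j ∈ Finset.range K, ∑ z ∈ G.nodes j, G.dfc m j z ≤ ∑ z ∈ G.nodes K, |m K z| := by
  have h1 := G.sum_dfc_eq m K
  have h2 : 0 ≤ ∑ z ∈ G.nodes 0, ng (m 0 z) := Finset.sum_nonneg fun z _ => ng_nonneg _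
  have h3 : ∑ z ∈ G.nodes K, ng (m K z) ≤ ∑ z ∈ G.nodes K, |m K z| :=
    Finset.sum_le_sum fun z _ => ng_le_abs _
  linarith

theorem sum_abs_le {K : ℕ} {m : Arr} (h : G.Refines K m) {k : ℕ} (hk : k ≤ K) :
    ∑ z ∈ G.nodes k, |m k z| ≤ ∑ z ∈ G.nodes K, |m K z| := by
  have h1 := G.transport_abs h hk le_rfl (interp_const (G.mesh k) 1)
  simp only [one_mul] at h1
  have h2 : 0 ≤ ∑ j ∈ Finset.Ico k K, ∑ z ∈ G.nodes j, G.dfc m j z :=
    Finset.sum_nonneg fun j hj => Finset.sum_nonneg fun z hz =>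
      G.dfc_nonneg h (Finset.mem_Ico.1 hj).2 hz
  linarith

theorem integrable_ht_mul {w : E → ℝ} (hw : Integrable w) (k : ℕ) (z : ℤ × ℤ) :
    Integrable (fun y => G.ht k z y * w y) := by
  refine hw.bdd_mul (c := 1) (G.arr_continuous_ht k z).aestronglyMeasurable ?_
  refine Filter.Eventually.of_forall fun y => ?_
  rw [Real.norm_eq_abs, abs_of_nonneg (G.arr_ht_nonneg _ _ _)]
  exact G.arr_ht_le_one _ _ _

theorem mass_refines {w : E → ℝ} (hw : Integrable w) (hs : ∀ y, w y ≠ 0 → y ∈ G.dom) (K : ℕ) :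
    G.Refines K (G.mass w) := by
  intro k _ Z _
  unfold mass
  have h1 : ∀ y, G.ht k Z y * w y =
      ∑ z ∈ G.nodes (k + 1), G.ht k Z (G.pt (k + 1) z) * (G.ht (k + 1) z y * w y) := by
    intro y
    by_cases hy : w y = 0
    · simp [hy]
    · rw [G.interp_dom (G.interp_ht (Nat.le_succ k) Z) (hs y hy), Finset.sum_mul]
      refine Finset.sum_congr rfl fun z _ => ?_
      ring
  simp_rw [h1]
  rw [integral_finsetSum _ fun z _ => (G.integrable_ht_mul hw (k + 1) z).const_mul _]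
  refine Finset.sum_congr rfl fun z _ => ?_
  rw [integral_const_mul]

theorem mass_lin {w w' : E → ℝ} (hw : Integrable w) (hw' : Integrable w') (α β : ℝ) (k : ℕ)
    (z : ℤ × ℤ) :
    G.mass (fun y => α * w y + β * w' y) k z = α * G.mass w k z + β * G.mass w' k z := by
  unfold mass
  rw [← integral_const_mul, ← integral_const_mul,
    ← integral_add ((G.integrable_ht_mul hw k z).const_mul α)
      ((G.integrable_ht_mul hw' k z).const_mul β)]
  refine integral_congr_ae (Filter.Eventually.of_forall fun y => ?_)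
  ring

/-- the hats of one level have total weight at most one -/
theorem arr_sum_int_le {v : E → ℝ} (hv : Integrable v) (h0 : ∀ y, 0 ≤ v y) (k : ℕ) :
    ∑ z ∈ G.nodes k, ∫ y, G.ht k z y * v y ≤ ∫ y, v y := by
  rw [← integral_finsetSum _ fun z _ => G.integrable_ht_mul hv k z]
  refine integral_mono (integrable_finsetSum _ fun z _ => G.integrable_ht_mul hv k z) hv ?_
  intro y
  show ∑ z ∈ G.nodes k, G.ht k z y * v y ≤ v y
  rw [← Finset.sum_mul]
  exact mul_le_of_le_one_left (h0 y) (G.sum_ht_le k y)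

theorem sum_abs_mass_le {w : E → ℝ} (hw : Integrable w) (k : ℕ) :
    ∑ z ∈ G.nodes k, |G.mass w k z| ≤ ∫ y, |w y| := by
  refine le_trans (Finset.sum_le_sum fun z _ => ?_) (G.arr_sum_int_le hw.abs (fun y => abs_nonneg _) k)
  unfold mass
  refine (abs_integral_le_integral_abs).trans (le_of_eq ?_)
  refine integral_congr_ae (Filter.Eventually.of_forall fun y => ?_)
  show |G.ht k z y * w y| = G.ht k z y * |w y|
  rw [abs_mul, abs_of_nonneg (G.arr_ht_nonneg _ _ _)]

theorem arr_integrable_ng {w : E → ℝ} (hw : Integrable w) : Integrable (fun y => ng (w y)) := by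
  refine hw.abs.mono' (continuous_ng.comp_aestronglyMeasurable hw.aestronglyMeasurable) ?_
  refine Filter.Eventually.of_forall fun y => ?_
  rw [Real.norm_eq_abs, abs_of_nonneg (ng_nonneg _)]
  exact ng_le_abs _

theorem bdf_nonneg {w : E → ℝ} (hw : Integrable w) (K : ℕ) (Z : ℤ × ℤ) : 0 ≤ G.bdf w K Z := by
  unfold bdf mass
  rw [sub_nonneg]
  have h0 : 0 ≤ ∫ y, G.ht K Z y * ng (w y) :=
    integral_nonneg fun y => mul_nonneg (G.arr_ht_nonneg _ _ _) (ng_nonneg _)
  have h1 : -∫ y, G.ht K Z y * w y ≤ ∫ y, G.ht K Z y * ng (w y) := by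
    rw [← integral_neg]
    refine integral_mono (G.integrable_ht_mul hw K Z).neg
      (G.integrable_ht_mul (arr_integrable_ng hw) K Z) fun y => ?_
    show -(G.ht K Z y * w y) ≤ G.ht K Z y * ng (w y)
    rw [← mul_neg]
    exact mul_le_mul_of_nonneg_left (neg_le_ng _) (G.arr_ht_nonneg _ _ _)
  exact max_le h1 h0

theorem dall_nonneg {w : E → ℝ} (hw : Integrable w) (hs : ∀ y, w y ≠ 0 → y ∈ G.dom) (K : ℕ)
    {j : ℕ} {Z : ℤ × ℤ} (hZ : Z ∈ G.nodes j) : 0 ≤ G.dall w K j Z := by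
  unfold dall
  split_ifs with hj
  · exact G.dfc_nonneg (G.mass_refines hw hs K) hj hZ
  · exact G.bdf_nonneg hw K Z

/-- total defect, bottom level included -/
theorem sum_dall_le {w : E → ℝ} (hw : Integrable w) (K : ℕ) :
    ∑ j ∈ Finset.range (K + 1), ∑ Z ∈ G.nodes j, G.dall w K j Z ≤ ∫ y, |w y| := by
  rw [Finset.sum_range_succ]
  have h1 : ∑ j ∈ Finset.range K, ∑ Z ∈ G.nodes j, G.dall w K j Z =
      ∑ j ∈ Finset.range K, ∑ Z ∈ G.nodes j, G.dfc (G.mass w) j Z := by
    refine Finset.sum_congr rfl fun j hj => Finset.sum_congr rfl fun Z _ => ?_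
    unfold dall
    rw [if_pos (Finset.mem_range.1 hj)]
  have h2 : ∑ Z ∈ G.nodes K, G.dall w K K Z =
      (∑ Z ∈ G.nodes K, ∫ y, G.ht K Z y * ng (w y)) - ∑ Z ∈ G.nodes K, ng (G.mass w K Z) := by
    rw [← Finset.sum_sub_distrib]
    refine Finset.sum_congr rfl fun Z _ => ?_
    unfold dall bdf
    rw [if_neg (lt_irrefl K)]
  have h3 := G.sum_dfc_eq (G.mass w) K
  have h4 : 0 ≤ ∑ z ∈ G.nodes 0, ng (G.mass w 0 z) := Finset.sum_nonneg fun z _ => ng_nonneg _
  have h5 := G.arr_sum_int_le (arr_integrable_ng hw) (fun y => ng_nonneg _) K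
  have h6 : ∫ y, ng (w y) ≤ ∫ y, |w y| :=
    integral_mono (arr_integrable_ng hw) hw.abs fun y => ng_le_abs _
  rw [h1, h2]
  linarith

end Grid

end Crest.Agent.R112
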