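import Crest.Agent.R112.Grid1

/-!
# R112/Avg: disc averages of `C¹` functions

`avg_scale`: change of variables `y ↦ x + r • y` (`Measure.setIntegral_comp_smul_of_pos`,
`integral_add_left_eq_self`, or write the set integrals with indicators and use
`Measure.integral_comp_smul`). All the rest is read off from the scaled formula: differentiation
under the integral sign over the unit disc (`hasDerivAt_integral_of_dominated_loc_of_deriv_le`;
the gradient of a `C1c` function is bounded).
`avg_add_affine`: `∫ y in ball 0 1, ⟪a, y⟫ = 0` by the symmetry `y ↦ -y`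
(`integral_neg_eq_self`), or scale.
-/

namespace Crest.Agent.R112

open MeasureTheory Metric Set Filter Topology
open scoped RealInnerProductSpace NNReal

theorem inner_gradient (h : E → ℝ) (y v : E) : ⟪v, gradient h y⟫ = fderiv ℝ h y v := by
  rw [real_inner_comm, gradient, InnerProductSpace.toDual_symm_apply]
theorem norm_gradient (h : E → ℝ) (y : E) : ‖gradient h y‖ = ‖fderiv ℝ h y‖ := by
  rw [gradient, LinearIsometryEquiv.norm_map]
theorem measurable_gradient (h : E → ℝ) : Measurable (gradient h) :=
  (InnerProductSpace.toDual ℝ E).symm.continuous.measurable.comp (measurable_fderiv ℝ h)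
theorem lineDeriv_eq_inner {h : E → ℝ} {y : E} (hy : DifferentiableAt ℝ h y) (v : E) :
    lineDeriv ℝ h y v = ⟪v, gradient h y⟫ := by
  rw [inner_gradient, hy.lineDeriv_eq_fderiv]
theorem norm_gradient_le_of_lipschitz {h : E → ℝ} {C : ℝ≥0} (hh : LipschitzWith C h) (y : E) :
    ‖gradient h y‖ ≤ C := by
  rw [norm_gradient]; exact norm_fderiv_le_of_lipschitz ℝ hh
theorem dv_e0 (h : E → ℝ) (y : E) : dv h e0 y = gradient h y 0 := by
  rw [dv, inner_eq]; simp [e0]
theorem dv_e1 (h : E → ℝ) (y : E) : dv h e1 y = gradient h y 1 := by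
  rw [dv, inner_eq]; simp [e1]
theorem dv_eq (h : E → ℝ) (v y : E) : dv h v y = v 0 * dv h e0 y + v 1 * dv h e1 y := by
  rw [dv_e0, dv_e1, dv, inner_eq]
theorem abs_dv_le (h : E → ℝ) (v y : E) : |dv h v y| ≤ ‖v‖ * ‖gradient h y‖ :=
  abs_real_inner_le_norm _ _

namespace C1c

variable {h : E → ℝ} (hh : C1c h)
include hh

theorem continuous : Continuous h := hh.1.continuous
theorem integrable : Integrable h := hh.continuous.integrable_of_hasCompactSupport hh.2
theorem continuous_gradient : Continuous (gradient h) :=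
  (InnerProductSpace.toDual ℝ E).symm.continuous.comp (hh.1.continuous_fderiv one_ne_zero)
theorem hasCompactSupport_gradient : HasCompactSupport (gradient h) :=
  (hh.2.fderiv (𝕜 := ℝ)).comp_left (g := (InnerProductSpace.toDual ℝ E).symm) (map_zero _)
theorem integrable_gradient : Integrable (gradient h) :=
  hh.continuous_gradient.integrable_of_hasCompactSupport hh.hasCompactSupport_gradient
theorem continuous_dv (v : E) : Continuous (dv h v) :=
  continuous_const.inner hh.continuous_gradient
theorem integrable_dv (v : E) : Integrable (dv h v) :=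
  hh.integrable_gradient.const_inner v
theorem lipschitz : ∃ C, LipschitzWith C h :=
  hh.1.lipschitzWith_of_hasCompactSupport hh.2 one_ne_zero

end C1c

theorem Grid.Fits.dv_dom {G : Grid} {h : E → ℝ} (hh : G.Fits h) (v y : E) (hy : dv h v y ≠ 0) :
    y ∈ G.dom := by
  have h1 : y ∈ Q 0 ((G.N - 2) * G.ρ) := by
    by_contra hn
    have h2 : h =ᶠ[𝓝 y] fun _ => 0 := by
      filter_upwards [(isClosed_Q 0 ((G.N - 2) * G.ρ)).isOpen_compl.mem_nhds hn] with z hz
      by_contra h3
      exact hz (hh.2 z h3)
    apply hy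
    rw [dv, inner_gradient, h2.fderiv_eq]
    simp
  have := G.pos
  change dinf y 0 ≤ _ at h1 ⊢
  nlinarith

private theorem int_scale {F : Type*} [NormedAddCommGroup F] [NormedSpace ℝ F] (h : E → F) (x : E)
    {r : ℝ} (hr : 0 < r) :
    ∫ y in ball x r, h y = r ^ 2 • ∫ y in ball (0 : E) 1, h (x + r • y) := by
  have h1 := Measure.setIntegral_comp_smul_of_pos (volume : Measure E) (fun y => h (x + y))
    (ball (0 : E) 1) hr
  rw [h1, smul_smul, finrank_euclideanSpace_fin, mul_inv_cancel₀ (by positivity), one_smul,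
    smul_unitBall_of_pos hr, ← integral_indicator measurableSet_ball,
    ← integral_indicator measurableSet_ball,
    ← integral_add_left_eq_self (μ := (volume : Measure E)) _ x]
  congr 1
  ext y
  by_cases hy : y ∈ ball (0 : E) r
  · have : x + y ∈ ball x r := by simpa [mem_ball, dist_eq_norm] using hy
    simp [hy, this]
  · have : x + y ∉ ball x r := by simpa [mem_ball, dist_eq_norm] using hy
    simp [hy, this]

theorem avg_scale (h : E → ℝ) (x : E) {r : ℝ} (hr : 0 < r) :
    avg h x r = Real.pi⁻¹ * ∫ y in ball (0 : E) 1, h (x + r • y) := by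
  rw [avg, int_scale h x hr, smul_eq_mul]
  have := Real.pi_pos
  field_simp

theorem abs_avg_le {h : E → ℝ} (hh : Integrable h) (x : E) {a r : ℝ} (ha : 0 < a) (hr : a ≤ r) :
    |avg h x r| ≤ (Real.pi * a ^ 2)⁻¹ * ∫ y, |h y| := by
  have := Real.pi_pos
  have hr0 : 0 < r := ha.trans_le hr
  rw [avg, abs_mul, abs_of_pos (by positivity)]
  refine mul_le_mul (inv_anti₀ (by positivity) (by gcongr)) ?_ (abs_nonneg _) (by positivity)
  exact abs_integral_le_integral_abs.trans
    (setIntegral_le_integral hh.abs (Eventually.of_forall fun _ => abs_nonneg _))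

theorem avg_sub {h h' : E → ℝ} (hh : Integrable h) (hh' : Integrable h') (x : E) (r : ℝ) :
    avg (fun y => h y - h' y) x r = avg h x r - avg h' x r := by
  rw [avg, avg, avg, integral_sub hh.integrableOn hh'.integrableOn, mul_sub]

theorem avg_nonneg {h : E → ℝ} (h0 : ∀ y, 0 ≤ h y) (x : E) (r : ℝ) : 0 ≤ avg h x r :=
  mul_nonneg (by have := Real.pi_pos; positivity) (integral_nonneg h0)

theorem avg_congr {h h' : E → ℝ} {x : E} {r : ℝ} (H : ∀ y ∈ ball x r, h y = h' y) :
    avg h x r = avg h' x r := by
  rw [avg, avg, setIntegral_congr_fun measurableSet_ball H]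

private theorem intOn {F : Type*} [NormedAddCommGroup F] {g : E → F} (hg : Continuous g) :
    IntegrableOn g (ball (0 : E) 1) :=
  (hg.continuousOn.integrableOn_compact (isCompact_closedBall (0 : E) 1)).mono_set
    ball_subset_closedBall

private theorem avg_diff_le {h : E → ℝ} (hh : Continuous h) {x x' : E} {r r' : ℝ} (hr : 0 < r)
    (hr' : 0 < r') {B : ℝ} (hB : ∀ y ∈ ball (0 : E) 1, |h (x + r • y) - h (x' + r' • y)| ≤ B) :
    |avg h x r - avg h x' r'| ≤ B := by
  have := Real.pi_pos
  rw [avg_scale h x hr, avg_scale h x' hr', ← mul_sub,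
    ← integral_sub (intOn (by fun_prop)) (intOn (by fun_prop)), abs_mul,
    abs_of_pos (inv_pos.2 this), inv_mul_le_iff₀ this]
  have h1 := norm_setIntegral_le_of_norm_le_const (μ := (volume : Measure E))
    (s := ball (0 : E) 1) (f := fun y => h (x + r • y) - h (x' + r' • y)) (C := B)
    measure_ball_lt_top hB
  rw [volume_real_ball _ zero_le_one, one_pow, mul_one, mul_comm] at h1
  exact h1

theorem avg_lipschitz {h : E → ℝ} {C : ℝ≥0} (hh : LipschitzWith C h) {r : ℝ} (hr : 0 < r) :
    LipschitzWith C (fun x => avg h x r) := by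
  refine LipschitzWith.of_dist_le_mul fun x x' => ?_
  rw [Real.dist_eq]
  refine avg_diff_le hh.continuous hr hr fun y _ => ?_
  have := hh.dist_le_mul (x + r • y) (x' + r • y)
  rwa [Real.dist_eq, dist_add_right] at this

theorem avg_lip_radius {h : E → ℝ} {C : ℝ≥0} (hh : LipschitzWith C h) (x : E) {r r' : ℝ}
    (hr : 0 < r) (hr' : 0 < r') : |avg h x r - avg h x r'| ≤ C * |r - r'| := by
  refine avg_diff_le hh.continuous hr hr' fun y hy => ?_
  have := hh.dist_le_mul (x + r • y) (x + r' • y)
  rw [Real.dist_eq, dist_add_left, dist_eq_norm, ← sub_smul, norm_smul, Real.norm_eq_abs] at this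
  refine this.trans (mul_le_mul_of_nonneg_left ?_ C.2)
  exact mul_le_of_le_one_right (abs_nonneg _) (mem_ball_zero_iff.1 hy).le

/-- differentiation under the integral sign along the curves `t ↦ p y + t • w y` -/
private theorem hasDerivAt_int {h : E → ℝ} (hh : C1c h) {p w : E → E} (hp : Continuous p)
    (hw : Continuous w) {B : ℝ} (hB : ∀ y ∈ ball (0 : E) 1, ‖w y‖ ≤ B) (t₀ : ℝ) :
    HasDerivAt (fun t : ℝ => ∫ y in ball (0 : E) 1, h (p y + t • w y))
      (∫ y in ball (0 : E) 1, ⟪w y, gradient h (p y + t₀ • w y)⟫) t₀ := by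
  obtain ⟨C, hC⟩ := hh.lipschitz
  have hc := hh.continuous
  have hg := hh.continuous_gradient
  refine (hasDerivAt_integral_of_dominated_loc_of_deriv_le (μ := volume.restrict (ball (0 : E) 1))
    (F := fun t y => h (p y + t • w y)) (F' := fun t y => ⟪w y, gradient h (p y + t • w y)⟫)
    (bound := fun _ => B * C) (s := univ) univ_mem
    (Eventually.of_forall fun t => Continuous.aestronglyMeasurable (by fun_prop))
    (intOn (by fun_prop))
    (Continuous.aestronglyMeasurable (hw.inner (hg.comp (by fun_prop)))) ?_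
    (intOn continuous_const) (Eventually.of_forall fun y t _ => ?_)).2
  · filter_upwards [ae_restrict_mem measurableSet_ball] with y hy t _
    refine (abs_real_inner_le_norm _ _).trans ?_
    exact mul_le_mul (hB y hy) (norm_gradient_le_of_lipschitz hC _) (norm_nonneg _)
      ((norm_nonneg _).trans (hB y hy))
  · rw [inner_gradient]
    have h1 : HasDerivAt (fun t : ℝ => p y + t • w y) (w y) t := by
      simpa using ((hasDerivAt_id t).smul_const (w y)).const_add (p y)
    exact ((hh.1.differentiable one_ne_zero _).hasFDerivAt).comp_hasDerivAt t h1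

private theorem avg_hasDerivAt_line {h : E → ℝ} (hh : C1c h) (x v : E) {r : ℝ} (hr : 0 < r)
    (t₀ : ℝ) :
    HasDerivAt (fun t : ℝ => avg h (x + t • v) r) (avg (dv h v) (x + t₀ • v) r) t₀ := by
  have h1 := (hasDerivAt_int hh (p := fun y => x + r • y) (w := fun _ => v) (by fun_prop)
    continuous_const (fun _ _ => le_rfl) t₀).const_mul Real.pi⁻¹
  simp only [avg_scale _ _ hr, dv]
  simpa only [add_right_comm x _ (r • _)] using h1

theorem avg_hasLineDerivAt {h : E → ℝ} (hh : C1c h) (x v : E) {r : ℝ} (hr : 0 < r) :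
    HasLineDerivAt ℝ (fun x => avg h x r) (avg (dv h v) x r) x v := by
  have := avg_hasDerivAt_line hh x v hr 0
  rw [zero_smul, add_zero] at this
  exact this

theorem avg_hasDerivAt {h : E → ℝ} (hh : C1c h) (x : E) {r : ℝ} (hr : 0 < r) :
    HasDerivAt (fun t => avg h x t)
      ((Real.pi * r ^ 3)⁻¹ * ∫ y in ball x r, ⟪y - x, gradient h y⟫) r := by
  have h1 := (hasDerivAt_int hh (p := fun _ => x) (w := fun y => y) continuous_const
    continuous_id (fun y hy => (mem_ball_zero_iff.1 hy).le) r).const_mul Real.pi⁻¹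
  have h2 : (fun t => avg h x t) =ᶠ[𝓝 r]
      fun t : ℝ => Real.pi⁻¹ * ∫ y in ball (0 : E) 1, h (x + t • y) := by
    filter_upwards [Ioi_mem_nhds hr] with t ht using avg_scale h x ht
  refine (h1.congr_of_eventuallyEq h2).congr_deriv ?_
  rw [int_scale _ x hr]
  simp only [add_sub_cancel_left, real_inner_smul_left, integral_const_mul, smul_eq_mul]
  have := Real.pi_pos
  field_simp

/-- Lipschitz constant in terms of the `L¹` norm of the gradient (mean value inequality along the
segment, `avg_hasLineDerivAt`, `abs_avg_le`) -/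
theorem avg_lip_L1 {h : E → ℝ} (hh : C1c h) {a r : ℝ} (ha : 0 < a) (hr : a ≤ r) (x x' : E) :
    |avg h x r - avg h x' r| ≤ (Real.pi * a ^ 2)⁻¹ * (∫ y, ‖gradient h y‖) * ‖x - x'‖ := by
  have hpi := Real.pi_pos
  have hr0 : 0 < r := ha.trans_le hr
  have h1 := norm_image_sub_le_of_norm_deriv_le_segment_01'
    (f := fun t : ℝ => avg h (x' + t • (x - x')) r)
    (f' := fun t : ℝ => avg (dv h (x - x')) (x' + t • (x - x')) r)
    (C := (Real.pi * a ^ 2)⁻¹ * (∫ y, ‖gradient h y‖) * ‖x - x'‖)
    (fun t _ => (avg_hasDerivAt_line hh x' (x - x') hr0 t).hasDerivWithinAt) fun t _ => by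
      refine (abs_avg_le (hh.integrable_dv _) _ ha hr).trans ?_
      rw [mul_assoc ((Real.pi * a ^ 2)⁻¹), ← integral_mul_const]
      refine mul_le_mul_of_nonneg_left ?_ (by positivity)
      refine integral_mono (hh.integrable_dv _).abs (hh.integrable_gradient.norm.mul_const _)
        fun y => ?_
      exact (abs_dv_le h _ y).trans (mul_comm _ _).le
  simpa using h1

theorem avg_add_affine {h : E → ℝ} (hh : Continuous h) (c : ℝ) (a x : E) {r : ℝ} (hr : 0 < r) :
    avg (fun y => h y + (c + ⟪a, y⟫)) x r = avg h x r + (c + ⟪a, x⟫) := by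
  have hpi := Real.pi_pos
  have h0 : ∫ y in ball (0 : E) 1, ⟪a, y⟫ = 0 := by
    have h1 := integral_neg_eq_self ((ball (0 : E) 1).indicator fun y => ⟪a, y⟫) volume
    have h2 : (fun y => (ball (0 : E) 1).indicator (fun y => ⟪a, y⟫) (-y))
        = fun y => -(ball (0 : E) 1).indicator (fun y => ⟪a, y⟫) y := by
      ext y
      by_cases hy : y ∈ ball (0 : E) 1
      · have : -y ∈ ball (0 : E) 1 := by simpa using hy
        simp [hy, this]
      · have : -y ∉ ball (0 : E) 1 := by simpa using hy
        simp [hy, this]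
    rw [h2, integral_neg, integral_indicator measurableSet_ball] at h1
    linarith
  rw [avg_scale _ x hr, avg_scale _ x hr]
  have e : ∀ y : E, h (x + r • y) + (c + ⟪a, x + r • y⟫)
      = h (x + r • y) + ((c + ⟪a, x⟫) + r * ⟪a, y⟫) := fun y => by
    rw [inner_add_right, real_inner_smul_right]; ring
  simp only [e]
  have c1 : Continuous fun y : E => r * ⟪a, y⟫ :=
    continuous_const.mul (continuous_const.inner continuous_id)
  have c2 : Continuous fun y : E => c + ⟪a, x⟫ + r * ⟪a, y⟫ := continuous_const.add c1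
  rw [integral_add (intOn (by fun_prop)) (intOn c2),
    integral_add (intOn continuous_const) (intOn c1), integral_const_mul, h0, setIntegral_const,
    volume_real_ball _ zero_le_one, smul_eq_mul]
  field_simp
  ring

end Crest.Agent.R112
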