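import Crest.Agent.R112.Mx

/-!
# R112/Cauchy: the gradients of the truncated maximal functions converge in `L¹`

Outside a null set all `M n`, `S n m` are differentiable. `M n` is nondecreasing in `n` (from `hmax`).
Fix `ε`, take `m` from `hS`, put `B n = {x | M m x < M n x}` (open, increasing in `n`).
For `m < n ≤ n'`: on `B n'` we have `M n' = S n' m` at the point and `S n' m ≤ M n'`, so
`∇(M n') = ∇(S n' m)` (`touch_gradient`); off `B n'`, `∇(M n') = ∇(M m)`. Hence pointwise a.e.
`‖∇(M n) - ∇(M n')‖ ≤ ‖∇(S n m) - G₀‖ + ‖∇(S n' m) - G₀‖ + 1[(⋃ j, B j) \ B n] (‖∇(M m)‖ + ‖G₀‖)`,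
and the integral of the last term tends to `0` as `n → ∞` (dominated convergence). So the sequence
`∇(M n)` is Cauchy in `L¹`; use completeness of `E →₁[volume] E`
(`Integrable.toL1`, `L1.norm_of_fun_eq_integral_norm`, `cauchySeq_tendsto_of_complete`).
-/

namespace Crest.Agent.R112

open MeasureTheory Metric Set Filter Topology
open scoped RealInnerProductSpace NNReal

private theorem cauchy_of_small {g : ℕ → E → E} (hg : ∀ n, Integrable (g n))
    (H : ∀ ε > 0, ∃ N, ∀ n, N ≤ n → ∀ n', n ≤ n' → ∫ x, ‖g n x - g n' x‖ ≤ ε) :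
    ∃ G : E → E, Integrable G ∧ Tendsto (fun n => ∫ x, ‖g n x - G x‖) atTop (𝓝 0) := by
  have hd : ∀ n (f : E →₁[volume] E), dist ((hg n).toL1 _) f = ∫ x, ‖g n x - f x‖ := fun n f => by
    rw [L1.dist_eq_integral_dist]
    refine integral_congr_ae ?_
    filter_upwards [(hg n).coeFn_toL1] with x hx
    rw [hx, dist_eq_norm]
  have hc : CauchySeq fun n => (hg n).toL1 _ := by
    refine Metric.cauchySeq_iff'.2 fun ε hε => ?_
    obtain ⟨N, hN⟩ := H (ε / 2) (by positivity)
    refine ⟨N, fun n hn => ?_⟩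
    rw [dist_comm, hd]
    refine lt_of_le_of_lt (le_of_eq_of_le (integral_congr_ae ?_) (hN N le_rfl n hn)) (by linarith)
    filter_upwards [(hg n).coeFn_toL1] with x hx
    rw [hx]
  obtain ⟨f, hf⟩ := cauchySeq_tendsto_of_complete hc
  exact ⟨f, L1.integrable_coeFn f, (tendsto_iff_dist_tendsto_zero.1 hf).congr fun n => hd n f⟩

theorem cauchy_grad (M : ℕ → E → ℝ) (S : ℕ → ℕ → E → ℝ) (G₀ : E → E) (hG₀ : Integrable G₀)
    (hM : ∀ n, (∃ C, LipschitzWith C (M n)) ∧ Integrable (gradient (M n)))
    (hSl : ∀ n m, m < n → ∃ C, LipschitzWith C (S n m))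
    (hmax : ∀ n m, m < n → ∀ x, M n x = max (S n m x) (M m x))
    (hS : ∀ ε > 0, ∃ m, ∀ n, m < n → Integrable (gradient (S n m)) ∧
      ∫ x, ‖gradient (S n m) x - G₀ x‖ ≤ ε) :
    ∃ G : E → E, Integrable G ∧
      Tendsto (fun n => ∫ x, ‖gradient (M n) x - G x‖) atTop (𝓝 0) := by
  refine cauchy_of_small (fun n => (hM n).2) fun ε hε => ?_
  have hmono : ∀ {n n'}, n ≤ n' → ∀ x, M n x ≤ M n' x := fun {n n'} h x => by
    rcases h.eq_or_lt with rfl | h
    · exact le_rfl
    · rw [hmax n' n h]
      exact le_max_right _ _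
  have hcont : ∀ n, Continuous (M n) := fun n => (hM n).1.choose_spec.continuous
  have hdM : ∀ n, ∀ᵐ x, DifferentiableAt ℝ (M n) x := fun n =>
    (hM n).1.choose_spec.ae_differentiableAt
  obtain ⟨m, hm⟩ := hS (ε / 3) (by positivity)
  have hdS : ∀ n, m < n → ∀ᵐ x, DifferentiableAt ℝ (S n m) x := fun n hn =>
    (hSl n m hn).choose_spec.ae_differentiableAt
  set B : ℕ → Set E := fun n => {x | M m x < M n x} with hB
  have hBm : ∀ n, MeasurableSet (B n) := fun n => (isOpen_lt (hcont m) (hcont n)).measurableSet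
  have hBmono : Monotone B := fun n n' h x hx => lt_of_lt_of_le hx (hmono h x)
  have hDm : ∀ n, MeasurableSet ((⋃ j, B j) \ B n) := fun n =>
    (MeasurableSet.iUnion hBm).diff (hBm n)
  have hφ : Integrable fun x => ‖gradient (M m) x - G₀ x‖ := ((hM m).2.sub hG₀).norm
  have hlim := tendsto_setIntegral_of_antitone hDm
    (fun n n' h => sdiff_subset_sdiff_right (hBmono h)) ⟨0, hφ.integrableOn⟩
  have hempty : ⋂ n, ((⋃ j, B j) \ B n) = ∅ := by
    refine eq_empty_of_forall_notMem fun x hx => ?_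
    rw [mem_iInter] at hx
    obtain ⟨j, hj⟩ := mem_iUnion.1 (hx 0).1
    exact (hx j).2 hj
  rw [hempty, setIntegral_empty] at hlim
  obtain ⟨N, hN⟩ := eventually_atTop.1 (hlim.eventually (Iic_mem_nhds (by positivity : 0 < ε / 3)))
  refine ⟨max N (m + 1), fun n hn n' hn' => ?_⟩
  have hmn : m < n := lt_of_lt_of_le (Nat.lt_succ_self m) ((le_max_right _ _).trans hn)
  have hmn' : m < n' := lt_of_lt_of_le hmn hn'
  have hon : ∀ {k x}, m < k → x ∈ B k → DifferentiableAt ℝ (S k m) x →
      DifferentiableAt ℝ (M k) x → gradient (M k) x = gradient (S k m) x :=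
    fun {k x} hk hx h1 h2 => by
      refine (touch_gradient (Eventually.of_forall fun y => ?_) ?_ h1 h2).symm
      · rw [hmax k m hk]
        exact le_max_left _ _
      · have h3 : M m x < M k x := hx
        rw [hmax k m hk] at h3 ⊢
        exact (max_eq_left (lt_max_iff.1 h3 |>.resolve_right (lt_irrefl _)).le).symm
  have hoff : ∀ {k x}, m < k → x ∉ B k → DifferentiableAt ℝ (M m) x →
      DifferentiableAt ℝ (M k) x → gradient (M k) x = gradient (M m) x :=
    fun {k x} hk hx h1 h2 => (touch_gradient (Eventually.of_forall (hmono hk.le))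
      (le_antisymm (hmono hk.le x) (not_lt.1 hx)) h1 h2).symm
  have i1 := ((hm n hmn).1.sub hG₀).norm
  have i2 := ((hm n' hmn').1.sub hG₀).norm
  have i3 := hφ.indicator (hDm n)
  calc ∫ x, ‖gradient (M n) x - gradient (M n') x‖
      ≤ ∫ x, (‖gradient (S n m) x - G₀ x‖ + ‖gradient (S n' m) x - G₀ x‖ +
          ((⋃ j, B j) \ B n).indicator (fun x => ‖gradient (M m) x - G₀ x‖) x) := by
        refine integral_mono_ae ((hM n).2.sub (hM n').2).norm ((i1.add i2).add i3) ?_
        filter_upwards [hdM m, hdM n, hdM n', hdS n hmn, hdS n' hmn'] with x h1 h2 h3 h4 h5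
        have h0 : 0 ≤ ((⋃ j, B j) \ B n).indicator (fun x => ‖gradient (M m) x - G₀ x‖) x :=
          indicator_nonneg (fun _ _ => norm_nonneg _) x
        by_cases hx : x ∈ B n
        · rw [hon hmn hx h4 h2, hon hmn' (hBmono hn' hx) h5 h3]
          have := norm_sub_le_norm_sub_add_norm_sub (gradient (S n m) x) (G₀ x)
            (gradient (S n' m) x)
          rw [norm_sub_rev (G₀ x)] at this
          linarith
        · by_cases hx' : x ∈ B n'
          · rw [hoff hmn hx h1 h2, hon hmn' hx' h5 h3,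
              indicator_of_mem (show x ∈ (⋃ j, B j) \ B n from ⟨mem_iUnion.2 ⟨n', hx'⟩, hx⟩)]
            have := norm_sub_le_norm_sub_add_norm_sub (gradient (M m) x) (G₀ x)
              (gradient (S n' m) x)
            rw [norm_sub_rev (G₀ x)] at this
            linarith [norm_nonneg (gradient (S n m) x - G₀ x)]
          · rw [hoff hmn hx h1 h2, hoff hmn' hx' h1 h3, sub_self, norm_zero]
            positivity
    _ = (∫ x, ‖gradient (S n m) x - G₀ x‖) + (∫ x, ‖gradient (S n' m) x - G₀ x‖) +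
          ∫ x in (⋃ j, B j) \ B n, ‖gradient (M m) x - G₀ x‖ := by
        rw [← integral_indicator (hDm n)]
        exact (integral_add (i1.add i2) i3).trans (congrArg (· + _) (integral_add i1 i2))
    _ ≤ ε := by
        have := hN n ((le_max_left _ _).trans hn)
        have h1 := (hm n hmn).2
        have h2 := (hm n' hmn').2
        linarith

end Crest.Agent.R112
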