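import Crest.Agent.R112.Switch

/-!
# R112/Core: the pointwise fine-scale estimate

Fix `x`, `r`. For a level `n` write `q = 2^n`, `σ n = ρ / q^10`, `σ' n = ρ / q^2`, `κ n = 48 / q^6`,
`η n = Θ / q`. Let `ψ₀ t = if t < r then 1 else 0`, so `L ψ₀ = ∫ y in ball x r, ⟪f, V y⟫` and
`R ψ₀ = ∫ y in ball x r, ⟪y - x, V y⟫`. If `0 ≤ L ψ₀` there is nothing to prove; assume `L ψ₀ < 0`.

`Inv n`: there is `ψ` with `Prof ψ r (σ n)`, `ψ t = 0` for `t > ρ`,
`(ρ/Lam < r → r < ρ → R ψ = 0)`, `Osc ρ x ψ (n+1) (16 Θ / 2^n)`, `|L ψ - L ψ₀| ≤ 2^25 Θ / 2^n`.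
It holds (with `ψ₀`) when `n ≥` all levels (then `Osc` is a statement about no pair).
From `Inv n`, `n ≥ 13`, and `light_le`, `Pm_nonneg`: `-L ψ₀ ≤ 5 * 2^n Θ` and `Pm ψ ≤ 64 * 2^n Θ`.

`step` (`n ≥ 14`, `Inv n`): let `S` be the set of pairs `i` with `lev i = n` and
`|‖c i - x‖ - r| ≤ 2 σ n`, `β = ∑_{i ∈ S} d i`.
* `β ≤ η n`: keep `ψ`. (`Prof ψ r (σ (n-1))` as `σ n ≤ σ (n-1)`. For `i ∈ S` take `o i = 1`, for the
  other pairs of level `n` take `o i = 0`: `‖y - c i‖ ≤ 2ρ/Lam^n ≤ σ n`, so `ψ` is `1` at both points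
  or `0` at both points. The sum is `≤ 16Θ/2^n + Θ/2^n ≤ 16Θ/2^(n-1)`.)
* `β > η n` and every `i ∈ S` has `x ∈ Exc ρ i`: then `5 * 2^n Θ = 5 * 4^n η n ≤ 5 * 4^n β` gives the
  conclusion of the theorem.
* `β > η n` and some `i ∈ S` has `x ∉ Exc ρ i`. With `p = c i`: `x ∉ EndSet` gives
  `ρ/Lam ≤ r - σ n` and `r + σ n ≤ ρ` (otherwise `‖x - p‖` is within `3σ` of an end point), so
  `Opt.ramp` gives `φ` with `R φ = 0`, `8/σ`-Lipschitz; `osc_of_lip` gives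
  `Osc φ n (16Θ/2^n)` and `Osc φ (n+1) (16Θ/2^n)`; `lam_ball_le` gives mass `≤ 66 * 2^n Θ = 66 q² η`,
  `far_le` gives `hfar` with `η n`; `switch_le` and `light_le` for `φ` give, with
  `γ = 6 Lam / q²`, `e = |L ψ - L φ|`: `Pm φ ≤ 64 q Θ + 8 e`,
  `e ≤ γ (130 q Θ + 8 e) + (24 + 1536 + 24) Lam Θ / q`, `8γ ≤ 1/2`, so `e ≤ 2^25 Θ / q`, and
  `Inv (n-1)` holds with `φ`.
Downward induction ends at `Inv 13`, which gives `-L ψ₀ ≤ 5 * 2^13 Θ`.
-/

namespace Crest.Agent.R112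

open MeasureTheory Metric Set Filter Topology
open scoped RealInnerProductSpace NNReal

theorem core_lam_pow (j : ℕ) : (Lam : ℝ) ^ j = ((2 : ℝ) ^ j) ^ 12 := by
  have : (Lam : ℝ) = 2 ^ 12 := by norm_num [Lam]
  rw [this, ← pow_mul, ← pow_mul, mul_comm]

theorem core_lam_val : (Lam : ℝ) = 4096 := by norm_num [Lam]

theorem core_prof_mono {ψ : ℝ → ℝ} {r σ σ' : ℝ} (h : Prof ψ r σ) (hσ : σ ≤ σ') : Prof ψ r σ' :=
  ⟨h.1, h.2.1, fun t ht => h.2.2.1 t (by linarith), fun t ht => h.2.2.2 t (by linarith)⟩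

theorem core_sig_mono {ρ : ℝ} (hρ : 0 < ρ) (m : ℕ) :
    ρ / ((2 : ℝ) ^ (m + 1)) ^ 10 ≤ ρ / ((2 : ℝ) ^ m) ^ 10 := by
  refine div_le_div_of_nonneg_left hρ.le (by positivity) ?_
  refine pow_le_pow_left₀ (by positivity) ?_ 10
  exact pow_le_pow_right₀ one_le_two (Nat.le_succ m)

theorem core_div_mono {a : ℝ} (ha : 0 ≤ a) (m : ℕ) :
    a / (2 : ℝ) ^ (m + 1) ≤ a / (2 : ℝ) ^ m :=
  div_le_div_of_nonneg_left ha (by positivity) (pow_le_pow_right₀ one_le_two (Nat.le_succ m))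

/-- the sharp profile -/
noncomputable def core_psi (r : ℝ) : ℝ → ℝ := fun t => if t < r then 1 else 0

theorem core_psi_prof (r : ℝ) {σ : ℝ} (hσ : 0 ≤ σ) : Prof (core_psi r) r σ := by
  refine ⟨Measurable.ite measurableSet_Iio measurable_const measurable_const, fun t => ?_,
    fun t ht => if_pos (by linarith), fun t ht => if_neg (by linarith)⟩
  unfold core_psi
  split_ifs <;> norm_num

theorem core_psi_integral (x : E) (r : ℝ) (g : E → ℝ) :
    ∫ y, core_psi r ‖y - x‖ * g y = ∫ y in ball x r, g y := by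
  rw [← integral_indicator measurableSet_ball]
  refine integral_congr_ae (Eventually.of_forall fun y => ?_)
  simp only [core_psi, indicator, mem_ball, dist_eq_norm]
  split_ifs <;> simp

theorem core_norm_diff (x y c : E) : |‖y - x‖ - ‖c - x‖| ≤ ‖y - c‖ := by
  have := abs_norm_sub_norm_le (y - x) (c - x)
  rwa [sub_sub_sub_cancel_right] at this

namespace FSData

variable {ι : Type} {D : FSData ι} {ρ : ℝ} {f : E}

theorem core_osc_mono {x : E} {ψ : ℝ → ℝ} {n : ℕ} {B B' : ℝ} (h : D.Osc ρ x ψ n B)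
    (hB : B ≤ B') : D.Osc ρ x ψ n B' := by
  obtain ⟨o, h1, h2⟩ := h
  exact ⟨o, h1, h2.trans hB⟩

/-- a Lipschitz profile of scale `ρ / (2^n)^10` oscillates little on the pairs of level `≥ m ≥ n`:
take `o i = 8/σ * 2ρ/Lam^(lev i) ≤ 16 (1/2)^(lev i) / 2^n` -/
theorem OK.osc_of_lip (h : D.OK ρ f) (x : E) {φ : ℝ → ℝ} {n m : ℕ} (hm : n ≤ m)
    (hφ : ∀ t t', |φ t - φ t'| ≤ 8 / (ρ / ((2 : ℝ) ^ n) ^ 10) * |t - t'|) :
    D.Osc ρ x φ m (16 * D.Θ / 2 ^ n) := by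
  have hρ := h.pos
  refine ⟨fun i => 16 * (1 / 2 : ℝ) ^ D.lev i / 2 ^ n, fun i hi hl => ⟨by positivity, fun y hy => ?_⟩,
    ?_⟩
  · refine (hφ _ _).trans ?_
    have h1 : |‖y - x‖ - ‖D.c i - x‖| ≤ 2 * (ρ / (Lam : ℝ) ^ D.lev i) :=
      (core_norm_diff x y (D.c i)).trans ((norm_le_two_dinf _ _).trans (by linarith))
    refine (mul_le_mul_of_nonneg_left h1 (by positivity)).trans ?_
    have hq : (2 : ℝ) ^ n ≤ 2 ^ D.lev i := pow_le_pow_right₀ one_le_two (hm.trans hl)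
    beta_reduce
    rw [core_lam_pow, one_div, inv_pow]
    set q : ℝ := 2 ^ n with hqdef
    set Q : ℝ := 2 ^ D.lev i with hQdef
    have hq0 : 0 < q := by positivity
    have hQ0 : 0 < Q := by positivity
    have e1 : 8 / (ρ / q ^ 10) * (2 * (ρ / Q ^ 12)) = 16 * q ^ 10 / Q ^ 12 := by
      field_simp; norm_num
    have e2 : 16 * Q⁻¹ / q = 16 / (Q * q) := by field_simp
    rw [e1, e2, div_le_div_iff₀ (by positivity) (by positivity)]
    have h11 : q ^ 11 ≤ Q ^ 11 := pow_le_pow_left₀ hq0.le hq 11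
    calc 16 * q ^ 10 * (Q * q) = 16 * Q * q ^ 11 := by ring
      _ ≤ 16 * Q * Q ^ 11 := by gcongr
      _ = 16 * Q ^ 12 := by ring
  · calc ∑ i ∈ D.I.filter (fun i => m ≤ D.lev i), D.d i * (16 * (1 / 2 : ℝ) ^ D.lev i / 2 ^ n)
        ≤ ∑ i ∈ D.I, D.d i * (16 * (1 / 2 : ℝ) ^ D.lev i / 2 ^ n) :=
          Finset.sum_le_sum_of_subset_of_nonneg (Finset.filter_subset _ _) fun i hi _ =>
            mul_nonneg (h.d_nonneg hi) (by positivity)
      _ = 16 * (∑ i ∈ D.I, (1 / 2 : ℝ) ^ (D.lev i) * D.d i) / 2 ^ n := by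
          rw [Finset.mul_sum, Finset.sum_div]
          exact Finset.sum_congr rfl fun i _ => by ring
      _ ≤ 16 * D.Θ / 2 ^ n := by
          have := h.sum_d_le
          gcongr

/-- the invariant of the downward induction -/
def CoreInv (D : FSData ι) (ρ : ℝ) (f x : E) (r : ℝ) (n : ℕ) : Prop :=
  ∃ ψ : ℝ → ℝ, Prof ψ r (ρ / ((2 : ℝ) ^ n) ^ 10) ∧ (∀ t, ρ < t → ψ t = 0) ∧
    (ρ / Lam < r → r < ρ → D.R x ψ = 0) ∧ D.Osc ρ x ψ (n + 1) (16 * D.Θ / 2 ^ n) ∧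
    |D.L f x ψ - D.L f x (core_psi r)| ≤ 2 ^ 25 * D.Θ / 2 ^ n

theorem OK.core_base (h : D.OK ρ f) {x : E} {r : ℝ} (hopt : Opt D.V ρ x r) {n : ℕ}
    (hn : ∀ i ∈ D.I, D.lev i ≤ n) : D.CoreInv ρ f x r n := by
  have hρ := h.pos
  have hΘ := h.theta_nonneg
  refine ⟨core_psi r, core_psi_prof r (by positivity), fun t ht => if_neg ?_, fun h1 h2 => ?_,
    ⟨fun _ => 0, fun i hi hl => absurd (hn i hi) (by omega), ?_⟩, ?_⟩
  · have := hopt.hi
    linarith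
  · rw [R, core_psi_integral]
    exact hopt.rad0 h1 h2
  · simp only [mul_zero, Finset.sum_const_zero]
    positivity
  · rw [sub_self, abs_zero]
    positivity

theorem core_ab {Θ : ℝ} (hΘ : 0 ≤ Θ) {n : ℕ} (hn : 13 ≤ n) :
    2 ^ 26 * (Θ / (2 : ℝ) ^ n) ≤ 2 ^ n * Θ := by
  have hq : (2 : ℝ) ^ 13 ≤ 2 ^ n := pow_le_pow_right₀ one_le_two hn
  set q : ℝ := 2 ^ n
  have hq0 : 0 < q := by positivity
  have h2 : (2 : ℝ) ^ 26 ≤ q * q := by
    calc (2 : ℝ) ^ 26 = 2 ^ 13 * 2 ^ 13 := by norm_num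
      _ ≤ q * q := by gcongr
  calc 2 ^ 26 * (Θ / q) ≤ q * q * (Θ / q) := by gcongr
    _ = q * Θ := by field_simp

theorem OK.core_light (h : D.OK ρ f) {x : E} {ψ : ℝ → ℝ} {r σ : ℝ} {n : ℕ} (hn : 13 ≤ n)
    (hψ : Prof ψ r σ) (hosc : D.Osc ρ x ψ (n + 1) (16 * D.Θ / 2 ^ n)) :
    0 ≤ D.Pm x ψ ∧
      D.Pm x ψ ≤ 8 * (D.L f x ψ - 2 ^ 25 * (D.Θ / 2 ^ n)) + 64 * (2 ^ n * D.Θ) -
        2 ^ 29 * (D.Θ / 2 ^ n) ∧ D.Pm x ψ ≤ 8 * (D.L f x ψ - 2 ^ 25 * (D.Θ / 2 ^ n)) +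
          40 * (2 ^ n * D.Θ) := by
  have h1 := h.light_le hψ hosc
  have h2 := core_ab h.theta_nonneg hn
  have h3 : 0 ≤ D.Θ / 2 ^ n := div_nonneg h.theta_nonneg (by positivity)
  rw [mul_div_assoc, mul_assoc] at h1
  refine ⟨Pm_nonneg D x fun t => (hψ.2.1 t).1, ?_, ?_⟩ <;> linarith

open Classical in
/-- the pairs of level `n` whose centre is near the circle -/
noncomputable def coreS (D : FSData ι) (ρ : ℝ) (x : E) (r : ℝ) (n : ℕ) : Finset ι :=
  D.I.filter fun i => D.lev i = n ∧ |‖D.c i - x‖ - r| ≤ 2 * (ρ / ((2 : ℝ) ^ n) ^ 10)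

theorem OK.core_keep (h : D.OK ρ f) {x : E} {r : ℝ} {m : ℕ} (hI : D.CoreInv ρ f x r (m + 1))
    (hβ : ∑ i ∈ D.coreS ρ x r (m + 1), D.d i ≤ D.Θ / 2 ^ (m + 1)) : D.CoreInv ρ f x r m := by
  classical
  have hρ := h.pos
  have hΘ := h.theta_nonneg
  obtain ⟨ψ, hψ, hψρ, hR, ⟨o, ho1, ho2⟩, hL⟩ := hI
  refine ⟨ψ, core_prof_mono hψ (core_sig_mono hρ m), hψρ, hR,
    ⟨fun i => if D.lev i = m + 1 then (if i ∈ D.coreS ρ x r (m + 1) then 1 else 0) else o i,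
      fun i hi hl => ?_, ?_⟩, hL.trans (core_div_mono (by positivity) m)⟩
  · by_cases hlev : D.lev i = m + 1
    · simp only [hlev, if_true]
      by_cases hS : i ∈ D.coreS ρ x r (m + 1)
      · simp only [hS, if_true]
        refine ⟨zero_le_one, fun y _ => ?_⟩
        have a1 := hψ.2.1 ‖y - x‖
        have a2 := hψ.2.1 ‖D.c i - x‖
        rw [abs_le]
        constructor <;> linarith [a1.1, a1.2, a2.1, a2.2]
      · simp only [hS, if_false]
        refine ⟨le_rfl, fun y hy => ?_⟩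
        have hfar : 2 * (ρ / ((2 : ℝ) ^ (m + 1)) ^ 10) < |‖D.c i - x‖ - r| := by
          by_contra hcon
          exact hS (Finset.mem_filter.2 ⟨hi, hlev, not_lt.1 hcon⟩)
        have h1 : |‖y - x‖ - ‖D.c i - x‖| ≤ 2 * (ρ / (Lam : ℝ) ^ (m + 1)) :=
          (core_norm_diff x y (D.c i)).trans ((norm_le_two_dinf _ _).trans (by linarith))
        have h2 : 2 * (ρ / (Lam : ℝ) ^ (m + 1)) ≤ ρ / ((2 : ℝ) ^ (m + 1)) ^ 10 := by
          rw [core_lam_pow]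
          have hq : (2 : ℝ) ≤ 2 ^ (m + 1) := by
            calc (2 : ℝ) = 2 ^ 1 := by norm_num
              _ ≤ 2 ^ (m + 1) := pow_le_pow_right₀ one_le_two (by omega)
          set q : ℝ := 2 ^ (m + 1)
          have hq0 : 0 < q := by positivity
          rw [← mul_div_assoc, div_le_div_iff₀ (by positivity) (by positivity)]
          have : 2 ≤ q ^ 2 := by nlinarith
          calc 2 * ρ * q ^ 10 = ρ * q ^ 10 * 2 := by ring
            _ ≤ ρ * q ^ 10 * q ^ 2 := by gcongr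
            _ = ρ * q ^ 12 := by ring
        have hs : 0 < ρ / ((2 : ℝ) ^ (m + 1)) ^ 10 := by positivity
        have h3 := abs_le.1 (h1.trans h2)
        rcases lt_abs.1 hfar with h4 | h4
        · rw [hψ.2.2.2 _ (by linarith [h3.1]), hψ.2.2.2 _ (by linarith), sub_self, abs_zero]
        · rw [hψ.2.2.1 _ (by linarith [h3.2]), hψ.2.2.1 _ (by linarith), sub_self, abs_zero]
    · simp only [hlev, if_false]
      exact ho1 i hi (by omega)
  · have e : ∑ i ∈ D.I.filter (fun i => m + 1 ≤ D.lev i), D.d i *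
        (if D.lev i = m + 1 then (if i ∈ D.coreS ρ x r (m + 1) then 1 else 0) else o i) =
        ∑ i ∈ D.coreS ρ x r (m + 1), D.d i +
          ∑ i ∈ D.I.filter (fun i => m + 1 + 1 ≤ D.lev i), D.d i * o i := by
      have hsub : D.coreS ρ x r (m + 1) = D.I.filter fun i => i ∈ D.coreS ρ x r (m + 1) := by
        ext i
        simp only [Finset.mem_filter, iff_and_self]
        exact fun hi => (Finset.mem_filter.1 hi).1
      rw [hsub, Finset.sum_filter, Finset.sum_filter, Finset.sum_filter, ← Finset.sum_add_distrib,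
        ← hsub]
      refine Finset.sum_congr rfl fun i hi => ?_
      by_cases hlev : D.lev i = m + 1
      · simp [hlev]
      · have hS : i ∉ D.coreS ρ x r (m + 1) := fun hi => hlev (Finset.mem_filter.1 hi).2.1
        by_cases hl : m + 1 ≤ D.lev i
        · have : m + 1 + 1 ≤ D.lev i := by omega
          simp [hlev, hS, hl, this]
        · have : ¬ (m + 1 + 1 ≤ D.lev i) := by omega
          simp [hS, hl, this]
    rw [e]
    have e2 : 16 * D.Θ / 2 ^ m = 32 * (D.Θ / 2 ^ (m + 1)) := by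
      rw [pow_succ]; field_simp; ring
    have h3 : 0 ≤ D.Θ / 2 ^ (m + 1) := by positivity
    rw [mul_div_assoc] at ho2
    linarith

theorem OK.core_switch (h : D.OK ρ f) {x : E} {r : ℝ} (hopt : Opt D.V ρ x r) {m : ℕ}
    (hm : 13 ≤ m) (hneg : D.L f x (core_psi r) ≤ 0) (hI : D.CoreInv ρ f x r (m + 1)) {i : ι}
    (hi : i ∈ D.coreS ρ x r (m + 1)) (hx : x ∉ D.Exc ρ i) : D.CoreInv ρ f x r m := by
  classical
  have hρ := h.pos
  have hΘ := h.theta_nonneg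
  obtain ⟨ψ, hψ, hψρ, hR, hosc, hL⟩ := hI
  obtain ⟨-, hlev, hnear⟩ := Finset.mem_filter.1 hi
  rw [Exc, hlev, mem_union, not_or] at hx
  obtain ⟨hx1, hx2⟩ := hx
  have hlo := hopt.lo
  have hhi := hopt.hi
  have hq : (2 : ℝ) ^ 14 ≤ 2 ^ (m + 1) := pow_le_pow_right₀ one_le_two (by omega)
  have hL1 := h.core_light (n := m + 1) (by omega) hψ hosc
  have hab := core_ab hΘ (n := m + 1) (by omega)
  have hlb := h.lam_ball_le (m + 1) (x := x) hψ
  have hol := fun {φ : ℝ → ℝ} {k : ℕ} (hk : m + 1 ≤ k) => h.osc_of_lip x (φ := φ) hk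
  have hsw := fun {φ : ℝ → ℝ} => h.switch_le (x := x) (p := D.c i) (ψ := ψ) (φ := φ)
    (σ' := ρ / ((2 : ℝ) ^ (m + 1)) ^ 2) (η := D.Θ / 2 ^ (m + 1))
    (B := 16 * D.Θ / 2 ^ (m + 1)) (n := m + 1) hopt hψ
  have hL2 := fun {φ : ℝ → ℝ} => h.core_light (x := x) (ψ := φ) (r := r)
    (σ := ρ / ((2 : ℝ) ^ (m + 1)) ^ 10) (n := m + 1) (by omega)
  have hmono := core_sig_mono hρ m
  have e16 : 16 * D.Θ / 2 ^ (m + 1) ≤ 16 * D.Θ / 2 ^ m := core_div_mono (by positivity) m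
  have e25 : 2 ^ 25 * D.Θ / 2 ^ m = 2 ^ 26 * (D.Θ / 2 ^ (m + 1)) := by
    rw [pow_succ (2 : ℝ) m]; field_simp
  have hint := h.integrable_lam (m + 1)
  have hnn := h.lam_nonneg (m + 1)
  set q : ℝ := 2 ^ (m + 1) with hqdef
  have hq0 : 0 < q := by positivity
  have hq1 : 1 ≤ q := by linarith
  have hq2 : (2 : ℝ) ^ 28 ≤ q ^ 2 := by
    calc (2 : ℝ) ^ 28 = (2 ^ 14) ^ 2 := by norm_num
      _ ≤ q ^ 2 := by gcongr
  have hq6 : q ^ 2 ≤ q ^ 6 := pow_le_pow_right₀ hq1 (by norm_num)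
  have hq10 : q ^ 2 ≤ q ^ 10 := pow_le_pow_right₀ hq1 (by norm_num)
  set σ : ℝ := ρ / q ^ 10 with hσdef
  have hσ0 : 0 < σ := by positivity
  have hσs : σ ≤ ρ / 2 ^ 28 := div_le_div_of_nonneg_left hρ.le (by positivity) (by linarith)
  rw [core_lam_val] at hlo
  simp only [EndSet, mem_ofPred_eq, not_or, not_le, core_lam_val] at hx2
  rw [norm_sub_rev] at hnear
  have hn := abs_le.1 hnear
  have hup : r + σ ≤ ρ := by
    by_contra hcon
    have : |‖x - D.c i‖ - ρ| ≤ 3 * σ := abs_le.2 ⟨by linarith [hn.1], by linarith [hn.2]⟩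
    linarith [hx2.1]
  have hdown : ρ / 4096 ≤ r - σ := by
    by_contra hcon
    have : |‖x - D.c i‖ - ρ / 4096| ≤ 3 * σ := abs_le.2 ⟨by linarith [hn.1], by linarith [hn.2]⟩
    linarith [hx2.2]
  obtain ⟨φ, hφ, hlip, hRφ⟩ := hopt.ramp σ hσ0 (by linarith) (by rwa [core_lam_val]) hup
  have hRψ : D.R x ψ = 0 := hR (by rw [core_lam_val]; linarith) (by linarith)
  have hφρ : ∀ t, ρ < t → φ t = 0 := fun t ht => hφ.2.2.2 t (by linarith)
  have ho1 := hol (φ := φ) le_rfl hlip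
  have ho2 := hol (φ := φ) (Nat.le_succ _) hlip
  have ha : 0 ≤ D.Θ / q := by positivity
  rw [mul_div_assoc] at hL
  have hLψ := abs_le.1 hL
  have hPψ : D.Pm x ψ ≤ 64 * (q * D.Θ) := by linarith [hL1.2.1, hLψ.2]
  have hfar : ∫ y in {y | |‖y - x‖ - r| ≤ σ} \ ball (D.c i) (ρ / q ^ 2), D.lam (m + 1) y ≤
      D.Θ / q := by
    refine far_le hint hnn hhi hnear hσ0 (by linarith) (by positivity) ?_ ?_ (by positivity) ?_ hx1
    · rw [div_le_one (by positivity)]; linarith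
    · refine le_of_eq ?_
      rw [hσdef]; field_simp
    · have : 66 * q ^ 2 * (D.Θ / q) = 66 * (q * D.Θ) := by field_simp
      rw [this]
      rw [mul_assoc] at hlb
      linarith
  have hsw' := hsw hφ hψρ hφρ hRψ hRφ hosc ho2
    (by rw [core_lam_val, norm_sub_rev]; linarith [hn.1])
    (by rw [norm_sub_rev]; linarith [hn.2]) (by positivity) hfar
  have hL2' := hL2 hφ ho2
  set e : ℝ := |D.L f x ψ - D.L f x φ| with hedef
  have he0 : 0 ≤ e := abs_nonneg _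
  have he1 : D.L f x φ - D.L f x ψ ≤ e := by
    rw [hedef, abs_sub_comm]; exact le_abs_self _
  have he2 : D.L f x ψ - D.L f x φ ≤ e := le_abs_self _
  have hPφ : D.Pm x φ ≤ 64 * (q * D.Θ) + 8 * e := by linarith [hL2'.2.1, hLψ.2]
  have eγ : 6 * (Lam : ℝ) * (ρ / q ^ 2) / ρ = 6 * 4096 / q ^ 2 := by
    rw [core_lam_val]; field_simp
  have hγ0 : 0 ≤ 6 * 4096 / q ^ 2 := by positivity
  have hγ1 : 6 * 4096 / q ^ 2 ≤ 1 / 16 := by
    rw [div_le_iff₀ (by positivity)]; linarith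
  have hγb : 6 * 4096 / q ^ 2 * (q * D.Θ) = 6 * 4096 * (D.Θ / q) := by field_simp
  rw [eγ, core_lam_val, mul_div_assoc 16, mul_assoc 2 q] at hsw'
  have hmid : 6 * 4096 / q ^ 2 * (D.Pm x ψ + D.Pm x φ + 2 * (q * D.Θ)) ≤
      130 * (6 * 4096 * (D.Θ / q)) + e / 2 := by
    calc 6 * 4096 / q ^ 2 * (D.Pm x ψ + D.Pm x φ + 2 * (q * D.Θ))
        ≤ 6 * 4096 / q ^ 2 * (130 * (q * D.Θ) + 8 * e) :=
          mul_le_mul_of_nonneg_left (by linarith) hγ0
      _ = 130 * (6 * 4096 / q ^ 2 * (q * D.Θ)) + 8 * (6 * 4096 / q ^ 2 * e) := by ring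
      _ ≤ 130 * (6 * 4096 * (D.Θ / q)) + e / 2 := by
          rw [hγb]
          have := mul_le_mul_of_nonneg_right hγ1 he0
          linarith
  have he : e ≤ 2 ^ 25 * (D.Θ / q) := by linarith
  refine ⟨φ, core_prof_mono hφ hmono, hφρ, fun _ _ => hRφ, core_osc_mono ho1 e16, ?_⟩
  rw [e25, abs_le]
  constructor <;> linarith [hLψ.1, hLψ.2]

theorem OK.core_neg (h : D.OK ρ f) {x : E} {r : ℝ} {n : ℕ} (hn : 13 ≤ n)
    (hI : D.CoreInv ρ f x r n) : -D.L f x (core_psi r) ≤ 5 * (2 ^ n * D.Θ) := by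
  obtain ⟨ψ, hψ, -, -, hosc, hL⟩ := hI
  have h1 := h.core_light hn hψ hosc
  rw [mul_div_assoc] at hL
  linarith [h1.1, h1.2.2, (abs_le.1 hL).2]

open Classical in
theorem OK.fs_core (h : D.OK ρ f) {x : E} {r : ℝ} (hopt : Opt D.V ρ x r) :
    ng (∫ y in ball x r, ⟪f, D.V y⟫) ≤ 5 * 2 ^ 13 * D.Θ +
      5 * ∑ i ∈ D.I.filter (fun i => 14 ≤ D.lev i),
        4 ^ D.lev i * D.d i * (D.Exc ρ i).indicator 1 x := by
  have hΘ := h.theta_nonneg
  have hterm : ∀ i ∈ D.I, (0 : ℝ) ≤ 4 ^ D.lev i * D.d i * (D.Exc ρ i).indicator 1 x := by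
    intro i hi
    refine mul_nonneg (mul_nonneg (by positivity) (h.d_nonneg hi)) ?_
    exact indicator_nonneg (fun _ _ => zero_le_one) x
  have hsum : (0 : ℝ) ≤ ∑ i ∈ D.I.filter (fun i => 14 ≤ D.lev i),
      4 ^ D.lev i * D.d i * (D.Exc ρ i).indicator 1 x :=
    Finset.sum_nonneg fun i hi => hterm i (Finset.mem_filter.1 hi).1
  have hL : ∫ y in ball x r, ⟪f, D.V y⟫ = D.L f x (core_psi r) := by
    rw [L, core_psi_integral]
  rw [hL]
  have h13 : (0 : ℝ) ≤ 5 * 2 ^ 13 * D.Θ := by positivity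
  refine max_le ?_ (by linarith)
  by_contra hcon
  have hcon := not_le.1 hcon
  have hneg : D.L f x (core_psi r) ≤ 0 := by linarith
  have step : ∀ m, 13 ≤ m → D.CoreInv ρ f x r (m + 1) → D.CoreInv ρ f x r m := by
    intro m hm hI
    by_cases hβ : ∑ i ∈ D.coreS ρ x r (m + 1), D.d i ≤ D.Θ / 2 ^ (m + 1)
    · exact h.core_keep hI hβ
    by_cases hall : ∀ i ∈ D.coreS ρ x r (m + 1), x ∈ D.Exc ρ i
    · exfalso
      have h1 := h.core_neg (n := m + 1) (by omega) hI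
      have h2 : ∑ i ∈ D.coreS ρ x r (m + 1), 4 ^ D.lev i * D.d i * (D.Exc ρ i).indicator 1 x ≤
          ∑ i ∈ D.I.filter (fun i => 14 ≤ D.lev i),
            4 ^ D.lev i * D.d i * (D.Exc ρ i).indicator 1 x := by
        refine Finset.sum_le_sum_of_subset_of_nonneg (fun i hi => ?_)
          fun i hi _ => hterm i (Finset.mem_filter.1 hi).1
        obtain ⟨hi1, hi2, -⟩ := Finset.mem_filter.1 hi
        exact Finset.mem_filter.2 ⟨hi1, by omega⟩
      have h3 : ∑ i ∈ D.coreS ρ x r (m + 1), 4 ^ D.lev i * D.d i * (D.Exc ρ i).indicator 1 x =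
          4 ^ (m + 1) * ∑ i ∈ D.coreS ρ x r (m + 1), D.d i := by
        rw [Finset.mul_sum]
        refine Finset.sum_congr rfl fun i hi => ?_
        rw [indicator_of_mem (hall i hi), (Finset.mem_filter.1 hi).2.1, Pi.one_apply, mul_one]
      have h4 : (2 : ℝ) ^ (m + 1) * D.Θ = 4 ^ (m + 1) * (D.Θ / 2 ^ (m + 1)) := by
        rw [show (4 : ℝ) = 2 * 2 by norm_num, mul_pow]
        field_simp
      have h5 : (4 : ℝ) ^ (m + 1) * (D.Θ / 2 ^ (m + 1)) ≤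
          4 ^ (m + 1) * ∑ i ∈ D.coreS ρ x r (m + 1), D.d i :=
        mul_le_mul_of_nonneg_left (not_le.1 hβ).le (by positivity)
      linarith
    · push Not at hall
      obtain ⟨i, hi, hx⟩ := hall
      exact h.core_switch hopt hm hneg hI hi hx
  have down : ∀ k, D.CoreInv ρ f x r (13 + k) → D.CoreInv ρ f x r 13 := by
    intro k
    induction k with
    | zero => exact id
    | succ k ih => exact fun hI => ih (step (13 + k) (by omega) hI)
  have hbase : D.CoreInv ρ f x r (13 + D.I.sup D.lev) :=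
    h.core_base hopt fun i hi => (Finset.le_sup (f := D.lev) hi).trans (by omega)
  have := h.core_neg le_rfl (down _ hbase)
  linarith

end FSData

end Crest.Agent.R112
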