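import Crest.Agent.R112.Arr

/-!
# R112/Osc: oscillation and Lipschitz bounds for the state weights

Unfold `w_succ`: `w k s y = 1/4 + ∑ l < k, ∑ z ∈ nodes l, (ad s l z - rm s l z) * ht l z y`
(`w_eq`), and `|ad - rm| ≤ a`.

* `osc1`: `|ht l z x - ht l z c| ≤ 2 / mesh l * 4 * mesh k ≤ (1/2)^(k-l)` for `l < k`
  (`hat_lip`, `mesh_le_of_lt`), and the difference vanishes unless `x` or `c` is within `mesh l`
  of `pt l z`, which forces `dinf (pt l z) c ≤ mesh l + 4 * mesh k ≤ 3 * mesh l`.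
* `osc2`: `w (k+1) s x ≤ w k s x + ∑ z, ad s k z * ht k z x`; the last sum only sees nodes with
  `dinf (pt k z) c ≤ 2 * mesh k`, so it is at most the term `l = k` of `H k c`; use `osc1`.
* `H_bound`: exchange the order of summation (`dinf_comm`); it is an equality.
* `Gk_lip`: as `osc1`, with `dinf y x ≤ ‖y - x‖ ≤ mesh k ≤ mesh l`.
-/

namespace Crest.Agent.R112

open MeasureTheory Metric Set
open scoped RealInnerProductSpace

namespace Wts

variable {G : Grid} {K : ℕ} {mx my : Arr} (W : Wts G K mx my)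

theorem a_nonneg (k : ℕ) (z : ℤ × ℤ) : 0 ≤ W.a k z := by
  exact (W.ad_nonneg (true, true) k z).trans (W.ad_le _ k z)

theorem w_le_one (k : ℕ) (s : St) (y : E) : W.w k s y ≤ 1 := by
  rw [← W.w_sum k y]
  exact Finset.single_le_sum (f := fun s => W.w k s y) (fun s _ => W.w_nonneg k s y)
    (Finset.mem_univ s)

theorem w_eq (k : ℕ) (s : St) (y : E) : W.w k s y = 1 / 4 +
    ∑ l ∈ Finset.range k, ∑ z ∈ G.nodes l, (W.ad s l z - W.rm s l z) * G.ht l z y := by
  induction k with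
  | zero => simp [W.w_zero]
  | succ k ih => rw [W.w_succ, ih, Finset.sum_range_succ, add_assoc]

theorem H_nonneg (k : ℕ) (c : E) : 0 ≤ W.H k c := by
  exact Finset.sum_nonneg fun l _ => Finset.sum_nonneg fun z _ =>
    mul_nonneg (by positivity) (W.a_nonneg l z)

theorem osc_abs_le (k : ℕ) (s : St) (x y : E) : |W.w k s x - W.w k s y| ≤
    ∑ l ∈ Finset.range k, ∑ z ∈ G.nodes l, W.a l z * |G.ht l z x - G.ht l z y| := by
  rw [W.w_eq, W.w_eq, add_sub_add_left_eq_sub, ← Finset.sum_sub_distrib]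
  refine (Finset.abs_sum_le_sum_abs _ _).trans (Finset.sum_le_sum fun l _ => ?_)
  rw [← Finset.sum_sub_distrib]
  refine (Finset.abs_sum_le_sum_abs _ _).trans (Finset.sum_le_sum fun z _ => ?_)
  rw [← mul_sub, abs_mul]
  refine mul_le_mul_of_nonneg_right (abs_le.2 ⟨?_, ?_⟩) (abs_nonneg _)
  · linarith [W.ad_nonneg s l z, W.rm_le s l z]
  · linarith [W.ad_le s l z, W.rm_nonneg s l z]

theorem osc_ht_eq {l : ℕ} {z : ℤ × ℤ} {x c : E} {T : ℝ} (h : dinf x c ≤ T)
    (hz : ¬dinf (G.pt l z) c ≤ G.mesh l + T) : G.ht l z x = 0 := by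
  by_contra hne
  have h1 : dinf x (G.pt l z) < G.mesh l := dinf_lt_of_hat_ne_zero (G.mesh_pos l) hne
  have h2 := dinf_triangle (G.pt l z) x c
  rw [dinf_comm (G.pt l z) x] at h2
  exact hz (by linarith)

theorem osc_aux (k : ℕ) (s : St) {x c : E} (h : dinf x c ≤ 4 * G.mesh k) :
    W.w k s x ≤ W.w k s c +
      ∑ l ∈ Finset.range k, ∑ z ∈ G.near l c (3 * G.mesh l), (1 / 2 : ℝ) ^ (k - l) * W.a l z := by
  rw [← sub_le_iff_le_add']
  refine (le_abs_self _).trans ((W.osc_abs_le k s x c).trans (Finset.sum_le_sum fun l hl => ?_))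
  have hlk := Finset.mem_range.1 hl
  have hm := G.mesh_pos l
  have hmk := G.mesh_pos k
  have h1 := G.mesh_le_of_lt hlk
  have h2 : (1 / 4 : ℝ) ^ (k - l) ≤ (1 / 2 : ℝ) ^ (k - l) :=
    pow_le_pow_left₀ (by norm_num) (by norm_num) _
  have h3 : (1 / 2 : ℝ) ^ (k - l) ≤ 1 := pow_le_one₀ (by norm_num) (by norm_num)
  have h4 : 16 * G.mesh k ≤ (1 / 2 : ℝ) ^ (k - l) * G.mesh l :=
    h1.trans (mul_le_mul_of_nonneg_right h2 hm.le)
  have h5 : 16 * G.mesh k ≤ G.mesh l := h4.trans (mul_le_of_le_one_left hm.le h3)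
  rw [Grid.near, Finset.sum_filter]
  refine Finset.sum_le_sum fun z _ => ?_
  split_ifs with hz
  · rw [mul_comm]
    refine mul_le_mul_of_nonneg_right ((hat_lip hm z x c).trans ?_) (W.a_nonneg l z)
    rw [div_mul_eq_mul_div, div_le_iff₀ hm]
    linarith
  · rw [osc_ht_eq h fun h' => hz (by linarith),
      osc_ht_eq (dinf_self c).le fun h' => hz (by linarith)]
    simp

theorem osc_H_eq (k : ℕ) (c : E) : W.H k c =
    ∑ l ∈ Finset.range k, ∑ z ∈ G.near l c (3 * G.mesh l), (1 / 2 : ℝ) ^ (k - l) * W.a l z +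
      ∑ z ∈ G.near k c (3 * G.mesh k), W.a k z := by
  rw [H, Finset.sum_range_succ]
  simp

theorem osc1 (k : ℕ) (s : St) {x c : E} (h : dinf x c ≤ 4 * G.mesh k) :
    W.w k s x ≤ W.w k s c + W.H k c := by
  refine (W.osc_aux k s h).trans ?_
  rw [W.osc_H_eq]
  have : 0 ≤ ∑ z ∈ G.near k c (3 * G.mesh k), W.a k z :=
    Finset.sum_nonneg fun z _ => W.a_nonneg k z
  linarith

theorem osc2 (k : ℕ) (s : St) {x c : E} (h : dinf x c ≤ G.mesh k) :
    W.w (k + 1) s x ≤ W.w k s c + 2 * W.H k c := by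
  have hm := G.mesh_pos k
  have h1 := W.osc_aux k s (x := x) (c := c) (by linarith)
  have h2 : ∑ z ∈ G.nodes k, (W.ad s k z - W.rm s k z) * G.ht k z x ≤
      ∑ z ∈ G.near k c (3 * G.mesh k), W.a k z := by
    rw [Grid.near, Finset.sum_filter]
    refine Finset.sum_le_sum fun z _ => ?_
    split_ifs with hz
    · have h3 : W.ad s k z - W.rm s k z ≤ W.a k z := by
        linarith [W.ad_le s k z, W.rm_nonneg s k z]
      exact (mul_le_mul_of_nonneg_right h3 (hat_nonneg _ _ _)).trans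
        (mul_le_of_le_one_right (W.a_nonneg k z) (hat_le_one _ _ _))
    · rw [osc_ht_eq h fun h' => hz (by linarith), mul_zero]
  have h3 := W.osc_H_eq k c
  have h4 := W.H_nonneg k c
  rw [W.w_succ]
  linarith

theorem H_bound :
    ∑ k ∈ Finset.range (K + 1), ∑ z ∈ G.nodes k, W.H k (G.pt k z) * (|mx k z| + |my k z|) ≤
      ∑ l ∈ Finset.range (K + 1), ∑ z ∈ G.nodes l, W.a l z * G.Y mx my K l z := by
  let F : ℕ → ℕ → ℝ := fun k l => ∑ z ∈ G.nodes k, ∑ z' ∈ G.nodes l,
    if dinf (G.pt l z') (G.pt k z) ≤ 3 * G.mesh l then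
      (1 / 2 : ℝ) ^ (k - l) * W.a l z' * (|mx k z| + |my k z|) else 0
  have h1 : ∀ k, ∑ z ∈ G.nodes k, W.H k (G.pt k z) * (|mx k z| + |my k z|) =
      ∑ l ∈ Finset.range (k + 1), F k l := by
    intro k
    rw [Finset.sum_comm]
    refine Finset.sum_congr rfl fun z _ => ?_
    rw [H, Finset.sum_mul]
    refine Finset.sum_congr rfl fun l _ => ?_
    rw [Finset.sum_mul, Grid.near, Finset.sum_filter]
  have h2 : ∀ l, ∑ z ∈ G.nodes l, W.a l z * G.Y mx my K l z = ∑ k ∈ Finset.Icc l K, F k l := by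
    intro l
    have e : ∀ k, F k l = ∑ z' ∈ G.nodes l, ∑ z ∈ G.nodes k,
        if dinf (G.pt l z') (G.pt k z) ≤ 3 * G.mesh l then
          (1 / 2 : ℝ) ^ (k - l) * W.a l z' * (|mx k z| + |my k z|) else 0 :=
      fun k => Finset.sum_comm
    simp only [e]
    rw [Finset.sum_comm]
    refine Finset.sum_congr rfl fun z' _ => ?_
    rw [Grid.Y, Grid.Vt, Grid.Vt, ← Finset.sum_add_distrib, Finset.mul_sum]
    refine Finset.sum_congr rfl fun k _ => ?_
    rw [← mul_add, Grid.loc, Grid.loc, ← Finset.sum_add_distrib, Finset.mul_sum, Finset.mul_sum,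
      Grid.near, Finset.sum_filter]
    refine Finset.sum_congr rfl fun z _ => ?_
    rw [dinf_comm]
    split_ifs
    · ring
    · rfl
  simp only [h1, h2]
  refine le_of_eq (Finset.sum_comm' fun k l => ?_)
  simp only [Finset.mem_range, Finset.mem_Icc]
  omega

theorem w_lipschitz (k : ℕ) (s : St) : ∃ C, LipschitzWith C (W.w k s) := by
  refine ⟨_, LipschitzWith.of_dist_le'
    (K := ∑ l ∈ Finset.range k, ∑ z ∈ G.nodes l, W.a l z * (2 / G.mesh l)) fun x y => ?_⟩
  rw [Real.dist_eq, Finset.sum_mul]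
  refine (W.osc_abs_le k s x y).trans (Finset.sum_le_sum fun l _ => ?_)
  rw [Finset.sum_mul]
  refine Finset.sum_le_sum fun z _ => ?_
  have hm := G.mesh_pos l
  rw [mul_assoc, dist_eq_norm]
  exact mul_le_mul_of_nonneg_left ((hat_lip hm z x y).trans
    (mul_le_mul_of_nonneg_left (dinf_le_norm x y) (by positivity))) (W.a_nonneg l z)

theorem osc_coef_nonneg (l : ℕ) (z : ℤ × ℤ) : 0 ≤ W.a l z * (2 / G.mesh l) :=
  mul_nonneg (W.a_nonneg l z) (div_nonneg zero_le_two (G.mesh_pos l).le)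

theorem Gk_nonneg (k : ℕ) (x : E) : 0 ≤ W.Gk k x := by
  exact Finset.sum_nonneg fun l _ => Finset.sum_nonneg fun z _ =>
    indicator_nonneg (fun _ _ => W.osc_coef_nonneg l z) x

theorem measurable_Gk (k : ℕ) : Measurable (W.Gk k) := by
  exact Finset.measurable_sum _ fun l _ => Finset.measurable_sum _ fun z _ =>
    measurable_const.indicator (measurableSet_Q _ _)

theorem Gk_bdd (k : ℕ) : ∃ C, ∀ x, W.Gk k x ≤ C := by
  refine ⟨∑ l ∈ Finset.range k, ∑ z ∈ G.nodes l, W.a l z * (2 / G.mesh l), fun x => ?_⟩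
  exact Finset.sum_le_sum fun l _ => Finset.sum_le_sum fun z _ =>
    indicator_le_self' (fun _ _ => W.osc_coef_nonneg l z) x

theorem Gk_lip (s : St) {j k : ℕ} (hj : j ≤ k) {x y : E} (h : ‖y - x‖ ≤ G.mesh k) :
    |W.w j s y - W.w j s x| ≤ W.Gk k x * ‖y - x‖ := by
  refine (W.osc_abs_le j s y x).trans ?_
  rw [Gk, Finset.sum_mul]
  refine le_trans (Finset.sum_le_sum fun l hl => ?_) (Finset.sum_le_sum_of_subset_of_nonneg
    (Finset.range_subset_range.2 hj) fun l _ _ => mul_nonneg (Finset.sum_nonneg fun z _ =>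
      indicator_nonneg (fun _ _ => W.osc_coef_nonneg l z) x) (norm_nonneg _))
  rw [Finset.sum_mul]
  refine Finset.sum_le_sum fun z _ => ?_
  have hm := G.mesh_pos l
  have h1 : G.mesh k ≤ G.mesh l := G.mesh_anti ((Finset.mem_range.1 hl).le.trans hj)
  by_cases hx : x ∈ Q (G.pt l z) (2 * G.mesh l)
  · rw [indicator_of_mem hx, mul_assoc]
    exact mul_le_mul_of_nonneg_left ((hat_lip hm z y x).trans
      (mul_le_mul_of_nonneg_left (dinf_le_norm y x) (by positivity))) (W.a_nonneg l z)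
  · have hx' : ¬dinf (G.pt l z) x ≤ 2 * G.mesh l := by rwa [dinf_comm]
    rw [indicator_of_notMem hx, osc_ht_eq ((dinf_le_norm y x).trans (h.trans h1))
      fun h' => hx' (by linarith), osc_ht_eq (dinf_self x).le fun h' => hx' (by linarith)]
    simp

theorem fresh_nonneg (s : St) (k : ℕ) (y : E) : 0 ≤ W.fresh s k y := by
  cases k with
  | zero => simp [fresh]
  | succ k => exact Finset.sum_nonneg fun z _ => mul_nonneg (W.ad_nonneg s k z) (hat_nonneg _ _ _)

theorem fresh_le (s : St) (k : ℕ) (y : E) : W.fresh s k y ≤ W.w k s y := by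
  cases k with
  | zero => exact (W.w_zero s y).ge
  | succ k =>
    have := W.rm_sum_le k s y
    simp only [fresh, W.w_succ, sub_mul, Finset.sum_sub_distrib]
    linarith

theorem fresh_zero (s : St) (y : E) : W.fresh s 0 y = W.w 0 s y := by
  exact (W.w_zero s y).symm

theorem sub_le_fresh (s : St) (k : ℕ) (y : E) :
    W.w (k + 1) s y - W.w k s y ≤ W.fresh s (k + 1) y := by
  have : 0 ≤ ∑ z ∈ G.nodes k, W.rm s k z * G.ht k z y :=
    Finset.sum_nonneg fun z _ => mul_nonneg (W.rm_nonneg s k z) (hat_nonneg _ _ _)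
  simp only [fresh, W.w_succ, sub_mul, Finset.sum_sub_distrib]
  linarith

theorem continuous_fresh (s : St) (k : ℕ) : Continuous (W.fresh s k) := by
  cases k with
  | zero => exact continuous_const
  | succ k => exact continuous_finsetSum _ fun z _ => continuous_const.mul (continuous_hat _ _)


end Wts

end Crest.Agent.R112
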