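import Crest.Agent.R112.Avg

/-!
# R112/Mx: truncated maximal functions

For integrable `h` the averages with radius `≥ a > 0` are bounded (`abs_avg_le`), so all suprema are
suprema of bounded nonempty sets (`le_csSup`, `csSup_le`).
`touch`: if `u ≤ M` everywhere (or near `x`), `u x = M x`, and both have a line derivative at `x`
in the direction `v`, then `t ↦ M (x + t v) - u (x + t v)` has a local minimum at `0`
(`IsLocalMin.hasDerivAt_eq_zero`).
-/

namespace Crest.Agent.R112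

open MeasureTheory Metric Set Filter Topology
open scoped RealInnerProductSpace NNReal

theorem touch {u M : E → ℝ} {x v : E} {p q : ℝ} (hle : ∀ᶠ y in 𝓝 x, u y ≤ M y) (heq : u x = M x)
    (hu : HasLineDerivAt ℝ u p x v) (hM : HasLineDerivAt ℝ M q x v) : p = q := by
  have hd : HasDerivAt (fun t : ℝ => M (x + t • v) - u (x + t • v)) (q - p) 0 :=
    HasDerivAt.sub hM hu
  have hc : Tendsto (fun t : ℝ => x + t • v) (𝓝 0) (𝓝 x) := by
    have h1 : Continuous (fun t : ℝ => x + t • v) := by fun_prop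
    simpa using h1.tendsto 0
  have hmin : IsLocalMin (fun t : ℝ => M (x + t • v) - u (x + t • v)) 0 := by
    filter_upwards [hc.eventually hle] with t ht
    simp only [zero_smul, add_zero]
    linarith
  have := hmin.hasDerivAt_eq_zero hd
  linarith

theorem touch_gradient {u M : E → ℝ} {x : E} (hle : ∀ᶠ y in 𝓝 x, u y ≤ M y) (heq : u x = M x)
    (hu : DifferentiableAt ℝ u x) (hM : DifferentiableAt ℝ M x) :
    gradient u x = gradient M x := by
  have : fderiv ℝ u x = fderiv ℝ M x := by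
    ext v
    exact touch hle heq (hu.hasFDerivAt.hasLineDerivAt v) (hM.hasFDerivAt.hasLineDerivAt v)
  simp only [gradient, this]

private theorem mx_bdd {h : E → ℝ} (hh : Integrable h) {a : ℝ} (ha : 0 < a) (x : E) :
    BddAbove ((fun r => avg h x r) '' Ici a) := by
  refine ⟨(Real.pi * a ^ 2)⁻¹ * ∫ y, |h y|, ?_⟩
  rintro _ ⟨r, hr, rfl⟩
  exact (le_abs_self _).trans (abs_avg_le hh x ha hr)

private theorem mx_bdd' {h : E → ℝ} (hh : Integrable h) {a : ℝ} (ha : 0 < a) (b : ℝ) (x : E) :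
    BddAbove ((fun r => avg h x r) '' Icc a b) :=
  (mx_bdd hh ha x).mono (image_mono Icc_subset_Ici_self)

theorem le_mx {h : E → ℝ} (hh : Integrable h) {a b r : ℝ} (ha : 0 < a) (hr : r ∈ Icc a b) (x : E) :
    avg h x r ≤ mx h a b x :=
  le_csSup (mx_bdd' hh ha b x) ⟨r, hr, rfl⟩
theorem mx_le {h : E → ℝ} {a b B : ℝ} (hab : a ≤ b) {x : E} (H : ∀ r ∈ Icc a b, avg h x r ≤ B) :
    mx h a b x ≤ B := by
  refine csSup_le ((nonempty_Icc.2 hab).image _) ?_
  rintro _ ⟨r, hr, rfl⟩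
  exact H r hr
theorem le_mxi {h : E → ℝ} (hh : Integrable h) {a r : ℝ} (ha : 0 < a) (hr : a ≤ r) (x : E) :
    avg h x r ≤ mxi h a x :=
  le_csSup (mx_bdd hh ha x) ⟨r, hr, rfl⟩
theorem mxi_le {h : E → ℝ} {a B : ℝ} {x : E} (H : ∀ r, a ≤ r → avg h x r ≤ B) :
    mxi h a x ≤ B := by
  refine csSup_le (nonempty_Ici.image _) ?_
  rintro _ ⟨r, hr, rfl⟩
  exact H r hr
theorem mx_congr {h h' : E → ℝ} {a b : ℝ} {x : E} (H : ∀ y ∈ ball x b, h y = h' y) :
    mx h a b x = mx h' a b x := by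
  unfold mx
  congr 1
  refine image_congr fun r hr => ?_
  exact avg_congr fun y hy => H y (ball_subset_ball hr.2 hy)
theorem mx_split {h : E → ℝ} (hh : Integrable h) {a b c : ℝ} (ha : 0 < a) (hab : a ≤ b)
    (hbc : b ≤ c) (x : E) : mx h a c x = max (mx h a b x) (mx h b c x) := by
  apply le_antisymm
  · refine mx_le (hab.trans hbc) fun r hr => ?_
    rcases le_total r b with h1 | h1
    · exact (le_mx hh ha ⟨hr.1, h1⟩ x).trans (le_max_left _ _)
    · exact (le_mx hh (ha.trans_le hab) ⟨h1, hr.2⟩ x).trans (le_max_right _ _)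
  · refine max_le (mx_le hab fun r hr => ?_) (mx_le hbc fun r hr => ?_)
    · exact le_mx hh ha ⟨hr.1, hr.2.trans hbc⟩ x
    · exact le_mx hh ha ⟨hab.trans hr.1, hr.2⟩ x
theorem mxi_split {h : E → ℝ} (hh : Integrable h) {a b : ℝ} (ha : 0 < a) (hab : a ≤ b) (x : E) :
    mxi h a x = max (mx h a b x) (mxi h b x) := by
  apply le_antisymm
  · refine mxi_le fun r hr => ?_
    rcases le_total r b with h1 | h1
    · exact (le_mx hh ha ⟨hr, h1⟩ x).trans (le_max_left _ _)
    · exact (le_mxi hh (ha.trans_le hab) h1 x).trans (le_max_right _ _)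
  · refine max_le (mx_le hab fun r hr => ?_) (mxi_le fun r hr => ?_)
    · exact le_mxi hh ha hr.1 x
    · exact le_mxi hh ha (hab.trans hr) x

/-- comparison of two suprema -/
private theorem abs_mx_sub_of {h h' : E → ℝ} (hh : Integrable h) (hh' : Integrable h') {a b : ℝ}
    (ha : 0 < a) (hab : a ≤ b) {x x' : E} {B : ℝ}
    (H : ∀ r ∈ Icc a b, |avg h x r - avg h' x' r| ≤ B) : |mx h a b x - mx h' a b x'| ≤ B := by
  rw [abs_le]
  constructor
  · have : mx h' a b x' ≤ mx h a b x + B := by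
      refine mx_le hab fun r hr => ?_
      have h1 := (abs_le.1 (H r hr)).1
      have h2 := le_mx hh ha hr x
      linarith
    linarith
  · have : mx h a b x ≤ mx h' a b x' + B := by
      refine mx_le hab fun r hr => ?_
      have h1 := (abs_le.1 (H r hr)).2
      have h2 := le_mx hh' ha hr x'
      linarith
    linarith

theorem abs_mx_sub_le {h h' : E → ℝ} (hh : Integrable h) (hh' : Integrable h') {a b : ℝ}
    (ha : 0 < a) (hab : a ≤ b) (x : E) :
    |mx h a b x - mx h' a b x| ≤ (Real.pi * a ^ 2)⁻¹ * ∫ y, |h y - h' y| := by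
  refine abs_mx_sub_of hh hh' ha hab fun r hr => ?_
  rw [← avg_sub hh hh']
  exact abs_avg_le (hh.sub hh') x ha hr.1
theorem abs_mx_le {h : E → ℝ} (hh : Integrable h) {a b : ℝ} (ha : 0 < a) (hab : a ≤ b) (x : E) :
    |mx h a b x| ≤ (Real.pi * a ^ 2)⁻¹ * ∫ y, |h y| := by
  rw [abs_le]
  constructor
  · exact (abs_le.1 (abs_avg_le hh x ha le_rfl)).1.trans (le_mx hh ha ⟨le_rfl, hab⟩ x)
  · exact mx_le hab fun r hr => (abs_le.1 (abs_avg_le hh x ha hr.1)).2
theorem abs_mxi_le {h : E → ℝ} (hh : Integrable h) {a : ℝ} (ha : 0 < a) (x : E) :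
    |mxi h a x| ≤ (Real.pi * a ^ 2)⁻¹ * ∫ y, |h y| := by
  rw [abs_le]
  constructor
  · exact (abs_le.1 (abs_avg_le hh x ha le_rfl)).1.trans (le_mxi hh ha le_rfl x)
  · exact mxi_le fun r hr => (abs_le.1 (abs_avg_le hh x ha hr)).2
theorem abs_mxi_sub_mx_le {h : E → ℝ} (hh : Integrable h) (h0 : ∀ y, 0 ≤ h y) {a b : ℝ}
    (ha : 0 < a) (hab : a ≤ b) (x : E) :
    |mxi h a x - mx h a b x| ≤ (Real.pi * b ^ 2)⁻¹ * ∫ y, |h y| := by
  have h1 : 0 ≤ mx h a b x := (avg_nonneg h0 x a).trans (le_mx hh ha ⟨le_rfl, hab⟩ x)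
  have h2 := abs_mxi_le hh (ha.trans_le hab) x
  have h3 := abs_nonneg (mxi h b x)
  have h4 := le_abs_self (mxi h b x)
  rw [mxi_split hh ha hab x, abs_le]
  constructor
  · have := le_max_left (mx h a b x) (mxi h b x)
    linarith
  · have : max (mx h a b x) (mxi h b x) ≤ mx h a b x + (Real.pi * b ^ 2)⁻¹ * ∫ y, |h y| :=
      max_le (by linarith) (by linarith)
    linarith

/-- for `C¹_c` functions the supremum is attained (`avg_lip_radius`, compactness) -/
theorem exists_mx_eq {h : E → ℝ} (hh : C1c h) {a b : ℝ} (ha : 0 < a) (hab : a ≤ b) (x : E) :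
    ∃ r ∈ Icc a b, mx h a b x = avg h x r ∧ ∀ r' ∈ Icc a b, avg h x r' ≤ avg h x r := by
  obtain ⟨C, hC⟩ := hh.lipschitz
  have hl : LipschitzOnWith C (fun r => avg h x r) (Icc a b) := by
    refine LipschitzOnWith.of_dist_le_mul fun r hr r' hr' => ?_
    rw [Real.dist_eq, Real.dist_eq]
    exact avg_lip_radius hC x (ha.trans_le hr.1) (ha.trans_le hr'.1)
  obtain ⟨r, hr, hmax⟩ := isCompact_Icc.exists_isMaxOn (nonempty_Icc.2 hab) hl.continuousOn
  refine ⟨r, hr, le_antisymm (mx_le hab fun r' hr' => hmax hr') (le_mx hh.integrable ha hr x),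
    fun r' hr' => hmax hr'⟩
theorem mx_lipschitz {h : E → ℝ} (hh : C1c h) {a b : ℝ} (ha : 0 < a) (hab : a ≤ b) :
    ∃ C, LipschitzWith C (mx h a b) := by
  obtain ⟨C, hC⟩ := hh.lipschitz
  refine ⟨C, LipschitzWith.of_dist_le_mul fun x x' => ?_⟩
  rw [Real.dist_eq]
  refine abs_mx_sub_of hh.integrable hh.integrable ha hab fun r hr => ?_
  have := (avg_lipschitz hC (ha.trans_le hr.1)).dist_le_mul x x'
  rwa [Real.dist_eq] at this
theorem mx_lip_L1 {h : E → ℝ} (hh : C1c h) {a b : ℝ} (ha : 0 < a) (hab : a ≤ b) (x x' : E) :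
    |mx h a b x - mx h a b x'| ≤ (Real.pi * a ^ 2)⁻¹ * (∫ y, ‖gradient h y‖) * ‖x - x'‖ :=
  abs_mx_sub_of hh.integrable hh.integrable ha hab fun _ hr => avg_lip_L1 hh ha hr.1 x x'

private theorem avg_eq_zero' {h : E → ℝ} {T r b : ℝ} (hs : ∀ y, h y ≠ 0 → dinf y 0 ≤ T)
    (hr : r ≤ b) {x : E} (hx : T + b < dinf x 0) : avg h x r = 0 := by
  have : avg h x r = avg (fun _ => 0) x r := by
    refine avg_congr fun y hy => ?_
    by_contra h0
    have h1 := hs y h0
    have h2 := dinf_triangle x y 0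
    have h3 := dinf_le_norm x y
    rw [mem_ball, dist_comm, dist_eq_norm] at hy
    linarith
  rw [this]
  simp [avg]

theorem mx_eq_zero {h : E → ℝ} {T a b : ℝ} (hs : ∀ y, h y ≠ 0 → dinf y 0 ≤ T) (hab : a ≤ b) {x : E}
    (hx : T + b < dinf x 0) : mx h a b x = 0 := by
  have : (fun r => avg h x r) '' Icc a b = {0} := by
    apply Subset.antisymm
    · rintro _ ⟨r, hr, rfl⟩
      exact avg_eq_zero' hs hr.2 hx
    · rintro _ rfl
      exact ⟨a, ⟨le_rfl, hab⟩, avg_eq_zero' hs hab hx⟩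
  unfold mx
  rw [this, csSup_singleton]

private theorem exists_supp_bound {h : E → ℝ} (hc : HasCompactSupport h) :
    ∃ T, ∀ y, h y ≠ 0 → dinf y 0 ≤ T := by
  obtain ⟨T, hT⟩ := hc.isCompact.isBounded.exists_norm_le
  refine ⟨T, fun y hy => ?_⟩
  have h1 := hT y (subset_tsupport h hy)
  have h2 := dinf_le_norm y 0
  rw [sub_zero] at h2
  linarith

theorem mx_hasCompactSupport {h : E → ℝ} (hh : C1c h) {a b : ℝ} (hab : a ≤ b) :
    HasCompactSupport (mx h a b) := by
  obtain ⟨T, hT⟩ := exists_supp_bound hh.2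
  refine HasCompactSupport.intro (isCompact_Q 0 (T + b)) fun x hx => ?_
  exact mx_eq_zero hT hab (not_le.1 hx)

private theorem avg_hasCompactSupport' {h : E → ℝ} (hh : C1c h) (r : ℝ) :
    HasCompactSupport (fun x => avg h x r) := by
  obtain ⟨T, hT⟩ := exists_supp_bound hh.2
  refine HasCompactSupport.intro (isCompact_Q 0 (T + r)) fun x hx => ?_
  exact avg_eq_zero' hT le_rfl (not_le.1 hx)

theorem mx_add_affine {h : E → ℝ} (hh : C1c h) (c : ℝ) (v x : E) {a b : ℝ} (ha : 0 < a)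
    (hab : a ≤ b) :
    mx (fun y => h y + (c + ⟪v, y⟫)) a b x = mx h a b x + (c + ⟪v, x⟫) := by
  obtain ⟨r, hr, h1, h2⟩ := exists_mx_eq hh ha hab x
  rw [h1]
  refine IsGreatest.csSup_eq ⟨⟨r, hr, avg_add_affine hh.continuous c v x (ha.trans_le hr.1)⟩, ?_⟩
  rintro _ ⟨r', hr', rfl⟩
  have h3 := avg_add_affine hh.continuous c v x (ha.trans_le hr'.1)
  have h4 := h2 r' hr'
  simp only
  linarith
/-- the line derivative of the maximal function is an average of the line derivative of `h` -/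
theorem lineDeriv_mx {h : E → ℝ} (hh : C1c h) {a b r : ℝ} (ha : 0 < a) (hr : r ∈ Icc a b) {x v : E}
    (heq : mx h a b x = avg h x r) (hd : LineDifferentiableAt ℝ (mx h a b) x v) :
    lineDeriv ℝ (mx h a b) x v = avg (dv h v) x r :=
  (touch (u := fun y => avg h y r) (Eventually.of_forall fun y => le_mx hh.integrable ha hr y)
    heq.symm (avg_hasLineDerivAt hh x v (ha.trans_le hr.1)) hd.hasLineDerivAt).symm

private theorem lineDeriv_of_eventually_zero {u : E → ℝ} {x : E} (v : E)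
    (H : u =ᶠ[𝓝 x] fun _ => 0) : lineDeriv ℝ u x v = 0 := by
  rw [H.lineDeriv_eq]
  simp [lineDeriv]

namespace Grid.Fits

variable {G : Grid} {h : E → ℝ} (hh : G.Fits h)
include hh

theorem b_lipschitz (k : ℕ) : ∃ C, LipschitzWith C (G.b h k) :=
  mx_lipschitz hh.1 (G.mesh_pos _) (G.mesh_anti (Nat.le_succ k))
theorem b_hasCompactSupport (k : ℕ) : HasCompactSupport (G.b h k) :=
  mx_hasCompactSupport hh.1 (G.mesh_anti (Nat.le_succ k))
/-- outside the domain `b k` vanishes near the point -/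
theorem lineDeriv_b_eq_zero (k : ℕ) (v : E) {x : E} (hx : x ∉ G.dom) :
    lineDeriv ℝ (G.b h k) x v = 0 := by
  apply lineDeriv_of_eventually_zero
  have ho : G.domᶜ ∈ 𝓝 x := (isClosed_Q _ _).isOpen_compl.mem_nhds hx
  filter_upwards [ho] with y hy
  refine mx_eq_zero hh.2 (G.mesh_anti (Nat.le_succ k)) ?_
  have h1 : (G.N : ℝ) * G.ρ < dinf y 0 := not_le.1 hy
  have h2 : G.mesh k ≤ G.ρ := by
    have := G.mesh_anti (Nat.zero_le k)
    rwa [G.mesh_zero] at this
  have h3 := G.pos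
  linarith
theorem Ek_nonneg (k : ℕ) (x : E) : 0 ≤ G.Ek h k x :=
  sub_nonneg.2 (le_mx hh.1.integrable (G.mesh_pos _) ⟨G.mesh_anti (Nat.le_succ k), le_rfl⟩ x)
theorem b_succ_sub_le (k : ℕ) (x : E) : G.b h (k + 1) x - G.b h k x ≤ G.Ek h (k + 1) x := by
  have : avg h x (G.mesh (k + 1)) ≤ G.b h k x :=
    le_mx hh.1.integrable (G.mesh_pos _) ⟨le_rfl, G.mesh_anti (Nat.le_succ k)⟩ x
  unfold Grid.Ek
  linarith
theorem Ek_lipschitz (k : ℕ) : ∃ C, LipschitzWith C (G.Ek h k) := by
  obtain ⟨C, hC⟩ := hh.b_lipschitz k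
  obtain ⟨C', hC'⟩ := hh.1.lipschitz
  exact ⟨C + C', hC.sub (avg_lipschitz hC' (G.mesh_pos k))⟩
theorem Ek_hasCompactSupport (k : ℕ) : HasCompactSupport (G.Ek h k) :=
  (hh.b_hasCompactSupport k).sub (avg_hasCompactSupport' hh.1 (G.mesh k))
/-- the maximal function over all levels is the maximum of the `b k` (induction, `mx_split`) -/
theorem b_le_mx {k K : ℕ} (hk : k ≤ K) (x : E) : G.b h k x ≤ mx h (G.mesh (K + 1)) G.ρ x := by
  refine mx_le (G.mesh_anti (Nat.le_succ k)) fun r hr => ?_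
  refine le_mx hh.1.integrable (G.mesh_pos _) ⟨(G.mesh_anti (Nat.succ_le_succ hk)).trans hr.1, ?_⟩ x
  have := G.mesh_anti (Nat.zero_le k)
  rw [G.mesh_zero] at this
  exact hr.2.trans this
theorem exists_b_eq (K : ℕ) (x : E) : ∃ k ≤ K, G.b h k x = mx h (G.mesh (K + 1)) G.ρ x := by
  induction K with
  | zero => exact ⟨0, le_rfl, by rw [Grid.b, G.mesh_zero]⟩
  | succ K ih =>
    obtain ⟨k, hk, he⟩ := ih
    have h2 : G.mesh (K + 1) ≤ G.ρ := by
      have := G.mesh_anti (Nat.zero_le (K + 1))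
      rwa [G.mesh_zero] at this
    rw [mx_split hh.1.integrable (G.mesh_pos _) (G.mesh_anti (Nat.le_succ (K + 1))) h2 x]
    rcases le_total (mx h (G.mesh (K + 1 + 1)) (G.mesh (K + 1)) x) (mx h (G.mesh (K + 1)) G.ρ x)
      with h3 | h3
    · exact ⟨k, hk.trans (Nat.le_succ K), by rw [max_eq_right h3, he]⟩
    · exact ⟨K + 1, le_rfl, by rw [max_eq_left h3, Grid.b]⟩

end Grid.Fits

/-- the line derivative of a compactly supported Lipschitz function is integrable -/
theorem integrable_lineDeriv {u : E → ℝ} {C : ℝ≥0} (hu : LipschitzWith C u)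
    (hc : HasCompactSupport u) (v : E) : Integrable (fun x => lineDeriv ℝ u x v) := by
  refine (integrableOn_iff_integrable_of_support_subset (s := tsupport u) ?_).1
    ((hu.locallyIntegrable_lineDeriv v).integrableOn_isCompact hc.isCompact)
  intro x hx
  by_contra hx'
  exact hx (lineDeriv_of_eventually_zero v (notMem_tsupport_iff_eventuallyEq.1 hx'))
theorem integrable_gradient_of_lipschitz {u : E → ℝ} {C : ℝ≥0} (hu : LipschitzWith C u)
    (hc : HasCompactSupport u) : Integrable (gradient u) := by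
  refine (integrableOn_iff_integrable_of_support_subset (s := tsupport u) ?_).1 ?_
  · intro x hx
    by_contra hx'
    apply hx
    have h1 : u =ᶠ[𝓝 x] fun _ => 0 := notMem_tsupport_iff_eventuallyEq.1 hx'
    rw [h1.gradient_eq]
    simp
  · refine Measure.integrableOn_of_bounded (M := C) hc.isCompact.measure_lt_top.ne
      (measurable_gradient u).aestronglyMeasurable ?_
    exact Eventually.of_forall fun y => norm_gradient_le_of_lipschitz hu y

end Crest.Agent.R112
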