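import Crest.Agent.R112.TreePt
import Crest.Agent.R112.Mx

/-!
# R112/Tree: the tree lemma

Let `MM a j x = mxx (fun i => b i x) a j` (Lipschitz with compact support for `a ≤ j ≤ K`),
`mm a k x = mn (fun i => w i x) a k` (Lipschitz, values in `[0,1]`),
`Δ a k = MM a (k+1) - MM a k = max (b (k+1) - MM a k) 0 ≥ 0`, nondecreasing in `a ≤ k`
(`mxx_anti`), and `Δ k k = max (b (k+1) - b k) 0 ≤ Ek (k+1)`.
For almost every `x` all of `M`, `b k`, `MM a j` are line differentiable at `x` in the direction `f`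
(`LipschitzWith.ae_lineDifferentiableAt`). At such `x` put `p a j = lineDeriv (MM a j) x f`,
`n k = ng (lineDeriv (b k) x f)`, `q = lineDeriv M x f`. By `touch`: if `x ∈ X κ` and `a ≤ κ ≤ j`
then `p a j = q` (`b κ ≤ MM a j ≤ M` with equality at `x`), and always `p a j` is the derivative of
some `b i`, `a ≤ i ≤ j` (`exists_mxx_eq`). So `tree_pt` / `tree_pt0` bound
`∑ k, (X k).indicator (w k * |lineDeriv M · f|) x` (at most one nonzero term). Integrate (on `X k` the
integrand is a.e. `w k * |lineDeriv (b k) · f|`, integrable by `integrable_lineDeriv`).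
For the last sum use `abel_a` with `δ a = p a (k+1) - p a k = lineDeriv (Δ a k) x f`, and `ibp_le`
for the functions `Γ = Δ k k` (with `f`) and `Γ = Δ (a+1) k - Δ a k` (with the opposite sign):
the total is at most `‖f‖ * ∫ Gk (k+1) * (Δ k k + ∑_{a<k} (Δ (a+1) k - Δ a k)) ≤ 2 ‖f‖ ∫ Gk (k+1) * Ek (k+1)`.

`ibp_le`: `LipschitzWith.integral_lineDeriv_mul_eq` moves the derivative to `m`;
`norm_lineDeriv_le_of_lip'` bounds it by `G x * ‖f‖`.
-/

namespace Crest.Agent.R112

open MeasureTheory Metric Set Filter Topology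
open scoped RealInnerProductSpace NNReal

theorem ibp_le {m Γ G : E → ℝ} {C D : ℝ≥0} (hm : LipschitzWith C m) (hΓ : LipschitzWith D Γ)
    (hc : HasCompactSupport Γ) (h0 : ∀ x, 0 ≤ Γ x) (hG0 : ∀ x, 0 ≤ G x)
    (hG : ∀ x, ∀ᶠ y in 𝓝 x, |m y - m x| ≤ G x * ‖y - x‖)
    (hi : Integrable (fun x => G x * Γ x)) (f : E) :
    |∫ x, m x * lineDeriv ℝ Γ x f| ≤ ‖f‖ * ∫ x, G x * Γ x := by
  have h := hm.integral_lineDeriv_mul_eq (μ := volume) hΓ hc (-f)
  rw [neg_neg] at h
  have h' : ∫ x, m x * lineDeriv ℝ Γ x f = ∫ x, lineDeriv ℝ m x (-f) * Γ x := by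
    rw [h]; simp only [mul_comm]
  rw [h', ← integral_const_mul, ← Real.norm_eq_abs]
  refine norm_integral_le_of_norm_le (hi.const_mul _) (Eventually.of_forall fun x => ?_)
  have h1 : ‖lineDeriv ℝ m x (-f)‖ ≤ G x * ‖-f‖ := norm_lineDeriv_le_of_lip' ℝ (hG0 x) (hG x)
  rw [norm_neg] at h1
  rw [norm_mul, Real.norm_of_nonneg (h0 x)]
  calc ‖lineDeriv ℝ m x (-f)‖ * Γ x ≤ G x * ‖f‖ * Γ x := mul_le_mul_of_nonneg_right h1 (h0 x)
    _ = _ := by ring

/-- Lipschitz with compact support -/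
def tree_LC (u : E → ℝ) : Prop := (∃ C, LipschitzWith C u) ∧ HasCompactSupport u

theorem tree_LC.max {u v : E → ℝ} (hu : tree_LC u) (hv : tree_LC v) :
    tree_LC fun x => max (u x) (v x) := by
  obtain ⟨⟨C, hC⟩, hc⟩ := hu
  obtain ⟨⟨C', hC'⟩, hc'⟩ := hv
  exact ⟨⟨_, hC.max hC'⟩, hc.comp₂_left hc' (m := fun s t : ℝ => Max.max s t) (by simp)⟩

theorem tree_LC.sub {u v : E → ℝ} (hu : tree_LC u) (hv : tree_LC v) :
    tree_LC fun x => u x - v x := by
  obtain ⟨⟨C, hC⟩, hc⟩ := hu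
  obtain ⟨⟨C', hC'⟩, hc'⟩ := hv
  exact ⟨⟨_, hC.sub hC'⟩, hc.comp₂_left hc' (m := fun s t : ℝ => s - t) (by simp)⟩

theorem tree_LC.integrable {u : E → ℝ} (hu : tree_LC u) : Integrable u := by
  obtain ⟨⟨C, hC⟩, hc⟩ := hu
  exact hC.continuous.integrable_of_hasCompactSupport hc

theorem tree_level (k : ℕ) (f : E) (D m : ℕ → E → ℝ) (G Ek : E → ℝ)
    (hD : ∀ a ≤ k, tree_LC (D a)) (hm : ∀ a ≤ k, ∃ C, LipschitzWith C (m a))
    (hm0 : ∀ a ≤ k, ∀ x, 0 ≤ m a x ∧ m a x ≤ 1)
    (hmG : ∀ a ≤ k, ∀ x, ∀ᶠ y in 𝓝 x, |m a y - m a x| ≤ G x * ‖y - x‖)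
    (hD0 : ∀ x, 0 ≤ D 0 x) (hDm : ∀ a < k, ∀ x, D a x ≤ D (a + 1) x) (hDE : ∀ x, D k x ≤ Ek x)
    (hGm : Measurable G) {CG : ℝ} (hG : ∀ x, 0 ≤ G x ∧ G x ≤ CG) (hE : Integrable Ek) :
    Integrable (fun x => m k x * lineDeriv ℝ (D k) x f -
      ∑ a ∈ Finset.range k, m a x * lineDeriv ℝ (fun y => D (a + 1) y - D a y) x f) ∧
    ∫ x, (m k x * lineDeriv ℝ (D k) x f -
      ∑ a ∈ Finset.range k, m a x * lineDeriv ℝ (fun y => D (a + 1) y - D a y) x f) ≤
      2 * ‖f‖ * ∫ x, G x * Ek x := by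
  have hGi : ∀ {u : E → ℝ}, Integrable u → Integrable fun x => G x * u x := fun hu =>
    hu.bdd_mul (c := CG) hGm.aestronglyMeasurable (Eventually.of_forall fun x => by
      rw [Real.norm_of_nonneg (hG x).1]; exact (hG x).2)
  have hone : ∀ a ≤ k, ∀ Γ : E → ℝ, tree_LC Γ → (∀ x, 0 ≤ Γ x) →
      Integrable (fun x => m a x * lineDeriv ℝ Γ x f) ∧
        |∫ x, m a x * lineDeriv ℝ Γ x f| ≤ ‖f‖ * ∫ x, G x * Γ x := by
    intro a ha Γ hΓ h0
    have hi := hΓ.integrable
    obtain ⟨⟨C, hC⟩, hc⟩ := hΓ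
    obtain ⟨C', hC'⟩ := hm a ha
    refine ⟨(integrable_lineDeriv hC hc f).bdd_mul (c := 1) hC'.continuous.aestronglyMeasurable
      (Eventually.of_forall fun x => ?_),
      ibp_le hC' hC hc h0 (fun x => (hG x).1) (hmG a ha) (hGi hi) f⟩
    rw [Real.norm_of_nonneg (hm0 a ha x).1]; exact (hm0 a ha x).2
  have hDk : ∀ a ≤ k, ∀ x, 0 ≤ D a x := by
    intro a
    induction a with
    | zero => exact fun _ => hD0
    | succ a ih => exact fun ha x => (ih (by omega) x).trans (hDm a ha x)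
  have h1 := hone k le_rfl (D k) (hD k le_rfl) (hDk k le_rfl)
  have hΓ : ∀ a ∈ Finset.range k, tree_LC fun y => D (a + 1) y - D a y := fun a ha =>
    (hD (a + 1) (Finset.mem_range.1 ha)).sub (hD a (Finset.mem_range.1 ha).le)
  have h2 := fun a (ha : a ∈ Finset.range k) => hone a (Finset.mem_range.1 ha).le _ (hΓ a ha)
    fun x => sub_nonneg.2 (hDm a (Finset.mem_range.1 ha) x)
  have h3 := integrable_finsetSum _ fun a ha => (h2 a ha).1
  refine ⟨h1.1.sub h3, ?_⟩
  rw [integral_sub h1.1 h3, integral_finsetSum _ fun a ha => (h2 a ha).1]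
  have h4 : -∑ a ∈ Finset.range k,
      ∫ x, m a x * lineDeriv ℝ (fun y => D (a + 1) y - D a y) x f ≤
      ‖f‖ * ∑ a ∈ Finset.range k, ∫ x, G x * (D (a + 1) x - D a x) := by
    rw [← Finset.sum_neg_distrib, Finset.mul_sum]
    exact Finset.sum_le_sum fun a ha => (neg_le_abs _).trans (h2 a ha).2
  have h5 : ∑ a ∈ Finset.range k, ∫ x, G x * (D (a + 1) x - D a x) ≤ ∫ x, G x * Ek x := by
    rw [← integral_finsetSum _ fun a ha => hGi (hΓ a ha).integrable]
    refine integral_mono (integrable_finsetSum _ fun a ha => hGi (hΓ a ha).integrable) (hGi hE)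
      fun x => ?_
    simp only
    rw [← Finset.mul_sum, Finset.sum_range_sub (fun a => D a x)]
    exact mul_le_mul_of_nonneg_left (by linarith [hD0 x, hDE x]) (hG x).1
  have h6 : ∫ x, G x * D k x ≤ ∫ x, G x * Ek x :=
    integral_mono (hGi (hD k le_rfl).integrable) (hGi hE)
      fun x => mul_le_mul_of_nonneg_left (hDE x) (hG x).1
  have h7 := (le_abs_self _).trans h1.2
  have h8 := mul_le_mul_of_nonneg_left h5 (norm_nonneg f)
  have h9 := mul_le_mul_of_nonneg_left h6 (norm_nonneg f)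
  linarith

theorem tree (K : ℕ) (f : E) (b w ad Ek Gk : ℕ → E → ℝ) (M : E → ℝ) (X : ℕ → Set E)
    (hb : ∀ k ≤ K, (∃ C, LipschitzWith C (b k)) ∧ HasCompactSupport (b k))
    (hM : ∃ C, LipschitzWith C M) (hMb : ∀ k ≤ K, ∀ x, b k x ≤ M x)
    (hX : ∀ k, MeasurableSet (X k)) (hXd : Pairwise (Function.onFun Disjoint X))
    (hXb : ∀ k ≤ K, ∀ x ∈ X k, b k x = M x)
    (hw : ∀ k ≤ K, ∃ C, LipschitzWith C (w k)) (hw0 : ∀ k ≤ K, ∀ x, 0 ≤ w k x ∧ w k x ≤ 1)
    (had : ∀ k ≤ K, Measurable (ad k) ∧ ∀ x, 0 ≤ ad k x ∧ ad k x ≤ w k x)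
    (had0 : ∀ x, ad 0 x = w 0 x) (hadS : ∀ k < K, ∀ x, w (k + 1) x - w k x ≤ ad (k + 1) x)
    (hGm : ∀ k ≤ K, Measurable (Gk k) ∧ ∃ C, ∀ x, 0 ≤ Gk k x ∧ Gk k x ≤ C)
    (hG : ∀ k ≤ K, ∀ x, ∀ j ≤ k, ∀ᶠ y in 𝓝 x, |w j y - w j x| ≤ Gk k x * ‖y - x‖)
    (hE : ∀ k < K, Integrable (Ek (k + 1)) ∧
      ∀ x, 0 ≤ Ek (k + 1) x ∧ b (k + 1) x - b k x ≤ Ek (k + 1) x) :
    ∑ k ∈ Finset.range (K + 1), ∫ x in X k, w k x * |lineDeriv ℝ M x f| ≤
      3 * (∑ k ∈ Finset.range (K + 1), ∫ x, w k x * ng (lineDeriv ℝ (b k) x f)) +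
      (∑ k ∈ Finset.range (K + 1), ∫ x, ad k x * lineDeriv ℝ (b k) x f) +
      2 * ‖f‖ * ∑ k ∈ Finset.range K, ∫ x, Gk (k + 1) x * Ek (k + 1) x := by
  classical
  let MM : ℕ → ℕ → E → ℝ := fun a j x => mxx (fun i => b i x) a j
  let mm : ℕ → ℕ → E → ℝ := fun a j x => mn (fun i => w i x) a j
  let D : ℕ → ℕ → E → ℝ := fun k a x => MM a (k + 1) x - MM a k x
  have hMMs : ∀ a, MM a a = b a := fun a => funext fun x => mxx_self _ _
  have hMM : ∀ a j, a ≤ j → j ≤ K → tree_LC (MM a j) := by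
    intro a j haj
    induction j, haj using Nat.le_induction with
    | base => intro h; rw [hMMs]; exact hb a h
    | succ j haj ih =>
      intro h
      have : MM a (j + 1) = fun x => max (MM a j x) (b (j + 1) x) :=
        funext fun x => mxx_succ _ haj
      rw [this]
      exact (ih (by omega)).max (hb _ h)
  have hmm : ∀ a j, a ≤ j → j ≤ K → ∃ C, LipschitzWith C (mm a j) := by
    intro a j haj
    induction j, haj using Nat.le_induction with
    | base =>
      intro h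
      have : mm a a = w a := funext fun x => mn_self _ _
      rw [this]; exact hw a h
    | succ j haj ih =>
      intro h
      have : mm a (j + 1) = fun x => min (mm a j x) (w (j + 1) x) :=
        funext fun x => mn_succ _ haj
      rw [this]
      obtain ⟨C, hC⟩ := ih (by omega)
      obtain ⟨C', hC'⟩ := hw _ h
      exact ⟨_, hC.min hC'⟩
  have hDeq : ∀ k a, a ≤ k → ∀ x, D k a x = max (b (k + 1) x - MM a k x) 0 := by
    intro k a h x
    have : MM a (k + 1) x = max (MM a k x) (b (k + 1) x) := mxx_succ _ h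
    change MM a (k + 1) x - MM a k x = _
    rw [this, ← max_sub_sub_right, sub_self, max_comm]
  let T : ℕ → E → ℝ := fun k x => mm k (k + 1) x * lineDeriv ℝ (D k k) x f -
    ∑ a ∈ Finset.range k, mm a (k + 1) x * lineDeriv ℝ (fun y => D k (a + 1) y - D k a y) x f
  have hT : ∀ k < K, Integrable (T k) ∧
      ∫ x, T k x ≤ 2 * ‖f‖ * ∫ x, Gk (k + 1) x * Ek (k + 1) x := by
    intro k hk
    obtain ⟨hGme, CG, hCG⟩ := hGm (k + 1) hk
    refine tree_level k f (D k) (fun a => mm a (k + 1)) (Gk (k + 1)) (Ek (k + 1))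
      (fun a ha => (hMM a (k + 1) (by omega) hk).sub (hMM a k ha hk.le))
      (fun a ha => hmm a (k + 1) (by omega) hk) (fun a ha x => ?_) (fun a ha x => ?_)
      (fun x => ?_) (fun a ha x => ?_) (fun x => ?_) hGme hCG (hE k hk).1
    · exact mn_mem (by omega) fun i _ hi => hw0 i (by omega) x
    · have : ∀ᶠ y in 𝓝 x, ∀ j ∈ Finset.range (k + 2),
          |w j y - w j x| ≤ Gk (k + 1) x * ‖y - x‖ :=
        (eventually_all_finset _).2 fun j hj =>
          hG (k + 1) hk x j (by have := Finset.mem_range.1 hj; omega)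
      filter_upwards [this] with y hy
      exact abs_mn_sub_le (by omega) fun i _ hi => hy i (Finset.mem_range.2 (by omega))
    · rw [hDeq k 0 (Nat.zero_le k)]; exact le_max_right _ _
    · rw [hDeq k a ha.le, hDeq k (a + 1) ha]
      have : MM (a + 1) k x ≤ MM a k x := mxx_anti _ ha
      exact max_le_max (by linarith) le_rfl
    · rw [hDeq k k le_rfl, hMMs]
      exact max_le ((hE k hk).2 x).2 ((hE k hk).2 x).1
  obtain ⟨CM, hCM⟩ := hM
  have hae : ∀ᵐ x : E, LineDifferentiableAt ℝ M x f ∧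
      ∀ a j, a ≤ j → j ≤ K → LineDifferentiableAt ℝ (MM a j) x f := by
    refine (hCM.ae_lineDifferentiableAt f).and
      (ae_all_iff.2 fun a => ae_all_iff.2 fun j => ?_)
    by_cases h : a ≤ j ∧ j ≤ K
    · obtain ⟨⟨C, hC⟩, -⟩ := hMM a j h.1 h.2
      filter_upwards [hC.ae_lineDifferentiableAt (μ := volume) f] with x hx _ _ using hx
    · exact Eventually.of_forall fun x h1 h2 => absurd ⟨h1, h2⟩ h
  have hq : ∀ x, (LineDifferentiableAt ℝ M x f ∧
      ∀ a j, a ≤ j → j ≤ K → LineDifferentiableAt ℝ (MM a j) x f) → ∀ κ ≤ K, x ∈ X κ →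
      ∀ a j, a ≤ κ → κ ≤ j → j ≤ K → lineDeriv ℝ (MM a j) x f = lineDeriv ℝ M x f := by
    intro x hx κ hκ hxκ a j h1 h2 h3
    have hle : ∀ y, MM a j y ≤ M y := fun y => by
      obtain ⟨i, -, hi, he⟩ := exists_mxx_eq (fun i => b i y) (h1.trans h2)
      exact he.le.trans (hMb i (hi.trans h3) y)
    refine touch (Eventually.of_forall hle) (le_antisymm (hle x) ?_)
      (hx.2 a j (h1.trans h2) h3).hasLineDerivAt hx.1.hasLineDerivAt
    rw [← hXb κ hκ x hxκ]
    exact le_mxx (fun i => b i x) h1 h2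
  have hbi : ∀ k ≤ K, Integrable fun x => lineDeriv ℝ (b k) x f := fun k hk => by
    obtain ⟨⟨C, hC⟩, hc⟩ := hb k hk
    exact integrable_lineDeriv hC hc f
  have hwm : ∀ k ≤ K, AEStronglyMeasurable (w k) volume := fun k hk => by
    obtain ⟨C, hC⟩ := hw k hk
    exact hC.continuous.aestronglyMeasurable
  have hwb : ∀ k ≤ K, ∀ᵐ x : E, ‖w k x‖ ≤ 1 := fun k hk => Eventually.of_forall fun x => by
    rw [Real.norm_of_nonneg (hw0 k hk x).1]; exact (hw0 k hk x).2
  have i1 : ∀ k ∈ Finset.range (K + 1),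
      Integrable ((X k).indicator fun x => w k x * |lineDeriv ℝ M x f|) := by
    intro k hk
    have hk' : k ≤ K := Nat.lt_succ_iff.1 (Finset.mem_range.1 hk)
    rw [integrable_indicator_iff (hX k)]
    refine (((hbi k hk').abs.bdd_mul (hwm k hk') (hwb k hk')).integrableOn).congr_fun_ae ?_
    rw [EventuallyEq, ae_restrict_iff' (hX k)]
    filter_upwards [hae] with x hx hxk
    rw [← hq x hx k hk' hxk k k le_rfl le_rfl hk', hMMs]
  have i2 : ∀ k ∈ Finset.range (K + 1),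
      Integrable fun x => w k x * ng (lineDeriv ℝ (b k) x f) := by
    intro k hk
    have hk' : k ≤ K := Nat.lt_succ_iff.1 (Finset.mem_range.1 hk)
    exact (hbi k hk').neg_part.bdd_mul (hwm k hk') (hwb k hk')
  have i3 : ∀ k ∈ Finset.range (K + 1),
      Integrable fun x => ad k x * lineDeriv ℝ (b k) x f := by
    intro k hk
    have hk' : k ≤ K := Nat.lt_succ_iff.1 (Finset.mem_range.1 hk)
    refine (hbi k hk').bdd_mul (c := 1) (had k hk').1.aestronglyMeasurable
      (Eventually.of_forall fun x => ?_)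
    rw [Real.norm_of_nonneg ((had k hk').2 x).1]
    exact ((had k hk').2 x).2.trans (hw0 k hk' x).2
  have i4 : ∀ k ∈ Finset.range K, Integrable (T k) := fun k hk => (hT k (Finset.mem_range.1 hk)).1
  have key : ∀ᵐ x : E,
      ∑ k ∈ Finset.range (K + 1), (X k).indicator (fun x => w k x * |lineDeriv ℝ M x f|) x ≤
        3 * ∑ k ∈ Finset.range (K + 1), w k x * ng (lineDeriv ℝ (b k) x f) +
        ∑ k ∈ Finset.range (K + 1), ad k x * lineDeriv ℝ (b k) x f +
        ∑ k ∈ Finset.range K, T k x := by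
    filter_upwards [hae] with x hx
    have hn : ∀ k ≤ K, 0 ≤ ng (lineDeriv ℝ (b k) x f) := fun k _ => le_max_right _ _
    have hp : ∀ a j, a ≤ j → j ≤ K → ng (lineDeriv ℝ (MM a j) x f) ≤
        ∑ k ∈ Finset.Icc a j, ng (lineDeriv ℝ (b k) x f) := by
      intro a j h1 h2
      obtain ⟨i, hi1, hi2, he⟩ := exists_mxx_eq (fun i => b i x) h1
      have hd : LineDifferentiableAt ℝ (b i) x f := hMMs i ▸ hx.2 i i le_rfl (hi2.trans h2)
      have : lineDeriv ℝ (b i) x f = lineDeriv ℝ (MM a j) x f :=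
        touch (Eventually.of_forall fun y => le_mxx (fun i => b i y) hi1 hi2) he.symm
          hd.hasLineDerivAt (hx.2 a j h1 h2).hasLineDerivAt
      rw [← this]
      exact Finset.single_le_sum (f := fun k => ng (lineDeriv ℝ (b k) x f))
        (fun k _ => le_max_right _ _) (Finset.mem_Icc.2 ⟨hi1, hi2⟩)
    have hD : ∀ k < K, ∀ a ≤ k, HasLineDerivAt ℝ (D k a)
        (lineDeriv ℝ (MM a (k + 1)) x f - lineDeriv ℝ (MM a k) x f) x f := fun k hk a ha =>
      HasDerivAt.sub (hx.2 a (k + 1) (by omega) hk).hasLineDerivAt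
        (hx.2 a k ha hk.le).hasLineDerivAt
    have hTx : ∑ k ∈ Finset.range K, T k x = ∑ k ∈ Finset.range K, ∑ a ∈ Finset.range (k + 1),
        om (fun i => w i x) a (k + 1) *
          (lineDeriv ℝ (MM a (k + 1)) x f - lineDeriv ℝ (MM a k) x f) := by
      refine Finset.sum_congr rfl fun k hk => ?_
      have hk' := Finset.mem_range.1 hk
      rw [abel_a (fun i => w i x) k
        (fun a => lineDeriv ℝ (MM a (k + 1)) x f - lineDeriv ℝ (MM a k) x f)]
      simp only [T]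
      rw [(hD k hk' k le_rfl).lineDeriv]
      congr 1
      refine Finset.sum_congr rfl fun a ha => ?_
      have ha' := Finset.mem_range.1 ha
      have : HasLineDerivAt ℝ (fun y => D k (a + 1) y - D k a y) _ x f :=
        HasDerivAt.sub (hD k hk' (a + 1) ha') (hD k hk' a ha'.le)
      rw [this.lineDeriv]
    have hbx : ∑ k ∈ Finset.range (K + 1), ad k x * lineDeriv ℝ (b k) x f =
        ∑ k ∈ Finset.range (K + 1), ad k x * lineDeriv ℝ (MM k k) x f := by
      simp only [hMMs]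
    rw [hTx, hbx]
    by_cases hex : ∃ κ ∈ Finset.range (K + 1), x ∈ X κ
    · obtain ⟨κ, hκ, hxκ⟩ := hex
      have hκ' : κ ≤ K := Nat.lt_succ_iff.1 (Finset.mem_range.1 hκ)
      rw [Finset.sum_eq_single_of_mem κ hκ fun j _ hj =>
        indicator_of_notMem (fun hxj => Set.disjoint_left.1 (hXd hj) hxj hxκ) _,
        indicator_of_mem hxκ]
      exact tree_pt K κ hκ' (fun i => w i x) (fun i => ad i x)
        (fun k => ng (lineDeriv ℝ (b k) x f)) (fun a j => lineDeriv ℝ (MM a j) x f) _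
        (fun k hk => (hw0 k hk x).1) (fun k hk => (had k hk).2 x) (had0 x)
        (fun k hk => hadS k hk x) hn (hq x hx κ hκ' hxκ) hp
    · rw [Finset.sum_eq_zero fun j hj => indicator_of_notMem (fun hxj => hex ⟨j, hj, hxj⟩) _]
      exact tree_pt0 K (fun i => w i x) (fun i => ad i x)
        (fun k => ng (lineDeriv ℝ (b k) x f)) (fun a j => lineDeriv ℝ (MM a j) x f)
        (fun k hk => (hw0 k hk x).1) (fun k hk => (had k hk).2 x) (had0 x)
        (fun k hk => hadS k hk x) hn hp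
  have j2 := (integrable_finsetSum _ i2).const_mul 3
  have j3 := integrable_finsetSum _ i3
  have j4 := integrable_finsetSum _ i4
  have main := integral_mono_ae (integrable_finsetSum _ i1) ((j2.add j3).add j4) key
  have e1 : ∫ x, ∑ k ∈ Finset.range (K + 1),
      (X k).indicator (fun x => w k x * |lineDeriv ℝ M x f|) x =
      ∑ k ∈ Finset.range (K + 1), ∫ x in X k, w k x * |lineDeriv ℝ M x f| := by
    rw [integral_finsetSum _ i1]
    exact Finset.sum_congr rfl fun k _ => integral_indicator (hX k)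
  rw [e1, integral_add' (j2.add j3) j4, integral_add' j2 j3, integral_const_mul,
    integral_finsetSum _ i2, integral_finsetSum _ i3, integral_finsetSum _ i4] at main
  refine main.trans (add_le_add le_rfl ?_)
  rw [Finset.mul_sum]
  exact Finset.sum_le_sum fun k hk => (hT k (Finset.mem_range.1 hk)).2

end Crest.Agent.R112
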