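import Crest.Agent.R112.Ebd
import Crest.Agent.R112.Osc
import Crest.Agent.R112.Tree

/-!
# R112/Cost: the last two terms of the tree lemma

`tot_le`: `sum_abs_mass_le`, `abs_dv_le`, `‖e0‖ = ‖e1‖ = 1`.
`pay_VB`: `VB K l (pt l z) (3 mesh l) = Y + Bot + Bot`; use `W.pay`, `tot_le` and (with `a ≤ 1`)
`sum_Bot_le`.
`cost_G`: `∫ Gk (k+1) * Ek (k+1) = ∑_{l ≤ k} ∑ z, a l z * (2 / mesh l) * ∫ x in Q (pt l z) (2 mesh l), Ek (k+1) x`;
`integral_Ek_le`, `VB_mono` (`2 mesh l + 2 mesh (k+1) ≤ 3 mesh l`), `VB_level`, and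
`mesh (k+1) / mesh l * 2^(k+1-l) ≤ (1/2)^(k+1-l)` (`mesh_le_of_lt`); exchange the sums over `k` and
`l` and sum the geometric series; finish with `pay_VB`.
`hat_lineDeriv`: with `ρ' = mesh (l+1)`, `b (l+1) = avg h · ρ' + Ek (l+1)`, both Lipschitz.
For `Ek`: `ibp_le` with `m = ht l z`, `Γ = Ek (l+1)`, `G = (Q (pt l z) (2 mesh l)).indicator (2 / mesh l)`,
then as in `cost_G`. For the average: `lineDeriv = avg (dv h f) x ρ' = π⁻¹ ∫ y in ball 0 1, dv h f (x + ρ' • y)`
(`avg_hasLineDerivAt`, `avg_scale`); Fubini; for fixed `y` in the unit disc,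
`∫ x, ht l z x * dv h f (x + ρ' • y) = ∫ x, ht l z (x - ρ' • y) * dv h f x`; split `dv h f` with `dv_eq`
and apply `lipL` at level `l` (`H = 1`, `Lu = 2 / mesh l`, `c = pt l z`, `T = 2 mesh l`).
`cost_fresh`: level `0`: `∫ lineDeriv (b 0) · f = 0` (`LipschitzWith.integral_lineDeriv_mul_eq` against a
constant); level `l+1`: linearity, `0 ≤ ad ≤ a`, `hat_lineDeriv`, `pay_VB`.
-/

namespace Crest.Agent.R112

open MeasureTheory Metric Set Filter Topology
open scoped RealInnerProductSpace NNReal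

theorem Grid.Fits.refines_mX {G : Grid} {h : E → ℝ} (hh : G.Fits h) (K : ℕ) :
    G.Refines K (G.mX h) := G.mass_refines (hh.1.integrable_dv e0) (hh.dv_dom e0) K
theorem Grid.Fits.refines_mY {G : Grid} {h : E → ℝ} (hh : G.Fits h) (K : ℕ) :
    G.Refines K (G.mY h) := G.mass_refines (hh.1.integrable_dv e1) (hh.dv_dom e1) K

private theorem cost_dv0 {h : E → ℝ} (hh : C1c h) :
    ∫ y, |dv h e0 y| ≤ ∫ y, ‖gradient h y‖ := by
  refine integral_mono (hh.integrable_dv e0).abs hh.integrable_gradient.norm fun y => ?_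
  simp only [dv_e0]
  exact abs_coord_le _ 0

private theorem cost_dv1 {h : E → ℝ} (hh : C1c h) :
    ∫ y, |dv h e1 y| ≤ ∫ y, ‖gradient h y‖ := by
  refine integral_mono (hh.integrable_dv e1).abs hh.integrable_gradient.norm fun y => ?_
  simp only [dv_e1]
  exact abs_coord_le _ 1

theorem Grid.Fits.tot_le {G : Grid} {h : E → ℝ} (hh : G.Fits h) (K : ℕ) :
    G.tot (G.mX h) (G.mY h) K ≤ 2 * ∫ y, ‖gradient h y‖ := by
  unfold Grid.tot
  rw [Finset.sum_add_distrib]
  have h1 := G.sum_abs_mass_le (hh.1.integrable_dv e0) K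
  have h2 := G.sum_abs_mass_le (hh.1.integrable_dv e1) K
  have h3 := cost_dv0 hh.1
  have h4 := cost_dv1 hh.1
  unfold Grid.mX Grid.mY
  linarith

theorem pay_VB : ∃ C : ℝ, 0 ≤ C ∧ ∀ (G : Grid) (h : E → ℝ), G.Fits h → ∀ (K : ℕ)
    (W : Wts G K (G.mX h) (G.mY h)),
    ∑ l ∈ Finset.range (K + 1), ∑ z ∈ G.nodes l, W.a l z * G.VB h K l (G.pt l z) (3 * G.mesh l) ≤
      C * ∫ y, ‖gradient h y‖ := by
  refine ⟨2 * 10 ^ 11 + 196, by positivity, fun G h hh K W => ?_⟩
  have h1 := W.pay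
  have h2 := hh.tot_le K
  have h3 := sum_Bot_le G (hh.1.integrable_dv e0) K
  have h4 := sum_Bot_le G (hh.1.integrable_dv e1) K
  have h5 := cost_dv0 hh.1
  have h6 := cost_dv1 hh.1
  have key : ∑ l ∈ Finset.range (K + 1), ∑ z ∈ G.nodes l,
      W.a l z * G.VB h K l (G.pt l z) (3 * G.mesh l) ≤
      ∑ l ∈ Finset.range (K + 1), ∑ z ∈ G.nodes l, W.a l z * G.Y (G.mX h) (G.mY h) K l z +
      ∑ l ∈ Finset.range (K + 1), ∑ z ∈ G.nodes l, Bot (dv h e0) K l (G.pt l z) (3 * G.mesh l) +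
      ∑ l ∈ Finset.range (K + 1), ∑ z ∈ G.nodes l,
        Bot (dv h e1) K l (G.pt l z) (3 * G.mesh l) := by
    rw [← Finset.sum_add_distrib, ← Finset.sum_add_distrib]
    refine Finset.sum_le_sum fun l _ => ?_
    rw [← Finset.sum_add_distrib, ← Finset.sum_add_distrib]
    refine Finset.sum_le_sum fun z _ => ?_
    unfold Grid.VB Grid.Y
    have a1 := W.a_le l z
    have b1 := mul_le_of_le_one_left (Bot_nonneg (dv h e0) K l (G.pt l z) (3 * G.mesh l)) a1
    have b2 := mul_le_of_le_one_left (Bot_nonneg (dv h e1) K l (G.pt l z) (3 * G.mesh l)) a1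
    linarith
  unfold eps at h1
  linarith

/-- the excess of level `k > l` integrated over a square of level `l` -/
private theorem cost_Ek : ∃ C : ℝ, 0 ≤ C ∧ ∀ (G : Grid) (h : E → ℝ), G.Fits h → ∀ K l k, l < k →
    k ≤ K → ∀ c : E, 2 / G.mesh l * ∫ x in Q c (2 * G.mesh l), G.Ek h k x ≤
      C * (1 / 2 : ℝ) ^ (k - l) * G.VB h K l c (3 * G.mesh l) := by
  obtain ⟨C, hC, H⟩ := integral_Ek_le
  refine ⟨C, hC, fun G h hh K l k hlk hk c => ?_⟩
  have hl := G.mesh_pos l
  have hkp := G.mesh_pos k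
  have h1 := H G h hh K k hk c (2 * G.mesh l)
  have hm := G.mesh_le_of_lt hlk
  have hq : (1 / 4 : ℝ) ^ (k - l) ≤ 1 := pow_le_one₀ (by norm_num) (by norm_num)
  have hm' : 16 * G.mesh k ≤ G.mesh l := hm.trans (mul_le_of_le_one_left hl.le hq)
  have h2 : G.VB h K k c (2 * G.mesh l + 2 * G.mesh k) ≤ G.VB h K k c (3 * G.mesh l) :=
    hh.VB_mono K k (by rw [dinf_self]; linarith)
  have h3 := G.VB_level h hlk.le hk c (3 * G.mesh l)
  have hV := G.VB_nonneg h K l c (3 * G.mesh l)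
  have h4 : 2 / G.mesh l * G.mesh k * 2 ^ (k - l) ≤ (1 / 2 : ℝ) ^ (k - l) := by
    have e : (1 / 2 : ℝ) ^ (k - l) = (1 / 4 : ℝ) ^ (k - l) * 2 ^ (k - l) := by
      rw [← mul_pow]; norm_num
    rw [e]
    refine mul_le_mul_of_nonneg_right ?_ (by positivity)
    rw [div_mul_eq_mul_div, div_le_iff₀ hl]
    linarith
  calc 2 / G.mesh l * ∫ x in Q c (2 * G.mesh l), G.Ek h k x
      ≤ 2 / G.mesh l * (C * G.mesh k * (2 ^ (k - l) * G.VB h K l c (3 * G.mesh l))) := by
        refine mul_le_mul_of_nonneg_left (h1.trans ?_) (by positivity)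
        exact mul_le_mul_of_nonneg_left (h2.trans h3) (by positivity)
    _ = C * (2 / G.mesh l * G.mesh k * 2 ^ (k - l)) * G.VB h K l c (3 * G.mesh l) := by ring
    _ ≤ C * (1 / 2 : ℝ) ^ (k - l) * G.VB h K l c (3 * G.mesh l) :=
        mul_le_mul_of_nonneg_right (mul_le_mul_of_nonneg_left h4 hC) hV

private theorem cost_geom (u : ℕ → ℝ) (K : ℕ) :
    ∑ k ∈ Finset.range K, ∑ l ∈ Finset.range (k + 1), (1 / 2 : ℝ) ^ (k + 1 - l) * u l +
      ∑ l ∈ Finset.range K, (1 / 2 : ℝ) ^ (K - l) * u l = ∑ l ∈ Finset.range K, u l := by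
  induction K with
  | zero => simp
  | succ K ih =>
    have e : ∑ l ∈ Finset.range (K + 1), (1 / 2 : ℝ) ^ (K + 1 - l) * u l =
        1 / 2 * (∑ l ∈ Finset.range K, (1 / 2 : ℝ) ^ (K - l) * u l + u K) := by
      rw [Finset.sum_range_succ, mul_add, Finset.mul_sum]
      congr 1
      · refine Finset.sum_congr rfl fun l hl => ?_
        rw [Finset.mem_range] at hl
        rw [show K + 1 - l = (K - l) + 1 by omega, pow_succ]
        ring
      · simp
    rw [Finset.sum_range_succ (fun k => ∑ l ∈ Finset.range (k + 1),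
      (1 / 2 : ℝ) ^ (k + 1 - l) * u l), Finset.sum_range_succ u, e]
    linarith

private theorem cost_Ek_int {G : Grid} {h : E → ℝ} (hh : G.Fits h) (k : ℕ) :
    Integrable (G.Ek h k) := by
  obtain ⟨L, hL⟩ := hh.Ek_lipschitz k
  exact hL.continuous.integrable_of_hasCompactSupport (hh.Ek_hasCompactSupport k)

private theorem cost_ind {g : E → ℝ} (hg : Integrable g) (c : E) (T t : ℝ) :
    Integrable (fun x => (Q c T).indicator (fun _ => t) x * g x) ∧
      ∫ x, (Q c T).indicator (fun _ => t) x * g x = t * ∫ x in Q c T, g x := by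
  have e : (fun x => (Q c T).indicator (fun _ => t) x * g x) =
      (Q c T).indicator (fun x => t * g x) := by
    funext x
    by_cases hx : x ∈ Q c T
    · simp only [indicator_of_mem hx]
    · simp only [indicator_of_notMem hx, zero_mul]
  rw [e]
  refine ⟨(hg.const_mul t).indicator (measurableSet_Q _ _), ?_⟩
  rw [integral_indicator (measurableSet_Q _ _), integral_const_mul]

theorem cost_G : ∃ C : ℝ, 0 ≤ C ∧ ∀ (G : Grid) (h : E → ℝ), G.Fits h → ∀ (K : ℕ)
    (W : Wts G K (G.mX h) (G.mY h)),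
    ∑ k ∈ Finset.range K, ∫ x, W.Gk (k + 1) x * G.Ek h (k + 1) x ≤
      C * ∫ y, ‖gradient h y‖ := by
  obtain ⟨C, hC, H⟩ := cost_Ek
  obtain ⟨C', hC', H'⟩ := pay_VB
  refine ⟨C * C', by positivity, fun G h hh K W => ?_⟩
  set u : ℕ → ℝ := fun l => ∑ z ∈ G.nodes l, W.a l z * G.VB h K l (G.pt l z) (3 * G.mesh l)
    with hu
  have hu0 : ∀ l, 0 ≤ u l := fun l =>
    Finset.sum_nonneg fun z _ => mul_nonneg (W.a_nonneg l z) (G.VB_nonneg _ _ _ _ _)
  have key : ∀ k ∈ Finset.range K, ∫ x, W.Gk (k + 1) x * G.Ek h (k + 1) x ≤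
      C * ∑ l ∈ Finset.range (k + 1), (1 / 2 : ℝ) ^ (k + 1 - l) * u l := by
    intro k hk
    rw [Finset.mem_range] at hk
    have hi := cost_Ek_int hh (k + 1)
    unfold Wts.Gk
    simp only [Finset.sum_mul]
    rw [integral_finsetSum _ fun l _ => integrable_finsetSum _ fun z _ => (cost_ind hi _ _ _).1,
      Finset.mul_sum]
    refine Finset.sum_le_sum fun l hl => ?_
    rw [Finset.mem_range] at hl
    rw [integral_finsetSum _ fun z _ => (cost_ind hi _ _ _).1]
    simp only [hu, Finset.mul_sum]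
    refine Finset.sum_le_sum fun z _ => ?_
    rw [(cost_ind hi _ _ _).2]
    have h1 := mul_le_mul_of_nonneg_left (H G h hh K l (k + 1) hl hk (G.pt l z)) (W.a_nonneg l z)
    linarith
  have h1 := Finset.sum_le_sum key
  rw [← Finset.mul_sum] at h1
  have h2 := cost_geom u K
  have h3 : 0 ≤ ∑ l ∈ Finset.range K, (1 / 2 : ℝ) ^ (K - l) * u l :=
    Finset.sum_nonneg fun l _ => mul_nonneg (by positivity) (hu0 l)
  have h4 : ∑ l ∈ Finset.range (K + 1), u l ≤ C' * ∫ y, ‖gradient h y‖ := H' G h hh K W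
  rw [Finset.sum_range_succ] at h4
  have h5 := hu0 K
  refine h1.trans ?_
  rw [mul_assoc]
  exact mul_le_mul_of_nonneg_left (by linarith) hC

/-- a shifted hat tested against a directional derivative -/
private theorem cost_shift {G : Grid} {h : E → ℝ} (hh : G.Fits h) {K l : ℕ} (hl : l ≤ K)
    (z : ℤ × ℤ) (f : E) {v : E} (hv : ‖v‖ ≤ G.mesh l) :
    |∫ x, G.ht l z x * dv h f (x + v)| ≤ 5 * ‖f‖ * G.VB h K l (G.pt l z) (3 * G.mesh l) := by
  have hm := G.mesh_pos l
  have e : ∫ x, G.ht l z x * dv h f (x + v) = ∫ x, G.ht l z (x + -v) * dv h f x := by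
    rw [← integral_add_right_eq_self (fun x => G.ht l z (x + -v) * dv h f x) v]
    simp only [add_neg_cancel_right]
  have hu1 : ∀ y, |G.ht l z (y + -v)| ≤ 1 := fun y => by
    have := hat_nonneg (G.mesh l) z (y + -v)
    have := hat_le_one (G.mesh l) z (y + -v)
    unfold Grid.ht
    rw [abs_le]
    constructor <;> linarith
  have hu2 : ∀ y y', |G.ht l z (y + -v) - G.ht l z (y' + -v)| ≤ 2 / G.mesh l * dinf y y' :=
    fun y y' => by
      have := hat_lip hm z (y + -v) (y' + -v)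
      rwa [dinf_add_right] at this
  have hu3 : ∀ y, 2 * G.mesh l < dinf y (G.pt l z) → G.ht l z (y + -v) = 0 := by
    intro y hy
    by_contra hne
    have h1 : dinf (y + -v) (G.pt l z) < G.mesh l := dinf_lt_of_hat_ne_zero hm hne
    have h2 := dinf_triangle y (y + -v) (G.pt l z)
    have h3 := dinf_le_norm y (y + -v)
    have h4 : y - (y + -v) = v := by abel
    rw [h4] at h3
    linarith
  have hL : ∀ w : E → ℝ, Integrable w → (∀ y, w y ≠ 0 → y ∈ G.dom) →
      |∫ y, G.ht l z (y + -v) * w y| ≤ 5 * (G.Vt (G.mass w) K l (G.pt l z) (3 * G.mesh l) +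
        Bot w K l (G.pt l z) (3 * G.mesh l)) := by
    intro w hw hs
    have := lipL G hl hw hs (u := fun y => G.ht l z (y + -v)) (by positivity) hu1 hu2 hu3
    have e1 : 1 + 2 * (2 / G.mesh l) * G.mesh l = 5 := by field_simp; norm_num
    have e2 : 2 * G.mesh l + G.mesh l = 3 * G.mesh l := by ring
    rwa [e1, e2] at this
  have hc : Continuous fun y => G.ht l z (y + -v) :=
    (continuous_hat _ _).comp (continuous_id.add continuous_const)
  have hi : ∀ w : E → ℝ, Integrable w → Integrable (fun y => G.ht l z (y + -v) * w y) :=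
    fun w hw => hw.bdd_mul hc.aestronglyMeasurable (Eventually.of_forall hu1)
  have i0 := hh.1.integrable_dv e0
  have i1 := hh.1.integrable_dv e1
  have e' : ∫ x, G.ht l z (x + -v) * dv h f x =
      f 0 * (∫ x, G.ht l z (x + -v) * dv h e0 x) + f 1 * ∫ x, G.ht l z (x + -v) * dv h e1 x := by
    rw [← integral_const_mul, ← integral_const_mul,
      ← integral_add ((hi _ i0).const_mul _) ((hi _ i1).const_mul _)]
    refine integral_congr_ae (Eventually.of_forall fun x => ?_)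
    simp only
    rw [dv_eq h f x]
    ring
  have b0 := mul_le_mul (abs_coord_le f 0) (hL _ i0 (hh.dv_dom e0)) (abs_nonneg _) (norm_nonneg _)
  have b1 := mul_le_mul (abs_coord_le f 1) (hL _ i1 (hh.dv_dom e1)) (abs_nonneg _) (norm_nonneg _)
  rw [e, e']
  refine (abs_add_le _ _).trans ?_
  rw [abs_mul, abs_mul]
  unfold Grid.VB Grid.mX Grid.mY
  linarith

private theorem cost_avg {G : Grid} {h : E → ℝ} (hh : G.Fits h) {K l : ℕ} (hl : l ≤ K)
    (z : ℤ × ℤ) (f : E) {r : ℝ} (hr0 : 0 < r) (hr : r ≤ G.mesh l) :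
    |∫ x, G.ht l z x * avg (dv h f) x r| ≤ 5 * ‖f‖ * G.VB h K l (G.pt l z) (3 * G.mesh l) := by
  have hm := G.mesh_pos l
  obtain ⟨M, hM⟩ := hh.1.continuous_gradient.bounded_above_of_compact_support
    hh.1.hasCompactSupport_gradient
  have hhat : Integrable (G.ht l z) :=
    (continuous_hat _ _).integrable_of_hasCompactSupport (hasCompactSupport_hat hm z)
  have hfin : volume (ball (0 : E) 1) < ⊤ := measure_ball_lt_top
  have hint : Integrable (Function.uncurry fun x y : E => G.ht l z x * dv h f (x + r • y))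
      (volume.prod (volume.restrict (ball (0 : E) 1))) := by
    have hb : Integrable (fun p : E × E => G.ht l z p.1 * (fun _ : E => ‖f‖ * M) p.2)
        (volume.prod (volume.restrict (ball (0 : E) 1))) :=
      hhat.mul_prod (integrableOn_const hfin.ne)
    refine hb.mono' ?_ (Eventually.of_forall fun p => ?_)
    · have hc : Continuous (Function.uncurry fun x y : E => G.ht l z x * dv h f (x + r • y)) :=
        ((continuous_hat _ _).comp continuous_fst).mul
          ((hh.1.continuous_dv f).comp (continuous_fst.add (continuous_snd.const_smul r)))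
      exact hc.aestronglyMeasurable
    · show ‖G.ht l z p.1 * dv h f (p.1 + r • p.2)‖ ≤ G.ht l z p.1 * (‖f‖ * M)
      have h0 : 0 ≤ G.ht l z p.1 := hat_nonneg _ _ _
      rw [norm_mul, Real.norm_eq_abs, Real.norm_eq_abs, abs_of_nonneg h0]
      refine mul_le_mul_of_nonneg_left ((abs_dv_le _ _ _).trans ?_) h0
      exact mul_le_mul_of_nonneg_left (hM _) (norm_nonneg _)
  have e : ∫ x, G.ht l z x * avg (dv h f) x r =
      Real.pi⁻¹ * ∫ y in ball (0 : E) 1, ∫ x, G.ht l z x * dv h f (x + r • y) := by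
    rw [← integral_integral_swap hint, ← integral_const_mul]
    refine integral_congr_ae (Eventually.of_forall fun x => ?_)
    simp only
    rw [avg_scale _ _ hr0, integral_const_mul]
    ring
  have hb : ‖∫ y in ball (0 : E) 1, ∫ x, G.ht l z x * dv h f (x + r • y)‖ ≤
      5 * ‖f‖ * G.VB h K l (G.pt l z) (3 * G.mesh l) * volume.real (ball (0 : E) 1) := by
    refine norm_setIntegral_le_of_norm_le_const hfin fun y hy => ?_
    rw [Real.norm_eq_abs]
    refine cost_shift hh hl z f ?_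
    rw [mem_ball, dist_zero_right] at hy
    rw [norm_smul, Real.norm_eq_abs, abs_of_pos hr0]
    exact (mul_le_of_le_one_right hr0.le hy.le).trans hr
  rw [volume_real_ball _ zero_le_one, Real.norm_eq_abs] at hb
  have hpi := Real.pi_pos
  rw [e, abs_mul, abs_of_pos (inv_pos.2 hpi), ← div_eq_inv_mul, div_le_iff₀ hpi]
  linarith

theorem hat_lineDeriv : ∃ C : ℝ, 0 ≤ C ∧ ∀ (G : Grid) (h : E → ℝ), G.Fits h → ∀ K l, l < K →
    ∀ (z : ℤ × ℤ) (f : E), |∫ x, G.ht l z x * lineDeriv ℝ (G.b h (l + 1)) x f| ≤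
      C * ‖f‖ * G.VB h K l (G.pt l z) (3 * G.mesh l) := by
  obtain ⟨C, hC, H⟩ := cost_Ek
  refine ⟨C + 5, by positivity, fun G h hh K l hl z f => ?_⟩
  have hm := G.mesh_pos l
  have hm' := G.mesh_pos (l + 1)
  obtain ⟨L, hL⟩ := hh.Ek_lipschitz (l + 1)
  obtain ⟨L', hL'⟩ := hh.b_lipschitz (l + 1)
  have hae : ∀ᵐ x, G.ht l z x * avg (dv h f) x (G.mesh (l + 1)) =
      G.ht l z x * lineDeriv ℝ (G.b h (l + 1)) x f -
        G.ht l z x * lineDeriv ℝ (G.Ek h (l + 1)) x f := by
    filter_upwards [hL'.ae_lineDifferentiableAt (μ := volume) f] with x hx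
    have h1 := hx.hasLineDerivAt
    have h2 := avg_hasLineDerivAt hh.1 x f hm'
    have h3 : HasLineDerivAt ℝ (G.Ek h (l + 1))
        (lineDeriv ℝ (G.b h (l + 1)) x f - avg (dv h f) x (G.mesh (l + 1))) x f :=
      HasDerivAt.sub h1 h2
    rw [h3.lineDeriv]
    ring
  have i1 := G.integrable_ht_mul (integrable_lineDeriv hL' (hh.b_hasCompactSupport _) f) l z
  have i2 := G.integrable_ht_mul (integrable_lineDeriv hL (hh.Ek_hasCompactSupport _) f) l z
  have e := integral_congr_ae hae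
  rw [integral_sub i1 i2] at e
  have b1 := cost_avg hh hl.le z f hm' (G.mesh_anti (Nat.le_succ l))
  have hi := cost_ind (cost_Ek_int hh (l + 1)) (G.pt l z) (2 * G.mesh l) (2 / G.mesh l)
  have b2 := ibp_le (m := G.ht l z)
    (G := (Q (G.pt l z) (2 * G.mesh l)).indicator (fun _ => 2 / G.mesh l))
    (hat_lipschitz hm z) hL (hh.Ek_hasCompactSupport _) (hh.Ek_nonneg _)
    (fun x => indicator_nonneg (fun _ _ => by positivity) x) ?_ hi.1 f
  · rw [hi.2] at b2
    have b3 := H G h hh K l (l + 1) (Nat.lt_succ_self l) hl (G.pt l z)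
    have hV := G.VB_nonneg h K l (G.pt l z) (3 * G.mesh l)
    have hq : (1 / 2 : ℝ) ^ (l + 1 - l) ≤ 1 := pow_le_one₀ (by norm_num) (by norm_num)
    have b4 : C * (1 / 2 : ℝ) ^ (l + 1 - l) * G.VB h K l (G.pt l z) (3 * G.mesh l) ≤
        C * G.VB h K l (G.pt l z) (3 * G.mesh l) :=
      mul_le_mul_of_nonneg_right (mul_le_of_le_one_right hC hq) hV
    have b5 := mul_le_mul_of_nonneg_left (b3.trans b4) (norm_nonneg f)
    rw [e] at b1
    have b6 := abs_add_le ((∫ x, G.ht l z x * lineDeriv ℝ (G.b h (l + 1)) x f) -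
      ∫ x, G.ht l z x * lineDeriv ℝ (G.Ek h (l + 1)) x f)
      (∫ x, G.ht l z x * lineDeriv ℝ (G.Ek h (l + 1)) x f)
    rw [sub_add_cancel] at b6
    linarith
  · intro x
    by_cases hx : x ∈ Q (G.pt l z) (2 * G.mesh l)
    · rw [indicator_of_mem hx]
      refine Eventually.of_forall fun y => (hat_lip hm z y x).trans ?_
      exact mul_le_mul_of_nonneg_left (dinf_le_norm y x) (by positivity)
    · rw [indicator_of_notMem hx]
      have hx' : 2 * G.mesh l < dinf x (G.pt l z) := not_le.1 hx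
      have ho : IsOpen {y : E | G.mesh l < dinf y (G.pt l z)} :=
        isOpen_lt continuous_const (continuous_dinf _)
      have hz : ∀ y, G.mesh l < dinf y (G.pt l z) → G.ht l z y = 0 := by
        intro y hy
        by_contra hne
        have h1 : dinf y (G.pt l z) < G.mesh l := dinf_lt_of_hat_ne_zero hm hne
        linarith
      have hxo : G.mesh l < dinf x (G.pt l z) := by linarith
      filter_upwards [ho.mem_nhds hxo] with y hy
      rw [hz y hy, hz x hxo]
      simp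

theorem cost_fresh : ∃ C : ℝ, 0 ≤ C ∧ ∀ (G : Grid) (h : E → ℝ), G.Fits h → ∀ (K : ℕ)
    (W : Wts G K (G.mX h) (G.mY h)) (s : St) (f : E),
    ∑ k ∈ Finset.range (K + 1), ∫ x, W.fresh s k x * lineDeriv ℝ (G.b h k) x f ≤
      C * ‖f‖ * ∫ y, ‖gradient h y‖ := by
  obtain ⟨C, hC, H⟩ := hat_lineDeriv
  obtain ⟨C', hC', H'⟩ := pay_VB
  refine ⟨C * C', by positivity, fun G h hh K W s f => ?_⟩
  rw [Finset.sum_range_succ']
  have h0 : ∫ x, W.fresh s 0 x * lineDeriv ℝ (G.b h 0) x f = 0 := by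
    obtain ⟨L, hL⟩ := hh.b_lipschitz 0
    have := LipschitzWith.integral_lineDeriv_mul_eq (μ := (volume : Measure E))
      (LipschitzWith.const' (1 / 4 : ℝ) (K := 0)) hL (hh.b_hasCompactSupport 0) (-f)
    rw [neg_neg] at this
    have e : ∀ x : E, lineDeriv ℝ (fun _ : E => (1 / 4 : ℝ)) x (-f) = 0 := fun x => by
      simp [lineDeriv]
    simp only [e, zero_mul, integral_zero] at this
    rw [this]
    refine integral_congr_ae (Eventually.of_forall fun x => ?_)
    simp only [Wts.fresh]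
    ring
  have key : ∀ l ∈ Finset.range K, ∫ x, W.fresh s (l + 1) x * lineDeriv ℝ (G.b h (l + 1)) x f ≤
      C * ‖f‖ * ∑ z ∈ G.nodes l, W.a l z * G.VB h K l (G.pt l z) (3 * G.mesh l) := by
    intro l hl
    rw [Finset.mem_range] at hl
    obtain ⟨L, hL⟩ := hh.b_lipschitz (l + 1)
    have i1 := fun z =>
      G.integrable_ht_mul (integrable_lineDeriv hL (hh.b_hasCompactSupport _) f) l z
    simp only [Wts.fresh, Finset.sum_mul, mul_assoc]
    rw [integral_finsetSum _ fun z _ => (i1 z).const_mul _, Finset.mul_sum, Finset.mul_sum]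
    refine Finset.sum_le_sum fun z _ => ?_
    rw [integral_const_mul]
    have h1 := H G h hh K l hl z f
    have h2 := mul_le_mul_of_nonneg_left
      (le_abs_self (∫ x, G.ht l z x * lineDeriv ℝ (G.b h (l + 1)) x f)) (W.ad_nonneg s l z)
    have h3 := mul_le_mul (W.ad_le s l z) h1 (abs_nonneg _) (W.a_nonneg l z)
    linarith
  have h1 := Finset.sum_le_sum key
  rw [← Finset.mul_sum] at h1
  have h4 := H' G h hh K W
  rw [Finset.sum_range_succ] at h4
  have h5 : 0 ≤ ∑ z ∈ G.nodes K, W.a K z * G.VB h K K (G.pt K z) (3 * G.mesh K) :=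
    Finset.sum_nonneg fun z _ => mul_nonneg (W.a_nonneg K z) (G.VB_nonneg _ _ _ _ _)
  rw [h0, add_zero]
  refine h1.trans ?_
  have h6 : C * ‖f‖ * ∑ l ∈ Finset.range K, ∑ z ∈ G.nodes l,
      W.a l z * G.VB h K l (G.pt l z) (3 * G.mesh l) ≤ C * ‖f‖ * (C' * ∫ y, ‖gradient h y‖) :=
    mul_le_mul_of_nonneg_left (by linarith) (by positivity)
  linarith

end Crest.Agent.R112
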