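import Crest.Agent.R112.Arr

/-!
# R112/Decomp: a density is (surviving positive part) - (surviving negative part) + killed pairs

`kill`: given nonnegative `Ap`, `Am` living in `Q c T` with masses `Mp`, `Mm`, put
`d = Mm - ng (Mp - Mm) = min Mp Mm`, `αp = (d / Mp) * Ap`, `αm = (d / Mm) * Am` (if `Mp = 0` then
`d = 0`), `p = Ap - αp`, `n = Am - αm`.

`decomp'` is proved by downward induction on `k` (induct on `K - k`).
Base `k = K`: `Ap Z = ht K Z * ng (-w)`, `Am Z = ht K Z * ng w`; `Mp - Mm = mass w K Z`,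
`d = bdf w K Z`; `w y = ∑ Z, ht K Z y * w y` (`sum_ht`, and `w y = 0` off the domain).
Step: from `p z`, `n z` (`z ∈ nodes (k+1)`) put `Ap Z = ∑ z, ht k Z (pt (k+1) z) * p z`,
`Am Z = ∑ z, ht k Z (pt (k+1) z) * n z`. They live in `Q (pt k Z) (mesh k)`: if
`ht k Z (pt (k+1) z) ≠ 0` then `dinf (pt (k+1) z) (pt k Z) < mesh k = Lam * mesh (k+1)`, and both
points are nodes of the fine lattice, so `dinf ≤ mesh k - mesh (k+1)` (`fine_gap`).
`Mp - Mm = mass w k Z` (`mass_refines`, `ng_neg_sub`), `d = dfc (mass w) k Z`, and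
`∑ Z, Ap Z = ∑ z, p z` by `sum_ht`, `pt_mem_dom`.
-/

namespace Crest.Agent.R112

open MeasureTheory Metric Set
open scoped RealInnerProductSpace

theorem Piece.decomp_mass_nonneg {g : E → ℝ} {c : E} {T d : ℝ} (h : Piece g c T d) : 0 ≤ d := by
  obtain ⟨-, -, h0, -, hd⟩ := h
  rw [← hd]
  exact integral_nonneg h0

private theorem decomp_smul {g : E → ℝ} {c : E} {T d : ℝ} (h : Piece g c T d) {t : ℝ}
    (ht : 0 ≤ t) : Piece (fun y => t * g y) c T (t * d) := by
  obtain ⟨h1, h2, h3, h4, h5⟩ := h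
  refine ⟨h1.const_mul t, h2.const_mul t, fun y => mul_nonneg ht (h3 y), fun y hy => h4 y ?_, ?_⟩
  · intro h0
    exact hy (by simp [h0])
  · rw [integral_const_mul, h5]

private theorem decomp_split {A : E → ℝ} {c : E} {T M d : ℝ} (h : Piece A c T M) (hd0 : 0 ≤ d)
    (hd : d ≤ M) : ∃ p α : E → ℝ, Piece p c T (M - d) ∧ Piece α c T d ∧ ∀ y, A y = p y + α y := by
  have hM : 0 ≤ M := h.decomp_mass_nonneg
  have ht0 : 0 ≤ d / M := div_nonneg hd0 hM
  have ht1 : d / M ≤ 1 := div_le_one_of_le₀ hd hM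
  have htM : d / M * M = d := by
    rcases hM.eq_or_lt with h0 | h0
    · have : d = 0 := le_antisymm (by linarith) hd0
      simp [this]
    · field_simp
  refine ⟨fun y => (1 - d / M) * A y, fun y => d / M * A y, ?_, ?_, fun y => by ring⟩
  · have := decomp_smul h (t := 1 - d / M) (by linarith)
    rwa [sub_mul, one_mul, htM] at this
  · have := decomp_smul h ht0
    rwa [htM] at this

theorem kill {Ap Am : E → ℝ} {c : E} {T Mp Mm : ℝ} (hp : Piece Ap c T Mp) (hm : Piece Am c T Mm) :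
    ∃ p n αp αm : E → ℝ, Piece p c T (ng (-(Mp - Mm))) ∧ Piece n c T (ng (Mp - Mm)) ∧
      Piece αp c T (Mm - ng (Mp - Mm)) ∧ Piece αm c T (Mm - ng (Mp - Mm)) ∧
      (∀ y, Ap y = p y + αp y) ∧ (∀ y, Am y = n y + αm y) := by
  have hMp := hp.decomp_mass_nonneg
  have hMm := hm.decomp_mass_nonneg
  have h1 := ng_neg_sub (Mp - Mm)
  have h2 := ng_nonneg (Mp - Mm)
  have h3 := ng_nonneg (-(Mp - Mm))
  have hd0 : 0 ≤ Mm - ng (Mp - Mm) := by
    unfold ng
    rcases le_total (-(Mp - Mm)) 0 with h | h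
    · rw [max_eq_right h]; linarith
    · rw [max_eq_left h]; linarith
  obtain ⟨p, αp, hp1, hp2, hp3⟩ := decomp_split hp hd0 (by linarith)
  obtain ⟨n, αm, hn1, hn2, hn3⟩ := decomp_split hm hd0 (by linarith)
  refine ⟨p, n, αp, αm, ?_, ?_, hp2, hn2, hp3, hn3⟩
  · have e : Mp - (Mm - ng (Mp - Mm)) = ng (-(Mp - Mm)) := by linarith
    rwa [e] at hp1
  · have e : Mm - (Mm - ng (Mp - Mm)) = ng (Mp - Mm) := by ring
    rwa [e] at hn1

private theorem decomp_gap {μ : ℝ} (hμ : 0 < μ) {L : ℕ} (a b : ℤ)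
    (h : |μ * a - L * μ * b| < L * μ) : |μ * a - L * μ * b| + μ ≤ L * μ := by
  have e : μ * a - L * μ * b = μ * ((a - L * b : ℤ) : ℝ) := by push_cast; ring
  rw [e, abs_mul, abs_of_pos hμ] at h ⊢
  have h1 : |((a - L * b : ℤ) : ℝ)| < L := by
    by_contra hc
    push Not at hc
    nlinarith
  have h2 : |a - L * b| < (L : ℤ) := by exact_mod_cast h1
  have h3 : |a - L * b| + 1 ≤ (L : ℤ) := h2
  have h4 : |((a - L * b : ℤ) : ℝ)| + 1 ≤ L := by exact_mod_cast h3
  nlinarith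

theorem fine_gap (G : Grid) {k : ℕ} {z Z : ℤ × ℤ} (h : G.ht k Z (G.pt (k + 1) z) ≠ 0) :
    dinf (G.pt (k + 1) z) (G.pt k Z) + G.mesh (k + 1) ≤ G.mesh k := by
  have h1 := dinf_lt_of_hat_ne_zero (G.mesh_pos k) h
  have hμ := G.mesh_pos (k + 1)
  have hs := G.mesh_succ k
  unfold Grid.pt at h1 ⊢
  unfold dinf node at h1 ⊢
  simp only [Matrix.cons_val_zero, Matrix.cons_val_one] at h1 ⊢
  rw [max_lt_iff] at h1
  rw [hs] at h1 ⊢
  have ha := decomp_gap hμ z.1 Z.1 h1.1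
  have hb := decomp_gap hμ z.2 Z.2 h1.2
  rcases le_total |G.mesh (k + 1) * z.1 - Lam * G.mesh (k + 1) * Z.1|
    |G.mesh (k + 1) * z.2 - Lam * G.mesh (k + 1) * Z.2| with h | h
  · rw [max_eq_right h]; exact hb
  · rw [max_eq_left h]; exact ha

/-- a nonnegative combination of pieces -/
private theorem decomp_sum {ι : Type*} (F : Finset ι) (t : ι → ℝ) (g : ι → E → ℝ) (cs : ι → E)
    (d : ι → ℝ) {c : E} {T T' : ℝ} (ht : ∀ i ∈ F, 0 ≤ t i)
    (hg : ∀ i ∈ F, Piece (g i) (cs i) T' (d i))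
    (hc : ∀ i ∈ F, t i ≠ 0 → dinf (cs i) c + T' ≤ T) :
    Piece (fun y => ∑ i ∈ F, t i * g i y) c T (∑ i ∈ F, t i * d i) := by
  refine ⟨?_, ?_, ?_, ?_, ?_⟩
  · exact Finset.measurable_sum F fun i hi => (hg i hi).1.const_mul _
  · exact integrable_finsetSum F fun i hi => (hg i hi).2.1.const_mul _
  · exact fun y => Finset.sum_nonneg fun i hi => mul_nonneg (ht i hi) ((hg i hi).2.2.1 y)
  · intro y hy
    obtain ⟨i, hi, hne⟩ := Finset.exists_ne_zero_of_sum_ne_zero hy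
    have h1 := hc i hi (left_ne_zero_of_mul hne)
    have h2 := (hg i hi).2.2.2.1 y (right_ne_zero_of_mul hne)
    have h3 := dinf_triangle y (cs i) c
    linarith
  · rw [integral_finsetSum F fun i hi => (hg i hi).2.1.const_mul _]
    refine Finset.sum_congr rfl fun i hi => ?_
    rw [integral_const_mul, (hg i hi).2.2.2.2]

private theorem decomp_hat (G : Grid) (K : ℕ) (Z : ℤ × ℤ) {v : E → ℝ} (hm : Measurable v)
    (hv : Integrable v) (h0 : ∀ y, 0 ≤ v y) :
    Piece (fun y => G.ht K Z y * v y) (G.pt K Z) (G.mesh K) (∫ y, G.ht K Z y * v y) := by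
  refine ⟨((continuous_hat _ _).measurable).mul hm, G.integrable_ht_mul hv K Z,
    fun y => mul_nonneg (hat_nonneg _ _ _) (h0 y), fun y hy => ?_, rfl⟩
  exact (dinf_lt_of_hat_ne_zero (G.mesh_pos K) (left_ne_zero_of_mul hy)).le

private theorem decomp_ng_int {w : E → ℝ} (hm : Measurable w) (hw : Integrable w) :
    Integrable (fun y => ng (w y)) := by
  refine Integrable.mono' hw.abs (continuous_ng.measurable.comp hm).aestronglyMeasurable
    (Filter.Eventually.of_forall fun y => ?_)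
  rw [Real.norm_eq_abs, abs_of_nonneg (ng_nonneg _)]
  exact ng_le_abs _

private theorem decomp_base (G : Grid) (K : ℕ) {w : E → ℝ} (hm : Measurable w)
    (hw : Integrable w) (hs : ∀ y, w y ≠ 0 → y ∈ G.dom) :
    ∃ (p n ap am : ℤ × ℤ → E → ℝ),
      (∀ Z ∈ G.nodes K, Piece (p Z) (G.pt K Z) (G.mesh K) (ng (-G.mass w K Z)) ∧
        Piece (n Z) (G.pt K Z) (G.mesh K) (ng (G.mass w K Z))) ∧
      (∀ Z ∈ G.nodes K, Piece (ap Z) (G.pt K Z) (G.mesh K) (G.bdf w K Z) ∧
        Piece (am Z) (G.pt K Z) (G.mesh K) (G.bdf w K Z)) ∧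
      ∀ y, w y = ∑ Z ∈ G.nodes K, p Z y - ∑ Z ∈ G.nodes K, n Z y +
        ∑ Z ∈ G.nodes K, (ap Z y - am Z y) := by
  have hi1 : Integrable (fun y => ng (-w y)) := decomp_ng_int hm.neg hw.neg
  have hi2 : Integrable (fun y => ng (w y)) := decomp_ng_int hm hw
  have hP := fun Z => decomp_hat G K Z (v := fun y => ng (-w y))
    (continuous_ng.measurable.comp hm.neg) hi1 (fun y => ng_nonneg _)
  have hN := fun Z => decomp_hat G K Z (v := fun y => ng (w y))
    (continuous_ng.measurable.comp hm) hi2 (fun y => ng_nonneg _)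
  have hmass : ∀ Z, (∫ y, G.ht K Z y * ng (-w y)) - (∫ y, G.ht K Z y * ng (w y)) =
      G.mass w K Z := by
    intro Z
    rw [← integral_sub (G.integrable_ht_mul hi1 K Z) (G.integrable_ht_mul hi2 K Z)]
    unfold Grid.mass
    refine integral_congr_ae (Filter.Eventually.of_forall fun y => ?_)
    simp only
    rw [← mul_sub, ng_neg_sub]
  choose p n ap am h1 h2 h3 h4 h5 h6 using fun Z => kill (hP Z) (hN Z)
  simp only [hmass] at h1 h2 h3 h4
  refine ⟨p, n, ap, am, fun Z _ => ⟨h1 Z, h2 Z⟩, fun Z _ => ⟨h3 Z, h4 Z⟩, fun y => ?_⟩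
  have e : ∑ Z ∈ G.nodes K, p Z y - ∑ Z ∈ G.nodes K, n Z y + ∑ Z ∈ G.nodes K, (ap Z y - am Z y) =
      (∑ Z ∈ G.nodes K, G.ht K Z y) * w y := by
    rw [← Finset.sum_sub_distrib, ← Finset.sum_add_distrib, Finset.sum_mul]
    refine Finset.sum_congr rfl fun Z _ => ?_
    have e1 := h5 Z y
    have e2 := h6 Z y
    have e3 := ng_neg_sub (w y)
    have : G.ht K Z y * w y = G.ht K Z y * ng (-w y) - G.ht K Z y * ng (w y) := by
      rw [← mul_sub, e3]
    rw [this, e1, e2]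
    ring
  rw [e]
  by_cases hy : w y = 0
  · simp [hy]
  · rw [G.sum_ht K (hs y hy), one_mul]

private theorem decomp_step (G : Grid) {k K : ℕ} (hk : k < K) {w : E → ℝ}
    (hw : Integrable w) (hs : ∀ y, w y ≠ 0 → y ∈ G.dom) (p' n' : ℤ × ℤ → E → ℝ)
    (H : ∀ z ∈ G.nodes (k + 1),
      Piece (p' z) (G.pt (k + 1) z) (G.mesh (k + 1)) (ng (-G.mass w (k + 1) z)) ∧
        Piece (n' z) (G.pt (k + 1) z) (G.mesh (k + 1)) (ng (G.mass w (k + 1) z))) :
    ∃ (p n ap am : ℤ × ℤ → E → ℝ),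
      (∀ Z ∈ G.nodes k, Piece (p Z) (G.pt k Z) (G.mesh k) (ng (-G.mass w k Z)) ∧
        Piece (n Z) (G.pt k Z) (G.mesh k) (ng (G.mass w k Z))) ∧
      (∀ Z ∈ G.nodes k, Piece (ap Z) (G.pt k Z) (G.mesh k) (G.dfc (G.mass w) k Z) ∧
        Piece (am Z) (G.pt k Z) (G.mesh k) (G.dfc (G.mass w) k Z)) ∧
      ∀ y, ∑ z ∈ G.nodes (k + 1), p' z y - ∑ z ∈ G.nodes (k + 1), n' z y =
        ∑ Z ∈ G.nodes k, p Z y - ∑ Z ∈ G.nodes k, n Z y +
        ∑ Z ∈ G.nodes k, (ap Z y - am Z y) := by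
  have hP := fun Z => decomp_sum (G.nodes (k + 1)) (fun z => G.ht k Z (G.pt (k + 1) z)) p'
    (G.pt (k + 1)) (fun z => ng (-G.mass w (k + 1) z)) (c := G.pt k Z) (T := G.mesh k)
    (fun z _ => hat_nonneg _ _ _) (fun z hz => (H z hz).1) (fun z _ hne => fine_gap G hne)
  have hN := fun Z => decomp_sum (G.nodes (k + 1)) (fun z => G.ht k Z (G.pt (k + 1) z)) n'
    (G.pt (k + 1)) (fun z => ng (G.mass w (k + 1) z)) (c := G.pt k Z) (T := G.mesh k)
    (fun z _ => hat_nonneg _ _ _) (fun z hz => (H z hz).2) (fun z _ hne => fine_gap G hne)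
  have hmass : ∀ Z ∈ G.nodes k,
      ∑ z ∈ G.nodes (k + 1), G.ht k Z (G.pt (k + 1) z) * ng (-G.mass w (k + 1) z) -
      ∑ z ∈ G.nodes (k + 1), G.ht k Z (G.pt (k + 1) z) * ng (G.mass w (k + 1) z) =
      G.mass w k Z := by
    intro Z hZ
    rw [G.mass_refines hw hs K k hk Z hZ, ← Finset.sum_sub_distrib]
    refine Finset.sum_congr rfl fun z _ => ?_
    rw [← mul_sub, ng_neg_sub]
  choose p n ap am h1 h2 h3 h4 h5 h6 using fun Z => kill (hP Z) (hN Z)
  refine ⟨p, n, ap, am, fun Z hZ => ?_, fun Z hZ => ?_, fun y => ?_⟩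
  · have a1 := h1 Z
    have a2 := h2 Z
    rw [hmass Z hZ] at a1 a2
    exact ⟨a1, a2⟩
  · have a1 := h3 Z
    have a2 := h4 Z
    rw [hmass Z hZ] at a1 a2
    exact ⟨a1, a2⟩
  · have key : ∀ g : ℤ × ℤ → E → ℝ, ∑ Z ∈ G.nodes k, ∑ z ∈ G.nodes (k + 1),
        G.ht k Z (G.pt (k + 1) z) * g z y = ∑ z ∈ G.nodes (k + 1), g z y := by
      intro g
      rw [Finset.sum_comm]
      refine Finset.sum_congr rfl fun z hz => ?_
      rw [← Finset.sum_mul, G.sum_ht k (G.pt_mem_dom hz), one_mul]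
    rw [← key p', ← key n', ← Finset.sum_sub_distrib, ← Finset.sum_sub_distrib,
      ← Finset.sum_add_distrib]
    refine Finset.sum_congr rfl fun Z _ => ?_
    have e1 := h5 Z y
    have e2 := h6 Z y
    rw [e1, e2]
    ring

theorem decomp' (G : Grid) {k K : ℕ} (hk : k ≤ K) {w : E → ℝ} (hm : Measurable w)
    (hw : Integrable w) (hs : ∀ y, w y ≠ 0 → y ∈ G.dom) :
    ∃ (p n : ℤ × ℤ → E → ℝ) (ap am : ℕ → ℤ × ℤ → E → ℝ),
      (∀ Z ∈ G.nodes k, Piece (p Z) (G.pt k Z) (G.mesh k) (ng (-G.mass w k Z)) ∧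
        Piece (n Z) (G.pt k Z) (G.mesh k) (ng (G.mass w k Z))) ∧
      (∀ j ∈ Finset.Icc k K, ∀ Z ∈ G.nodes j,
        Piece (ap j Z) (G.pt j Z) (G.mesh j) (G.dall w K j Z) ∧
        Piece (am j Z) (G.pt j Z) (G.mesh j) (G.dall w K j Z)) ∧
      ∀ y, w y = ∑ Z ∈ G.nodes k, p Z y - ∑ Z ∈ G.nodes k, n Z y +
        ∑ j ∈ Finset.Icc k K, ∑ Z ∈ G.nodes j, (ap j Z y - am j Z y) := by
  induction hk using Nat.decreasingInduction with
  | self =>
    obtain ⟨p, n, ap, am, h1, h2, h3⟩ := decomp_base G K hm hw hs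
    refine ⟨p, n, fun _ => ap, fun _ => am, h1, fun j hj Z hZ => ?_, fun y => ?_⟩
    · obtain rfl : j = K := by
        rw [Finset.mem_Icc] at hj
        omega
      unfold Grid.dall
      rw [if_neg (lt_irrefl _)]
      exact h2 Z hZ
    · rw [Finset.Icc_self, Finset.sum_singleton]
      exact h3 y
  | of_succ k hk ih =>
    obtain ⟨p', n', ap', am', h1, h2, h3⟩ := ih
    obtain ⟨p, n, ap, am, g1, g2, g3⟩ := decomp_step G hk hw hs p' n' h1
    refine ⟨p, n, fun j => if j = k then ap else ap' j, fun j => if j = k then am else am' j, g1,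
      fun j hj Z hZ => ?_, fun y => ?_⟩
    · by_cases hjk : j = k
      · subst hjk
        simp only [if_true]
        unfold Grid.dall
        rw [if_pos hk]
        exact g2 Z hZ
      · simp only [if_neg hjk]
        refine h2 j ?_ Z hZ
        rw [Finset.mem_Icc] at hj ⊢
        omega
    · have e : Finset.Icc k K = insert k (Finset.Icc (k + 1) K) := by
        ext j
        simp only [Finset.mem_Icc, Finset.mem_insert]
        omega
      have hn : k ∉ Finset.Icc (k + 1) K := by simp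
      rw [e, Finset.sum_insert hn]
      have e2 : ∑ j ∈ Finset.Icc (k + 1) K, ∑ Z ∈ G.nodes j,
          ((if j = k then ap else ap' j) Z y - (if j = k then am else am' j) Z y) =
          ∑ j ∈ Finset.Icc (k + 1) K, ∑ Z ∈ G.nodes j, (ap' j Z y - am' j Z y) := by
        refine Finset.sum_congr rfl fun j hj => ?_
        have hjk : j ≠ k := by
          rw [Finset.mem_Icc] at hj
          omega
        simp only [if_neg hjk]
      rw [e2]
      simp only [if_true]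
      rw [h3 y, g3 y]
      ring

end Crest.Agent.R112
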