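import Mathlib

/-!
# R112 (S0147): definitions

`W^{1,1}` endpoint bound for the centred disc maximal function in the plane.
Overview of the proof: see `ideas` row 112 and the docstrings of the files in this folder.
All definitions of the project are in this file.
-/

namespace Crest.Agent.R112

open MeasureTheory Metric Set
open scoped RealInnerProductSpace

/-- the Euclidean plane -/
abbrev E := EuclideanSpace ℝ (Fin 2)

/-! ## squares, hats, grids -/

/-- sup-distance -/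
noncomputable def dinf (x y : E) : ℝ := max |x 0 - y 0| |x 1 - y 1|

/-- closed square with centre `c` and half side `T` -/
def Q (c : E) (T : ℝ) : Set E := {y | dinf y c ≤ T}

/-- the one-dimensional tent -/
noncomputable def tent (t : ℝ) : ℝ := max (1 - |t|) 0

/-- the node `ρ z` of the lattice `ρ ℤ²` -/
noncomputable def node (ρ : ℝ) (z : ℤ × ℤ) : E := !₂[ρ * z.1, ρ * z.2]

/-- the bilinear hat function at the node `ρ z` -/
noncomputable def hat (ρ : ℝ) (z : ℤ × ℤ) (y : E) : ℝ :=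
  tent (y 0 / ρ - z.1) * tent (y 1 / ρ - z.2)

/-- the four nodes around `y` -/
noncomputable def nbr (ρ : ℝ) (y : E) : Finset (ℤ × ℤ) :=
  Finset.Icc ⌊y 0 / ρ⌋ (⌊y 0 / ρ⌋ + 1) ×ˢ Finset.Icc ⌊y 1 / ρ⌋ (⌊y 1 / ρ⌋ + 1)

/-- `u` is piecewise bilinear on the lattice `ρ ℤ²` (equal to its own interpolant) -/
def Interp (ρ : ℝ) (u : E → ℝ) : Prop :=
  ∀ y, u y = ∑ z ∈ nbr ρ y, u (node ρ z) * hat ρ z y

/-- lattice points of the square `[-N, N]²` -/
noncomputable def box (N : ℕ) : Finset (ℤ × ℤ) :=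
  Finset.Icc (-(N : ℤ)) N ×ˢ Finset.Icc (-(N : ℤ)) N

/-- ratio of consecutive meshes, `2^12` -/
def Lam : ℕ := 4096

/-- a tower of grids: top mesh `ρ`, domain `[-Nρ, Nρ]²` -/
structure Grid where
  ρ : ℝ
  N : ℕ
  pos : 0 < ρ

/-- arrays of reals indexed by level and node -/
abbrev Arr := ℕ → ℤ × ℤ → ℝ

/-- negative part -/
noncomputable def ng (t : ℝ) : ℝ := max (-t) 0

namespace Grid

variable (G : Grid)

/-- mesh of level `k` -/
noncomputable def mesh (k : ℕ) : ℝ := G.ρ / (Lam : ℝ) ^ k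
/-- nodes of level `k` -/
noncomputable def nodes (k : ℕ) : Finset (ℤ × ℤ) := box (G.N * Lam ^ k)
/-- position of a node of level `k` -/
noncomputable def pt (k : ℕ) (z : ℤ × ℤ) : E := node (G.mesh k) z
/-- hat of a node of level `k` -/
noncomputable def ht (k : ℕ) (z : ℤ × ℤ) : E → ℝ := hat (G.mesh k) z
/-- the domain of the grid -/
def dom : Set E := Q 0 (G.N * G.ρ)
/-- nodes of level `i` in the square `Q c T` -/
noncomputable def near (i : ℕ) (c : E) (T : ℝ) : Finset (ℤ × ℤ) :=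
  (G.nodes i).filter (fun z => dinf (G.pt i z) c ≤ T)

/-- level `k` is obtained from level `k+1` by averaging with the hats of level `k` -/
def Refines (K : ℕ) (m : Arr) : Prop :=
  ∀ k < K, ∀ Z ∈ G.nodes k, m k Z = ∑ z ∈ G.nodes (k + 1), G.ht k Z (G.pt (k + 1) z) * m (k + 1) z

/-- defect (cancelled mass) at the node `Z` of level `k` -/
noncomputable def dfc (m : Arr) (k : ℕ) (Z : ℤ × ℤ) : ℝ :=
  ∑ z ∈ G.nodes (k + 1), G.ht k Z (G.pt (k + 1) z) * ng (m (k + 1) z) - ng (m k Z)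

/-- node masses of a density -/
noncomputable def mass (w : E → ℝ) : Arr := fun k z => ∫ y, G.ht k z y * w y

/-- defect at the bottom level -/
noncomputable def bdf (w : E → ℝ) (K : ℕ) (Z : ℤ × ℤ) : ℝ :=
  (∫ y, G.ht K Z y * ng (w y)) - ng (G.mass w K Z)

/-- defects of a density at all levels `j ≤ K` -/
noncomputable def dall (w : E → ℝ) (K j : ℕ) (Z : ℤ × ℤ) : ℝ :=
  if j < K then G.dfc (G.mass w) j Z else G.bdf w K Z

/-- `ℓ¹` mass of level `i` in the square `Q c T` -/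
noncomputable def loc (m : Arr) (i : ℕ) (c : E) (T : ℝ) : ℝ := ∑ z ∈ G.near i c T, |m i z|

/-- discounted `ℓ¹` mass of the levels `l..K` in the square `Q c T` -/
noncomputable def Vt (m : Arr) (K l : ℕ) (c : E) (T : ℝ) : ℝ :=
  ∑ i ∈ Finset.Icc l K, (1 / 2 : ℝ) ^ (i - l) * G.loc m i c T

/-- the quantity that is paid when the node `z` of level `l` changes its state -/
noncomputable def Y (mx my : Arr) (K l : ℕ) (z : ℤ × ℤ) : ℝ :=
  G.Vt mx K l (G.pt l z) (3 * G.mesh l) + G.Vt my K l (G.pt l z) (3 * G.mesh l)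

/-- total mass of the bottom level -/
noncomputable def tot (mx my : Arr) (K : ℕ) : ℝ := ∑ z ∈ G.nodes K, (|mx K z| + |my K z|)

end Grid

/-- discounted total variation of the density itself in `Q c T` -/
noncomputable def Bot (w : E → ℝ) (K l : ℕ) (c : E) (T : ℝ) : ℝ :=
  (1 / 2 : ℝ) ^ (K - l) * ∫ y in Q c T, |w y|

/-! ## states -/

/-- the four sign quadrants -/
abbrev St := Bool × Bool

/-- sign of a Boolean -/
def sg (b : Bool) : ℝ := if b then 1 else -1

/-- how far the vector `(a, b)` is from the quadrant `s` -/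
noncomputable def Neg (s : St) (a b : ℝ) : ℝ := ng (sg s.1 * a) + ng (sg s.2 * b)

/-- the vector `(a, b)` is outside the cone `C_t` around the quadrant `s` -/
def Bad (s : St) (t a b : ℝ) : Prop :=
  t * (sg s.1 * a) + sg s.2 * b < 0 ∨ sg s.1 * a + t * (sg s.2 * b) < 0

/-- threshold in the definition of seeds -/
noncomputable def eps : ℝ := 1 / 10 ^ 11

open Classical in
/-- A system of state weights for the vector array `(mx, my)`. -/
structure Wts (G : Grid) (K : ℕ) (mx my : Arr) where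
  /-- weight of state `s` used at level `k` -/
  w : ℕ → St → E → ℝ
  /-- amplitude of the change at a node -/
  a : Arr
  /-- weight added to a state at a node -/
  ad : St → Arr
  /-- weight removed from a state at a node -/
  rm : St → Arr
  w_zero : ∀ s y, w 0 s y = 1 / 4
  w_succ : ∀ k s y, w (k + 1) s y = w k s y + ∑ z ∈ G.nodes k, (ad s k z - rm s k z) * G.ht k z y
  w_nonneg : ∀ k s y, 0 ≤ w k s y
  w_sum : ∀ k y, ∑ s, w k s y = 1
  a_le : ∀ k z, a k z ≤ 1
  ad_nonneg : ∀ s k z, 0 ≤ ad s k z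
  ad_le : ∀ s k z, ad s k z ≤ a k z
  rm_nonneg : ∀ s k z, 0 ≤ rm s k z
  rm_le : ∀ s k z, rm s k z ≤ a k z
  rm_sum_le : ∀ k s y, ∑ z ∈ G.nodes k, rm s k z * G.ht k z y ≤ w k s y
  gain : ∑ k ∈ Finset.range (K + 1), ∑ s : St, ∑ z ∈ G.nodes k,
      (if eps * G.Y mx my K k z < Neg s (mx k z) (my k z) then
        w k s (G.pt k z) * Neg s (mx k z) (my k z) else 0) ≤ G.tot mx my K
  pay : eps * ∑ l ∈ Finset.range (K + 1), ∑ z ∈ G.nodes l, a l z * G.Y mx my K l z ≤ G.tot mx my K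

namespace Wts

variable {G : Grid} {K : ℕ} {mx my : Arr} (W : Wts G K mx my)

/-- discounted amplitude of the changes of levels `≤ k` near the point `c` -/
noncomputable def H (k : ℕ) (c : E) : ℝ :=
  ∑ l ∈ Finset.range (k + 1), ∑ z ∈ G.near l c (3 * G.mesh l), (1 / 2 : ℝ) ^ (k - l) * W.a l z

/-- local Lipschitz constant of the weights of levels `≤ k` -/
noncomputable def Gk (k : ℕ) (x : E) : ℝ :=
  ∑ l ∈ Finset.range k, ∑ z ∈ G.nodes l,
    (Q (G.pt l z) (2 * G.mesh l)).indicator (fun _ => W.a l z * (2 / G.mesh l)) x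

/-- weight that is new at level `k` -/
noncomputable def fresh (s : St) : ℕ → E → ℝ
  | 0 => fun _ => 1 / 4
  | (k + 1) => fun y => ∑ z ∈ G.nodes k, W.ad s k z * G.ht k z y

end Wts

/-- a nonnegative integrable function of mass `d` living in the square `Q c T` -/
def Piece (g : E → ℝ) (c : E) (T d : ℝ) : Prop :=
  Measurable g ∧ Integrable g ∧ (∀ y, 0 ≤ g y) ∧ (∀ y, g y ≠ 0 → dinf y c ≤ T) ∧ ∫ y, g y = d

/-! ## disc averages -/

/-- average over the disc -/
noncomputable def avg (h : E → ℝ) (x : E) (r : ℝ) : ℝ := (Real.pi * r ^ 2)⁻¹ * ∫ y in ball x r, h y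

/-- maximal function with radii in `[a, b]` (signed: no absolute value) -/
noncomputable def mx (h : E → ℝ) (a b : ℝ) (x : E) : ℝ := sSup ((fun r => avg h x r) '' Icc a b)

/-- maximal function with radii in `[a, ∞)` -/
noncomputable def mxi (h : E → ℝ) (a : ℝ) (x : E) : ℝ := sSup ((fun r => avg h x r) '' Ici a)

/-- `C¹` with compact support -/
def C1c (h : E → ℝ) : Prop := ContDiff ℝ 1 h ∧ HasCompactSupport h

/-- directional derivative -/
noncomputable def dv (h : E → ℝ) (v : E) (y : E) : ℝ := ⟪v, gradient h y⟫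

/-- first basis vector -/
noncomputable def e0 : E := !₂[1, 0]
/-- second basis vector -/
noncomputable def e1 : E := !₂[0, 1]

/-- rotation by a right angle -/
noncomputable def rot (y : E) : E := !₂[-y 1, y 0]

/-- the radial profile in the formula for `avg h x r - avg h x r'` -/
noncomputable def rampf (r' r t : ℝ) : ℝ := ((max r' (min t r)) ^ 2)⁻¹ - (r ^ 2)⁻¹

/-- a radial profile that drops from `1` to `0` on `[r - σ, r + σ]` -/
def Prof (φ : ℝ → ℝ) (r σ : ℝ) : Prop :=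
  Measurable φ ∧ (∀ t, 0 ≤ φ t ∧ φ t ≤ 1) ∧ (∀ t, t < r - σ → φ t = 1) ∧ (∀ t, r + σ < t → φ t = 0)

/-- what we use about the gradient `V` at a point `x` whose maximising radius in
`[ρ / Lam, ρ]` is `r` -/
structure Opt (V : E → E) (ρ : ℝ) (x : E) (r : ℝ) : Prop where
  lo : ρ / Lam ≤ r
  hi : r ≤ ρ
  rot0 : ∀ ψ : ℝ → ℝ, Measurable ψ → (∀ t, |ψ t| ≤ 1) → (∀ t, ρ < t → ψ t = 0) →
    ∫ y, ψ ‖y - x‖ * ⟪rot (y - x), V y⟫ = 0
  rad0 : ρ / Lam < r → r < ρ → ∫ y in ball x r, ⟪y - x, V y⟫ = 0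
  ramp : ∀ σ, 0 < σ → 2 * σ ≤ r → ρ / Lam ≤ r - σ → r + σ ≤ ρ →
    ∃ φ : ℝ → ℝ, Prof φ r σ ∧ (∀ t t', |φ t - φ t'| ≤ 8 / σ * |t - t'|) ∧
      ∫ y, φ ‖y - x‖ * ⟪y - x, V y⟫ = 0

/-! ## fine scales -/

/-- mass of `lam` in the disc with centre `u` through `p`, away from `p` -/
noncomputable def Gm (lam : E → ℝ) (p : E) (σ' : ℝ) (u : E) : ℝ :=
  ∫ y in ball u ‖u - p‖ \ ball p σ', lam y

/-- centres `x` at which `Gm` is small but jumps under a small dilation about `p` -/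
def ExSet (lam : E → ℝ) (p : E) (ρ σ' κ A η : ℝ) : Set E :=
  {x | ‖x - p‖ ≤ 2 * ρ ∧ Gm lam p σ' (p + (1 + κ)⁻¹ • (x - p)) ≤ A * η ∧
    Gm lam p σ' (p + (1 + κ)⁻¹ • (x - p)) + η < Gm lam p σ' (p + (1 + κ) • (x - p))}

/-- centres `x` whose distance to `p` is close to an end point of the range of radii -/
def EndSet (p : E) (ρ σ : ℝ) : Set E :=
  {x | |‖x - p‖ - ρ| ≤ 3 * σ ∨ |‖x - p‖ - ρ / Lam| ≤ 3 * σ}

/-- decomposition of a vector field into a cone part `P`, a small part `N` and killed pairs -/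
structure FSData (ι : Type) where
  I : Finset ι
  lev : ι → ℕ
  c : ι → E
  d : ι → ℝ
  e : ι → E
  ap : ι → E → ℝ
  am : ι → E → ℝ
  P : E → E
  N : E → E

namespace FSData

variable {ι : Type} (D : FSData ι)

/-- the vector field -/
noncomputable def V (y : E) : E := D.P y + D.N y + ∑ i ∈ D.I, (D.ap i y - D.am i y) • D.e i

/-- the error budget -/
noncomputable def Θ : ℝ := (∫ y, ‖D.N y‖) + ∑ i ∈ D.I, (1 / 2 : ℝ) ^ (D.lev i) * D.d i

/-- density of everything that is not a pair of level `> n` -/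
noncomputable def lam (n : ℕ) (y : E) : ℝ :=
  ‖D.P y‖ + ‖D.N y‖ + ∑ i ∈ D.I.filter (fun i => D.lev i ≤ n), (D.ap i y + D.am i y)

/-- hypotheses on the data -/
structure OK (ρ : ℝ) (f : E) : Prop where
  pos : 0 < ρ
  f_le : ‖f‖ ≤ 3
  P_meas : Measurable D.P
  P_int : Integrable D.P
  N_meas : Measurable D.N
  N_int : Integrable D.N
  cone : ∀ y, ‖D.P y‖ ≤ 8 * ⟪f, D.P y⟫
  e_le : ∀ i ∈ D.I, ‖D.e i‖ ≤ 1
  ap_piece : ∀ i ∈ D.I, Piece (D.ap i) (D.c i) (ρ / (Lam : ℝ) ^ D.lev i) (D.d i)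
  am_piece : ∀ i ∈ D.I, Piece (D.am i) (D.c i) (ρ / (Lam : ℝ) ^ D.lev i) (D.d i)

/-- `f`-component of the field tested against a radial profile -/
noncomputable def L (f x : E) (ψ : ℝ → ℝ) : ℝ := ∫ y, ψ ‖y - x‖ * ⟪f, D.V y⟫
/-- radial moment -/
noncomputable def R (x : E) (ψ : ℝ → ℝ) : ℝ := ∫ y, ψ ‖y - x‖ * ⟪y - x, D.V y⟫
/-- mass of the cone part seen by a profile -/
noncomputable def Pm (x : E) (ψ : ℝ → ℝ) : ℝ := ∫ y, ψ ‖y - x‖ * ‖D.P y‖

/-- the profile `ψ` oscillates little on the pairs of level `≥ n` -/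
def Osc (ρ : ℝ) (x : E) (ψ : ℝ → ℝ) (n : ℕ) (B : ℝ) : Prop :=
  ∃ o : ι → ℝ, (∀ i ∈ D.I, n ≤ D.lev i → 0 ≤ o i ∧ ∀ y, dinf y (D.c i) ≤ ρ / (Lam : ℝ) ^ D.lev i →
      |ψ ‖y - x‖ - ψ ‖D.c i - x‖| ≤ o i) ∧
    ∑ i ∈ D.I.filter (fun i => n ≤ D.lev i), D.d i * o i ≤ B

/-- exceptional set of centres attached to the pair `i` -/
def Exc (ρ : ℝ) (i : ι) : Set E :=
  ExSet (D.lam (D.lev i)) (D.c i) ρ (ρ / ((2 : ℝ) ^ D.lev i) ^ 2) (48 / ((2 : ℝ) ^ D.lev i) ^ 6)
      (66 * ((2 : ℝ) ^ D.lev i) ^ 2) (D.Θ / (2 : ℝ) ^ D.lev i) ∪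
    EndSet (D.c i) ρ (ρ / ((2 : ℝ) ^ D.lev i) ^ 10)

end FSData

/-! ## the grid quantities of a `C¹` function -/

/-- working directions of a state -/
noncomputable def fdir (s : St) (b : Bool) : E :=
  if b then !₂[2 * sg s.1, sg s.2] else !₂[sg s.1, 2 * sg s.2]
/-- first cone direction of a state -/
noncomputable def g1 (s : St) : E := !₂[3 * sg s.1, sg s.2]
/-- second cone direction of a state -/
noncomputable def g2 (s : St) : E := !₂[sg s.1, 3 * sg s.2]

namespace Grid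

variable (G : Grid)

/-- masses of the first partial derivative -/
noncomputable def mX (h : E → ℝ) : Arr := G.mass (dv h e0)
/-- masses of the second partial derivative -/
noncomputable def mY (h : E → ℝ) : Arr := G.mass (dv h e1)

/-- discounted mass of the gradient in `Q c T`, including the bottom term -/
noncomputable def VB (h : E → ℝ) (K l : ℕ) (c : E) (T : ℝ) : ℝ :=
  G.Vt (G.mX h) K l c T + G.Vt (G.mY h) K l c T + Bot (dv h e0) K l c T + Bot (dv h e1) K l c T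

/-- maximal function of level `k` -/
noncomputable def b (h : E → ℝ) (k : ℕ) : E → ℝ := mx h (G.mesh (k + 1)) (G.mesh k)

/-- excess of `b k` over the average with the largest radius of level `k` -/
noncomputable def Ek (h : E → ℝ) (k : ℕ) (x : E) : ℝ := G.b h k x - avg h x (G.mesh k)

/-- negative mass near the node `z` of level `k` -/
noncomputable def ThN (h : E → ℝ) (s : St) (k : ℕ) (z : ℤ × ℤ) : ℝ :=
  ∑ Z ∈ G.near k (G.pt k z) (3 * G.mesh k),
    (ng (G.mass (dv h (g1 s)) k Z) + ng (G.mass (dv h (g2 s)) k Z))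

/-- discounted defects near the node `z` of level `k` -/
noncomputable def ThD (h : E → ℝ) (s : St) (K k : ℕ) (z : ℤ × ℤ) : ℝ :=
  ∑ j ∈ Finset.Icc k K, (1 / 2 : ℝ) ^ (j - k) * ∑ Z ∈ G.near j (G.pt k z) (3 * G.mesh k),
    (G.dall (dv h (g1 s)) K j Z + G.dall (dv h (g2 s)) K j Z)

/-- `h` is `C¹` and lives well inside the domain of the grid -/
def Fits (h : E → ℝ) : Prop := C1c h ∧ ∀ y, h y ≠ 0 → dinf y 0 ≤ (G.N - 2) * G.ρ

end Grid

/-! ## approximation -/

/-- `u ≥ 0` with "gradient" `G₀` is a `W^{1,1}` limit of nonnegative `C¹_c` functions -/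
def Appr (u : E → ℝ) (G₀ : E → E) : Prop :=
  Integrable u ∧ (∀ x, 0 ≤ u x) ∧ Integrable G₀ ∧ ∀ ε > 0, ∃ h, C1c h ∧ (∀ x, 0 ≤ h x) ∧
    ∫ x, |h x - u x| ≤ ε ∧ ∫ x, ‖gradient h x - G₀ x‖ ≤ ε

end Crest.Agent.R112
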