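import Crest.Agent.R112.Mx

/-!
# R112/Dual: `L¹` bounds by duality

`dual_le`: fix `R` and let `s = (ball 0 R).indicator (sign ∘ F)` (for a measurable version of `F`), an
integrable function with `|s| ≤ 1`. Approximate `s` in `L¹` by smooth compactly supported `φ n`
(`MemLp.exist_eLpNorm_sub_le`), truncate (`max (-1) (min φ 1)`; still Lipschitz with compact support,
and not farther from `s`), multiply by a fixed Lipschitz cutoff `χ` (`= 1` on `ball 0 R`, values in
`[0,1]`, compact support, e.g. `max 0 (min 1 (R + 1 - ‖y‖))`), pass to an a.e. convergent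
subsequence (`tendstoInMeasure_of_tendsto_eLpNorm`, `TendstoInMeasure.exists_seq_tendsto_ae`);
dominated convergence (bound `χ |F|`) gives `∫ x in ball 0 R, |F x| = ∫ s F ≤ B`. Let `R → ∞`
(`integrable_of_intervalIntegral_norm_bounded`-like: `AECover.integrable_of_integral_norm_bounded`,
`aecover_ball`, `AECover.integral_tendsto_of_countably_generated`; or monotone convergence for `∫⁻`).
An alternative to the subsequence: split `|F| ≤ min |F| M + (|F| - M)⁺` on the support of `χ`.

`ibp_lip`: `LipschitzWith.integral_lineDeriv_mul_eq`, `lineDeriv_neg`, Rademacher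
(`LipschitzWith.ae_differentiableAt`) and `lineDeriv_eq_inner`.
`dual_grad`: apply `dual_le` to the two coordinates of `∇u - Γ` (locally integrable since `∇u` is
bounded and measurable), `norm_le_coords`.
`limit_grad`: for a test function `φ` and `v ∈ {e0, e1}`:
`∫ φ ⟪v, ∇u - Γ⟫ = -∫ u ∂_v φ - ∫ φ ⟪v, Γ⟫` is within `δ ∫ |∂_v φ| + δ` of
`∫ φ ⟪v, ∇u' - Γ'⟫`, whose absolute value is at most `B + δ`.
-/

namespace Crest.Agent.R112

open MeasureTheory Metric Set Filter Topology
open scoped RealInnerProductSpace NNReal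

private theorem dual_clamp {c g s : ℝ} (h : |s| ≤ c) : |max (-c) (min g c) - s| ≤ |s - g| := by
  obtain ⟨h1, h2⟩ := abs_le.1 h
  have a1 := le_abs_self (s - g)
  have a2 := neg_abs_le (s - g)
  have a3 := abs_nonneg (s - g)
  rw [abs_le, max_def, min_def]
  split_ifs <;> constructor <;> linarith

private theorem dual_ball {F : E → ℝ} (hF : LocallyIntegrable F) {B : ℝ}
    (H : ∀ (φ : E → ℝ) (C : ℝ≥0), LipschitzWith C φ → HasCompactSupport φ → (∀ x, |φ x| ≤ 1) →
      |∫ x, φ x * F x| ≤ B) (R : ℝ) : ∫ x in ball (0 : E) R, |F x| ≤ B := by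
  refine le_of_forall_pos_le_add fun ε hε => ?_
  have hI : ∀ r, IntegrableOn F (ball (0 : E) r) := fun r =>
    (hF.integrableOn_isCompact (isCompact_closedBall 0 r)).mono_set ball_subset_closedBall
  have hFm := hF.aestronglyMeasurable.aemeasurable
  set G := (ball (0 : E) (R + 1)).indicator F with hG
  have hGi : Integrable G := (hI _).integrable_indicator measurableSet_ball
  set ν := (volume : Measure E).withDensity fun x => ‖G x‖ₑ with hν
  have : IsFiniteMeasure ν := isFiniteMeasure_withDensity hGi.2.ne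
  set s := (ball (0 : E) R).indicator fun x => F x / |F x| with hs
  have hsm : AEMeasurable s := (hFm.div hFm.abs).indicator measurableSet_ball
  have hs0 : ∀ x, |(F x / |F x|)| ≤ 1 := fun x => by
    rw [abs_div, abs_abs]; exact div_self_le_one _
  have hs1 : ∀ x, |s x| ≤ 1 := fun x => by
    by_cases hx : x ∈ ball (0 : E) R
    · rw [hs, indicator_of_mem hx]; exact hs0 x
    · rw [hs, indicator_of_notMem hx]; simp
  have hsν : MemLp s 1 ν := MemLp.of_bound
    (hsm.mono' (withDensity_absolutelyContinuous _ _)).aestronglyMeasurable 1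
    (Eventually.of_forall hs1)
  obtain ⟨g, hg1, hg2, hg3⟩ := hsν.exist_eLpNorm_sub_le ENNReal.one_ne_top le_rfl hε
  obtain ⟨D, hD⟩ := hg2.lipschitzWith_of_hasCompactSupport hg1 (by simp)
  set χ : E → ℝ := fun y => max (min (R + 1 - ‖y‖) 1) 0 with hχ
  have hχL : LipschitzWith (0 + 1) χ :=
    (((LipschitzWith.const (R + 1)).sub lipschitzWith_one_norm).min_const 1).max_const 0
  have hχ0 : ∀ y, 0 ≤ χ y := fun y => le_max_right _ _
  have hχ1 : ∀ y, χ y ≤ 1 := fun y => max_le (min_le_right _ _) zero_le_one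
  set φ : E → ℝ := fun y => max (-χ y) (min (g y) (χ y)) with hφ
  have hφχ : ∀ y, |φ y| ≤ χ y := fun y =>
    abs_le.2 ⟨le_max_left _ _, max_le (by linarith [hχ0 y]) (min_le_right _ _)⟩
  have hφL := hχL.neg.max (hD.min hχL)
  have hφc : HasCompactSupport φ := hg1.mono fun y hy h0 => hy (by
    simp only [hφ, h0, min_eq_left (hχ0 y)]
    exact max_eq_right (by linarith [hχ0 y]))
  have h1 := H φ _ hφL hφc fun y => (hφχ y).trans (hχ1 y)
  have hφi : Integrable fun x => φ x * F x :=
    hF.integrable_smul_left_of_hasCompactSupport hφL.continuous hφc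
  have e1 : (fun x => s x * F x) = (ball (0 : E) R).indicator fun x => |F x| := by
    funext x
    by_cases hx : x ∈ ball (0 : E) R
    · rw [hs, indicator_of_mem hx, indicator_of_mem hx, div_mul_eq_mul_div, ← abs_mul_abs_self,
        mul_self_div_self]
    · rw [hs, indicator_of_notMem hx, indicator_of_notMem hx, zero_mul]
  have hsi : Integrable fun x => s x * F x := by
    rw [e1]; exact IntegrableOn.integrable_indicator (hI R).abs measurableSet_ball
  have h2 : ‖∫ x, (φ x * F x - s x * F x)‖ₑ ≤ ENNReal.ofReal ε := by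
    refine (enorm_integral_le_lintegral_enorm _).trans (le_trans ?_ hg3)
    rw [eLpNorm_one_eq_lintegral_enorm, hν, lintegral_withDensity_eq_lintegral_mul₀
      hGi.1.enorm (hsm.sub hg2.continuous.aemeasurable).enorm]
    refine lintegral_mono fun x => ?_
    simp only [Pi.mul_apply, Pi.sub_apply]
    rw [← enorm_mul, ← ofReal_norm, ← ofReal_norm]
    refine ENNReal.ofReal_le_ofReal ?_
    rw [← sub_mul, norm_mul, norm_mul, mul_comm]
    by_cases hx : x ∈ ball (0 : E) (R + 1)
    · rw [hG, indicator_of_mem hx]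
      refine mul_le_mul_of_nonneg_left (dual_clamp ?_) (norm_nonneg _)
      by_cases hx' : x ∈ ball (0 : E) R
      · rw [mem_ball_zero_iff] at hx'
        exact (hs1 x).trans (le_max_of_le_left (le_min (by linarith) le_rfl))
      · rw [hs, indicator_of_notMem hx', abs_zero]; exact hχ0 x
    · have hx' : x ∉ ball (0 : E) R := fun h => hx (ball_subset_ball (by linarith) h)
      rw [mem_ball_zero_iff, not_lt] at hx
      have g0 : χ x = 0 := max_eq_right ((min_le_left _ _).trans (by linarith))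
      have g1 : φ x = 0 := abs_nonpos_iff.1 (g0 ▸ hφχ x)
      rw [g1, hs, indicator_of_notMem hx', sub_zero, norm_zero, mul_zero]
      positivity
  rw [← ofReal_norm, ENNReal.ofReal_le_ofReal_iff hε.le, integral_sub hφi hsi, e1,
    integral_indicator measurableSet_ball, Real.norm_eq_abs] at h2
  linarith [(abs_le.1 h2).1, le_abs_self (∫ x, φ x * F x)]


theorem dual_le {F : E → ℝ} (hF : LocallyIntegrable F) {B : ℝ}
    (H : ∀ (φ : E → ℝ) (C : ℝ≥0), LipschitzWith C φ → HasCompactSupport φ → (∀ x, |φ x| ≤ 1) →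
      |∫ x, φ x * F x| ≤ B) : Integrable F ∧ ∫ x, |F x| ≤ B := by
  have hc : AECover (volume : Measure E) atTop fun R : ℝ => ball (0 : E) R := aecover_ball tendsto_id
  have hi : Integrable F := hc.integrable_of_integral_norm_bounded B (fun r =>
    (hF.integrableOn_isCompact (isCompact_closedBall 0 r)).mono_set ball_subset_closedBall)
    (Eventually.of_forall (dual_ball hF H))
  exact ⟨hi, le_of_tendsto' (hc.integral_tendsto_of_countably_generated hi.abs) (dual_ball hF H)⟩

theorem ibp_lip {u φ : E → ℝ} {C D : ℝ≥0} (hu : LipschitzWith C u) (hφ : LipschitzWith D φ)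
    (hc : HasCompactSupport φ) (v : E) :
    ∫ x, u x * lineDeriv ℝ φ x v = -∫ x, ⟪gradient u x, v⟫ * φ x := by
  have h := hu.integral_lineDeriv_mul_eq (μ := volume) hφ hc v
  simp only [lineDeriv_neg, neg_mul, integral_neg] at h
  have e : ∫ x, ⟪gradient u x, v⟫ * φ x = ∫ x, lineDeriv ℝ u x v * φ x := by
    refine integral_congr_ae ?_
    filter_upwards [hu.ae_differentiableAt (μ := volume)] with x hx
    rw [lineDeriv_eq_inner hx, real_inner_comm]
  rw [e, h, neg_neg]
  simp only [mul_comm]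

theorem locallyIntegrable_gradient {u : E → ℝ} {C : ℝ≥0} (hu : LipschitzWith C u) :
    LocallyIntegrable (gradient u) := by
  exact (memLp_top_of_bound (measurable_gradient u).aestronglyMeasurable C
    (Eventually.of_forall (norm_gradient_le_of_lipschitz hu))).locallyIntegrable le_top

private theorem dual_locInt {G : E → E} (hG : LocallyIntegrable G) (v : E) :
    LocallyIntegrable fun x => ⟪G x, v⟫ := fun x => by
  obtain ⟨s, hs, h⟩ := hG x
  exact ⟨s, hs, Integrable.inner_const h v⟩

private theorem dual_abs_le {φ : E → ℝ} (hφ : ∀ x, |φ x| ≤ 1) {G : E → E} (hG : Integrable G)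
    {v : E} (hv : ‖v‖ ≤ 1) : |∫ x, φ x * ⟪G x, v⟫| ≤ ∫ x, ‖G x‖ := by
  rw [← Real.norm_eq_abs]
  refine norm_integral_le_of_norm_le hG.norm (Eventually.of_forall fun x => ?_)
  rw [norm_mul]
  calc _ ≤ 1 * (‖G x‖ * 1) := by
        refine mul_le_mul (hφ x) ((norm_inner_le_norm _ _).trans ?_) (norm_nonneg _) zero_le_one
        gcongr
    _ = _ := by ring

private theorem dual_dir {u : E → ℝ} {C : ℝ≥0} (hu : LipschitzWith C u) {Γ : E → E}
    (hΓ : Integrable Γ) {B : ℝ}
    (H : ∀ δ > 0, ∃ (u' : E → ℝ) (C' : ℝ≥0) (Γ' : E → E), LipschitzWith C' u' ∧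
      Integrable Γ' ∧ Integrable (gradient u') ∧ (∀ x, |u' x - u x| ≤ δ) ∧
      ∫ x, ‖Γ' x - Γ x‖ ≤ δ ∧ ∫ x, ‖gradient u' x - Γ' x‖ ≤ B + δ) {v : E} (hv : ‖v‖ ≤ 1) :
    Integrable (fun x => ⟪gradient u x - Γ x, v⟫) ∧ ∫ x, |⟪gradient u x - Γ x, v⟫| ≤ B := by
  refine dual_le (dual_locInt ((locallyIntegrable_gradient hu).sub hΓ.locallyIntegrable) v)
    fun φ D hφ hc h1 => ?_
  have hK := integrable_lineDeriv hφ hc v
  set K := ∫ x, |lineDeriv ℝ φ x v| with hKdef
  have hK0 : 0 ≤ K := integral_nonneg fun _ => abs_nonneg _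
  refine le_of_forall_pos_le_add fun ε hε => ?_
  obtain ⟨u', C', Γ', hu', hΓ', hg', h2, h3, h4⟩ := H (ε / (K + 2)) (by positivity)
  have hw := hu'.sub hu
  have i0 : ∀ {G : E → E}, LocallyIntegrable G → Integrable fun x => φ x * ⟪G x, v⟫ := fun h =>
    (dual_locInt h v).integrable_smul_left_of_hasCompactSupport hφ.continuous hc
  have i1 := i0 (hg'.sub hΓ').locallyIntegrable
  have i2 := i0 (locallyIntegrable_gradient hw)
  have i3 := i0 (hΓ'.sub hΓ).locallyIntegrable
  have e : ∫ x, φ x * ⟪gradient u x - Γ x, v⟫ = (∫ x, φ x * ⟪(gradient u' - Γ') x, v⟫) -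
      (∫ x, φ x * ⟪gradient (fun y => u' y - u y) x, v⟫) + ∫ x, φ x * ⟪(Γ' - Γ) x, v⟫ := by
    rw [← integral_sub i1 i2]
    refine Eq.trans ?_ (integral_add (i1.sub i2) i3)
    refine integral_congr_ae ?_
    filter_upwards [hu.ae_differentiableAt (μ := volume), hu'.ae_differentiableAt (μ := volume)]
      with x hx hx'
    have g : ⟪gradient (fun y => u' y - u y) x, v⟫ = ⟪gradient u' x, v⟫ - ⟪gradient u x, v⟫ := by
      simp only [real_inner_comm v, inner_gradient]
      rw [fderiv_fun_sub hx' hx]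
      rfl
    simp only [Pi.sub_apply, g, inner_sub_left]
    ring
  have b1 := (dual_abs_le h1 (hg'.sub hΓ') hv).trans h4
  have b3 := (dual_abs_le h1 (hΓ'.sub hΓ) hv).trans h3
  have b2 : |∫ x, φ x * ⟪gradient (fun y => u' y - u y) x, v⟫| ≤ ε / (K + 2) * K := by
    have g := ibp_lip hw hφ hc v
    simp only [mul_comm _ (φ _)] at g
    rw [← abs_neg, ← g, ← Real.norm_eq_abs]
    refine le_trans ?_ (integral_const_mul _ _).le
    refine norm_integral_le_of_norm_le (hK.abs.const_mul _) (Eventually.of_forall fun x => ?_)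
    rw [norm_mul]
    exact mul_le_mul_of_nonneg_right (h2 x) (norm_nonneg _)
  have g : ε / (K + 2) * K + 2 * (ε / (K + 2)) = ε := by field_simp
  simp only [Pi.sub_apply] at e b1 b3 ⊢
  rw [e, abs_le]
  constructor <;> linarith [abs_le.1 b1, abs_le.1 b2, abs_le.1 b3]


/-- lower semicontinuity of `∫ ‖∇u - Γ‖` under uniform convergence of `u` and `L¹` convergence
of `Γ` -/
theorem limit_grad {u : E → ℝ} {C : ℝ≥0} (hu : LipschitzWith C u) {Γ : E → E} (hΓ : Integrable Γ)
    {B : ℝ} (H : ∀ δ > 0, ∃ (u' : E → ℝ) (C' : ℝ≥0) (Γ' : E → E), LipschitzWith C' u' ∧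
      Integrable Γ' ∧ Integrable (gradient u') ∧ (∀ x, |u' x - u x| ≤ δ) ∧
      ∫ x, ‖Γ' x - Γ x‖ ≤ δ ∧ ∫ x, ‖gradient u' x - Γ' x‖ ≤ B + δ) :
    Integrable (gradient u) ∧ ∫ x, ‖gradient u x - Γ x‖ ≤ 2 * B := by
  have n0 : ‖e0‖ ≤ 1 := (norm_le_coords _).trans (by simp [e0])
  have n1 : ‖e1‖ ≤ 1 := (norm_le_coords _).trans (by simp [e1])
  obtain ⟨i0, b0⟩ := dual_dir hu hΓ H n0
  obtain ⟨i1, b1⟩ := dual_dir hu hΓ H n1
  have hle : ∀ x, ‖gradient u x - Γ x‖ ≤
      |⟪gradient u x - Γ x, e0⟫| + |⟪gradient u x - Γ x, e1⟫| := fun x => by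
    refine (norm_le_coords _).trans_eq ?_
    simp [inner_eq, e0, e1]
  have hi : Integrable fun x => gradient u x - Γ x := (i0.abs.add i1.abs).mono'
    ((measurable_gradient u).aestronglyMeasurable.sub hΓ.1) (Eventually.of_forall hle)
  refine ⟨(hi.add hΓ).congr (Eventually.of_forall fun x => by simp), ?_⟩
  refine (integral_mono hi.norm (i0.abs.add i1.abs) hle).trans ?_
  simp only [Pi.add_apply]
  rw [integral_add i0.abs i1.abs]
  linarith

end Crest.Agent.R112
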