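import Crest.Agent.R112.Avg

/-!
# R112/Ident: two integral identities for gradients

`avg_sub_eq`: by `avg_hasDerivAt` and the fundamental theorem of calculus,
`avg h x r - avg h x r' = ∫ t in r'..r, (π t³)⁻¹ * ∫ y in ball x t, ⟪y - x, ∇h y⟫`; Fubini; and for
`τ = ‖y - x‖`, `∫ t in r'..r, 1[τ < t] t⁻³ = rampf r' r τ / 2`
(`max r' (min τ r)` is the lower end of the range of `t`). The derivative is continuous in `t`
(scaled form), or use `intervalIntegral.integral_eq_sub_of_hasDerivAt` with a bounded measurable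
derivative.

`rot_moment`: let `R α` be the rotation by the angle `α` (a linear isometry equivalence of `E`, it
preserves the volume and the norm). `α ↦ ∫ y, ψ ‖y‖ * h (x + R α y)` is constant; differentiate at
`α = 0` under the integral sign: the derivative of `R α y` is `R α (rot y)`, of norm `‖y‖`.
Alternative: transport to `ℝ × ℝ` and use `integral_comp_polarCoord_symm`; the inner integral is the
integral over a full period of the derivative of `θ ↦ h (x + t (cos θ, sin θ))`.
-/

namespace Crest.Agent.R112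

open MeasureTheory Metric Set Filter Topology
open scoped RealInnerProductSpace NNReal

private theorem clamp_ge (r' r t : ℝ) : r' ≤ max r' (min t r) := le_max_left _ _

private theorem clamp_le {r' r : ℝ} (h : r' ≤ r) (t : ℝ) : max r' (min t r) ≤ r :=
  max_le h (min_le_right _ _)

theorem rampf_nonneg {r' r : ℝ} (h0 : 0 < r') (h : r' ≤ r) (t : ℝ) : 0 ≤ rampf r' r t := by
  have h1 := clamp_ge r' r t
  have h2 := clamp_le h t
  have h3 : 0 < max r' (min t r) := h0.trans_le h1
  unfold rampf
  rw [sub_nonneg]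
  exact inv_anti₀ (by positivity) (pow_le_pow_left₀ h3.le h2 2)

theorem rampf_le {r' r : ℝ} (h0 : 0 < r') (h : r' ≤ r) (t : ℝ) :
    rampf r' r t ≤ (r' ^ 2)⁻¹ - (r ^ 2)⁻¹ := by
  have h1 := clamp_ge r' r t
  unfold rampf
  exact sub_le_sub_right (inv_anti₀ (by positivity) (pow_le_pow_left₀ h0.le h1 2)) _

theorem rampf_of_le {r' r t : ℝ} (h : r' ≤ r) (ht : t ≤ r') :
    rampf r' r t = (r' ^ 2)⁻¹ - (r ^ 2)⁻¹ := by
  unfold rampf
  rw [max_eq_left ((min_le_left _ _).trans ht)]

theorem rampf_of_ge {r' r t : ℝ} (h : r' ≤ r) (ht : r ≤ t) : rampf r' r t = 0 := by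
  unfold rampf
  rw [min_eq_right ht, max_eq_right h, sub_self]

private theorem inv_sq_lip {c a b : ℝ} (hc : 0 < c) (ha : c ≤ a) (hb : c ≤ b) :
    |(a ^ 2)⁻¹ - (b ^ 2)⁻¹| ≤ 2 / c ^ 3 * |a - b| := by
  have ha0 : 0 < a := hc.trans_le ha
  have hb0 : 0 < b := hc.trans_le hb
  have h1 : (a ^ 2)⁻¹ - (b ^ 2)⁻¹ = (1 / (a * b ^ 2) + 1 / (a ^ 2 * b)) * (b - a) := by
    field_simp
    ring
  have h2 : 1 / (a * b ^ 2) ≤ 1 / c ^ 3 := by
    apply one_div_le_one_div_of_le (by positivity)
    calc c ^ 3 = c * c ^ 2 := by ring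
      _ ≤ a * b ^ 2 := mul_le_mul ha (pow_le_pow_left₀ hc.le hb 2) (by positivity) ha0.le
  have h3 : 1 / (a ^ 2 * b) ≤ 1 / c ^ 3 := by
    apply one_div_le_one_div_of_le (by positivity)
    calc c ^ 3 = c ^ 2 * c := by ring
      _ ≤ a ^ 2 * b := mul_le_mul (pow_le_pow_left₀ hc.le ha 2) hb hc.le (by positivity)
  rw [h1, abs_mul, abs_of_pos (by positivity), abs_sub_comm b a]
  refine mul_le_mul_of_nonneg_right ?_ (abs_nonneg _)
  have : 2 / c ^ 3 = 1 / c ^ 3 + 1 / c ^ 3 := by ring
  linarith

theorem rampf_lip {r' r : ℝ} (h0 : 0 < r') (t t' : ℝ) :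
    |rampf r' r t - rampf r' r t'| ≤ 2 / r' ^ 3 * |t - t'| := by
  unfold rampf
  rw [sub_sub_sub_cancel_right]
  refine (inv_sq_lip h0 (clamp_ge r' r t) (clamp_ge r' r t')).trans
    (mul_le_mul_of_nonneg_left ?_ (by positivity))
  refine (abs_max_sub_max_le_max _ _ _ _).trans (max_le (by simp) ?_)
  refine (abs_min_sub_min_le_max _ _ _ _).trans (max_le le_rfl (by simp))

theorem continuous_rampf {r' r : ℝ} (h0 : 0 < r') : Continuous (rampf r' r) := by
  unfold rampf
  refine Continuous.sub (Continuous.inv₀ (by fun_prop) fun t => ?_) continuous_const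
  exact (pow_pos (h0.trans_le (clamp_ge r' r t)) 2).ne'

private theorem integral_inv_cube {r' r : ℝ} (h0 : 0 < r') (hr : r' ≤ r) (τ : ℝ) :
    ∫ t in Ioc r' r, (Ioi τ).indicator (fun t : ℝ => (t ^ 3)⁻¹) t = rampf r' r τ / 2 := by
  set m := max r' (min τ r) with hm
  have hm1 : r' ≤ m := clamp_ge r' r τ
  have hm2 : m ≤ r := clamp_le hr τ
  have hm0 : 0 < m := h0.trans_le hm1
  have hset : Ioc r' r ∩ Ioi τ = Ioc m r := by
    ext t
    simp only [mem_inter_iff, mem_Ioc, mem_Ioi, hm, max_lt_iff, min_lt_iff]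
    constructor
    · rintro ⟨⟨h1, h2⟩, h3⟩
      exact ⟨⟨h1, Or.inl h3⟩, h2⟩
    · rintro ⟨⟨h1, h3 | h3⟩, h2⟩
      · exact ⟨⟨h1, h2⟩, h3⟩
      · exact absurd h2 (not_le.2 h3)
  rw [setIntegral_indicator measurableSet_Ioi, hset, ← intervalIntegral.integral_of_le hm2]
  have hd : ∀ t ∈ uIcc m r, HasDerivAt (fun t : ℝ => -(t ^ 2)⁻¹ / 2) ((t ^ 3)⁻¹) t := by
    intro t ht
    rw [uIcc_of_le hm2] at ht
    have ht0 : 0 < t := hm0.trans_le ht.1
    have h1 := (((hasDerivAt_pow 2 t).inv (by positivity)).neg).div_const 2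
    refine h1.congr_deriv ?_
    simp only [Nat.cast_ofNat, Nat.add_one_sub_one, pow_one]
    field_simp
  have hi : IntervalIntegrable (fun t : ℝ => (t ^ 3)⁻¹) volume m r := by
    refine ContinuousOn.intervalIntegrable (ContinuousOn.inv₀ (by fun_prop) fun t ht => ?_)
    rw [uIcc_of_le hm2] at ht
    exact (pow_pos (hm0.trans_le ht.1) 3).ne'
  rw [intervalIntegral.integral_eq_sub_of_hasDerivAt hd hi]
  unfold rampf
  rw [← hm]
  ring

theorem avg_sub_eq {h : E → ℝ} (hh : C1c h) (x : E) {r' r : ℝ} (h0 : 0 < r') (hr : r' ≤ r) :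
    avg h x r - avg h x r' =
      (2 * Real.pi)⁻¹ * ∫ y, rampf r' r ‖y - x‖ * ⟪y - x, gradient h y⟫ := by
  set g : E → ℝ := fun y => ⟪y - x, gradient h y⟫ with hg
  have hgc : Continuous g := (continuous_id.sub continuous_const).inner hh.continuous_gradient
  have hgs : HasCompactSupport g := by
    refine hh.hasCompactSupport_gradient.mono fun y hy => ?_
    intro h0
    apply hy
    simp only [hg]
    rw [h0, inner_zero_right]
  have hgi : Integrable g := hgc.integrable_of_hasCompactSupport hgs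
  let F : ℝ → E → ℝ := fun t y =>
    Real.pi⁻¹ * ((Ioi ‖y - x‖).indicator (fun t : ℝ => (t ^ 3)⁻¹) t * g y)
  have hFm : Measurable (Function.uncurry F) := by
    have h1 : (fun p : ℝ × E => (Ioi ‖p.2 - x‖).indicator (fun t : ℝ => (t ^ 3)⁻¹) p.1) =
        {p : ℝ × E | ‖p.2 - x‖ < p.1}.indicator fun p => (p.1 ^ 3)⁻¹ := by
      funext p
      simp only [indicator, mem_Ioi, mem_ofPred_eq]
    have h2 : Measurable
        (fun p : ℝ × E => (Ioi ‖p.2 - x‖).indicator (fun t : ℝ => (t ^ 3)⁻¹) p.1) := by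
      rw [h1]
      exact Measurable.indicator (by fun_prop) (measurableSet_lt (by fun_prop) (by fun_prop))
    exact (h2.mul (hgc.measurable.comp measurable_snd)).const_mul _
  have hFi : Integrable (Function.uncurry F) ((volume.restrict (Ioc r' r)).prod volume) := by
    have hb : Integrable (fun p : ℝ × E => (Real.pi⁻¹ * (r' ^ 3)⁻¹) * ‖g p.2‖)
        ((volume.restrict (Ioc r' r)).prod volume) :=
      Integrable.mul_prod (f := fun _ : ℝ => Real.pi⁻¹ * (r' ^ 3)⁻¹) (integrable_const _) hgi.norm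
    refine hb.mono' hFm.aestronglyMeasurable ?_
    have hae : ∀ᵐ p : ℝ × E ∂((volume.restrict (Ioc r' r)).prod volume), p.1 ∈ Ioc r' r :=
      Measure.quasiMeasurePreserving_fst.ae (ae_restrict_mem measurableSet_Ioc)
    filter_upwards [hae] with p hp
    have hp0 : 0 < p.1 := h0.trans hp.1
    have h1 : ‖(Ioi ‖p.2 - x‖).indicator (fun t : ℝ => (t ^ 3)⁻¹) p.1‖ ≤ (r' ^ 3)⁻¹ := by
      refine (norm_indicator_le_norm_self _ _).trans ?_
      rw [Real.norm_eq_abs, abs_of_pos (by positivity)]
      exact inv_anti₀ (by positivity) (pow_le_pow_left₀ h0.le hp.1.le 3)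
    change ‖Real.pi⁻¹ * ((Ioi ‖p.2 - x‖).indicator (fun t : ℝ => (t ^ 3)⁻¹) p.1 * g p.2)‖ ≤ _
    rw [norm_mul, norm_mul, Real.norm_eq_abs Real.pi⁻¹, abs_of_pos (by positivity), mul_assoc]
    exact mul_le_mul_of_nonneg_left (mul_le_mul_of_nonneg_right h1 (norm_nonneg _)) (by positivity)
  have hFt : ∀ t, ∫ y, F t y = (Real.pi * t ^ 3)⁻¹ * ∫ y in ball x t, g y := by
    intro t
    rw [← integral_indicator measurableSet_ball, ← integral_const_mul]
    refine integral_congr_ae (Eventually.of_forall fun y => ?_)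
    simp only [F, indicator, mem_Ioi, mem_ball, dist_eq_norm]
    split_ifs
    · rw [mul_inv]; ring
    · simp
  have hFy : ∀ y, ∫ t in Ioc r' r, F t y = (2 * Real.pi)⁻¹ * (rampf r' r ‖y - x‖ * g y) := by
    intro y
    simp only [F]
    rw [integral_const_mul, integral_mul_const, integral_inv_cube h0 hr, mul_inv]
    ring
  have hd : ∀ t ∈ uIcc r' r, HasDerivAt (fun t => avg h x t) (∫ y, F t y) t := by
    intro t ht
    rw [uIcc_of_le hr] at ht
    rw [hFt]
    exact avg_hasDerivAt hh x (h0.trans_le ht.1)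
  have hi : IntervalIntegrable (fun t => ∫ y, F t y) volume r' r :=
    (intervalIntegrable_iff_integrableOn_Ioc_of_le hr).2 hFi.integral_prod_left
  rw [← intervalIntegral.integral_eq_sub_of_hasDerivAt hd hi, intervalIntegral.integral_of_le hr,
    integral_integral_swap hFi, ← integral_const_mul]
  exact integral_congr_ae (Eventually.of_forall hFy)

private theorem rot_zero' (y : E) : rot y 0 = -y 1 := rfl
private theorem rot_one' (y : E) : rot y 1 = y 0 := rfl

private theorem norm_rot' (y : E) : ‖rot y‖ = ‖y‖ := by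
  rw [← sq_eq_sq₀ (norm_nonneg _) (norm_nonneg _), norm_sq_eq, norm_sq_eq, rot_zero', rot_one']
  ring

private theorem continuous_rot' : Continuous rot := by
  unfold rot
  fun_prop

/-- rotation by the angle `α` -/
private noncomputable def rotL (α : ℝ) : E →ₗᵢ[ℝ] E where
  toFun y := Real.cos α • y + Real.sin α • rot y
  map_add' y z := by
    ext i
    fin_cases i <;> simp [rot] <;> ring
  map_smul' c y := by
    ext i
    fin_cases i <;> simp [rot] <;> ring
  norm_map' y := by
    rw [← sq_eq_sq₀ (norm_nonneg _) (norm_nonneg _), norm_sq_eq, norm_sq_eq]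
    have := Real.cos_sq_add_sin_sq α
    simp [rot]
    linear_combination (y 0 ^ 2 + y 1 ^ 2) * this

private theorem rotL_apply (α : ℝ) (y : E) : rotL α y = Real.cos α • y + Real.sin α • rot y := rfl

private theorem integral_rotL (α : ℝ) (f : E → ℝ) : ∫ y, f (rotL α y) = ∫ y, f y := by
  let e : E ≃ₗᵢ[ℝ] E := (rotL α).toLinearIsometryEquiv rfl
  exact e.measurePreserving.integral_comp e.toHomeomorph.measurableEmbedding f

theorem rot_moment {h : E → ℝ} (hh : C1c h) (x : E) {ψ : ℝ → ℝ} {ρ : ℝ} (hm : Measurable ψ)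
    (h1 : ∀ t, |ψ t| ≤ 1) (h0 : ∀ t, ρ < t → ψ t = 0) :
    ∫ y, ψ ‖y - x‖ * ⟪rot (y - x), gradient h y⟫ = 0 := by
  obtain ⟨C, hC⟩ := hh.lipschitz
  have hdiff : Differentiable ℝ h := hh.1.differentiable one_ne_zero
  have hψm : Measurable fun y : E => ψ ‖y‖ := hm.comp measurable_norm
  let F : ℝ → E → ℝ := fun α y => ψ ‖y‖ * h (x + (Real.cos α • y + Real.sin α • rot y))
  let F' : ℝ → E → ℝ := fun α y => ψ ‖y‖ *
    ⟪-Real.sin α • y + Real.cos α • rot y, gradient h (x + (Real.cos α • y + Real.sin α • rot y))⟫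
  have hrot := continuous_rot'
  have hhc := hh.continuous
  have hgc := hh.continuous_gradient
  have hconst : ∀ α, ∫ y, F α y = ∫ y, ψ ‖y‖ * h (x + y) := by
    intro α
    rw [← integral_rotL α fun y => ψ ‖y‖ * h (x + y)]
    refine integral_congr_ae (Eventually.of_forall fun y => ?_)
    simp only [F]
    rw [(rotL α).norm_map, rotL_apply]
  have hF0 : F 0 = fun y => ψ ‖y‖ * h (x + y) := by
    funext y; simp [F]
  have hder := hasDerivAt_integral_of_dominated_loc_of_deriv_le (μ := volume) (F := F) (F' := F')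
    (x₀ := 0) (s := univ)
    (bound := (closedBall (0 : E) ρ).indicator fun _ => 2 * ρ * C) univ_mem
    (Eventually.of_forall fun α => (hψm.mul (by fun_prop)).aestronglyMeasurable)
    (by
      rw [hF0]
      exact (hh.integrable.comp_add_left x).bdd_mul hψm.aestronglyMeasurable
        (c := 1) (Eventually.of_forall fun y => h1 _))
    (hψm.mul (Continuous.measurable (by fun_prop))).aestronglyMeasurable
    (Eventually.of_forall fun y α _ => by
      by_cases hy : y ∈ closedBall (0 : E) ρ
      · rw [indicator_of_mem hy]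
        have hy' : ‖y‖ ≤ ρ := mem_closedBall_zero_iff.1 hy
        have e1 : ‖-Real.sin α • y + Real.cos α • rot y‖ ≤ 2 * ρ := by
          refine (norm_add_le _ _).trans ?_
          rw [norm_smul, norm_smul, norm_rot', norm_neg, Real.norm_eq_abs, Real.norm_eq_abs]
          have s1 := Real.abs_sin_le_one α
          have s2 := Real.abs_cos_le_one α
          have s3 := norm_nonneg y
          nlinarith
        simp only [F']
        rw [norm_mul]
        calc ‖ψ ‖y‖‖ * ‖⟪-Real.sin α • y + Real.cos α • rot y,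
              gradient h (x + (Real.cos α • y + Real.sin α • rot y))⟫‖
            ≤ 1 * (2 * ρ * C) := by
              refine mul_le_mul (h1 _) ((norm_inner_le_norm _ _).trans ?_) (norm_nonneg _)
                zero_le_one
              exact mul_le_mul e1 (norm_gradient_le_of_lipschitz hC _) (norm_nonneg _)
                ((norm_nonneg _).trans e1)
          _ = 2 * ρ * C := one_mul _
      · rw [indicator_of_notMem hy]
        have hy' : ρ < ‖y‖ := not_le.1 fun h => hy (mem_closedBall_zero_iff.2 h)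
        simp [F', h0 _ hy'])
    ((integrableOn_const measure_closedBall_lt_top.ne).integrable_indicator
      measurableSet_closedBall)
    (Eventually.of_forall fun y α _ => by
      have e1 : HasDerivAt (fun α => x + (Real.cos α • y + Real.sin α • rot y))
          (-Real.sin α • y + Real.cos α • rot y) α :=
        (((Real.hasDerivAt_cos α).smul_const y).add
          ((Real.hasDerivAt_sin α).smul_const (rot y))).const_add x
      have e2 := ((hdiff _).hasFDerivAt.comp_hasDerivAt α e1).const_mul (ψ ‖y‖)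
      simp only [F, F']
      rw [inner_gradient]
      exact e2)
  have hz : HasDerivAt (fun α => ∫ y, F α y) 0 0 := by
    rw [funext hconst]
    exact hasDerivAt_const _ _
  have hzero := hder.2.unique hz
  rw [← integral_add_left_eq_self _ x, ← hzero]
  refine integral_congr_ae (Eventually.of_forall fun y => ?_)
  simp [F']

end Crest.Agent.R112
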