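import Crest.Agent.R112.LipL
import Crest.Agent.R112.Ident
import Crest.Agent.R112.Mx

/-!
# R112/Ebd: the excess `Ek` is controlled by the node masses

`field_lip`: for `0 < r' ≤ r` the function `u y = rampf r' r ‖y - x‖ * (y i - x i)` satisfies
`|u y| ≤ r / r'²` (it vanishes for `‖y - x‖ ≥ r`, and `rampf ≤ r'⁻²`) and
`|u y - u y'| ≤ 3 r / r'³ * ‖y - y'‖`: by symmetry assume `‖y - x‖ ≤ ‖y' - x‖`; if `r ≤ ‖y - x‖` both
vanish; else write `u y - u y' = (ramp y - ramp y') (y i - x i) + ramp y' (y i - y' i)` and use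
`rampf_lip`, `rampf_le`, `1 / r'² ≤ r / r'³`.

`Ek_le`: let `ρ = mesh k`, take a maximiser `r' ∈ [ρ / Lam, ρ]` (`exists_mx_eq`); by `avg_sub_eq`,
`Ek = -(2π)⁻¹ ∫ rampf r' ρ ‖y-x‖ * ⟪y - x, ∇h y⟫`; split the inner product into coordinates
(`inner_eq`, `dv_e0`, `dv_e1`) and apply `lipL` with `l = k`, `c = x`, `T = ρ`, `H = Lam² / ρ`,
`Lu = 6 Lam³ / ρ²` (`norm_le_two_dinf`) to `w = dv h e0` and `w = dv h e1`.
`integral_Ek_le`: integrate with `integral_Vt_le`, `integral_Bot_le` (`S = 2 mesh k`).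
-/

namespace Crest.Agent.R112

open MeasureTheory Metric Set Filter Topology
open scoped RealInnerProductSpace NNReal

theorem field_lip {r' r : ℝ} (h0 : 0 < r') (hr : r' ≤ r) (x : E) (i : Fin 2) :
    (∀ y : E, |rampf r' r ‖y - x‖ * (y i - x i)| ≤ r / r' ^ 2) ∧
    (∀ y y' : E, |rampf r' r ‖y - x‖ * (y i - x i) - rampf r' r ‖y' - x‖ * (y' i - x i)| ≤
      3 * r / r' ^ 3 * ‖y - y'‖) := by
  have hr0 : 0 < r := h0.trans_le hr
  have hco : ∀ y : E, |y i - x i| ≤ ‖y - x‖ := fun y => by simpa using abs_coord_le (y - x) i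
  have hle : ∀ t, rampf r' r t ≤ (r' ^ 2)⁻¹ := fun t =>
    (rampf_le h0 hr t).trans (sub_le_self _ (by positivity))
  constructor
  · intro y
    rcases le_total r ‖y - x‖ with h | h
    · rw [rampf_of_ge hr h, zero_mul, abs_zero]; positivity
    · rw [abs_mul, abs_of_nonneg (rampf_nonneg h0 hr _), div_eq_inv_mul]
      exact mul_le_mul (hle _) ((hco y).trans h) (abs_nonneg _) (by positivity)
  · have key : ∀ y y' : E, ‖y - x‖ ≤ ‖y' - x‖ →
        |rampf r' r ‖y - x‖ * (y i - x i) - rampf r' r ‖y' - x‖ * (y' i - x i)| ≤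
          3 * r / r' ^ 3 * ‖y - y'‖ := by
      intro y y' hyy
      rcases le_total r ‖y - x‖ with h | h
      · rw [rampf_of_ge hr h, rampf_of_ge hr (h.trans hyy)]
        simp only [zero_mul, sub_zero, abs_zero]
        positivity
      · have e : rampf r' r ‖y - x‖ * (y i - x i) - rampf r' r ‖y' - x‖ * (y' i - x i) =
            (rampf r' r ‖y - x‖ - rampf r' r ‖y' - x‖) * (y i - x i) +
              rampf r' r ‖y' - x‖ * (y i - y' i) := by ring
        have h1 : |‖y - x‖ - ‖y' - x‖| ≤ ‖y - y'‖ := by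
          simpa using abs_norm_sub_norm_le (y - x) (y' - x)
        have h2 : |rampf r' r ‖y - x‖ - rampf r' r ‖y' - x‖| ≤ 2 / r' ^ 3 * ‖y - y'‖ :=
          (rampf_lip h0 _ _).trans (mul_le_mul_of_nonneg_left h1 (by positivity))
        have h3 : |y i - y' i| ≤ ‖y - y'‖ := by simpa using abs_coord_le (y - y') i
        have h4 : (r' ^ 2)⁻¹ ≤ r / r' ^ 3 := by
          rw [le_div_iff₀ (by positivity)]
          calc (r' ^ 2)⁻¹ * r' ^ 3 = r' := by field_simp
            _ ≤ r := hr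
        rw [e]
        refine (abs_add_le _ _).trans ?_
        rw [abs_mul, abs_mul, abs_of_nonneg (rampf_nonneg h0 hr _)]
        calc _ ≤ 2 / r' ^ 3 * ‖y - y'‖ * r + r / r' ^ 3 * ‖y - y'‖ :=
              add_le_add (mul_le_mul h2 ((hco y).trans h) (abs_nonneg _) (by positivity))
                (mul_le_mul ((hle _).trans h4) h3 (abs_nonneg _) (by positivity))
          _ = _ := by ring
    intro y y'
    rcases le_total ‖y - x‖ ‖y' - x‖ with h | h
    · exact key y y' h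
    · rw [abs_sub_comm, norm_sub_rev y y']
      exact key y' y h

namespace Grid

theorem VB_nonneg (G : Grid) (h : E → ℝ) (K l : ℕ) (c : E) (T : ℝ) : 0 ≤ G.VB h K l c T :=
  add_nonneg (add_nonneg (add_nonneg (G.Vt_nonneg _ _ _ _ _) (G.Vt_nonneg _ _ _ _ _))
    (Bot_nonneg _ _ _ _ _)) (Bot_nonneg _ _ _ _ _)

theorem Fits.VB_mono {G : Grid} {h : E → ℝ} (hh : G.Fits h) (K l : ℕ) {c c' : E} {T T' : ℝ}
    (H : dinf c c' + T ≤ T') : G.VB h K l c T ≤ G.VB h K l c' T' :=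
  add_le_add (add_le_add (add_le_add (G.Vt_mono _ _ _ H) (G.Vt_mono _ _ _ H))
    (Bot_mono (hh.1.integrable_dv _) _ _ H)) (Bot_mono (hh.1.integrable_dv _) _ _ H)

theorem VB_level (G : Grid) (h : E → ℝ) {K l k : ℕ} (hl : l ≤ k) (hk : k ≤ K) (c : E) (T : ℝ) :
    G.VB h K k c T ≤ 2 ^ (k - l) * G.VB h K l c T := by
  unfold VB
  rw [mul_add, mul_add, mul_add]
  exact add_le_add (add_le_add (add_le_add (G.Vt_level _ _ hl _ _) (G.Vt_level _ _ hl _ _))
    (Bot_level _ hl hk _ _)) (Bot_level _ hl hk _ _)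

end Grid

theorem Ek_le : ∃ C : ℝ, 0 ≤ C ∧ ∀ (G : Grid) (h : E → ℝ), G.Fits h → ∀ K k, k ≤ K → ∀ x,
    G.Ek h k x ≤ C / G.mesh k * G.VB h K k x (2 * G.mesh k) := by
  have hΛ : (0 : ℝ) < Lam := by unfold Lam; norm_num
  refine ⟨Lam ^ 2 + 12 * Lam ^ 3, by positivity, fun G h hh K k hk x => ?_⟩
  set ρ := G.mesh k with hρ
  have hρ0 : 0 < ρ := G.mesh_pos k
  have hm : G.mesh (k + 1) = ρ / Lam := by
    rw [G.mesh_eq_div (Nat.le_add_right k 1), Nat.add_sub_cancel_left, pow_one]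
  obtain ⟨r', hr', heq, -⟩ := exists_mx_eq hh.1 (G.mesh_pos (k + 1))
    (G.mesh_anti (Nat.le_succ k)) x
  have h0 : 0 < r' := (G.mesh_pos (k + 1)).trans_le hr'.1
  have hlo : ρ / Lam ≤ r' := hm ▸ hr'.1
  have hhi : r' ≤ ρ := hr'.2
  set u : Fin 2 → E → ℝ := fun i y => rampf r' ρ ‖y - x‖ * (y i - x i) with hu
  have hH : ∀ i y, |u i y| ≤ Lam ^ 2 / ρ := fun i y => by
    refine ((field_lip h0 hhi x i).1 y).trans ?_
    calc ρ / r' ^ 2 ≤ ρ / (ρ / Lam) ^ 2 := by gcongr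
      _ = _ := by field_simp
  have hL : ∀ i y y', |u i y - u i y'| ≤ 6 * Lam ^ 3 / ρ ^ 2 * dinf y y' := fun i y y' => by
    refine ((field_lip h0 hhi x i).2 y y').trans ?_
    calc 3 * ρ / r' ^ 3 * ‖y - y'‖ ≤ 3 * ρ / (ρ / Lam) ^ 3 * (2 * dinf y y') := by
          gcongr
          exact norm_le_two_dinf y y'
      _ = _ := by field_simp; ring
  have hz : ∀ i y, ρ < dinf y x → u i y = 0 := fun i y hy => by
    simp only [hu]
    rw [rampf_of_ge hhi (hy.le.trans (dinf_le_norm y x)), zero_mul]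
  have hcu : ∀ i, Continuous (u i) := fun i =>
    ((continuous_rampf h0).comp (continuous_id.sub continuous_const).norm).mul
      (by fun_prop)
  have hint : ∀ i v, Integrable fun y => u i y * dv h v y := fun i v =>
    (hh.1.integrable_dv v).bdd_mul (c := Lam ^ 2 / ρ) (hcu i).aestronglyMeasurable
      (Eventually.of_forall fun y => hH i y)
  have b0 := lipL G hk (hh.1.integrable_dv e0) (hh.dv_dom e0) (by positivity) (hH 0) (hL 0) (hz 0)
  have b1 := lipL G hk (hh.1.integrable_dv e1) (hh.dv_dom e1) (by positivity) (hH 1) (hL 1) (hz 1)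
  have e1' : G.Ek h k x = -((2 * Real.pi)⁻¹ *
      ((∫ y, u 0 y * dv h e0 y) + ∫ y, u 1 y * dv h e1 y)) := by
    have := avg_sub_eq hh.1 x h0 hhi
    rw [← integral_add (hint 0 e0) (hint 1 e1)]
    have e2 : ∫ y, (u 0 y * dv h e0 y + u 1 y * dv h e1 y) =
        ∫ y, rampf r' ρ ‖y - x‖ * ⟪y - x, gradient h y⟫ := by
      refine integral_congr_ae (Eventually.of_forall fun y => ?_)
      simp only [hu, inner_eq, dv_e0, dv_e1, PiLp.sub_apply]
      ring
    rw [e2, ← this]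
    unfold Grid.Ek Grid.b
    rw [heq]
    ring
  have e3 : (Lam : ℝ) ^ 2 / ρ + 2 * (6 * Lam ^ 3 / ρ ^ 2) * ρ = (Lam ^ 2 + 12 * Lam ^ 3) / ρ := by
    field_simp; ring
  rw [← hρ, e3, ← two_mul] at b0 b1
  have hπ : (2 * Real.pi)⁻¹ ≤ 1 := inv_le_one_of_one_le₀ (by linarith [Real.pi_gt_three])
  have hπ0 : 0 ≤ (2 * Real.pi)⁻¹ := by positivity
  rw [e1']
  refine (neg_le_abs _).trans ?_
  rw [abs_mul, abs_of_nonneg hπ0]
  refine (mul_le_of_le_one_left (abs_nonneg _) hπ).trans ((abs_add_le _ _).trans ?_)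
  refine (add_le_add b0 b1).trans (le_of_eq ?_)
  unfold Grid.VB Grid.mX Grid.mY
  ring

theorem integral_Ek_le : ∃ C : ℝ, 0 ≤ C ∧ ∀ (G : Grid) (h : E → ℝ), G.Fits h → ∀ K k, k ≤ K →
    ∀ (c : E) (T : ℝ), ∫ x in Q c T, G.Ek h k x ≤
      C * G.mesh k * G.VB h K k c (T + 2 * G.mesh k) := by
  obtain ⟨C, hC, H⟩ := Ek_le
  refine ⟨16 * C, by positivity, fun G h hh K k hk c T => ?_⟩
  have hρ0 : 0 < G.mesh k := G.mesh_pos k
  have hS : 0 ≤ 2 * G.mesh k := by positivity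
  obtain ⟨i1, j1⟩ := integral_Vt_le G (G.mX h) K k c (T := T) hS
  obtain ⟨i2, j2⟩ := integral_Vt_le G (G.mY h) K k c (T := T) hS
  obtain ⟨i3, j3⟩ := integral_Bot_le (hh.1.integrable_dv e0) K k c (T := T) hS
  obtain ⟨i4, j4⟩ := integral_Bot_le (hh.1.integrable_dv e1) K k c (T := T) hS
  have hi : IntegrableOn (fun x => G.VB h K k x (2 * G.mesh k)) (Q c T) :=
    ((i1.add i2).add i3).add i4
  calc ∫ x in Q c T, G.Ek h k x ≤ ∫ x in Q c T, C / G.mesh k * G.VB h K k x (2 * G.mesh k) :=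
        integral_mono_of_nonneg (Eventually.of_forall fun x => hh.Ek_nonneg k x) (hi.const_mul _)
          (Eventually.of_forall fun x => H G h hh K k hk x)
    _ = C / G.mesh k * ∫ x in Q c T, G.VB h K k x (2 * G.mesh k) := integral_const_mul _ _
    _ ≤ C / G.mesh k * (4 * (2 * G.mesh k) ^ 2 * G.VB h K k c (T + 2 * G.mesh k)) := by
        refine mul_le_mul_of_nonneg_left ?_ (by positivity)
        unfold Grid.VB
        rw [integral_add, integral_add, integral_add i1 i2]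
        rotate_left
        · exact i1.add i2
        · exact i3
        · exact (i1.add i2).add i3
        · exact i4
        linarith
    _ = _ := by field_simp; ring

end Crest.Agent.R112
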