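import Crest.Agent.R112.Grid1

/-!
# R112/ExM: the exceptional sets are small

`measurable_Gm`: `Gm lam p σ' u = ∫ y, F (u, y)` with `F` the product of `lam y` and the indicator of
the measurable set `{(u, y) | ‖y - u‖ < ‖u - p‖ ∧ σ' ≤ ‖y - p‖}`
(`MeasureTheory.StronglyMeasurable.integral_prod_right`).
`Gm_mono`: for `1 ≤ t` the disc with centre `u` through `p` lies in the disc with centre
`p + t • (u - p)` through `p` (triangle inequality).

`volume_ExSet`: let `λ = (1+κ)²`, `D n y = p + λ^n • (y - p)`, `n₀ = ⌊1/κ⌋₊ ≥ 1`, so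
`1 / (2κ) ≤ n₀ ≤ 1/κ`. For fixed `y` put `γ n = Gm lam p σ' (p + ((1+κ)⁻¹ * λ^n) • (y - p))`, a
nonnegative nondecreasing sequence. If `D n y ∈ ExSet` then `γ n ≤ A η` and `γ n + η < γ (n+1)`; this
happens for at most `A + 1` values of `n` (`count_jumps`), and only if `‖y - p‖ ≤ 2ρ`. So
`∑_{n<n₀} 1[D n y ∈ Ex] ≤ (A+1) 1[y ∈ closedBall p (2ρ)]`. Integrate: the preimage of `Ex` under
`D n` has measure `λ^(-2n) |Ex| ≥ |Ex| / (1+κ)^(4 n₀) ≥ |Ex| / e⁴` (`Measure.addHaar_preimage_homothety`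
or `addHaar_image_homothety`; `1 + κ ≤ exp κ`, `exp 4 ≤ 81`). Hence
`|Ex| ≤ 2κ * 81 * (A+1) * 4πρ²`.
`volume_EndSet`: two annuli; `|closedBall p (r+3σ)| - |ball p (max (r-3σ) 0)| ≤ 36 π σ ρ` each.
-/

namespace Crest.Agent.R112

open MeasureTheory Metric Set Filter Topology
open scoped RealInnerProductSpace NNReal

theorem measurable_Gm {lam : E → ℝ} (hm : Measurable lam) (p : E) (σ' : ℝ) :
    Measurable (Gm lam p σ') := by
  have hS : MeasurableSet {q : E × E | ‖q.2 - q.1‖ < ‖q.1 - p‖ ∧ σ' ≤ ‖q.2 - p‖} :=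
    (measurableSet_lt (f := fun q : E × E => ‖q.2 - q.1‖) (g := fun q : E × E => ‖q.1 - p‖)
      (by fun_prop) (by fun_prop)).inter
      (measurableSet_le (f := fun _ : E × E => σ') (g := fun q : E × E => ‖q.2 - p‖)
        (by fun_prop) (by fun_prop))
  have e : Gm lam p σ' = fun u => ∫ y, Set.indicator
      {q : E × E | ‖q.2 - q.1‖ < ‖q.1 - p‖ ∧ σ' ≤ ‖q.2 - p‖} (fun q => lam q.2) (u, y) := by
    funext u
    rw [Gm, ← integral_indicator (measurableSet_ball.diff measurableSet_ball)]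
    refine integral_congr_ae (Eventually.of_forall fun y => ?_)
    simp only [Set.indicator, Set.mem_sdiff, mem_ball, dist_eq_norm, not_lt, mem_ofPred_eq]
  rw [e]
  exact (StronglyMeasurable.integral_prod_right'
    ((hm.comp measurable_snd).indicator hS).stronglyMeasurable).measurable

theorem Gm_nonneg {lam : E → ℝ} (h0 : ∀ y, 0 ≤ lam y) (p : E) (σ' : ℝ) (u : E) :
    0 ≤ Gm lam p σ' u := by
  exact integral_nonneg fun y => h0 y

theorem Gm_mono {lam : E → ℝ} (hi : Integrable lam) (h0 : ∀ y, 0 ≤ lam y) (p : E) (σ' : ℝ) (v : E)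
    {s t : ℝ} (hs : 0 ≤ s) (hst : s ≤ t) :
    Gm lam p σ' (p + s • v) ≤ Gm lam p σ' (p + t • v) := by
  refine setIntegral_mono_set hi.integrableOn (Eventually.of_forall h0)
    (LE.le.eventuallyLE (sdiff_subset_sdiff_left ?_))
  refine ball_subset_ball' (le_of_eq ?_)
  rw [add_sub_cancel_left, add_sub_cancel_left, dist_add_left, dist_eq_norm, ← sub_smul,
    norm_smul, norm_smul, norm_smul, Real.norm_of_nonneg hs, Real.norm_of_nonneg (hs.trans hst),
    Real.norm_eq_abs, abs_of_nonpos (by linarith)]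
  ring

open Classical in
theorem count_jumps (γ : ℕ → ℝ) (hmono : Monotone γ) (h0 : 0 ≤ γ 0) {A η : ℝ} (hA : 0 ≤ A)
    (hη : 0 < η) (n : ℕ) :
    (((Finset.range n).filter (fun i => γ i ≤ A * η ∧ γ i + η < γ (i + 1))).card : ℝ) ≤ A + 1 := by
  suffices H : (((Finset.range n).filter
      (fun i => γ i ≤ A * η ∧ γ i + η < γ (i + 1))).card : ℝ) * η ≤ γ n ∧
      (((Finset.range n).filter (fun i => γ i ≤ A * η ∧ γ i + η < γ (i + 1))).card : ℝ) ≤ A + 1
    from H.2
  induction n with
  | zero => simpa using ⟨h0, by linarith⟩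
  | succ n ih =>
    rw [Finset.range_add_one, Finset.filter_insert]
    split_ifs with h
    · rw [Finset.card_insert_of_notMem (by simp)]
      push_cast
      refine ⟨by linarith [ih.1, h.2], ?_⟩
      have := le_of_mul_le_mul_right (ih.1.trans h.1) hη
      linarith
    · exact ⟨ih.1.trans (hmono (Nat.le_succ n)), ih.2⟩

theorem measurableSet_ExSet {lam : E → ℝ} (hm : Measurable lam) (p : E) (ρ σ' κ A η : ℝ) :
    MeasurableSet (ExSet lam p ρ σ' κ A η) := by
  have h1 : ∀ t : ℝ, Measurable fun x : E => Gm lam p σ' (p + t • (x - p)) := fun t =>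
    (measurable_Gm hm p σ').comp (by fun_prop)
  exact (measurableSet_le (f := fun x : E => ‖x - p‖) (by fun_prop) measurable_const).inter
    ((measurableSet_le (h1 _) measurable_const).inter
      (measurableSet_lt ((h1 _).add_const _) (h1 _)))

theorem volume_ExSet {lam : E → ℝ} (hm : Measurable lam) (hi : Integrable lam)
    (h0 : ∀ y, 0 ≤ lam y) (p : E) {ρ σ' κ A η : ℝ} (hρ : 0 < ρ) (hκ : 0 < κ) (hκ1 : κ ≤ 1)
    (hA : 0 ≤ A) (hη : 0 < η) :
    volume (ExSet lam p ρ σ' κ A η) ≤ ENNReal.ofReal (3000 * κ * (A + 1) * ρ ^ 2) := by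
  classical
  set Ex := ExSet lam p ρ σ' κ A η with hEx
  have hmE : MeasurableSet Ex := measurableSet_ExSet hm p ρ σ' κ A η
  have hk1 : 1 ≤ 1 + κ := by linarith
  have hk0 : 0 < 1 + κ := by linarith
  set L : ℝ := (1 + κ) ^ 2 with hL
  have hL1 : 1 ≤ L := one_le_pow₀ hk1
  set n₀ := ⌊1 / κ⌋₊ with hn₀
  have hn1 : (n₀ : ℝ) * κ ≤ 1 := by
    rw [← le_div_iff₀ hκ]; exact Nat.floor_le (by positivity)
  have hn2 : 1 ≤ 2 * κ * n₀ := by
    have h1 : 1 / κ < n₀ + 1 := Nat.lt_floor_add_one _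
    have h2 : (1 : ℝ) ≤ n₀ := by
      exact_mod_cast (Nat.one_le_floor_iff _).2 (by rwa [le_div_iff₀ hκ, one_mul])
    rw [div_lt_iff₀ hκ] at h1
    nlinarith
  let P : ℕ → Set E := fun n => AffineMap.homothety p (L ^ n) ⁻¹' Ex
  have hP : ∀ n, MeasurableSet (P n) := fun n =>
    (AffineMap.homothety_continuous p (L ^ n)).measurable hmE
  have hvol : ∀ n ∈ Finset.range n₀, volume Ex ≤ 81 * volume (P n) := by
    intro n hn
    have hn' : (n : ℝ) ≤ n₀ := by exact_mod_cast (Finset.mem_range.1 hn).le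
    have hsurj : Function.Surjective (AffineMap.homothety p (L ^ n)) := fun x =>
      ⟨AffineMap.homothety p (L ^ n)⁻¹ x, by
        rw [← AffineMap.homothety_mul_apply, mul_inv_cancel₀ (by positivity),
          AffineMap.homothety_one, AffineMap.id_apply]⟩
    have e := Measure.addHaar_image_homothety (volume : Measure E) p (L ^ n) (P n)
    rw [image_preimage_eq _ hsurj] at e
    rw [e]
    gcongr
    rw [finrank_euclideanSpace_fin, abs_of_nonneg (by positivity), hL, ← pow_mul, ← pow_mul,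
      ← ENNReal.ofReal_ofNat 81]
    refine ENNReal.ofReal_le_ofReal ?_
    calc (1 + κ) ^ (2 * (n * 2)) ≤ Real.exp κ ^ (2 * (n * 2)) :=
          pow_le_pow_left₀ hk0.le (by linarith [Real.add_one_le_exp κ]) _
      _ = Real.exp (((2 * (n * 2) : ℕ) : ℝ) * κ) := (Real.exp_nat_mul _ _).symm
      _ ≤ Real.exp (((4 : ℕ) : ℝ) * 1) := by
          refine Real.exp_le_exp.2 ?_
          push_cast
          nlinarith
      _ = Real.exp 1 ^ 4 := Real.exp_nat_mul _ _
      _ ≤ 3 ^ 4 := pow_le_pow_left₀ (Real.exp_pos _).le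
          (Real.exp_one_lt_d9.le.trans (by norm_num)) _
      _ = 81 := by norm_num
  have hpt : ∀ y, ∑ n ∈ Finset.range n₀, (P n).indicator (1 : E → ENNReal) y ≤
      (closedBall p (2 * ρ)).indicator (fun _ => ENNReal.ofReal (A + 1)) y := by
    intro y
    have hD : ∀ n, AffineMap.homothety p (L ^ n) y - p = L ^ n • (y - p) := fun n => by
      rw [AffineMap.homothety_apply]; simp
    by_cases hy : y ∈ closedBall p (2 * ρ)
    · rw [indicator_of_mem hy]
      let γ : ℕ → ℝ := fun n => Gm lam p σ' (p + ((1 + κ)⁻¹ * L ^ n) • (y - p))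
      have hγ : Monotone γ := fun n m hnm =>
        Gm_mono hi h0 p σ' _ (by positivity)
          (mul_le_mul_of_nonneg_left (pow_le_pow_right₀ hL1 hnm) (by positivity))
      have hc := count_jumps γ hγ (Gm_nonneg h0 _ _ _) hA hη n₀
      have hsub : (Finset.range n₀).filter (fun n => y ∈ P n) ⊆
          (Finset.range n₀).filter (fun i => γ i ≤ A * η ∧ γ i + η < γ (i + 1)) := by
        refine Finset.monotone_filter_right _ fun n _ hn => ?_
        obtain ⟨-, h2, h3⟩ := hn
        rw [hD, smul_smul] at h2 h3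
        have e : (1 + κ)⁻¹ * L ^ (n + 1) = (1 + κ) * L ^ n := by
          rw [pow_succ, hL]; field_simp
        simp only [γ]
        rw [e]
        rw [smul_smul] at h3
        exact ⟨h2, h3⟩
      simp only [indicator, Pi.one_apply, Finset.sum_boole]
      rw [← ENNReal.ofReal_natCast]
      exact ENNReal.ofReal_le_ofReal (le_trans (by exact_mod_cast Finset.card_le_card hsub) hc)
    · rw [indicator_of_notMem hy]
      refine le_of_eq (Finset.sum_eq_zero fun n _ => indicator_of_notMem (fun hn => hy ?_) _)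
      have h1 : ‖AffineMap.homothety p (L ^ n) y - p‖ ≤ 2 * ρ := hn.1
      rw [hD, norm_smul, Real.norm_of_nonneg (by positivity)] at h1
      rw [mem_closedBall, dist_eq_norm]
      exact (le_mul_of_one_le_left (norm_nonneg _) (one_le_pow₀ hL1)).trans h1
  have hsum : ∑ n ∈ Finset.range n₀, volume (P n) ≤
      ENNReal.ofReal (A + 1) * volume (closedBall p (2 * ρ)) := by
    rw [← lintegral_indicator_const measurableSet_closedBall]
    refine le_trans (le_of_eq ?_) (lintegral_mono hpt)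
    rw [lintegral_finsetSum _ fun n _ => measurable_one.indicator (hP n)]
    exact Finset.sum_congr rfl fun n _ => (lintegral_indicator_one (hP n)).symm
  have hball : volume (closedBall p (2 * ρ)) = ENNReal.ofReal (Real.pi * (2 * ρ) ^ 2) := by
    rw [Measure.addHaar_closedBall_eq_addHaar_ball, ← volume_real_ball p (by positivity),
      ofReal_measureReal measure_ball_lt_top.ne]
  have h1 : (n₀ : ENNReal) * volume Ex ≤
      81 * (ENNReal.ofReal (A + 1) * ENNReal.ofReal (Real.pi * (2 * ρ) ^ 2)) := by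
    have := Finset.card_nsmul_le_sum (Finset.range n₀) _ _ hvol
    rw [Finset.card_range, nsmul_eq_mul, ← Finset.mul_sum] at this
    rw [← hball]
    exact this.trans (mul_le_mul_right hsum _)
  calc volume Ex = 1 * volume Ex := (one_mul _).symm
    _ ≤ (ENNReal.ofReal (2 * κ) * n₀) * volume Ex := by
        gcongr
        rw [← ENNReal.ofReal_natCast, ← ENNReal.ofReal_mul (by positivity)]
        exact ENNReal.one_le_ofReal.2 hn2
    _ ≤ ENNReal.ofReal (2 * κ) *
        (81 * (ENNReal.ofReal (A + 1) * ENNReal.ofReal (Real.pi * (2 * ρ) ^ 2))) := by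
        rw [mul_assoc]; exact mul_le_mul_right h1 _
    _ ≤ ENNReal.ofReal (3000 * κ * (A + 1) * ρ ^ 2) := by
        rw [← ENNReal.ofReal_ofNat 81, ← ENNReal.ofReal_mul (by positivity),
          ← ENNReal.ofReal_mul (by positivity), ← ENNReal.ofReal_mul (by positivity)]
        refine ENNReal.ofReal_le_ofReal ?_
        have h2 : 0 ≤ κ * (A + 1) * ρ ^ 2 := by positivity
        nlinarith [Real.pi_le_four]

theorem measurableSet_EndSet (p : E) (ρ σ : ℝ) : MeasurableSet (EndSet p ρ σ) := by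
  exact (measurableSet_le (f := fun x : E => |‖x - p‖ - ρ|) (by fun_prop) measurable_const).union
    (measurableSet_le (f := fun x : E => |‖x - p‖ - ρ / Lam|) (by fun_prop) measurable_const)

theorem ExM_annulus (p : E) {ρ σ r : ℝ} (hσ : 0 ≤ σ) (hσρ : σ ≤ ρ) (hr : 0 ≤ r) (hrρ : r ≤ ρ) :
    volume {x : E | |‖x - p‖ - r| ≤ 3 * σ} ≤ ENNReal.ofReal (150 * σ * ρ) := by
  have hsub : {x : E | |‖x - p‖ - r| ≤ 3 * σ} ⊆
      closedBall p (r + 3 * σ) \ ball p (max (r - 3 * σ) 0) := by
    intro x hx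
    have hx' := abs_le.1 (show |‖x - p‖ - r| ≤ 3 * σ from hx)
    rw [Set.mem_sdiff, mem_closedBall, mem_ball, dist_eq_norm, not_lt, max_le_iff]
    exact ⟨by linarith [hx'.2], by linarith [hx'.1], norm_nonneg _⟩
  refine (measure_mono hsub).trans ?_
  have hfin : volume (closedBall p (r + 3 * σ)) ≠ ⊤ := measure_closedBall_lt_top.ne
  rw [← ofReal_measureReal ((measure_mono sdiff_subset).trans_lt hfin.lt_top).ne,
    measureReal_sdiff (ball_subset_closedBall.trans (closedBall_subset_closedBall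
      (max_le (by linarith) (by linarith)))) measurableSet_ball hfin,
    volume_real_ball p (le_max_right _ _), Measure.real,
    Measure.addHaar_closedBall_eq_addHaar_ball, ← Measure.real,
    volume_real_ball p (by linarith), ← mul_sub]
  refine ENNReal.ofReal_le_ofReal ?_
  have h1 : (r + 3 * σ) ^ 2 - (max (r - 3 * σ) 0) ^ 2 ≤ 36 * σ * ρ := by
    rcases le_total (r - 3 * σ) 0 with h | h
    · rw [max_eq_right h]; nlinarith
    · rw [max_eq_left h]; nlinarith
  have h2 : 0 ≤ σ * ρ := mul_nonneg hσ (hσ.trans hσρ)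
  nlinarith [Real.pi_le_four, Real.pi_pos]

theorem volume_EndSet (p : E) {ρ σ : ℝ} (hσ : 0 ≤ σ) (hσρ : σ ≤ ρ) :
    volume (EndSet p ρ σ) ≤ ENNReal.ofReal (300 * σ * ρ) := by
  have hρ : 0 ≤ ρ := hσ.trans hσρ
  have hL : (1 : ℝ) ≤ Lam := by norm_num [Lam]
  refine (measure_union_le {x : E | |‖x - p‖ - ρ| ≤ 3 * σ}
    {x : E | |‖x - p‖ - ρ / Lam| ≤ 3 * σ}).trans ?_
  refine (add_le_add (ExM_annulus p hσ hσρ hρ le_rfl)
    (ExM_annulus p hσ hσρ (by positivity) (div_le_self hρ hL))).trans ?_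
  rw [← ENNReal.ofReal_add (by positivity) (by positivity)]
  exact ENNReal.ofReal_le_ofReal (le_of_eq (by ring))

end Crest.Agent.R112
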