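import Crest.Agent.R112.Core

/-!
# R112/FSInt: the integrated fine-scale estimate

`(π r²)⁻¹ ≤ Lam² / (π ρ²) ≤ Lam² / ρ²` since `ρ / Lam ≤ r`. Integrate `fs_core` over `Q c ρ` (area
`4ρ²`). For a pair `i` of level `n ≥ 14` with `d i > 0` we have `Θ > 0`, and with `q = 2^n`
`|Exc ρ i| ≤ 3000 * (48/q⁶) * (66 q² + 1) ρ² + 300 ρ²/q^10 ≤ C ρ² / q⁴` (`volume_ExSet`,
`volume_EndSet`), so `4^n * d i * |Exc| ≤ C ρ² (1/2)^n d i`; finish with `sum_d_le`.
-/

namespace Crest.Agent.R112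

open MeasureTheory Metric Set Filter Topology
open scoped RealInnerProductSpace NNReal

private theorem FSInt_meas {ι : Type} {D : FSData ι} {ρ : ℝ} {f : E} (h : D.OK ρ f) (i : ι) :
    MeasurableSet (D.Exc ρ i) :=
  (measurableSet_ExSet (h.measurable_lam _) _ _ _ _ _ _).union (measurableSet_EndSet _ _ _)

private theorem FSInt_vol {ι : Type} {D : FSData ι} {ρ : ℝ} {f : E} (h : D.OK ρ f) {i : ι}
    (hi : i ∈ D.I) (hn : 14 ≤ D.lev i) (hd : 0 < D.d i) : volume (D.Exc ρ i) ≠ ⊤ ∧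
    4 ^ D.lev i * D.d i * volume.real (D.Exc ρ i) ≤
      10 ^ 7 * ρ ^ 2 * ((1 / 2 : ℝ) ^ D.lev i * D.d i) := by
  have hρ := h.pos
  have hΘ : 0 < D.Θ := by
    refine lt_of_lt_of_le ?_ h.sum_d_le
    refine lt_of_lt_of_le (by positivity) (Finset.single_le_sum
      (f := fun i => (1 / 2 : ℝ) ^ D.lev i * D.d i) (fun j hj => ?_) hi)
    exact mul_nonneg (by positivity) (h.d_nonneg hj)
  set q : ℝ := 2 ^ D.lev i with hq
  have hq2 : 2 ≤ q := by
    calc (2 : ℝ) = 2 ^ 1 := by norm_num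
      _ ≤ q := pow_le_pow_right₀ one_le_two (by omega)
  have hq0 : 0 < q := by linarith
  have hq1 : 1 ≤ q := by linarith
  have hκ : 48 / q ^ 6 ≤ 1 := by
    rw [div_le_one (by positivity)]
    calc (48 : ℝ) ≤ 2 ^ 6 := by norm_num
      _ ≤ q ^ 6 := pow_le_pow_left₀ (by norm_num) hq2 6
  have h1 := volume_ExSet (h.measurable_lam (D.lev i)) (h.integrable_lam _) (h.lam_nonneg _) (D.c i)
    (σ' := ρ / q ^ 2) (A := 66 * q ^ 2) (η := D.Θ / q) hρ (by positivity) hκ (by positivity)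
    (by positivity)
  have h2 := volume_EndSet (D.c i) (ρ := ρ) (σ := ρ / q ^ 10) (by positivity)
    (div_le_self hρ.le (one_le_pow₀ hq1))
  refine ⟨((measure_union_le _ _).trans_lt (ENNReal.add_lt_top.2
    ⟨h1.trans_lt ENNReal.ofReal_lt_top, h2.trans_lt ENNReal.ofReal_lt_top⟩)).ne, ?_⟩
  have h3 : volume.real (D.Exc ρ i) ≤
      3000 * (48 / q ^ 6) * (66 * q ^ 2 + 1) * ρ ^ 2 + 300 * (ρ / q ^ 10) * ρ := by
    refine ENNReal.toReal_le_of_le_ofReal (by positivity) ((measure_union_le _ _).trans ?_)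
    rw [ENNReal.ofReal_add (by positivity) (by positivity)]
    exact add_le_add h1 h2
  have h4 : 3000 * (48 / q ^ 6) * (66 * q ^ 2 + 1) * ρ ^ 2 + 300 * (ρ / q ^ 10) * ρ ≤
      10 ^ 7 * ρ ^ 2 / q ^ 3 := by
    have a1 : (48 / q ^ 6) * (66 * q ^ 2 + 1) ≤ 48 * 67 / q ^ 3 := by
      rw [div_mul_eq_mul_div, div_le_div_iff₀ (by positivity) (by positivity)]
      have b1 : 1 ≤ q ^ 2 := one_le_pow₀ hq1
      have b2 : q ^ 2 * q ^ 3 ≤ q ^ 6 := by
        rw [← pow_add]; exact pow_le_pow_right₀ hq1 (by norm_num)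
      have b3 : 0 < q ^ 3 := by positivity
      nlinarith
    have a2 : ρ / q ^ 10 ≤ ρ / q ^ 3 :=
      div_le_div_of_nonneg_left hρ.le (by positivity) (pow_le_pow_right₀ hq1 (by norm_num))
    have a3 : 0 ≤ ρ ^ 2 / q ^ 3 := by positivity
    calc _ = 3000 * ((48 / q ^ 6) * (66 * q ^ 2 + 1)) * ρ ^ 2 + 300 * (ρ / q ^ 10) * ρ := by ring
      _ ≤ 3000 * (48 * 67 / q ^ 3) * ρ ^ 2 + 300 * (ρ / q ^ 3) * ρ := by gcongr
      _ = (3000 * (48 * 67) + 300) * (ρ ^ 2 / q ^ 3) := by ring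
      _ ≤ 10 ^ 7 * (ρ ^ 2 / q ^ 3) := by gcongr; norm_num
      _ = _ := by ring
  have e1 : (4 : ℝ) ^ D.lev i = q ^ 2 := by
    rw [hq, ← pow_mul, mul_comm, pow_mul]; norm_num
  have e2 : (1 / 2 : ℝ) ^ D.lev i = 1 / q := by rw [hq, one_div_pow]
  rw [e1, e2]
  refine (mul_le_mul_of_nonneg_left (h3.trans h4) (by positivity)).trans (le_of_eq ?_)
  field_simp

theorem fs_int : ∃ C : ℝ, 0 ≤ C ∧ ∀ (ι : Type) (D : FSData ι) (ρ : ℝ) (f c : E) (φ : E → ℝ),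
    D.OK ρ f → IntegrableOn φ (Q c ρ) →
    (∀ᵐ x, x ∈ Q c ρ → ∃ r, Opt D.V ρ x r ∧
      φ x ≤ (Real.pi * r ^ 2)⁻¹ * ng (∫ y in ball x r, ⟪f, D.V y⟫)) →
    ∫ x in Q c ρ, φ x ≤ C * D.Θ := by
  classical
  refine ⟨(Lam : ℝ) ^ 2 * (20 * 2 ^ 13 + 5 * 10 ^ 7), by positivity, ?_⟩
  intro ι D ρ f c φ h hφ hae
  have hρ := h.pos
  have hΘ := h.theta_nonneg
  have hL : (0 : ℝ) < Lam := by unfold Lam; norm_num
  have hQ : volume (Q c ρ) ≠ ⊤ := (isCompact_Q c ρ).measure_lt_top.ne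
  set J := D.I.filter fun i => 14 ≤ D.lev i with hJ
  have hint : ∀ i, IntegrableOn (fun x => 4 ^ D.lev i * D.d i * (D.Exc ρ i).indicator 1 x : E → ℝ)
      (Q c ρ) := fun i =>
    ((integrableOn_const (C := (1 : ℝ)) hQ).indicator (FSInt_meas h i)).const_mul _
  have hsum : IntegrableOn (fun x => ∑ i ∈ J,
      4 ^ D.lev i * D.d i * (D.Exc ρ i).indicator 1 x : E → ℝ) (Q c ρ) :=
    integrable_finsetSum _ fun i _ => hint i
  have hc : IntegrableOn (fun _ => 5 * 2 ^ 13 * D.Θ : E → ℝ) (Q c ρ) := integrableOn_const hQ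
  have h1 : ∫ x in Q c ρ, φ x ≤ ∫ x in Q c ρ, (Lam : ℝ) ^ 2 / ρ ^ 2 * (5 * 2 ^ 13 * D.Θ +
      5 * ∑ i ∈ J, 4 ^ D.lev i * D.d i * (D.Exc ρ i).indicator 1 x) := by
    refine setIntegral_mono_on_ae hφ ((hc.add (hsum.const_mul _)).const_mul _)
      (measurableSet_Q c ρ) ?_
    filter_upwards [hae] with x hx hxQ
    obtain ⟨r, hopt, hle⟩ := hx hxQ
    refine hle.trans (mul_le_mul ?_ (h.fs_core hopt) (le_max_right _ _) (by positivity))
    have hr : 0 < ρ / Lam := by positivity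
    have hπ := Real.pi_gt_three
    have h2 : (ρ / Lam) ^ 2 ≤ Real.pi * r ^ 2 := by
      have := pow_le_pow_left₀ hr.le hopt.lo 2
      nlinarith [sq_nonneg r]
    calc _ ≤ ((ρ / Lam) ^ 2)⁻¹ := inv_anti₀ (by positivity) h2
      _ = _ := by rw [div_pow, inv_div]
  refine h1.trans ?_
  rw [integral_const_mul, integral_add hc (hsum.const_mul _), integral_const_mul,
    integral_const_mul, integral_finsetSum _ fun i _ => hint i, setIntegral_const,
    volume_real_Q c hρ.le, smul_eq_mul]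
  have h3 : ∑ i ∈ J, ∫ x in Q c ρ, 4 ^ D.lev i * D.d i * (D.Exc ρ i).indicator 1 x ≤
      10 ^ 7 * ρ ^ 2 * D.Θ := by
    calc _ ≤ ∑ i ∈ J, 10 ^ 7 * ρ ^ 2 * ((1 / 2 : ℝ) ^ D.lev i * D.d i) := by
          refine Finset.sum_le_sum fun i hi => ?_
          obtain ⟨hi, hn⟩ := Finset.mem_filter.1 hi
          rcases (h.d_nonneg hi).eq_or_lt with hd | hd
          · rw [← hd]; simp
          refine le_trans ?_ (FSInt_vol h hi hn hd).2
          rw [integral_const_mul]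
          refine mul_le_mul_of_nonneg_left ?_ (by positivity)
          rw [integral_indicator_one (FSInt_meas h i), measureReal_restrict_apply (FSInt_meas h i)]
          exact measureReal_mono inter_subset_left (FSInt_vol h hi hn hd).1
      _ ≤ ∑ i ∈ D.I, 10 ^ 7 * ρ ^ 2 * ((1 / 2 : ℝ) ^ D.lev i * D.d i) :=
          Finset.sum_le_sum_of_subset_of_nonneg (Finset.filter_subset _ _) fun i hi _ => by
            have := h.d_nonneg hi
            positivity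
      _ ≤ _ := by
          rw [← Finset.mul_sum]
          exact mul_le_mul_of_nonneg_left h.sum_d_le (by positivity)
  calc _ ≤ (Lam : ℝ) ^ 2 / ρ ^ 2 * (5 * 2 ^ 13 * (4 * ρ ^ 2 * D.Θ) + 5 * (10 ^ 7 * ρ ^ 2 * D.Θ)) := by
        gcongr
    _ = _ := by field_simp; ring

end Crest.Agent.R112
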