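import Crest.Agent.R112.Ident
import Crest.Agent.R112.Mx

/-!
# R112/LI: a uniform local `L¹` bound for the truncated maximal functions

`mx_le_riesz`: for `r ∈ [a, 1]`, `avg_sub_eq` gives
`avg h x r = avg h x 1 - (2π)⁻¹ ∫ rampf r 1 ‖y-x‖ ⟪y-x, ∇h y⟫`, and
`rampf r 1 τ * τ ≤ 1[τ < 1] τ⁻¹` for `τ > 0` (`rampf ≤ (max r τ)⁻²`).
`integral_mx_le`: integrate over `x ∈ Q 0 R`; by Tonelli/Fubini the first term gives at most
`∫ |h|` (or use `abs_avg_le`: `avg h x 1 ≤ π⁻¹ ∫ |h|` times the area), the second at most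
`c₁ ∫ ‖∇h‖` with `c₁ = ∫ y in ball 0 1, ‖y‖⁻¹` (finite: `integrableOn_ball_of_norm_le_rpow` or
`integrableOn_fun_norm_addHaar`).
`li`: `mxi u a ≤ mx u (min a 1) 1 + π⁻¹ ∫ |u|` (`mxi_split`, monotonicity), and `mx u a 1` is the
uniform limit of `mx h a 1` (`abs_mx_sub_le`); `mxi u a` is continuous by hypothesis.
-/

namespace Crest.Agent.R112

open MeasureTheory Metric Set Filter Topology
open scoped RealInnerProductSpace NNReal

/-- the truncated Riesz kernel -/
noncomputable def li_k : E → ℝ := (ball (0 : E) 1).indicator fun y => ‖y‖⁻¹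

theorem li_k_nonneg (y : E) : 0 ≤ li_k y :=
  indicator_nonneg (fun _ _ => inv_nonneg.2 (norm_nonneg _)) y

theorem li_k_integrable : Integrable li_k := by
  rw [li_k, integrable_indicator_iff measurableSet_ball]
  refine integrableOn_ball_of_norm_le_rpow (C := 1) (α := 1) (by simp) (by simp) ?_
    (measurable_norm.inv.aestronglyMeasurable)
  exact Eventually.of_forall fun y => by simp [Real.rpow_neg_one]

theorem li_conv (g : E → ℝ) (x : E) :
    ∫ y in ball x 1, ‖y - x‖⁻¹ * g y = ∫ y, g y * li_k (x - y) := by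
  rw [← integral_indicator measurableSet_ball]
  congr 1
  funext y
  have h1 : x - y ∈ ball (0 : E) 1 ↔ y ∈ ball x 1 := by
    rw [mem_ball_zero_iff, mem_ball_iff_norm, norm_sub_rev]
  by_cases hy : y ∈ ball x 1
  · rw [indicator_of_mem hy, li_k, indicator_of_mem (h1.2 hy), norm_sub_rev, mul_comm]
  · rw [indicator_of_notMem hy, li_k, indicator_of_notMem (mt h1.1 hy), mul_zero]

theorem li_ramp {r : ℝ} (h1 : r ≤ 1) (z : E) : rampf r 1 ‖z‖ * ‖z‖ ≤ li_k z := by
  by_cases hz : z ∈ ball (0 : E) 1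
  · rw [li_k, indicator_of_mem hz]
    rw [mem_ball_zero_iff] at hz
    rcases (norm_nonneg z).eq_or_lt with h | h
    · simp [← h]
    · have h2 : rampf r 1 ‖z‖ ≤ (‖z‖ ^ 2)⁻¹ := by
        rw [rampf, min_eq_left hz.le]
        have : ((max r ‖z‖) ^ 2)⁻¹ ≤ (‖z‖ ^ 2)⁻¹ :=
          inv_anti₀ (by positivity) (pow_le_pow_left₀ h.le (le_max_right _ _) 2)
        have h3 : (0 : ℝ) ≤ (1 ^ 2)⁻¹ := by positivity
        linarith
      refine (mul_le_mul_of_nonneg_right h2 h.le).trans_eq ?_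
      field_simp
  · rw [mem_ball_zero_iff, not_lt] at hz
    rw [rampf_of_ge h1 hz, zero_mul]
    exact li_k_nonneg z

theorem mx_le_riesz {h : E → ℝ} (hh : C1c h) {a : ℝ} (ha : 0 < a) (ha1 : a ≤ 1) (x : E) :
    mx h a 1 x ≤ avg h x 1 + ∫ y in ball x 1, ‖y - x‖⁻¹ * ‖gradient h y‖ := by
  refine mx_le ha1 fun r hr => ?_
  have h0 : 0 < r := ha.trans_le hr.1
  obtain ⟨C, hC⟩ := hh.continuous_gradient.bounded_above_of_compact_support
    hh.hasCompactSupport_gradient
  have h1 : Integrable fun y => ‖gradient h y‖ * li_k (x - y) :=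
    (li_k_integrable.comp_sub_left x).bdd_mul (c := C)
      hh.continuous_gradient.norm.aestronglyMeasurable
      (Eventually.of_forall fun y => by simpa using hC y)
  have h2 : ‖∫ y, rampf r 1 ‖y - x‖ * ⟪y - x, gradient h y⟫‖ ≤
      ∫ y, ‖gradient h y‖ * li_k (x - y) := by
    refine norm_integral_le_of_norm_le h1 (Eventually.of_forall fun y => ?_)
    have h3 := li_ramp hr.2 (x - y)
    have h4 := rampf_nonneg h0 hr.2 ‖y - x‖
    rw [norm_sub_rev] at h3
    rw [norm_mul, Real.norm_of_nonneg h4, mul_comm ‖gradient h y‖]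
    refine (mul_le_mul_of_nonneg_left (norm_inner_le_norm _ _) h4).trans ?_
    rw [← mul_assoc]
    exact mul_le_mul_of_nonneg_right h3 (norm_nonneg _)
  have h3 := avg_sub_eq hh x h0 hr.2
  rw [li_conv]
  have h4 : (2 * Real.pi)⁻¹ ≤ 1 := inv_le_one_of_one_le₀ (by linarith [Real.pi_gt_three])
  have h5 : 0 ≤ (2 * Real.pi)⁻¹ := by positivity
  have h6 : |avg h x 1 - avg h x r| ≤ ∫ y, ‖gradient h y‖ * li_k (x - y) := by
    rw [h3, abs_mul, abs_of_nonneg h5]
    exact (mul_le_of_le_one_left (abs_nonneg _) h4).trans h2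
  linarith [(abs_le.1 h6).1]

theorem integral_mx_le : ∃ C : ℝ, 0 ≤ C ∧ ∀ (h : E → ℝ), C1c h → ∀ a R : ℝ, 0 < a → a ≤ 1 → 0 ≤ R →
    ∫ x in Q 0 R, mx h a 1 x ≤ 4 * R ^ 2 * (∫ y, |h y|) + C * ∫ y, ‖gradient h y‖ := by
  refine ⟨∫ y, li_k y, integral_nonneg li_k_nonneg, fun h hh a R ha ha1 hR => ?_⟩
  have hg := hh.integrable_gradient.norm
  have h1 := hg.integrable_convolution (ContinuousLinearMap.mul ℝ ℝ) li_k_integrable
  have h2 := integral_convolution (ContinuousLinearMap.mul ℝ ℝ) hg li_k_integrable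
  obtain ⟨L, hL⟩ := mx_lipschitz hh ha ha1
  have h3 : ∀ x, mx h a 1 x ≤ (∫ y, |h y|) + convolution (fun y => ‖gradient h y‖) li_k
      (ContinuousLinearMap.mul ℝ ℝ) volume x := fun x => by
    have h4 := mx_le_riesz hh ha ha1 x
    have h5 := abs_avg_le hh.integrable x one_pos le_rfl
    have h6 : (Real.pi * 1 ^ 2)⁻¹ ≤ 1 := inv_le_one_of_one_le₀ (by linarith [Real.pi_gt_three])
    have h7 := mul_le_of_le_one_left (integral_nonneg fun y => abs_nonneg (h y) :
      0 ≤ ∫ y, |h y|) h6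
    rw [li_conv] at h4
    rw [convolution_mul]
    linarith [le_abs_self (avg h x 1)]
  have hv : IntegrableOn (fun _ : E => ∫ y, |h y|) (Q 0 R) :=
    integrableOn_const (isCompact_Q 0 R).measure_lt_top.ne
  refine (setIntegral_mono (hL.continuous.continuousOn.integrableOn_compact (isCompact_Q 0 R))
    (hv.add h1.integrableOn) h3).trans ?_
  simp only [Pi.add_apply]
  rw [integral_add hv h1.integrableOn, setIntegral_const, volume_real_Q 0 hR,
    smul_eq_mul]
  refine add_le_add le_rfl ((setIntegral_le_integral h1 (Eventually.of_forall fun x => ?_)).trans_eq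
    (h2.trans (mul_comm _ _)))
  exact integral_nonneg fun y => mul_nonneg (norm_nonneg _) (li_k_nonneg _)

theorem li {u : E → ℝ} {G₀ : E → E} (H : Appr u G₀) (hc : ∀ a, 0 < a → Continuous (mxi u a))
    (R : ℝ) : ∃ B : ℝ, ∀ a, 0 < a → ∫ x in Q 0 R, mxi u a x ≤ B := by
  obtain ⟨hu, hu0, hG, H⟩ := H
  rcases lt_or_ge R 0 with hR | hR
  · refine ⟨0, fun a _ => ?_⟩
    have : Q 0 R = ∅ := eq_empty_of_forall_notMem fun y hy =>
      absurd ((dinf_nonneg y 0).trans hy) (not_le.2 hR)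
    simp [this]
  obtain ⟨C, hC0, hC⟩ := integral_mx_le
  refine ⟨4 * R ^ 2 * ((∫ y, |u y|) + 1) + C * ((∫ y, ‖G₀ y‖) + 1) +
    4 * R ^ 2 * ((∫ y, |u y|) + 1), fun a ha => ?_⟩
  obtain ⟨a', ha', ha1, haa⟩ : ∃ a' : ℝ, 0 < a' ∧ a' ≤ 1 ∧ a' ≤ a :=
    ⟨min a 1, lt_min ha one_pos, min_le_right _ _, min_le_left _ _⟩
  have hp : 0 < Real.pi * a' ^ 2 := by positivity
  obtain ⟨h, hh, -, e1, e2⟩ := H (min 1 (Real.pi * a' ^ 2)) (lt_min one_pos hp)
  have hI : 0 ≤ ∫ y, |u y| := integral_nonneg fun y => abs_nonneg _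
  have h1 : ∀ x, mxi u a x ≤ mx h a' 1 x + ((∫ y, |u y|) + 1) := fun x => by
    have h2 := abs_mx_sub_le hh.integrable hu ha' ha1 x
    have h3 : (Real.pi * a' ^ 2)⁻¹ * ∫ y, |h y - u y| ≤ 1 := by
      rw [inv_mul_le_iff₀ hp, mul_one]
      exact e1.trans (min_le_right _ _)
    have h4 := (abs_le.1 (h2.trans h3)).1
    refine mxi_le fun r hr => ?_
    rcases le_total r 1 with h5 | h5
    · have := le_mx hu ha' ⟨haa.trans hr, h5⟩ x
      linarith
    · have h6 := (avg_nonneg hu0 x 1).trans (le_mx hu ha' ⟨ha1, le_rfl⟩ x)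
      have h7 := abs_avg_le hu x one_pos h5
      have h8 : (Real.pi * 1 ^ 2)⁻¹ ≤ 1 := inv_le_one_of_one_le₀ (by linarith [Real.pi_gt_three])
      have h9 := mul_le_of_le_one_left hI h8
      linarith [le_abs_self (avg u x r)]
  obtain ⟨L, hL⟩ := mx_lipschitz hh ha' ha1
  have hv : volume (Q 0 R) ≠ ⊤ := (isCompact_Q 0 R).measure_lt_top.ne
  have hm := hL.continuous.continuousOn.integrableOn_compact (μ := volume) (isCompact_Q 0 R)
  refine (setIntegral_mono ((hc a ha).continuousOn.integrableOn_compact (isCompact_Q 0 R))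
    (hm.add (integrableOn_const hv)) h1).trans ?_
  simp only [Pi.add_apply]
  rw [integral_add hm (integrableOn_const hv), setIntegral_const, volume_real_Q 0 hR, smul_eq_mul]
  refine add_le_add ((hC h hh a' R ha' ha1 hR).trans ?_) le_rfl
  have h2 : ∫ y, |h y| ≤ (∫ y, |u y|) + 1 := by
    refine le_trans ?_ (add_le_add le_rfl (e1.trans (min_le_left _ _)))
    have hi : Integrable fun y => |h y - u y| := (hh.integrable.sub hu).abs
    rw [← integral_add hu.abs hi]
    refine integral_mono hh.integrable.abs (hu.abs.add hi) fun y => ?_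
    simpa using abs_add_le (u y) (h y - u y)
  have h3 : ∫ y, ‖gradient h y‖ ≤ (∫ y, ‖G₀ y‖) + 1 := by
    refine le_trans ?_ (add_le_add le_rfl (e2.trans (min_le_left _ _)))
    have hi : Integrable fun y => ‖gradient h y - G₀ y‖ := (hh.integrable_gradient.sub hG).norm
    rw [← integral_add hG.norm hi]
    refine integral_mono hh.integrable_gradient.norm (hG.norm.add hi) fun y => ?_
    simpa using norm_add_le (G₀ y) (gradient h y - G₀ y)
  gcongr

end Crest.Agent.R112
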