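import Crest.Agent.R112.Loc
import Crest.Agent.R112.Dual

/-!
# R112/Trans: the estimates for limits of `C¹_c` functions

`Appr.mx_lip`: `mx h a b → mx u a b` uniformly (`abs_mx_sub_le`), `mx_lip_L1`,
`∫ ‖∇h‖ ≤ ∫ ‖G₀‖ + ε`. `Appr.mxi_lip`: let `b → ∞` (`abs_mxi_sub_mx_le`).
`b1`: `limit_grad` with `Γ = Γ' = 0`, `u' = mx h a (a Lam^(K+1))` for `h` close to `u` and `K` large
(`mt` with `ρ = a Lam^(K+1)`; `abs_mxi_sub_mx_le`, `abs_mx_sub_le`).
`b2`: given `ε`, take a continuous compactly supported `Γ` with `∫ ‖G₀ - Γ‖` small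
(`Integrable.exists_hasCompactSupport_integral_sub_le`), supported in `Q 0 T`; it is uniformly
continuous (`HasCompactSupport.uniformContinuous_of_continuous`), so for small `ρ ≤ 1` the modulus `ω`
makes `ω (T+4)²` small. Then `limit_grad` with `u = mx u (ρ/Lam^(K+1)) ρ`, `Γ = G₀`,
`u' = mx h ..`, `Γ' = ∇h`, and `loc2`.
-/

namespace Crest.Agent.R112

open MeasureTheory Metric Set Filter Topology
open scoped RealInnerProductSpace NNReal

theorem trans_exists_eps (K : ℝ) {δ : ℝ} (hδ : 0 < δ) : ∃ ε > 0, ε ≤ δ ∧ K * ε ≤ δ := by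
  have h0 := abs_nonneg K
  refine ⟨δ / (|K| + 1), by positivity, div_le_self hδ.le (by linarith), ?_⟩
  rw [← mul_div_assoc, div_le_iff₀ (by positivity)]
  nlinarith [le_abs_self K]

theorem trans_le_of_eps {A B K : ℝ} (h : ∀ ε > 0, A ≤ B + K * ε) : A ≤ B := by
  refine le_of_forall_pos_le_add fun δ hδ => ?_
  obtain ⟨ε, h0, -, h1⟩ := trans_exists_eps K hδ
  exact (h ε h0).trans (by linarith)

theorem trans_integral_le {F G Γ : E → E} (hF : Integrable F) (hG : Integrable G)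
    (hΓ : Integrable Γ) : ∫ x, ‖F x - Γ x‖ ≤ (∫ x, ‖F x - G x‖) + ∫ x, ‖G x - Γ x‖ := by
  have h1 : Integrable fun x => ‖F x - G x‖ := (hF.sub hG).norm
  have h2 : Integrable fun x => ‖G x - Γ x‖ := (hG.sub hΓ).norm
  rw [← integral_add h1 h2]
  exact integral_mono (hF.sub hΓ).norm (h1.add h2) fun x => norm_sub_le_norm_sub_add_norm_sub _ _ _

theorem trans_grad_le {h : E → ℝ} (hh : C1c h) {G₀ : E → E} (hG : Integrable G₀) {ε : ℝ}
    (H : ∫ x, ‖gradient h x - G₀ x‖ ≤ ε) : ∫ x, ‖gradient h x‖ ≤ (∫ x, ‖G₀ x‖) + ε := by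
  have := trans_integral_le hh.integrable_gradient hG (integrable_zero E E volume)
  simp only [Pi.zero_apply, sub_zero] at this
  linarith

theorem trans_one_le_pow (K : ℕ) : (1 : ℝ) ≤ (Lam : ℝ) ^ K :=
  one_le_pow₀ (by norm_num [Lam])

theorem trans_exists_level {a ε : ℝ} (ha : 0 < a) (hε : 0 < ε) :
    ∃ K : ℕ, (Real.pi * (a * (Lam : ℝ) ^ (K + 1)) ^ 2)⁻¹ ≤ ε := by
  obtain ⟨K, hK⟩ := pow_unbounded_of_one_lt (Real.pi * a ^ 2 * ε)⁻¹
    (by norm_num [Lam] : (1 : ℝ) < Lam)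
  refine ⟨K, ?_⟩
  have hπ := Real.pi_pos
  have h1 : (0 : ℝ) < (Lam : ℝ) ^ (K + 1) := one_pos.trans_le (trans_one_le_pow _)
  have h2 : (Lam : ℝ) ^ K ≤ ((Lam : ℝ) ^ (K + 1)) ^ 2 := by
    rw [← pow_mul]
    exact pow_le_pow_right₀ (by norm_num [Lam]) (by omega)
  rw [inv_le_comm₀ (by positivity) hε]
  calc ε⁻¹ = Real.pi * a ^ 2 * (Real.pi * a ^ 2 * ε)⁻¹ := by field_simp
    _ ≤ Real.pi * a ^ 2 * ((Lam : ℝ) ^ (K + 1)) ^ 2 := by gcongr; exact hK.le.trans h2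
    _ = Real.pi * (a * (Lam : ℝ) ^ (K + 1)) ^ 2 := by ring

theorem trans_lipschitz {f : E → ℝ} {c : ℝ} (h : ∀ x x', |f x - f x'| ≤ c * ‖x - x'‖) :
    ∃ C, LipschitzWith C f :=
  ⟨Real.toNNReal c, LipschitzWith.of_dist_le' fun x x' => by
    rw [Real.dist_eq, dist_eq_norm]; exact h x x'⟩

theorem Appr.mx_lip {u : E → ℝ} {G₀ : E → E} (H : Appr u G₀) {a b : ℝ} (ha : 0 < a) (hab : a ≤ b)
    (x x' : E) :
    |mx u a b x - mx u a b x'| ≤ (Real.pi * a ^ 2)⁻¹ * (∫ y, ‖G₀ y‖) * ‖x - x'‖ := by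
  obtain ⟨hu, -, hG, H⟩ := H
  have hc : 0 ≤ (Real.pi * a ^ 2)⁻¹ := by have := Real.pi_pos; positivity
  refine trans_le_of_eps (K := (Real.pi * a ^ 2)⁻¹ * (2 + ‖x - x'‖)) fun ε hε => ?_
  obtain ⟨h, hh, -, h1, h2⟩ := H ε hε
  have h3 := fun y => (abs_mx_sub_le hh.integrable hu ha hab y).trans
    (mul_le_mul_of_nonneg_left h1 hc)
  have h4 : |mx h a b x - mx h a b x'| ≤ (Real.pi * a ^ 2)⁻¹ * ((∫ y, ‖G₀ y‖) + ε) * ‖x - x'‖ :=
    (mx_lip_L1 hh ha hab x x').trans (by gcongr; exact trans_grad_le hh hG h2)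
  have h5 := abs_le.1 (h3 x)
  have h6 := abs_le.1 (h3 x')
  have h7 := abs_le.1 h4
  rw [abs_le]
  constructor <;> nlinarith

theorem Appr.mx_lipschitz {u : E → ℝ} {G₀ : E → E} (H : Appr u G₀) {a b : ℝ} (ha : 0 < a)
    (hab : a ≤ b) : ∃ C, LipschitzWith C (mx u a b) := trans_lipschitz (H.mx_lip ha hab)

theorem Appr.mxi_lipschitz {u : E → ℝ} {G₀ : E → E} (H : Appr u G₀) {a : ℝ} (ha : 0 < a) :
    ∃ C, LipschitzWith C (mxi u a) := by
  refine trans_lipschitz (c := (Real.pi * a ^ 2)⁻¹ * ∫ y, ‖G₀ y‖) fun x x' => ?_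
  refine trans_le_of_eps (K := 2 * ∫ y, |u y|) fun ε hε => ?_
  obtain ⟨K, hK⟩ := trans_exists_level ha hε
  have hab : a ≤ a * (Lam : ℝ) ^ (K + 1) := le_mul_of_one_le_right ha.le (trans_one_le_pow _)
  have h3 := fun y => (abs_mxi_sub_mx_le H.1 H.2.1 ha hab y).trans
    (mul_le_mul_of_nonneg_right hK (integral_nonneg fun y => abs_nonneg _))
  have h5 := abs_le.1 (h3 x)
  have h6 := abs_le.1 (h3 x')
  have h7 := abs_le.1 (H.mx_lip ha hab x x')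
  rw [abs_le]
  constructor <;> linarith [h5.1, h5.2, h6.1, h6.2, h7.1, h7.2]

theorem b1 : ∃ C : ℝ, 0 ≤ C ∧ ∀ (u : E → ℝ) (G₀ : E → E), Appr u G₀ → ∀ a, 0 < a →
    Integrable (gradient (mxi u a)) ∧ ∫ x, ‖gradient (mxi u a) x‖ ≤ C * ∫ x, ‖G₀ x‖ := by
  obtain ⟨C, hC, hmt⟩ := mt
  refine ⟨2 * C, by positivity, fun u G₀ H a ha => ?_⟩
  obtain ⟨L, hL⟩ := H.mxi_lipschitz ha
  have key := limit_grad hL (integrable_zero E E volume) (B := C * ∫ x, ‖G₀ x‖) fun δ hδ => by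
    obtain ⟨ε₁, h1, -, h1'⟩ := trans_exists_eps (∫ y, |u y|) (half_pos hδ)
    obtain ⟨K, hK⟩ := trans_exists_level ha h1
    obtain ⟨ε₂, h2, -, h2'⟩ := trans_exists_eps ((Real.pi * a ^ 2)⁻¹ + C) (half_pos hδ)
    obtain ⟨h, hh, -, h3, h4⟩ := H.2.2.2 ε₂ h2
    have hc : 0 ≤ (Real.pi * a ^ 2)⁻¹ := by have := Real.pi_pos; positivity
    have hp := trans_one_le_pow (K + 1)
    have hab : a ≤ a * (Lam : ℝ) ^ (K + 1) := le_mul_of_one_le_right ha.le hp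
    obtain ⟨L', hL'⟩ := mx_lipschitz hh ha hab
    refine ⟨mx h a (a * (Lam : ℝ) ^ (K + 1)), L', 0, hL', integrable_zero E E volume,
      integrable_gradient_of_lipschitz hL' (mx_hasCompactSupport hh hab), fun x => ?_,
      by simpa using hδ.le, ?_⟩
    · have h5 := abs_le.1 ((abs_mxi_sub_mx_le H.1 H.2.1 ha hab x).trans
        (mul_le_mul_of_nonneg_right hK (integral_nonneg fun y => abs_nonneg _)))
      have h6 := abs_le.1 ((abs_mx_sub_le hh.integrable H.1 ha hab x).trans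
        (mul_le_mul_of_nonneg_left h3 hc))
      have h7 : 0 ≤ C * ε₂ := by positivity
      rw [abs_le]
      constructor <;> nlinarith
    · have h5 := hmt h hh (a * (Lam : ℝ) ^ (K + 1)) (by positivity) K
      rw [mul_div_cancel_right₀ _ (by positivity)] at h5
      simp only [Pi.zero_apply, sub_zero]
      have h6 := mul_le_mul_of_nonneg_left (trans_grad_le hh H.2.2.1 h4) hC
      have h7 : 0 ≤ (Real.pi * a ^ 2)⁻¹ * ε₂ := by positivity
      nlinarith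
  simpa only [Pi.zero_apply, sub_zero, mul_assoc] using key

theorem b2 {u : E → ℝ} {G₀ : E → E} (H : Appr u G₀) {ε : ℝ} (hε : 0 < ε) :
    ∃ ρ₀ > 0, ∀ ρ, 0 < ρ → ρ ≤ ρ₀ → ∀ K : ℕ,
      Integrable (gradient (mx u (ρ / (Lam : ℝ) ^ (K + 1)) ρ)) ∧
      ∫ x, ‖gradient (mx u (ρ / (Lam : ℝ) ^ (K + 1)) ρ) x - G₀ x‖ ≤ ε := by
  obtain ⟨C, hC, hloc⟩ := loc2
  obtain ⟨η, hη, -, hη'⟩ := trans_exists_eps C (by positivity : 0 < ε / 4)
  obtain ⟨Γ, hΓc, hΓ1, hΓ, hΓi⟩ := H.2.2.1.exists_hasCompactSupport_integral_sub_le hη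
  obtain ⟨T, hT, hT'⟩ : ∃ T : ℝ, 0 ≤ T ∧ ∀ y, Γ y ≠ 0 → dinf y 0 ≤ T := by
    obtain ⟨T, hT⟩ := hΓc.isCompact.isBounded.subset_closedBall (0 : E)
    refine ⟨max T 0, le_max_right _ _, fun y hy => (dinf_le_norm y 0).trans ?_⟩
    have := hT (subset_tsupport _ hy)
    rw [mem_closedBall, dist_eq_norm] at this
    exact this.trans (le_max_left _ _)
  obtain ⟨ω, hω, -, hω'⟩ := trans_exists_eps (C * (T + 4) ^ 2) (by positivity : 0 < ε / 4)
  obtain ⟨θ, hθ, hθ'⟩ := Metric.uniformContinuous_iff.1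
    (hΓc.uniformContinuous_of_continuous hΓ) ω hω
  refine ⟨min 1 (θ / 9), by positivity, fun ρ hρ hρ' K => ?_⟩
  have hρ1 : ρ ≤ 1 := hρ'.trans (min_le_left _ _)
  have hρ2 : ρ ≤ θ / 9 := hρ'.trans (min_le_right _ _)
  have hp := trans_one_le_pow (K + 1)
  have ha : 0 < ρ / (Lam : ℝ) ^ (K + 1) := by positivity
  have hab : ρ / (Lam : ℝ) ^ (K + 1) ≤ ρ := div_le_self hρ.le hp
  have hloc' := fun h hh => hloc h hh ρ hρ K Γ ω T hΓi hT hT' fun y y' hy => by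
    rw [← dist_eq_norm]
    refine (hθ' ?_).le
    rw [dist_eq_norm]
    linarith [norm_le_two_dinf y y']
  generalize ρ / (Lam : ℝ) ^ (K + 1) = a at ha hab hloc' ⊢
  obtain ⟨L, hL⟩ := H.mx_lipschitz ha hab
  have key := limit_grad hL H.2.2.1 (B := ε / 2) fun δ hδ => by
    obtain ⟨ε₂, h2, h2'', h2'⟩ := trans_exists_eps ((Real.pi * a ^ 2)⁻¹ + C) hδ
    obtain ⟨h, hh, -, h3, h4⟩ := H.2.2.2 ε₂ h2
    have hc : 0 ≤ (Real.pi * a ^ 2)⁻¹ := by have := Real.pi_pos; positivity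
    obtain ⟨L', hL'⟩ := mx_lipschitz hh ha hab
    refine ⟨mx h a ρ, L', gradient h, hL', hh.integrable_gradient,
      integrable_gradient_of_lipschitz hL' (mx_hasCompactSupport hh hab), fun x => ?_,
      h4.trans h2'', ?_⟩
    · have h6 := (abs_mx_sub_le hh.integrable H.1 ha hab x).trans (mul_le_mul_of_nonneg_left h3 hc)
      have h7 : 0 ≤ C * ε₂ := by positivity
      linarith
    · have h5 := trans_integral_le hh.integrable_gradient H.2.2.1 hΓi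
      have h6 : (∫ y, ‖gradient h y - Γ y‖) + ω * (T + 4 * ρ) ^ 2 ≤ ε₂ + η + ω * (T + 4) ^ 2 := by
        have : ω * (T + 4 * ρ) ^ 2 ≤ ω * (T + 4) ^ 2 := by gcongr; linarith
        linarith
      have h7 : 0 ≤ (Real.pi * a ^ 2)⁻¹ * ε₂ := by positivity
      have h8 := (hloc' h hh).trans (mul_le_mul_of_nonneg_left h6 hC)
      nlinarith
  exact ⟨key.1, key.2.trans_eq (by ring)⟩

end Crest.Agent.R112
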