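import Crest.Agent.R112.Approx1
import Crest.Agent.R112.Approx2
import Crest.Agent.R112.Trans
import Crest.Agent.R112.LI
import Crest.Agent.R112.Cauchy

/-!
# R112/Final: from the truncated maximal functions to the maximal function
-/

namespace Crest.Agent.R112

open MeasureTheory Metric Set Filter Topology
open scoped RealInnerProductSpace NNReal ENNReal
open Crest.AnalysisR

theorem lam_pos : (0 : ℝ) < Lam := by norm_num [Lam]
theorem one_lt_lam : (1 : ℝ) < Lam := by norm_num [Lam]

/-- smallest radius of the `n`-th truncation -/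
noncomputable def rad (n : ℕ) : ℝ := ((Lam : ℝ) ^ n)⁻¹

theorem rad_pos (n : ℕ) : 0 < rad n := inv_pos.2 (pow_pos lam_pos n)

theorem rad_anti {m n : ℕ} (h : m ≤ n) : rad n ≤ rad m :=
  inv_anti₀ (pow_pos lam_pos m) (pow_le_pow_right₀ one_lt_lam.le h)

theorem exists_rad_le {r : ℝ} (hr : 0 < r) : ∃ n, rad n ≤ r := by
  obtain ⟨n, hn⟩ := pow_unbounded_of_one_lt r⁻¹ one_lt_lam
  refine ⟨n, ?_⟩
  unfold rad
  rw [inv_le_comm₀ (pow_pos lam_pos n) hr]
  exact hn.le

theorem rad_eq {m n : ℕ} (h : m < n) : rad n = rad m / (Lam : ℝ) ^ (n - m - 1 + 1) := by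
  have h1 : n = m + (n - m - 1 + 1) := by omega
  unfold rad
  conv_lhs => rw [h1, pow_add]
  have := lam_pos
  field_simp

theorem term_eq {f : E → ℝ} (hf : Integrable f) (x : E) {r : ℝ} (hr : 0 < r) :
    (∫⁻ y in ball x r, ‖f y‖ₑ) / volume (ball x r) =
      ENNReal.ofReal (avg (fun y => |f y|) x r) := by
  have h1 : ∫⁻ y in ball x r, ‖f y‖ₑ = ENNReal.ofReal (∫ y in ball x r, |f y|) := by
    rw [← ofReal_integral_norm_eq_lintegral_enorm hf.integrableOn]
    rfl
  have h2 : volume (ball x r) = ENNReal.ofReal (Real.pi * r ^ 2) := by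
    rw [EuclideanSpace.volume_ball_fin_two, ENNReal.ofReal_mul Real.pi_pos.le,
      ENNReal.ofReal_pow hr.le, mul_comm]
  have h3 : 0 < Real.pi * r ^ 2 := by positivity
  rw [h1, h2, ← ENNReal.ofReal_div_of_pos h3, avg, div_eq_inv_mul]

theorem cmf_eq {f : E → ℝ} (hf : Integrable f) (x : E) :
    centredMaximalFunction f x = ⨆ n : ℕ, ENNReal.ofReal (mxi (fun y => |f y|) (rad n) x) := by
  have hu : Integrable (fun y => |f y|) := hf.abs
  apply le_antisymm
  · unfold centredMaximalFunction
    refine iSup₂_le fun r hr => ?_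
    obtain ⟨n, hn⟩ := exists_rad_le hr
    rw [term_eq hf x hr]
    exact le_iSup_of_le n (ENNReal.ofReal_le_ofReal (le_mxi hu (rad_pos n) hn x))
  · refine iSup_le fun n => ?_
    by_cases ht : centredMaximalFunction f x = ⊤
    · rw [ht]; exact le_top
    · apply ENNReal.ofReal_le_of_le_toReal
      apply mxi_le
      intro r hr
      have hr0 : 0 < r := (rad_pos n).trans_le hr
      rw [← ENNReal.ofReal_le_iff_le_toReal ht, ← term_eq hf x hr0]
      unfold centredMaximalFunction
      exact le_iSup₂_of_le r hr0 le_rfl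

theorem mxi_nonneg {u : E → ℝ} (hu : Integrable u) (h0 : ∀ x, 0 ≤ u x) {a : ℝ} (ha : 0 < a)
    (x : E) : 0 ≤ mxi u a x :=
  (avg_nonneg h0 x a).trans (le_mxi hu ha le_rfl x)

theorem mxi_rad_mono {u : E → ℝ} (hu : Integrable u) (x : E) :
    Monotone (fun n => mxi u (rad n) x) := by
  intro m n h
  have := mxi_split hu (rad_pos n) (rad_anti h) x
  simp only
  rw [this]
  exact le_max_right _ _

theorem lintegral_cmf_lt_top {f : E → ℝ} {G₀ : E → E} (hf : Integrable f)
    (H : Appr (fun y => |f y|) G₀) (R : ℝ) :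
    ∫⁻ x in Q 0 R, centredMaximalFunction f x < ⊤ := by
  have hu : Integrable (fun y => |f y|) := hf.abs
  have hc : ∀ a, 0 < a → Continuous (mxi (fun y => |f y|) a) := fun a ha => by
    obtain ⟨C, hC⟩ := H.mxi_lipschitz ha
    exact hC.continuous
  obtain ⟨B, hB⟩ := li H hc R
  simp_rw [cmf_eq hf]
  rw [lintegral_iSup]
  · refine lt_of_le_of_lt (iSup_le fun n => ?_) (ENNReal.ofReal_lt_top (r := B))
    rw [← ofReal_integral_eq_lintegral_ofReal]
    · exact ENNReal.ofReal_le_ofReal (hB _ (rad_pos n))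
    · exact (hc _ (rad_pos n)).continuousOn.integrableOn_compact (isCompact_Q 0 R)
    · exact Eventually.of_forall fun x => mxi_nonneg hu (fun _ => abs_nonneg _) (rad_pos n) x
  · intro n
    exact (hc _ (rad_pos n)).measurable.ennreal_ofReal
  · intro m n h x
    exact ENNReal.ofReal_le_ofReal (mxi_rad_mono hu x h)

theorem measurable_cmf {f : E → ℝ} {G₀ : E → E} (hf : Integrable f)
    (H : Appr (fun y => |f y|) G₀) : Measurable (centredMaximalFunction f) := by
  have : centredMaximalFunction f =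
      fun x => ⨆ n : ℕ, ENNReal.ofReal (mxi (fun y => |f y|) (rad n) x) := funext (cmf_eq hf)
  rw [this]
  refine Measurable.iSup fun n => ?_
  obtain ⟨C, hC⟩ := H.mxi_lipschitz (rad_pos n)
  exact hC.continuous.measurable.ennreal_ofReal

theorem mem_Q_norm (x : E) {R : ℝ} (h : ‖x‖ ≤ R) : x ∈ Q 0 R := by
  have := dinf_le_norm x 0
  rw [sub_zero] at this
  exact this.trans h

theorem ae_cmf_lt_top {f : E → ℝ} {G₀ : E → E} (hf : Integrable f)
    (H : Appr (fun y => |f y|) G₀) : ∀ᵐ x, centredMaximalFunction f x < ⊤ := by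
  have h1 : ∀ n : ℕ, ∀ᵐ x, x ∈ Q 0 (n : ℝ) → centredMaximalFunction f x < ⊤ := fun n => by
    rw [← ae_restrict_iff' (measurableSet_Q 0 _)]
    exact ae_lt_top (measurable_cmf hf H) (lintegral_cmf_lt_top hf H n).ne
  filter_upwards [ae_all_iff.2 h1] with x hx
  obtain ⟨n, hn⟩ := exists_nat_ge ‖x‖
  exact hx n (mem_Q_norm x hn)

theorem locallyIntegrable_cmf {f : E → ℝ} {G₀ : E → E} (hf : Integrable f)
    (H : Appr (fun y => |f y|) G₀) :
    LocallyIntegrable (fun x => (centredMaximalFunction f x).toReal) := by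
  rw [locallyIntegrable_iff]
  intro K hK
  obtain ⟨R, hR⟩ := hK.isBounded.exists_norm_le
  have h1 : IntegrableOn (fun x => (centredMaximalFunction f x).toReal) (Q 0 R) :=
    integrable_toReal_of_lintegral_ne_top (measurable_cmf hf H).aemeasurable
      (lintegral_cmf_lt_top hf H R).ne
  exact h1.mono_set fun x hx => mem_Q_norm x (hR x hx)

theorem tendsto_mxi {f : E → ℝ} (hf : Integrable f) {x : E}
    (hx : centredMaximalFunction f x < ⊤) :
    Tendsto (fun n => mxi (fun y => |f y|) (rad n) x) atTop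
      (𝓝 (centredMaximalFunction f x).toReal) := by
  have hu : Integrable (fun y => |f y|) := hf.abs
  have h1 : Tendsto (fun n => ENNReal.ofReal (mxi (fun y => |f y|) (rad n) x)) atTop
      (𝓝 (centredMaximalFunction f x)) := by
    rw [cmf_eq hf]
    exact tendsto_atTop_iSup fun m n h => ENNReal.ofReal_le_ofReal (mxi_rad_mono hu x h)
  have h2 := (ENNReal.tendsto_toReal hx.ne).comp h1
  refine h2.congr fun n => ?_
  exact ENNReal.toReal_ofReal (mxi_nonneg hu (fun _ => abs_nonneg _) (rad_pos n) x)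

theorem mxi_le_toReal {f : E → ℝ} (hf : Integrable f) {x : E}
    (hx : centredMaximalFunction f x < ⊤) (n : ℕ) :
    mxi (fun y => |f y|) (rad n) x ≤ (centredMaximalFunction f x).toReal := by
  rw [← ENNReal.ofReal_le_iff_le_toReal hx.ne, cmf_eq hf]
  exact le_iSup (fun n : ℕ => ENNReal.ofReal (mxi (fun y => |f y|) (rad n) x)) n

theorem exists_limit_grad {u : E → ℝ} {G₀ : E → E} (H : Appr u G₀)
    (hi : ∀ n, Integrable (gradient (mxi u (rad n)))) :
    ∃ G : E → E, Integrable G ∧
      Tendsto (fun n => ∫ x, ‖gradient (mxi u (rad n)) x - G x‖) atTop (𝓝 0) := by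
  refine cauchy_grad (fun n => mxi u (rad n)) (fun n m => mx u (rad n) (rad m)) G₀ H.2.2.1
    (fun n => ⟨H.mxi_lipschitz (rad_pos n), hi n⟩)
    (fun n m h => H.mx_lipschitz (rad_pos n) (rad_anti h.le))
    (fun n m h x => mxi_split H.1 (rad_pos n) (rad_anti h.le) x) ?_
  intro ε hε
  obtain ⟨ρ₀, hρ₀, h⟩ := b2 H hε
  obtain ⟨m, hm⟩ := exists_rad_le hρ₀
  refine ⟨m, fun n hn => ?_⟩
  have := h (rad m) (rad_pos m) hm (n - m - 1)
  rw [← rad_eq hn] at this
  exact this

theorem final : ∃ C : ℝ, ∀ (f : E → ℝ) (g : E → E),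
    Integrable f → IsWeakGradient f g → Integrable g →
      (∀ᵐ x ∂(volume : Measure E), centredMaximalFunction f x < ⊤) ∧
      LocallyIntegrable (fun x => (centredMaximalFunction f x).toReal) ∧
      ∃ G : E → E, IsWeakGradient (fun x => (centredMaximalFunction f x).toReal) G ∧
        Integrable G ∧ ∫ x, ‖G x‖ ≤ C * ∫ x, ‖g x‖ := by
  obtain ⟨C, hC0, hC⟩ := b1
  refine ⟨C, fun f g hf hw hg => ?_⟩
  obtain ⟨G₀, hG₀, H⟩ := approx2 hf hg (fun ε hε => approx1 hf hg hw hε)
  have hu : Integrable (fun y => |f y|) := hf.abs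
  have hfin := ae_cmf_lt_top hf H
  have hloc := locallyIntegrable_cmf hf H
  have hi : ∀ n, Integrable (gradient (mxi (fun y => |f y|) (rad n))) :=
    fun n => (hC _ _ H _ (rad_pos n)).1
  obtain ⟨G, hG, hlim⟩ := exists_limit_grad H hi
  refine ⟨hfin, hloc, G, ⟨hloc, hG.locallyIntegrable, fun φ hφ hφc v => ?_⟩, hG, ?_⟩
  · have hφ1 : C1c φ := ⟨hφ.of_le (by simp), hφc⟩
    obtain ⟨D, hD⟩ := hφ1.lipschitz
    have hdiff : Differentiable ℝ φ := hφ1.1.differentiable (by simp)
    have hcont : Continuous (fun x => fderiv ℝ φ x v) :=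
      (hφ1.1.continuous_fderiv (by simp)).clm_apply continuous_const
    have hcs : HasCompactSupport (fun x => fderiv ℝ φ x v) :=
      hφc.fderiv_apply ℝ v
    have hn : ∀ n, ∫ x, mxi (fun y => |f y|) (rad n) x * fderiv ℝ φ x v =
        -∫ x, ⟪gradient (mxi (fun y => |f y|) (rad n)) x, v⟫ * φ x := fun n => by
      obtain ⟨C', hC'⟩ := H.mxi_lipschitz (rad_pos n)
      rw [← ibp_lip hC' hD hφc v]
      congr 1
      funext x
      rw [(hdiff x).lineDeriv_eq_fderiv]
    have hL : Tendsto (fun n => ∫ x, mxi (fun y => |f y|) (rad n) x * fderiv ℝ φ x v) atTop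
        (𝓝 (∫ x, (centredMaximalFunction f x).toReal * fderiv ℝ φ x v)) := by
      have hint : Integrable (fun x => (centredMaximalFunction f x).toReal * fderiv ℝ φ x v) :=
        hloc.integrable_smul_right_of_hasCompactSupport hcont hcs
      refine tendsto_integral_of_dominated_convergence
        (fun x => ‖(centredMaximalFunction f x).toReal * fderiv ℝ φ x v‖) (fun n => ?_)
        hint.norm (fun n => ?_) ?_
      · obtain ⟨C', hC'⟩ := H.mxi_lipschitz (rad_pos n)
        exact (hC'.continuous.mul hcont).aestronglyMeasurable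
      · filter_upwards [hfin] with x hx
        rw [norm_mul, norm_mul]
        refine mul_le_mul_of_nonneg_right ?_ (norm_nonneg _)
        rw [Real.norm_of_nonneg (mxi_nonneg hu (fun _ => abs_nonneg _) (rad_pos n) x),
          Real.norm_of_nonneg ENNReal.toReal_nonneg]
        exact mxi_le_toReal hf hx n
      · filter_upwards [hfin] with x hx
        exact (tendsto_mxi hf hx).mul_const _
    obtain ⟨A, hA⟩ := hφ1.continuous.bounded_above_of_compact_support hφc
    have hA0 : 0 ≤ A := (norm_nonneg _).trans (hA 0)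
    have hint : ∀ {Γ : E → E}, Integrable Γ → Integrable (fun x => ⟪Γ x, v⟫ * φ x) := by
      intro Γ hΓ
      exact (hΓ.inner_const v).mul_bdd hφ1.continuous.aestronglyMeasurable
        (Eventually.of_forall hA)
    have hR : Tendsto (fun n => ∫ x, ⟪gradient (mxi (fun y => |f y|) (rad n)) x, v⟫ * φ x) atTop
        (𝓝 (∫ x, ⟪G x, v⟫ * φ x)) := by
      rw [tendsto_iff_norm_sub_tendsto_zero]
      have h0 : Tendsto (fun n => ‖v‖ * A *
          ∫ x, ‖gradient (mxi (fun y => |f y|) (rad n)) x - G x‖) atTop (𝓝 0) := by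
        simpa using hlim.const_mul (‖v‖ * A)
      refine squeeze_zero (fun n => norm_nonneg _) (fun n => ?_) h0
      rw [← integral_sub (hint (hi n)) (hint hG), ← integral_const_mul]
      refine norm_integral_le_of_norm_le (((hi n).sub hG).norm.const_mul _)
        (Eventually.of_forall fun x => ?_)
      rw [← sub_mul, ← inner_sub_left, norm_mul]
      have h1 := norm_inner_le_norm (𝕜 := ℝ)
        (gradient (mxi (fun y => |f y|) (rad n)) x - G x) v
      have h2 := hA x
      calc _ ≤ (‖gradient (mxi (fun y => |f y|) (rad n)) x - G x‖ * ‖v‖) * A :=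
            mul_le_mul h1 h2 (norm_nonneg _) (by positivity)
        _ = _ := by ring
    exact tendsto_nhds_unique (hL.congr hn) hR.neg
  · have h1 : ∀ n, ∫ x, ‖G x‖ ≤ C * (∫ x, ‖g x‖) +
        ∫ x, ‖gradient (mxi (fun y => |f y|) (rad n)) x - G x‖ := fun n => by
      have h2 : ∫ x, ‖G x‖ ≤ ∫ x, (‖gradient (mxi (fun y => |f y|) (rad n)) x‖ +
          ‖gradient (mxi (fun y => |f y|) (rad n)) x - G x‖) := by
        refine integral_mono hG.norm ((hi n).norm.add ((hi n).sub hG).norm) fun x => ?_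
        simp only
        calc ‖G x‖ = ‖gradient (mxi (fun y => |f y|) (rad n)) x -
              (gradient (mxi (fun y => |f y|) (rad n)) x - G x)‖ := by congr 1; abel
          _ ≤ _ := norm_sub_le _ _
      have hs : Integrable (fun x => ‖gradient (mxi (fun y => |f y|) (rad n)) x - G x‖) :=
        ((hi n).sub hG).norm
      rw [integral_add (hi n).norm hs] at h2
      have h3 := (hC _ _ H _ (rad_pos n)).2
      have h4 : ∫ x, ‖G₀ x‖ ≤ ∫ x, ‖g x‖ := integral_mono H.2.2.1.norm hg.norm hG₀
      have h5 := mul_le_mul_of_nonneg_left h4 hC0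
      linarith
    have h6 := hlim.const_add (C * ∫ x, ‖g x‖)
    rw [add_zero] at h6
    exact ge_of_tendsto' h6 h1

end Crest.Agent.R112
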