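import Crest.Agent.R112.ExM

/-!
# R112/Geo: discs through an anchor point

Notation: `u = x - p`, `t = ‖u‖`, `w = y - p`; `y` lies in the open disc with centre `p + λ u`
through `p` iff `‖w‖² < 2 λ ⟪u, w⟫` (`mem_disc_iff`, `λ ≥ 0`), and `‖y - x‖² - t² = ‖w‖² - 2 ⟪u, w⟫`.
Hypotheses: `r ≤ ρ`, `|t - r| ≤ 2σ`, `0 < σ`, `5σ ≤ r`, `0 < κ ≤ 1`, `48 σ ρ ≤ κ σ'²`, `σ' ≤ ‖w‖`.

* `geo_zone`: if `|‖y - x‖ - r| ≤ σ` then `|‖y-x‖ - t| ≤ 3σ` and `‖y-x‖ + t ≤ 2r + 3σ ≤ 4ρ`, so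
  `|‖w‖² - 2⟪u,w⟫| ≤ 12σρ`; hence `2⟪u,w⟫ ≥ σ'² - 12σρ ≥ σ'²/2`;
  `‖w‖² - 2(1+κ)⟪u,w⟫ ≤ 12σρ - κσ'²/2 < 0`, and as `1 - (1+κ)⁻¹ ≥ κ/2`,
  `‖w‖² - 2(1+κ)⁻¹⟪u,w⟫ ≥ -12σρ + κσ'²/4 ≥ 0`.
* `geo_inner`: if `‖w‖² < 2(1+κ)⁻¹⟪u,w⟫` then `‖y-x‖² - t² < -κ‖w‖² ≤ -48σρ`, while
  `(t - 3σ)² ≥ t² - 6σt ≥ t² - 12σρ` and `0 ≤ t - 3σ ≤ r - σ`.
* `far_le`: the zone minus `ball p σ'` lies in `(B₊ \ ball p σ') \ (B₋ \ ball p σ')` and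
  `B₋ ⊆ B₊`, so its mass is at most `Gm x₊ - Gm x₋`; `Gm x₋ ≤ ∫ over ball x (r - σ) ≤ A η`;
  `‖x - p‖ ≤ 2ρ`; so `x ∉ ExSet` gives `Gm x₊ ≤ Gm x₋ + η`.

`exists_sim`: take `lam1 = ⟪f, v⟫ / ‖v‖²`, `lam2 = ⟪f, rot v⟫ / ‖v‖²`; in coordinates the map is
multiplication by the complex number `lam1 + i lam2` of modulus `‖f‖ / ‖v‖`.
-/

namespace Crest.Agent.R112

open MeasureTheory Metric Set Filter Topology
open scoped RealInnerProductSpace NNReal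

theorem mem_disc_iff (p u y : E) {l : ℝ} (hl : 0 ≤ l) :
    y ∈ ball (p + l • u) ‖p + l • u - p‖ ↔ ‖y - p‖ ^ 2 < 2 * l * ⟪u, y - p⟫ := by
  have e1 : y - (p + l • u) = (y - p) - l • u := by abel
  have e2 : p + l • u - p = l • u := by abel
  rw [mem_ball, dist_eq_norm, e1, e2, ← sq_lt_sq₀ (norm_nonneg _) (norm_nonneg _),
    norm_sub_sq_real, real_inner_smul_right, real_inner_comm]
  constructor <;> intro h <;> linarith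

private theorem geo_sq (x p y : E) :
    ‖y - x‖ ^ 2 = ‖y - p‖ ^ 2 - 2 * ⟪x - p, y - p⟫ + ‖x - p‖ ^ 2 := by
  have e : y - x = (y - p) - (x - p) := by abel
  rw [e, norm_sub_sq_real, real_inner_comm]

private theorem geo_inv_iff {κ W s : ℝ} (hκ : 0 < κ) :
    W < 2 * (1 + κ)⁻¹ * s ↔ (1 + κ) * W < 2 * s := by
  have h : (0 : ℝ) < 1 + κ := by linarith
  have e : 2 * (1 + κ)⁻¹ * s = 2 * s / (1 + κ) := by field_simp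
  rw [e, lt_div_iff₀ h, mul_comm]

theorem geo_zone {x p y : E} {ρ r σ σ' κ : ℝ} (hr : r ≤ ρ) (ht : |‖x - p‖ - r| ≤ 2 * σ)
    (hσ : 0 < σ) (hσr : 5 * σ ≤ r) (hκ : 0 < κ) (hκ1 : κ ≤ 1) (hk : 48 * σ * ρ ≤ κ * σ' ^ 2)
    (hσ' : 0 ≤ σ') (hy : σ' ≤ ‖y - p‖) (hz : |‖y - x‖ - r| ≤ σ) :
    y ∈ ball (p + (1 + κ) • (x - p)) ‖p + (1 + κ) • (x - p) - p‖ ∧
      y ∉ ball (p + (1 + κ)⁻¹ • (x - p)) ‖p + (1 + κ)⁻¹ • (x - p) - p‖ := by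
  have h1κ : (0 : ℝ) < 1 + κ := by linarith
  rw [mem_disc_iff _ _ _ h1κ.le, mem_disc_iff _ _ _ (inv_pos.2 h1κ).le, geo_inv_iff hκ, not_lt]
  have hsq := geo_sq x p y
  have ha0 := norm_nonneg (y - x)
  have ht0 := norm_nonneg (x - p)
  generalize ‖y - x‖ = a at *
  generalize ‖x - p‖ = t at *
  generalize ‖y - p‖ = W at *
  generalize ⟪x - p, y - p⟫ = s at *
  obtain ⟨ht1, ht2⟩ := abs_le.1 ht
  obtain ⟨hz1, hz2⟩ := abs_le.1 hz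
  have hρ : 0 < ρ := by linarith
  have hσρ : 0 < σ * ρ := mul_pos hσ hρ
  have hW : σ' ^ 2 ≤ W ^ 2 := pow_le_pow_left₀ hσ' hy 2
  have hκW : 48 * σ * ρ ≤ κ * W ^ 2 := hk.trans (mul_le_mul_of_nonneg_left hW hκ.le)
  have hd : |(a - t) * (a + t)| ≤ 3 * σ * (4 * ρ) := by
    rw [abs_mul]
    exact mul_le_mul (abs_le.2 ⟨by linarith, by linarith⟩) (abs_le.2 ⟨by linarith, by linarith⟩)
      (abs_nonneg _) (by linarith)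
  obtain ⟨hd1, hd2⟩ := abs_le.1 hd
  have e1 : W ^ 2 - 2 * s ≤ 12 * (σ * ρ) := by nlinarith
  have e2 : -(12 * (σ * ρ)) ≤ W ^ 2 - 2 * s := by nlinarith
  refine ⟨?_, by nlinarith⟩
  have e3 : κ * (W ^ 2 - 2 * s) ≤ κ * (12 * (σ * ρ)) := mul_le_mul_of_nonneg_left e1 hκ.le
  have e4 : κ * (12 * (σ * ρ)) ≤ 12 * (σ * ρ) := mul_le_of_le_one_left (by positivity) hκ1
  nlinarith

theorem geo_inner {x p y : E} {ρ r σ σ' κ : ℝ} (hr : r ≤ ρ) (ht : |‖x - p‖ - r| ≤ 2 * σ)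
    (hσ : 0 < σ) (hσr : 5 * σ ≤ r) (hκ : 0 < κ) (hk : 48 * σ * ρ ≤ κ * σ' ^ 2)
    (hσ' : 0 ≤ σ') (hy : σ' ≤ ‖y - p‖)
    (hin : y ∈ ball (p + (1 + κ)⁻¹ • (x - p)) ‖p + (1 + κ)⁻¹ • (x - p) - p‖) :
    ‖y - x‖ < r - σ := by
  have h1κ : (0 : ℝ) < 1 + κ := by linarith
  rw [mem_disc_iff _ _ _ (inv_pos.2 h1κ).le, geo_inv_iff hκ] at hin
  have hsq := geo_sq x p y
  have ha0 := norm_nonneg (y - x)
  have ht0 := norm_nonneg (x - p)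
  generalize ‖y - x‖ = a at *
  generalize ‖x - p‖ = t at *
  generalize ‖y - p‖ = W at *
  generalize ⟪x - p, y - p⟫ = s at *
  obtain ⟨ht1, ht2⟩ := abs_le.1 ht
  have hρ : 0 < ρ := by linarith
  have hσρ : 0 < σ * ρ := mul_pos hσ hρ
  have hW : σ' ^ 2 ≤ W ^ 2 := pow_le_pow_left₀ hσ' hy 2
  have hκW : 48 * σ * ρ ≤ κ * W ^ 2 := hk.trans (mul_le_mul_of_nonneg_left hW hκ.le)
  have h1 : σ * t ≤ σ * (2 * ρ) := mul_le_mul_of_nonneg_left (by linarith) hσ.le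
  have h2 : a ^ 2 < (t - 3 * σ) ^ 2 := by nlinarith
  have h3 : a < t - 3 * σ := lt_of_pow_lt_pow_left₀ 2 (by linarith) h2
  linarith

theorem far_le {lam : E → ℝ} (hi : Integrable lam) (h0 : ∀ y, 0 ≤ lam y) {x p : E}
    {ρ r σ σ' κ A η : ℝ} (hr : r ≤ ρ) (ht : |‖x - p‖ - r| ≤ 2 * σ) (hσ : 0 < σ) (hσr : 5 * σ ≤ r)
    (hκ : 0 < κ) (hκ1 : κ ≤ 1) (hk : 48 * σ * ρ ≤ κ * σ' ^ 2) (hσ' : 0 ≤ σ')
    (hlight : ∫ y in ball x (r - σ), lam y ≤ A * η) (hx : x ∉ ExSet lam p ρ σ' κ A η) :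
    ∫ y in {y | |‖y - x‖ - r| ≤ σ} \ ball p σ', lam y ≤ η := by
  have h1κ : (0 : ℝ) < 1 + κ := by linarith
  have hout : ∀ y : E, y ∉ ball p σ' → σ' ≤ ‖y - p‖ := fun y hy => by
    rwa [mem_ball, dist_eq_norm, not_lt] at hy
  set Sp : Set E := ball (p + (1 + κ) • (x - p)) ‖p + (1 + κ) • (x - p) - p‖ \ ball p σ' with hSp
  set Sm : Set E := ball (p + (1 + κ)⁻¹ • (x - p)) ‖p + (1 + κ)⁻¹ • (x - p) - p‖ \ ball p σ'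
    with hSm
  have hsub : Sm ⊆ Sp := by
    rintro y ⟨hy1, hy2⟩
    refine ⟨?_, hy2⟩
    rw [mem_disc_iff _ _ _ (inv_pos.2 h1κ).le, geo_inv_iff hκ] at hy1
    rw [mem_disc_iff _ _ _ h1κ.le]
    have hW : 0 ≤ ‖y - p‖ ^ 2 := sq_nonneg _
    have h1 : 0 ≤ κ * ‖y - p‖ ^ 2 := mul_nonneg hκ.le hW
    have h2 : 0 < ⟪x - p, y - p⟫ := by nlinarith
    have h3 : 0 < κ * ⟪x - p, y - p⟫ := mul_pos hκ h2
    nlinarith
  have hZ : {y | |‖y - x‖ - r| ≤ σ} \ ball p σ' ⊆ Sp \ Sm := by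
    rintro y ⟨hy1, hy2⟩
    obtain ⟨h1, h2⟩ := geo_zone hr ht hσ hσr hκ hκ1 hk hσ' (hout y hy2) hy1
    exact ⟨⟨h1, hy2⟩, fun h => h2 h.1⟩
  have hin : Sm ⊆ ball x (r - σ) := by
    rintro y ⟨hy1, hy2⟩
    rw [mem_ball, dist_eq_norm]
    exact geo_inner hr ht hσ hσr hκ hk hσ' (hout y hy2) hy1
  have hmono : ∀ {s t : Set E}, s ⊆ t → ∫ y in s, lam y ≤ ∫ y in t, lam y := fun hst =>
    setIntegral_mono_set hi.integrableOn (Eventually.of_forall h0) hst.eventuallyLE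
  have hm : Gm lam p σ' (p + (1 + κ)⁻¹ • (x - p)) ≤ A * η := (hmono hin).trans hlight
  have hxp : ‖x - p‖ ≤ 2 * ρ := by
    have := (abs_le.1 ht).2
    linarith
  have hjump : Gm lam p σ' (p + (1 + κ) • (x - p)) ≤
      Gm lam p σ' (p + (1 + κ)⁻¹ • (x - p)) + η := by
    by_contra h
    exact hx ⟨hxp, hm, not_le.1 h⟩
  have hd : ∫ y in Sp \ Sm, lam y = (∫ y in Sp, lam y) - ∫ y in Sm, lam y :=
    setIntegral_sdiff (measurableSet_ball.diff measurableSet_ball) hi.integrableOn hsub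
  have h1 := hmono hZ
  change ∫ y in Sp, lam y ≤ (∫ y in Sm, lam y) + η at hjump
  linarith

theorem rot_sub (y y' : E) : rot (y - y') = rot y - rot y' := by
  ext i
  fin_cases i
  · simp [rot]
    ring
  · simp [rot]

theorem norm_rot (y : E) : ‖rot y‖ = ‖y‖ := by
  simp [EuclideanSpace.norm_eq, Fin.sum_univ_two, rot, add_comm]

theorem continuous_rot : Continuous rot := by
  unfold rot
  fun_prop

private theorem geo_norm_sq (y : E) : ‖y‖ ^ 2 = y 0 ^ 2 + y 1 ^ 2 := by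
  rw [EuclideanSpace.norm_sq_eq]
  simp [Fin.sum_univ_two]

/-- a similarity of the plane that maps `v` to `f` -/
theorem exists_sim (f : E) {v : E} (hv : v ≠ 0) : ∃ l1 l2 : ℝ, l1 • v + l2 • rot v = f ∧
    ∀ y : E, ‖l1 • y + l2 • rot y‖ = ‖f‖ / ‖v‖ * ‖y‖ := by
  have hn : 0 < ‖v‖ := norm_pos_iff.2 hv
  have hn2 : 0 < v 0 ^ 2 + v 1 ^ 2 := by rw [← geo_norm_sq]; positivity
  refine ⟨(f 0 * v 0 + f 1 * v 1) / (v 0 ^ 2 + v 1 ^ 2),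
    (f 1 * v 0 - f 0 * v 1) / (v 0 ^ 2 + v 1 ^ 2), ?_, fun y => ?_⟩
  · ext i
    fin_cases i
    · simp [rot]
      field_simp
      ring
    · simp [rot]
      field_simp
      ring
  · rw [← sq_eq_sq₀ (norm_nonneg _) (by positivity), mul_pow, div_pow, geo_norm_sq, geo_norm_sq f,
      geo_norm_sq v, geo_norm_sq y]
    simp [rot]
    field_simp
    ring

end Crest.Agent.R112
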