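import Crest.Agent.R112.Defs

/-!
# R112/Grid1: squares, tents, hats, counting of lattice points
Elementary facts. Add any auxiliary lemma you like; keep the statements.
-/

namespace Crest.Agent.R112

open MeasureTheory Metric Set
open scoped RealInnerProductSpace

theorem grid1_norm_sq (x : E) : ‖x‖ ^ 2 = x 0 ^ 2 + x 1 ^ 2 := by
  rw [EuclideanSpace.norm_sq_eq, Fin.sum_univ_two, Real.norm_eq_abs, Real.norm_eq_abs, sq_abs,
    sq_abs]

theorem grid1_abs_le (x : E) (i : Fin 2) : |x i| ≤ ‖x‖ := PiLp.norm_apply_le x i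

theorem grid1_norm_le (x : E) : ‖x‖ ≤ |x 0| + |x 1| := by
  refine abs_le_of_sq_le_sq' ?_ (by positivity) |>.2
  rw [grid1_norm_sq, add_sq, sq_abs, sq_abs]
  nlinarith [abs_nonneg (x 0), abs_nonneg (x 1)]

theorem grid1_node_zero (ρ : ℝ) (z : ℤ × ℤ) : node ρ z 0 = ρ * z.1 := rfl

theorem grid1_node_one (ρ : ℝ) (z : ℤ × ℤ) : node ρ z 1 = ρ * z.2 := rfl

theorem grid1_abs_sub {ρ : ℝ} (hρ : 0 < ρ) (u a : ℝ) : |u - ρ * a| = ρ * |u / ρ - a| := by
  rw [show u - ρ * a = ρ * (u / ρ - a) by field_simp, abs_mul, abs_of_pos hρ]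

theorem grid1_Lam : (Lam : ℝ) = 4096 := by norm_num [Lam]

theorem grid1_Lam_pos : (0 : ℝ) < Lam := by rw [grid1_Lam]; norm_num

theorem grid1_pow {l k i : ℕ} (h : l ≤ k) (h' : k ≤ i) :
    (2 : ℝ) ^ (k - l) * (1 / 2) ^ (i - l) = (1 / 2) ^ (i - k) := by
  rw [show i - l = (k - l) + (i - k) by omega, pow_add, ← mul_assoc, ← mul_pow]
  norm_num

theorem ng_nonneg (t : ℝ) : 0 ≤ ng t := by
  exact le_max_right _ _

theorem neg_le_ng (t : ℝ) : -t ≤ ng t := by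
  exact le_max_left _ _

theorem ng_le_abs (t : ℝ) : ng t ≤ |t| := by
  exact max_le (neg_le_abs t) (abs_nonneg t)

theorem ng_neg_sub (t : ℝ) : ng (-t) - ng t = t := by
  unfold ng
  rcases le_total 0 t with h | h
  · rw [neg_neg, max_eq_left h, max_eq_right (by linarith)]; ring
  · rw [neg_neg, max_eq_right h, max_eq_left (by linarith)]; ring

theorem ng_add_ng_neg (t : ℝ) : ng t + ng (-t) = |t| := by
  unfold ng
  rcases le_total 0 t with h | h
  · rw [neg_neg, max_eq_left h, max_eq_right (by linarith), abs_of_nonneg h]; ring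
  · rw [neg_neg, max_eq_right h, max_eq_left (by linarith), abs_of_nonpos h]; ring

theorem ng_add_le (s t : ℝ) : ng (s + t) ≤ ng s + ng t := by
  refine max_le ?_ (add_nonneg (ng_nonneg s) (ng_nonneg t))
  linarith [neg_le_ng s, neg_le_ng t]

theorem ng_mul_of_nonneg {c : ℝ} (hc : 0 ≤ c) (t : ℝ) : ng (c * t) = c * ng t := by
  unfold ng
  rw [mul_max_of_nonneg _ _ hc, mul_zero, mul_neg]

theorem ng_eq_zero {t : ℝ} (ht : 0 ≤ t) : ng t = 0 := by
  exact max_eq_right (by linarith)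

theorem ng_of_nonpos {t : ℝ} (ht : t ≤ 0) : ng t = -t := by
  exact max_eq_left (by linarith)

theorem ng_sum_le {α : Type*} (s : Finset α) (f : α → ℝ) :
    ng (∑ a ∈ s, f a) ≤ ∑ a ∈ s, ng (f a) := by
  refine max_le ?_ (Finset.sum_nonneg fun a _ => ng_nonneg _)
  rw [← Finset.sum_neg_distrib]
  exact Finset.sum_le_sum fun a _ => neg_le_ng _

theorem continuous_ng : Continuous ng := by
  exact continuous_neg.max continuous_const

theorem dinf_nonneg (x y : E) : 0 ≤ dinf x y := by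
  exact le_max_of_le_left (abs_nonneg _)

theorem dinf_self (x : E) : dinf x x = 0 := by
  simp [dinf]

theorem dinf_comm (x y : E) : dinf x y = dinf y x := by
  unfold dinf
  rw [abs_sub_comm (x 0), abs_sub_comm (x 1)]

theorem dinf_triangle (x y z : E) : dinf x z ≤ dinf x y + dinf y z := by
  refine max_le ?_ ?_
  · exact (abs_sub_le _ (y 0) _).trans (add_le_add (le_max_left _ _) (le_max_left _ _))
  · exact (abs_sub_le _ (y 1) _).trans (add_le_add (le_max_right _ _) (le_max_right _ _))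

theorem dinf_le_norm (x y : E) : dinf x y ≤ ‖x - y‖ := by
  exact max_le (grid1_abs_le (x - y) 0) (grid1_abs_le (x - y) 1)

theorem norm_le_two_dinf (x y : E) : ‖x - y‖ ≤ 2 * dinf x y := by
  have h := grid1_norm_le (x - y)
  have h0 : |(x - y) 0| ≤ dinf x y := le_max_left _ _
  have h1 : |(x - y) 1| ≤ dinf x y := le_max_right _ _
  linarith

theorem dinf_add_right (x y v : E) : dinf (x + v) (y + v) = dinf x y := by
  simp [dinf]

theorem continuous_dinf (c : E) : Continuous (fun y => dinf y c) := by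
  unfold dinf
  fun_prop

theorem isClosed_Q (c : E) (T : ℝ) : IsClosed (Q c T) := by
  exact isClosed_le (continuous_dinf c) continuous_const

theorem measurableSet_Q (c : E) (T : ℝ) : MeasurableSet (Q c T) := by
  exact (isClosed_Q c T).measurableSet

theorem isCompact_Q (c : E) (T : ℝ) : IsCompact (Q c T) := by
  refine (isCompact_closedBall c (2 * T)).of_isClosed_subset (isClosed_Q c T) fun y hy => ?_
  rw [mem_closedBall, dist_eq_norm]
  have h : dinf y c ≤ T := hy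
  linarith [norm_le_two_dinf y c]

theorem convex_Q (c : E) (T : ℝ) : Convex ℝ (Q c T) := by
  intro x hx y hy a b ha hb hab
  have key : ∀ u v w : ℝ, |u - w| ≤ T → |v - w| ≤ T → |a * u + b * v - w| ≤ T := by
    intro u v w hu hv
    have e : a * u + b * v - w = a * (u - w) + b * (v - w) := by
      rw [show b = 1 - a by linarith]; ring
    rw [e]
    refine (abs_add_le _ _).trans ?_
    rw [abs_mul, abs_mul, abs_of_nonneg ha, abs_of_nonneg hb]
    calc a * |u - w| + b * |v - w| ≤ a * T + b * T := by gcongr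
      _ = T := by rw [← add_mul, hab, one_mul]
  obtain ⟨hx0, hx1⟩ := max_le_iff.1 (show dinf x c ≤ T from hx)
  obtain ⟨hy0, hy1⟩ := max_le_iff.1 (show dinf y c ≤ T from hy)
  exact max_le (key _ _ _ hx0 hy0) (key _ _ _ hx1 hy1)

theorem Q_mono {c c' : E} {T T' : ℝ} (h : dinf c c' + T ≤ T') : Q c T ⊆ Q c' T' := by
  intro y hy
  have h1 : dinf y c ≤ T := hy
  exact (dinf_triangle y c c').trans (by linarith)

/-- area of a square (use the volume preserving equivalence with `Fin 2 → ℝ`) -/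
theorem volume_Q (c : E) {T : ℝ} (hT : 0 ≤ T) : volume (Q c T) = ENNReal.ofReal (4 * T ^ 2) := by
  have e : Q c T = (WithLp.ofLp : E → (Fin 2 → ℝ)) ⁻¹'
      Set.pi univ fun i => Icc (c i - T) (c i + T) := by
    ext y
    simp only [Q, dinf, mem_ofPred_eq, max_le_iff, abs_le, mem_preimage, mem_pi, mem_univ,
      forall_true_left, Fin.forall_fin_two, mem_Icc]
    constructor
    · rintro ⟨⟨h1, h2⟩, h3, h4⟩
      exact ⟨⟨by linarith, by linarith⟩, by linarith, by linarith⟩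
    · rintro ⟨⟨h1, h2⟩, h3, h4⟩
      exact ⟨⟨by linarith, by linarith⟩, by linarith, by linarith⟩
  rw [e, (PiLp.volume_preserving_ofLp (Fin 2)).measure_preimage
    (MeasurableSet.univ_pi fun i => measurableSet_Icc).nullMeasurableSet, volume_pi_pi]
  simp only [Real.volume_Icc, Fin.prod_univ_two]
  rw [← ENNReal.ofReal_mul (by linarith)]
  congr 1
  ring

theorem volume_real_Q (c : E) {T : ℝ} (hT : 0 ≤ T) : volume.real (Q c T) = 4 * T ^ 2 := by
  rw [Measure.real, volume_Q c hT, ENNReal.toReal_ofReal (by positivity)]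

theorem volume_real_ball (c : E) {r : ℝ} (hr : 0 ≤ r) :
    volume.real (ball c r) = Real.pi * r ^ 2 := by
  rw [Measure.real, EuclideanSpace.volume_ball_fin_two, ENNReal.toReal_mul, ENNReal.toReal_pow,
    ENNReal.toReal_ofReal hr, ENNReal.toReal_ofReal Real.pi_pos.le, mul_comm]

theorem inner_eq (x y : E) : ⟪x, y⟫ = x 0 * y 0 + x 1 * y 1 := by
  simp [PiLp.inner_apply, Fin.sum_univ_two, mul_comm]

theorem norm_sq_eq (x : E) : ‖x‖ ^ 2 = x 0 ^ 2 + x 1 ^ 2 := by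
  exact grid1_norm_sq x

theorem abs_coord_le (x : E) (i : Fin 2) : |x i| ≤ ‖x‖ := by
  exact grid1_abs_le x i

theorem norm_le_coords (x : E) : ‖x‖ ≤ |x 0| + |x 1| := by
  exact grid1_norm_le x

theorem tent_nonneg (t : ℝ) : 0 ≤ tent t := by
  exact le_max_right _ _

theorem tent_le_one (t : ℝ) : tent t ≤ 1 := by
  exact max_le (by linarith [abs_nonneg t]) zero_le_one

theorem abs_lt_of_tent_ne_zero {t : ℝ} (h : tent t ≠ 0) : |t| < 1 := by
  by_contra h'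
  exact h (max_eq_right (by linarith [not_lt.1 h']))

theorem tent_lip (s t : ℝ) : |tent s - tent t| ≤ |s - t| := by
  refine (abs_max_sub_max_le_abs _ _ _).trans ?_
  rw [show 1 - |s| - (1 - |t|) = -(|s| - |t|) by ring, abs_neg]
  exact abs_abs_sub_abs_le_abs_sub s t

theorem hat_nonneg (ρ : ℝ) (z : ℤ × ℤ) (y : E) : 0 ≤ hat ρ z y := by
  exact mul_nonneg (tent_nonneg _) (tent_nonneg _)

theorem hat_le_one (ρ : ℝ) (z : ℤ × ℤ) (y : E) : hat ρ z y ≤ 1 := by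
  exact mul_le_one₀ (tent_le_one _) (tent_nonneg _) (tent_le_one _)

theorem dinf_lt_of_hat_ne_zero {ρ : ℝ} (hρ : 0 < ρ) {z : ℤ × ℤ} {y : E} (h : hat ρ z y ≠ 0) :
    dinf y (node ρ z) < ρ := by
  obtain ⟨h0, h1⟩ := mul_ne_zero_iff.1 h
  rw [dinf, grid1_node_zero, grid1_node_one, grid1_abs_sub hρ, grid1_abs_sub hρ]
  exact max_lt (mul_lt_of_lt_one_right hρ (abs_lt_of_tent_ne_zero h0))
    (mul_lt_of_lt_one_right hρ (abs_lt_of_tent_ne_zero h1))

theorem hat_node {ρ : ℝ} (hρ : 0 < ρ) (z z' : ℤ × ℤ) :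
    hat ρ z (node ρ z') = if z = z' then 1 else 0 := by
  have key : ∀ a b : ℤ, tent (ρ * (b : ℝ) / ρ - a) = if a = b then 1 else 0 := by
    intro a b
    rw [mul_div_cancel_left₀ _ hρ.ne']
    split_ifs with h
    · simp [h, tent]
    · refine max_eq_right ?_
      have : (1 : ℤ) ≤ |b - a| := Int.one_le_abs (sub_ne_zero.2 (Ne.symm h))
      have h2 : (1 : ℝ) ≤ |(b : ℝ) - a| := by exact_mod_cast this
      linarith
  rw [hat, grid1_node_zero, grid1_node_one, key, key]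
  by_cases h1 : z.1 = z'.1 <;> by_cases h2 : z.2 = z'.2 <;> simp [h1, h2, Prod.ext_iff]

theorem hat_lip {ρ : ℝ} (hρ : 0 < ρ) (z : ℤ × ℤ) (y y' : E) :
    |hat ρ z y - hat ρ z y'| ≤ 2 / ρ * dinf y y' := by
  have key : ∀ (u v : ℝ) (a : ℤ), |u - v| ≤ dinf y y' →
      |tent (u / ρ - a) - tent (v / ρ - a)| ≤ dinf y y' / ρ := by
    intro u v a h
    refine (tent_lip _ _).trans ?_
    rw [show u / ρ - a - (v / ρ - a) = (u - v) / ρ by ring, abs_div, abs_of_pos hρ]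
    gcongr
  have h0 := key (y 0) (y' 0) z.1 (le_max_left _ _)
  have h1 := key (y 1) (y' 1) z.2 (le_max_right _ _)
  unfold hat
  set a := tent (y 0 / ρ - z.1)
  set b := tent (y 1 / ρ - z.2) with hb
  set a' := tent (y' 0 / ρ - z.1) with ha'
  set b' := tent (y' 1 / ρ - z.2)
  have hb0 : 0 ≤ b := tent_nonneg _
  have hb1 : b ≤ 1 := tent_le_one _
  have ha0 : 0 ≤ a' := tent_nonneg _
  have ha1 : a' ≤ 1 := tent_le_one _
  rw [show a * b - a' * b' = (a - a') * b + a' * (b - b') by ring]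
  refine (abs_add_le _ _).trans ?_
  rw [abs_mul, abs_mul, abs_of_nonneg hb0, abs_of_nonneg ha0]
  have e1 : |a - a'| * b ≤ |a - a'| := mul_le_of_le_one_right (abs_nonneg _) hb1
  have e2 : a' * |b - b'| ≤ |b - b'| := mul_le_of_le_one_left (abs_nonneg _) ha1
  have e3 : 2 / ρ * dinf y y' = dinf y y' / ρ + dinf y y' / ρ := by ring
  linarith

theorem hat_lipschitz {ρ : ℝ} (hρ : 0 < ρ) (z : ℤ × ℤ) :
    LipschitzWith (Real.toNNReal (2 / ρ)) (hat ρ z) := by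
  refine LipschitzWith.of_dist_le' fun y y' => ?_
  rw [Real.dist_eq, dist_eq_norm]
  exact (hat_lip hρ z y y').trans
    (mul_le_mul_of_nonneg_left (dinf_le_norm y y') (by positivity))

theorem continuous_hat (ρ : ℝ) (z : ℤ × ℤ) : Continuous (hat ρ z) := by
  unfold hat tent
  fun_prop

theorem hasCompactSupport_hat {ρ : ℝ} (hρ : 0 < ρ) (z : ℤ × ℤ) : HasCompactSupport (hat ρ z) := by
  refine HasCompactSupport.intro (isCompact_Q (node ρ z) ρ) fun y hy => ?_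
  by_contra h
  exact hy (dinf_lt_of_hat_ne_zero hρ h).le

theorem hat_ge {ρ : ℝ} (hρ : 0 < ρ) {z : ℤ × ℤ} {y : E} (h : dinf y (node ρ z) ≤ 3 / 4 * ρ) :
    1 / 16 ≤ hat ρ z y := by
  rw [dinf, grid1_node_zero, grid1_node_one, grid1_abs_sub hρ, grid1_abs_sub hρ, max_le_iff] at h
  have key : ∀ t : ℝ, ρ * |t| ≤ 3 / 4 * ρ → 1 / 4 ≤ tent t := by
    intro t ht
    refine le_max_of_le_left ?_
    have : |t| ≤ 3 / 4 := by
      by_contra h'
      nlinarith [not_le.1 h']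
    linarith
  calc (1 / 16 : ℝ) = 1 / 4 * (1 / 4) := by norm_num
    _ ≤ _ := mul_le_mul (key _ h.1) (key _ h.2) (by norm_num) (tent_nonneg _)

theorem mem_nbr_of_hat_ne_zero {ρ : ℝ} {z : ℤ × ℤ} {y : E} (h : hat ρ z y ≠ 0) :
    z ∈ nbr ρ y := by
  obtain ⟨h0, h1⟩ := mul_ne_zero_iff.1 h
  have key : ∀ (t : ℝ) (a : ℤ), tent (t - a) ≠ 0 → a ∈ Finset.Icc ⌊t⌋ (⌊t⌋ + 1) := by
    intro t a ha
    obtain ⟨h2, h3⟩ := abs_lt.1 (abs_lt_of_tent_ne_zero ha)
    have h4 : ⌊t⌋ < a + 1 := Int.floor_lt.2 (by push_cast; linarith)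
    have h5 : a - 1 ≤ ⌊t⌋ := Int.le_floor.2 (by push_cast; linarith)
    exact Finset.mem_Icc.2 ⟨by omega, by omega⟩
  exact Finset.mem_product.2 ⟨key _ _ h0, key _ _ h1⟩

/-- a square of half side `T ρ` holds at most `(2T+1)²` nodes: both coordinates of such a node lie
in the integer interval `[⌈c i / ρ - T⌉, ⌈c i / ρ - T⌉ + 2T]` -/
theorem card_near_le {ρ : ℝ} (hρ : 0 < ρ) (F : Finset (ℤ × ℤ)) (c : E) (T : ℕ) :
    ((F.filter (fun z => dinf (node ρ z) c ≤ T * ρ)).card : ℝ) ≤ (2 * T + 1) ^ 2 := by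
  have key : ∀ (u : ℝ) (a : ℤ), |ρ * a - u| ≤ T * ρ →
      a ∈ Finset.Icc ⌈u / ρ - T⌉ (⌈u / ρ - T⌉ + 2 * T) := by
    intro u a ha
    rw [abs_sub_comm, grid1_abs_sub hρ, mul_comm (T : ℝ), mul_le_mul_iff_right₀ hρ, abs_le] at ha
    refine Finset.mem_Icc.2 ⟨Int.ceil_le.2 (by linarith [ha.2]), ?_⟩
    have h1 := Int.le_ceil (u / ρ - T)
    have h2 : (a : ℝ) ≤ (⌈u / ρ - T⌉ : ℝ) + 2 * T := by linarith [ha.1]
    exact_mod_cast h2
  have hsub : F.filter (fun z => dinf (node ρ z) c ≤ T * ρ) ⊆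
      Finset.Icc ⌈c 0 / ρ - T⌉ (⌈c 0 / ρ - T⌉ + 2 * T) ×ˢ
        Finset.Icc ⌈c 1 / ρ - T⌉ (⌈c 1 / ρ - T⌉ + 2 * T) := by
    intro z hz
    have h := (Finset.mem_filter.1 hz).2
    rw [dinf, grid1_node_zero, grid1_node_one, max_le_iff] at h
    exact Finset.mem_product.2 ⟨key _ _ h.1, key _ _ h.2⟩
  have hc : ∀ a : ℤ, (Finset.Icc a (a + 2 * T)).card = 2 * T + 1 := by
    intro a
    rw [Int.card_Icc]
    omega
  have h := Finset.card_le_card hsub
  rw [Finset.card_product, hc, hc, ← sq] at h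
  exact_mod_cast h

namespace Grid

variable (G : Grid)

theorem mesh_pos (k : ℕ) : 0 < G.mesh k := by
  exact div_pos G.pos (pow_pos grid1_Lam_pos k)

theorem mesh_zero : G.mesh 0 = G.ρ := by
  simp [mesh]

theorem mesh_succ (k : ℕ) : G.mesh k = Lam * G.mesh (k + 1) := by
  have := grid1_Lam_pos
  unfold mesh
  rw [pow_succ]
  field_simp

theorem mesh_eq_div {l k : ℕ} (h : l ≤ k) : G.mesh k = G.mesh l / (Lam : ℝ) ^ (k - l) := by
  unfold mesh
  rw [div_div, ← pow_add, Nat.add_sub_cancel' h]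

theorem mesh_anti {l k : ℕ} (h : l ≤ k) : G.mesh k ≤ G.mesh l := by
  rw [G.mesh_eq_div h]
  exact div_le_self (G.mesh_pos l).le (one_le_pow₀ (by rw [grid1_Lam]; norm_num))

theorem mesh_le_half_pow {l k : ℕ} (h : l ≤ k) : G.mesh k ≤ (1 / 2 : ℝ) ^ (k - l) * G.mesh l := by
  rw [G.mesh_eq_div h, div_eq_mul_inv, mul_comm, ← inv_pow]
  refine mul_le_mul_of_nonneg_right (pow_le_pow_left₀ ?_ ?_ _) (G.mesh_pos l).le
  · rw [grid1_Lam]; norm_num
  · rw [grid1_Lam]; norm_num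

theorem mesh_le_of_lt {l k : ℕ} (h : l < k) :
    16 * G.mesh k ≤ (1 / 4 : ℝ) ^ (k - l) * G.mesh l := by
  obtain ⟨n, hn⟩ : ∃ n, k - l = n + 1 := ⟨k - l - 1, by omega⟩
  rw [G.mesh_eq_div h.le, hn, div_eq_mul_inv, mul_comm (G.mesh l), ← mul_assoc, ← inv_pow]
  refine mul_le_mul_of_nonneg_right ?_ (G.mesh_pos l).le
  have h1 : ((Lam : ℝ)⁻¹) ^ n ≤ (1 / 4 : ℝ) ^ n :=
    pow_le_pow_left₀ (by rw [grid1_Lam]; norm_num) (by rw [grid1_Lam]; norm_num) _
  have h2 : (0 : ℝ) ≤ (1 / 4 : ℝ) ^ n := by positivity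
  rw [pow_succ, pow_succ]
  have h3 : (Lam : ℝ)⁻¹ = 1 / 4096 := by rw [grid1_Lam]; norm_num
  rw [h3] at h1 ⊢
  linarith

theorem grid1_mesh_mul (k : ℕ) : G.mesh k * ((G.N * Lam ^ k : ℕ) : ℝ) = G.N * G.ρ := by
  have := grid1_Lam_pos
  unfold mesh
  push_cast
  field_simp

theorem grid1_dom (k : ℕ) {y : E} (hy : y ∈ G.dom) :
    |y 0 / G.mesh k| ≤ ((G.N * Lam ^ k : ℕ) : ℝ) ∧ |y 1 / G.mesh k| ≤ ((G.N * Lam ^ k : ℕ) : ℝ) := by
  have hm := G.mesh_pos k
  obtain ⟨h0, h1⟩ := max_le_iff.1 (show dinf y 0 ≤ G.N * G.ρ from hy)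
  simp only [PiLp.zero_apply, sub_zero] at h0 h1
  rw [← G.grid1_mesh_mul k] at h0 h1
  rw [abs_div, abs_div, abs_of_pos hm, div_le_iff₀' hm, div_le_iff₀' hm]
  exact ⟨h0, h1⟩

theorem pt_mem_dom {k : ℕ} {z : ℤ × ℤ} (hz : z ∈ G.nodes k) : G.pt k z ∈ G.dom := by
  obtain ⟨h0, h1⟩ := Finset.mem_product.1 hz
  have key : ∀ a : ℤ, a ∈ Finset.Icc (-((G.N * Lam ^ k : ℕ) : ℤ)) ((G.N * Lam ^ k : ℕ) : ℤ) →
      |G.mesh k * a - 0| ≤ G.N * G.ρ := by
    intro a ha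
    have h2 : |a| ≤ ((G.N * Lam ^ k : ℕ) : ℤ) := abs_le.2 (Finset.mem_Icc.1 ha)
    have h3 : |(a : ℝ)| ≤ ((G.N * Lam ^ k : ℕ) : ℝ) := by exact_mod_cast h2
    rw [sub_zero, abs_mul, abs_of_pos (G.mesh_pos k), ← G.grid1_mesh_mul k]
    exact mul_le_mul_of_nonneg_left h3 (G.mesh_pos k).le
  exact max_le (key _ h0) (key _ h1)

theorem mem_nodes_of_ht_ne_zero {k : ℕ} {z : ℤ × ℤ} {y : E} (hy : y ∈ G.dom)
    (h : G.ht k z y ≠ 0) : z ∈ G.nodes k := by
  obtain ⟨h0, h1⟩ := mul_ne_zero_iff.1 h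
  obtain ⟨hy0, hy1⟩ := G.grid1_dom k hy
  have key : ∀ (t : ℝ) (a : ℤ), tent (t - a) ≠ 0 → |t| ≤ ((G.N * Lam ^ k : ℕ) : ℝ) →
      a ∈ Finset.Icc (-((G.N * Lam ^ k : ℕ) : ℤ)) ((G.N * Lam ^ k : ℕ) : ℤ) := by
    intro t a ha ht
    generalize G.N * Lam ^ k = M at ht ⊢
    obtain ⟨h2, h3⟩ := abs_lt.1 (abs_lt_of_tent_ne_zero ha)
    obtain ⟨h4, h5⟩ := abs_le.1 ht
    have h6 : (a : ℝ) < M + 1 := by linarith
    have h7 : -(M : ℝ) < a + 1 := by linarith
    have h8 : a < (M : ℤ) + 1 := by exact_mod_cast h6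
    have h9 : -(M : ℤ) < a + 1 := by exact_mod_cast h7
    exact Finset.mem_Icc.2 ⟨by omega, by omega⟩
  exact Finset.mem_product.2 ⟨key _ _ h0 hy0, key _ _ h1 hy1⟩

theorem card_near (i : ℕ) (c : E) (T : ℕ) :
    ((G.near i c (T * G.mesh i)).card : ℝ) ≤ (2 * T + 1) ^ 2 := by
  exact card_near_le (G.mesh_pos i) (G.nodes i) c T

/-- every point of the domain has a nearest node (round both coordinates) -/
theorem exists_parent (k : ℕ) {y : E} (hy : y ∈ G.dom) :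
    ∃ Z ∈ G.nodes k, dinf y (G.pt k Z) ≤ G.mesh k / 2 := by
  obtain ⟨hy0, hy1⟩ := G.grid1_dom k hy
  have key : ∀ t : ℝ, |t| ≤ ((G.N * Lam ^ k : ℕ) : ℝ) →
      round t ∈ Finset.Icc (-((G.N * Lam ^ k : ℕ) : ℤ)) ((G.N * Lam ^ k : ℕ) : ℤ) := by
    intro t ht
    generalize G.N * Lam ^ k = M at ht ⊢
    obtain ⟨h2, h3⟩ := abs_le.1 (abs_sub_round t)
    obtain ⟨h4, h5⟩ := abs_le.1 ht
    have h6 : (round t : ℝ) < M + 1 := by linarith
    have h7 : -(M : ℝ) < round t + 1 := by linarith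
    have h8 : round t < (M : ℤ) + 1 := by exact_mod_cast h6
    have h9 : -(M : ℤ) < round t + 1 := by exact_mod_cast h7
    exact Finset.mem_Icc.2 ⟨by omega, by omega⟩
  refine ⟨(round (y 0 / G.mesh k), round (y 1 / G.mesh k)),
    Finset.mem_product.2 ⟨key _ hy0, key _ hy1⟩, ?_⟩
  have hm := G.mesh_pos k
  rw [dinf, pt, grid1_node_zero, grid1_node_one, grid1_abs_sub hm, grid1_abs_sub hm]
  have h1 := mul_le_mul_of_nonneg_left (abs_sub_round (y 0 / G.mesh k)) hm.le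
  have h2 := mul_le_mul_of_nonneg_left (abs_sub_round (y 1 / G.mesh k)) hm.le
  exact max_le (by linarith) (by linarith)

theorem loc_nonneg (m : Arr) (i : ℕ) (c : E) (T : ℝ) : 0 ≤ G.loc m i c T := by
  exact Finset.sum_nonneg fun _ _ => abs_nonneg _

theorem loc_mono (m : Arr) (i : ℕ) {c c' : E} {T T' : ℝ} (h : dinf c c' + T ≤ T') :
    G.loc m i c T ≤ G.loc m i c' T' := by
  refine Finset.sum_le_sum_of_subset_of_nonneg (fun z hz => ?_) fun _ _ _ => abs_nonneg _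
  obtain ⟨h1, h2⟩ := Finset.mem_filter.1 hz
  exact Finset.mem_filter.2 ⟨h1, Q_mono h h2⟩

theorem Vt_nonneg (m : Arr) (K l : ℕ) (c : E) (T : ℝ) : 0 ≤ G.Vt m K l c T := by
  exact Finset.sum_nonneg fun i _ => mul_nonneg (by positivity) (G.loc_nonneg m i c T)

theorem Vt_mono (m : Arr) (K l : ℕ) {c c' : E} {T T' : ℝ} (h : dinf c c' + T ≤ T') :
    G.Vt m K l c T ≤ G.Vt m K l c' T' := by
  exact Finset.sum_le_sum fun i _ =>
    mul_le_mul_of_nonneg_left (G.loc_mono m i h) (by positivity)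

theorem Vt_level (m : Arr) (K : ℕ) {l k : ℕ} (h : l ≤ k) (c : E) (T : ℝ) :
    G.Vt m K k c T ≤ 2 ^ (k - l) * G.Vt m K l c T := by
  unfold Vt
  rw [Finset.mul_sum]
  calc ∑ i ∈ Finset.Icc k K, (1 / 2 : ℝ) ^ (i - k) * G.loc m i c T
      = ∑ i ∈ Finset.Icc k K, 2 ^ (k - l) * ((1 / 2 : ℝ) ^ (i - l) * G.loc m i c T) :=
        Finset.sum_congr rfl fun i hi => by
          rw [← mul_assoc, grid1_pow h (Finset.mem_Icc.1 hi).1]
    _ ≤ _ := Finset.sum_le_sum_of_subset_of_nonneg (Finset.Icc_subset_Icc_left h) fun i _ _ =>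
        mul_nonneg (by positivity) (mul_nonneg (by positivity) (G.loc_nonneg m i c T))

theorem Y_nonneg (mx my : Arr) (K l : ℕ) (z : ℤ × ℤ) : 0 ≤ G.Y mx my K l z := by
  exact add_nonneg (G.Vt_nonneg _ _ _ _ _) (G.Vt_nonneg _ _ _ _ _)

theorem tot_nonneg (mx my : Arr) (K : ℕ) : 0 ≤ G.tot mx my K := by
  exact Finset.sum_nonneg fun _ _ => add_nonneg (abs_nonneg _) (abs_nonneg _)

end Grid

theorem Bot_nonneg (w : E → ℝ) (K l : ℕ) (c : E) (T : ℝ) : 0 ≤ Bot w K l c T := by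
  exact mul_nonneg (by positivity) (integral_nonneg fun _ => abs_nonneg _)

theorem Bot_mono {w : E → ℝ} (hw : Integrable w) (K l : ℕ) {c c' : E} {T T' : ℝ}
    (h : dinf c c' + T ≤ T') : Bot w K l c T ≤ Bot w K l c' T' := by
  refine mul_le_mul_of_nonneg_left ?_ (by positivity)
  exact setIntegral_mono_set hw.abs.integrableOn
    (Filter.Eventually.of_forall fun _ => abs_nonneg _) (Q_mono h).eventuallyLE

theorem Bot_level (w : E → ℝ) {K l k : ℕ} (h : l ≤ k) (hk : k ≤ K) (c : E) (T : ℝ) :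
    Bot w K k c T ≤ 2 ^ (k - l) * Bot w K l c T := by
  unfold Bot
  rw [← mul_assoc, grid1_pow h hk]

end Crest.Agent.R112
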