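import Crest.Agent.R112.Grid1

/-!
# R112/Grid2: piecewise bilinear interpolation and refinement

One-dimensional facts behind everything: with `n = ⌊t⌋`, `tent (t - n) = 1 - (t - n)`,
`tent (t - (n+1)) = t - n`, all other `tent (t - j)` vanish. A function that is affine on
`[n, n+1]` equals `u n * tent (t - n) + u (n+1) * tent (t - (n+1))` there. The function
`t ↦ tent (t / M - Z)` (`M` a positive integer, `Z` an integer) is affine on every `[n, n+1]`,
because its kinks `M (Z-1), M Z, M (Z+1)` are integers. The hats are products, `nbr` is a product,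
so `Finset.sum_product` and `Finset.sum_mul_sum` give the two-dimensional statements.
-/

namespace Crest.Agent.R112

open MeasureTheory Metric Set
open scoped RealInnerProductSpace

theorem grid2_tent_floor (t : ℝ) : tent (t - (⌊t⌋ : ℤ)) = 1 - (t - ⌊t⌋) := by
  have h1 := Int.floor_le t
  have h2 := Int.lt_floor_add_one t
  unfold tent
  rw [abs_of_nonneg (by linarith), max_eq_left (by linarith)]

theorem grid2_tent_floor_succ (t : ℝ) : tent (t - ((⌊t⌋ + 1 : ℤ) : ℝ)) = t - ⌊t⌋ := by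
  have h1 := Int.floor_le t
  have h2 := Int.lt_floor_add_one t
  unfold tent
  push_cast
  rw [abs_of_nonpos (by linarith), max_eq_left (by linarith)]
  ring

theorem grid2_sum_one (g : ℤ → ℝ) (t : ℝ) :
    ∑ j ∈ Finset.Icc ⌊t⌋ (⌊t⌋ + 1), g j * tent (t - j) =
      g ⌊t⌋ * (1 - (t - ⌊t⌋)) + g (⌊t⌋ + 1) * (t - ⌊t⌋) := by
  have : Finset.Icc ⌊t⌋ (⌊t⌋ + 1) = {⌊t⌋, ⌊t⌋ + 1} := by
    ext j
    simp only [Finset.mem_Icc, Finset.mem_insert, Finset.mem_singleton]
    omega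
  rw [this, Finset.sum_pair (by omega), grid2_tent_floor, grid2_tent_floor_succ]

/-- `s ↦ tent (s / M - Z)` is affine on `[n, n+1]` -/
theorem grid2_affine {M : ℕ} (hM : 0 < M) (Z n : ℤ) :
    ∃ a b : ℝ, ∀ s : ℝ, (n : ℝ) ≤ s → s ≤ n + 1 → tent (s / M - Z) = a + b * s := by
  have hM' : (0 : ℝ) < M := by exact_mod_cast hM
  rcases le_or_gt ((M : ℤ) * (Z + 1)) n with h1 | h1
  · refine ⟨0, 0, fun s hs _ => ?_⟩
    have h1' : (M : ℝ) * (Z + 1) ≤ n := by exact_mod_cast h1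
    have : (Z : ℝ) + 1 ≤ s / M := by
      rw [le_div_iff₀ hM']; linarith
    unfold tent
    rw [abs_of_nonneg (by linarith), max_eq_right (by linarith)]
    ring
  rcases le_or_gt (n + 1) ((M : ℤ) * (Z - 1)) with h2 | h2
  · refine ⟨0, 0, fun s _ hs => ?_⟩
    have h2' : (n : ℝ) + 1 ≤ (M : ℝ) * (Z - 1) := by exact_mod_cast h2
    have : s / M ≤ (Z : ℝ) - 1 := by
      rw [div_le_iff₀ hM']; linarith
    unfold tent
    rw [abs_of_nonpos (by linarith), max_eq_right (by linarith)]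
    ring
  rcases le_or_gt ((M : ℤ) * Z) n with h3 | h3
  · refine ⟨1 + Z, -(1 / M), fun s hs hs' => ?_⟩
    have h3' : (M : ℝ) * Z ≤ n := by exact_mod_cast h3
    have h1' : (n : ℝ) + 1 ≤ (M : ℝ) * (Z + 1) := by exact_mod_cast (show n + 1 ≤ _ from h1)
    have e1 : (Z : ℝ) ≤ s / M := by
      rw [le_div_iff₀ hM']; linarith
    have e2 : s / M ≤ (Z : ℝ) + 1 := by
      rw [div_le_iff₀ hM']; linarith
    unfold tent
    rw [abs_of_nonneg (by linarith), max_eq_left (by linarith)]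
    ring
  · refine ⟨1 - Z, 1 / M, fun s hs hs' => ?_⟩
    have h3' : (n : ℝ) + 1 ≤ (M : ℝ) * Z := by exact_mod_cast (show n + 1 ≤ _ from h3)
    have h2' : (M : ℝ) * (Z - 1) ≤ n := by exact_mod_cast (Int.lt_add_one_iff.1 h2)
    have e1 : s / M ≤ (Z : ℝ) := by
      rw [div_le_iff₀ hM']; linarith
    have e2 : (Z : ℝ) - 1 ≤ s / M := by
      rw [le_div_iff₀ hM']; linarith
    unfold tent
    rw [abs_of_nonpos (by linarith), max_eq_left (by linarith)]
    ring

theorem grid2_tent_interp {M : ℕ} (hM : 0 < M) (Z : ℤ) (t : ℝ) :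
    tent (t / M - Z) =
      ∑ j ∈ Finset.Icc ⌊t⌋ (⌊t⌋ + 1), tent ((j : ℝ) / M - Z) * tent (t - j) := by
  rw [grid2_sum_one (fun j : ℤ => tent ((j : ℝ) / M - Z)) t]
  obtain ⟨a, b, h⟩ := grid2_affine hM Z ⌊t⌋
  have h1 := Int.floor_le t
  have h2 := Int.lt_floor_add_one t
  rw [h t h1 h2.le, h _ le_rfl (by linarith), h ((⌊t⌋ + 1 : ℤ) : ℝ) (by push_cast; linarith)
    (by push_cast; linarith)]
  push_cast
  ring

/-- the sum over `nbr` can be replaced by the sum over any finite set that contains all nodes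
whose hat does not vanish at `y` -/
theorem sum_nbr_eq {ρ : ℝ} (g : ℤ × ℤ → ℝ) (y : E) (F : Finset (ℤ × ℤ))
    (hF : ∀ z, hat ρ z y ≠ 0 → z ∈ F) :
    ∑ z ∈ nbr ρ y, g z * hat ρ z y = ∑ z ∈ F, g z * hat ρ z y := by
  classical
  have e1 : ∑ z ∈ nbr ρ y, g z * hat ρ z y = ∑ z ∈ nbr ρ y ∪ F, g z * hat ρ z y := by
    refine Finset.sum_subset Finset.subset_union_left (fun z _ hz => ?_)
    have : hat ρ z y = 0 := by
      by_contra h
      exact hz (mem_nbr_of_hat_ne_zero h)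
    rw [this, mul_zero]
  have e2 : ∑ z ∈ F, g z * hat ρ z y = ∑ z ∈ nbr ρ y ∪ F, g z * hat ρ z y := by
    refine Finset.sum_subset Finset.subset_union_right (fun z _ hz => ?_)
    have : hat ρ z y = 0 := by
      by_contra h
      exact hz (hF z h)
    rw [this, mul_zero]
  rw [e1, e2]

theorem sum_nbr_hat (ρ : ℝ) (y : E) : ∑ z ∈ nbr ρ y, hat ρ z y = 1 := by
  have h1 : ∀ t : ℝ, ∑ j ∈ Finset.Icc ⌊t⌋ (⌊t⌋ + 1), tent (t - j) = 1 := by
    intro t
    have := grid2_sum_one (fun _ => 1) t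
    simp only [one_mul] at this
    rw [this]; ring
  unfold nbr hat
  rw [Finset.sum_product' (f := fun (i j : ℤ) => tent (y 0 / ρ - i) * tent (y 1 / ρ - j)),
    ← Finset.sum_mul_sum, h1, h1, one_mul]

theorem sum_hat_le_one (ρ : ℝ) (y : E) (F : Finset (ℤ × ℤ)) : ∑ z ∈ F, hat ρ z y ≤ 1 := by
  classical
  have e := sum_nbr_eq (ρ := ρ) (fun _ => 1) y (nbr ρ y ∪ F)
    (fun z hz => Finset.mem_union_left _ (mem_nbr_of_hat_ne_zero hz))
  simp only [one_mul] at e
  rw [← sum_nbr_hat ρ y, e]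
  exact Finset.sum_le_sum_of_subset_of_nonneg Finset.subset_union_right
    (fun z _ _ => hat_nonneg ρ z y)

theorem interp_const (ρ c : ℝ) : Interp ρ (fun _ => c) := by
  intro y
  rw [← Finset.mul_sum, sum_nbr_hat, mul_one]

theorem Interp.add {ρ : ℝ} {u v : E → ℝ} (hu : Interp ρ u) (hv : Interp ρ v) :
    Interp ρ (fun y => u y + v y) := by
  intro y
  simp only [add_mul, Finset.sum_add_distrib]
  rw [← hu y, ← hv y]

theorem Interp.const_mul {ρ : ℝ} {u : E → ℝ} (hu : Interp ρ u) (c : ℝ) :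
    Interp ρ (fun y => c * u y) := by
  intro y
  simp only [mul_assoc, ← Finset.mul_sum]
  rw [← hu y]

theorem Interp.sum {ρ : ℝ} {α : Type*} (s : Finset α) {u : α → E → ℝ}
    (hu : ∀ a ∈ s, Interp ρ (u a)) : Interp ρ (fun y => ∑ a ∈ s, u a y) := by
  intro y
  simp only [Finset.sum_mul]
  rw [Finset.sum_comm]
  exact Finset.sum_congr rfl (fun a ha => hu a ha y)

/-- a hat of the coarse lattice is piecewise bilinear on the fine lattice -/
theorem interp_hat {ρ : ℝ} (hρ : 0 < ρ) {M : ℕ} (hM : 0 < M) (Z : ℤ × ℤ) :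
    Interp ρ (hat (M * ρ) Z) := by
  intro y
  have hM' : (0 : ℝ) < M := by exact_mod_cast hM
  have e1 : ∀ t : ℝ, t / (M * ρ) = t / ρ / M := by
    intro t; field_simp
  have e2 : ∀ j : ℤ, ρ * j / (M * ρ) = (j : ℝ) / M := by
    intro j; field_simp
  have e3 : ∀ z : ℤ × ℤ, hat (M * ρ) Z (node ρ z) * hat ρ z y =
      (tent ((z.1 : ℝ) / M - Z.1) * tent (y 0 / ρ - z.1)) *
        (tent ((z.2 : ℝ) / M - Z.2) * tent (y 1 / ρ - z.2)) := by
    intro z
    simp only [hat, node, PiLp.toLp_apply, Matrix.cons_val_zero, Matrix.cons_val_one, e2]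
    ring
  simp only [e3]
  unfold nbr
  rw [Finset.sum_product' (f := fun (i j : ℤ) =>
      (tent ((i : ℝ) / M - Z.1) * tent (y 0 / ρ - i)) *
        (tent ((j : ℝ) / M - Z.2) * tent (y 1 / ρ - j))),
    ← Finset.sum_mul_sum, ← grid2_tent_interp hM, ← grid2_tent_interp hM]
  simp only [hat, e1]

/-- refinement. (Write `u y'` as a sum over one finite set `F` of coarse nodes for the five points
`y' = y` and `y' = node ρ z`, `z ∈ nbr ρ y`; use `interp_hat` and exchange the sums.) -/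
theorem Interp.refine {ρ : ℝ} (hρ : 0 < ρ) {M : ℕ} (hM : 0 < M) {u : E → ℝ}
    (hu : Interp (M * ρ) u) : Interp ρ u := by
  classical
  intro y
  set F : Finset (ℤ × ℤ) :=
    nbr (M * ρ) y ∪ (nbr ρ y).biUnion (fun z => nbr (M * ρ) (node ρ z)) with hF
  have e1 : u y = ∑ Z ∈ F, u (node (M * ρ) Z) * hat (M * ρ) Z y := by
    rw [hu y]
    exact sum_nbr_eq _ y F (fun Z hZ => Finset.mem_union_left _ (mem_nbr_of_hat_ne_zero hZ))
  have e2 : ∀ z ∈ nbr ρ y,
      u (node ρ z) = ∑ Z ∈ F, u (node (M * ρ) Z) * hat (M * ρ) Z (node ρ z) := by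
    intro z hz
    rw [hu (node ρ z)]
    exact sum_nbr_eq _ _ F (fun Z hZ => Finset.mem_union_right _
      (Finset.mem_biUnion.2 ⟨z, hz, mem_nbr_of_hat_ne_zero hZ⟩))
  have e3 : ∑ z ∈ nbr ρ y, u (node ρ z) * hat ρ z y = ∑ z ∈ nbr ρ y, ∑ Z ∈ F,
      u (node (M * ρ) Z) * hat (M * ρ) Z (node ρ z) * hat ρ z y :=
    Finset.sum_congr rfl (fun z hz => by rw [e2 z hz, Finset.sum_mul])
  rw [e3, Finset.sum_comm, e1]
  refine Finset.sum_congr rfl (fun Z _ => ?_)
  rw [interp_hat hρ hM Z y, Finset.mul_sum]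
  exact Finset.sum_congr rfl (fun z _ => by ring)

/-- a partial interpolant of a nonnegative function stays below the function -/
theorem Interp.sum_le {ρ : ℝ} {u : E → ℝ} (hu : Interp ρ u) (h0 : ∀ y, 0 ≤ u y)
    (F : Finset (ℤ × ℤ)) (δ : ℤ × ℤ → ℝ) (hδ : ∀ z ∈ F, δ z ≤ u (node ρ z)) (y : E) :
    ∑ z ∈ F, δ z * hat ρ z y ≤ u y := by
  classical
  have e := sum_nbr_eq (ρ := ρ) (fun z => u (node ρ z)) y (nbr ρ y ∪ F)
    (fun z hz => Finset.mem_union_left _ (mem_nbr_of_hat_ne_zero hz))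
  calc ∑ z ∈ F, δ z * hat ρ z y ≤ ∑ z ∈ F, u (node ρ z) * hat ρ z y :=
        Finset.sum_le_sum (fun z hz => mul_le_mul_of_nonneg_right (hδ z hz) (hat_nonneg ρ z y))
    _ ≤ ∑ z ∈ nbr ρ y ∪ F, u (node ρ z) * hat ρ z y :=
        Finset.sum_le_sum_of_subset_of_nonneg Finset.subset_union_right
          (fun z _ _ => mul_nonneg (h0 _) (hat_nonneg ρ z y))
    _ = u y := by rw [← e, ← hu y]

namespace Grid

variable (G : Grid)

theorem grid2_mesh_eq {l k : ℕ} (h : l ≤ k) :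
    G.mesh l = ((Lam ^ (k - l) : ℕ) : ℝ) * G.mesh k := by
  have hL : (0 : ℝ) < (Lam : ℝ) ^ (k - l) := by
    unfold Lam; positivity
  rw [G.mesh_eq_div h]
  push_cast
  field_simp

theorem interp_mono {l k : ℕ} (h : l ≤ k) {u : E → ℝ} (hu : Interp (G.mesh l) u) :
    Interp (G.mesh k) u := by
  rw [G.grid2_mesh_eq h] at hu
  exact Interp.refine (G.mesh_pos k) (by unfold Lam; positivity) hu

theorem interp_ht {l k : ℕ} (h : l ≤ k) (Z : ℤ × ℤ) : Interp (G.mesh k) (G.ht l Z) := by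
  unfold Grid.ht
  rw [G.grid2_mesh_eq h]
  exact interp_hat (G.mesh_pos k) (by unfold Lam; positivity) Z

theorem interp_dom {k : ℕ} {u : E → ℝ} (hu : Interp (G.mesh k) u) {y : E} (hy : y ∈ G.dom) :
    u y = ∑ z ∈ G.nodes k, u (G.pt k z) * G.ht k z y := by
  rw [hu y]
  exact sum_nbr_eq (fun z => u (G.pt k z)) y (G.nodes k)
    (fun z hz => G.mem_nodes_of_ht_ne_zero hy hz)

theorem sum_ht (k : ℕ) {y : E} (hy : y ∈ G.dom) : ∑ z ∈ G.nodes k, G.ht k z y = 1 := by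
  have := G.interp_dom (interp_const (G.mesh k) 1) hy
  simp only [one_mul] at this
  exact this.symm

theorem sum_ht_le (k : ℕ) (y : E) : ∑ z ∈ G.nodes k, G.ht k z y ≤ 1 :=
  sum_hat_le_one (G.mesh k) y (G.nodes k)

theorem sum_mul_ht_pt {k : ℕ} (δ : ℤ × ℤ → ℝ) {z : ℤ × ℤ} (hz : z ∈ G.nodes k) :
    ∑ z' ∈ G.nodes k, δ z' * G.ht k z' (G.pt k z) = δ z := by
  unfold Grid.ht Grid.pt
  simp only [hat_node (G.mesh_pos k), mul_ite, mul_one, mul_zero]
  rw [Finset.sum_ite_eq' (G.nodes k) z δ, if_pos hz]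

end Grid

end Crest.Agent.R112
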