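import Crest.Agent.R112.Osc

/-!
# R112/Light: the weighted mass of the nodes outside the cone `C_3` is summable

Write `v k z = |mx k z| + |my k z|`, `(A, B) = (sg s.1 * mx k z, sg s.2 * my k z)` (so
`|A| + |B| = v`), `t i = 4 - (1/2)^i` (`t 0 = 3`, `t (i+1) - t i = (1/2)^(i+1)`),
`T i k = ∑ z ∈ nodes k, if Bad s (t i) .. then w k s (pt k z) * v k z else 0`,
`S i = ∑ k ≤ K, T i k`.

`bad_neg` (claim A) and `bad_strict` (claim B) are elementary case distinctions.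

`Y_le_parent`: for `z ∈ nodes (k+1)` and a coarse node `Z` with
`dinf (pt (k+1) z) (pt k Z) ≤ mesh k / 2`, every point of `Q (pt (k+1) z) (3 mesh (k+1))` is within
`3/4 * mesh k` of `pt k Z`, so `ht k Z ≥ 1/16` there (`hat_ge`), so
`loc m i .. ≤ 16 * ∑ z' ∈ nodes i, ht k Z (pt i z') * |m i z'|`; apply `transport_abs` with
`u = ht k Z` (`interp_ht`, `hat_node`), then sum the geometric weights:
`∑_{i ≥ k+1} (1/2)^(i-k-1) ≤ 2`, `∑_{i > j} (1/2)^(i-k-1) ≤ 2 * (1/2)^(j-k)`.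

`light_step` (one level, `k < K`): let `par z` be a parent of `z ∈ nodes (k+1)` (`exists_parent`,
`pt_mem_dom`). For a node `z` that is `Bad s (t i)`:
* seed (`eps * Y < Neg`): `w * v ≤ 5 * w * Neg` (claim A): at most `5 *` the `gain` term;
* parent not `Bad s (t (i+1))`: with `m1 = t (i+1) * (sg s.1 * mx) + sg s.2 * my` and
  `m2 = sg s.1 * mx + t (i+1) * (sg s.2 * my)` (both refine, `Refines.lin`), claim B gives
  `v ≤ 5 * 2^(i+1) * (ng (m1 (k+1) z) + ng (m2 (k+1) z))`; as `ht k (par z) (pt (k+1) z) ≥ 1/16` and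
  `ng (m1 k Z) = 0` for such a parent `Z`, the sum over all such `z` is at most
  `80 * 2^(i+1) * ∑ Z ∈ nodes k, (dfc m1 k Z + dfc m2 k Z)` (definition of `dfc`, `dfc_nonneg`);
* otherwise `v ≤ 5 * Neg ≤ 5 * eps * Y ≤ 5 * eps * (32 * v k Z + 64 * Dt k Z)` with `Z = par z`,
  `w (k+1) s (pt (k+1) z) ≤ min 1 (w k s (pt k Z) + 2 * H k (pt k Z))` (`osc2`, `w_le_one`), every
  `Z` has at most `(2 * 2048 + 1)^2` children (`card_near`, `mesh k / 2 = 2048 * mesh (k+1)`), and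
  `5 * eps * 64 * 4097^2 ≤ 1/4`. Summing `Dt k Z` over `Z` uses `sum_ht_le`.

`light`: sum over `k`; `T i 0 ≤ tot` (`sum_abs_le`), `gain`, `sum_dfc_le` (`|m1| ≤ 4 v`),
`H_bound` and `pay`, and `∑_k ∑_{j ≥ k} (1/2)^(j-k) D j ≤ 2 ∑_j D j ≤ 2 tot`. This gives
`S i ≤ A * 2^i * tot + S (i+1) / 4` with an absolute constant `A`, while `S i ≤ (K+1) * tot`.
Iterate: `S 0 ≤ 2 A tot + (K+1) tot / 4^n` for all `n`.
-/

namespace Crest.Agent.R112

open MeasureTheory Metric Set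
open scoped RealInnerProductSpace

theorem Light.abs_sg (b : Bool) (a : ℝ) : |sg b * a| = |a| := by
  cases b <;> simp [sg]

/-- claim A -/
theorem bad_neg {s : St} {t a b : ℝ} (h3 : 3 ≤ t) (h4 : t ≤ 4) (h : Bad s t a b) :
    |a| + |b| ≤ 5 * Neg s a b := by
  rw [← Light.abs_sg s.1 a, ← Light.abs_sg s.2 b, Neg]
  rw [Bad] at h
  generalize sg s.1 * a = A at h ⊢
  generalize sg s.2 * b = B at h ⊢
  have := ng_nonneg A
  have := ng_nonneg B
  have := neg_le_ng A
  have := neg_le_ng B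
  rcases h with h | h <;> rcases abs_cases A with ⟨hA, hA'⟩ | ⟨hA, hA'⟩ <;>
    rcases abs_cases B with ⟨hB, hB'⟩ | ⟨hB, hB'⟩ <;> rw [hA, hB] <;> nlinarith

theorem Light.strict_aux {t δ A B : ℝ} (h3 : 3 ≤ t) (hδ : 0 < δ) (h4 : t + δ ≤ 4)
    (h : t * A + B < 0) :
    δ * (|A| + |B|) ≤ 5 * (ng ((t + δ) * A + B) + ng (A + (t + δ) * B)) := by
  have h1 := ng_nonneg ((t + δ) * A + B)
  have h2 := ng_nonneg (A + (t + δ) * B)
  have h5 := neg_le_ng ((t + δ) * A + B)
  have h6 := neg_le_ng (A + (t + δ) * B)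
  have hδ1 : δ ≤ 1 := by linarith
  rcases abs_cases A with ⟨hA, hA'⟩ | ⟨hA, hA'⟩ <;>
    rcases abs_cases B with ⟨hB, hB'⟩ | ⟨hB, hB'⟩ <;> rw [hA, hB]
  · nlinarith
  · have a1 : 3 * A ≤ -B := by nlinarith
    have a2 : δ * (A + -B) ≤ A + -B := mul_le_of_le_one_left (by linarith) hδ1
    nlinarith
  · have a1 : B ≤ 4 * -A := by nlinarith
    have a2 : δ * B ≤ δ * (4 * -A) := mul_le_mul_of_nonneg_left a1 hδ.le
    nlinarith
  · have a2 : δ * (-A + -B) ≤ -A + -B := mul_le_of_le_one_left (by linarith) hδ1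
    nlinarith

/-- claim B -/
theorem bad_strict {s : St} {t δ a b : ℝ} (h3 : 3 ≤ t) (hδ : 0 < δ) (h4 : t + δ ≤ 4)
    (h : Bad s t a b) :
    δ * (|a| + |b|) ≤ 5 * (ng ((t + δ) * (sg s.1 * a) + sg s.2 * b) +
      ng (sg s.1 * a + (t + δ) * (sg s.2 * b))) := by
  rw [← Light.abs_sg s.1 a, ← Light.abs_sg s.2 b]
  rcases h with h | h
  · exact Light.strict_aux h3 hδ h4 h
  · have := Light.strict_aux h3 hδ h4 (A := sg s.2 * b) (B := sg s.1 * a) (by linarith)
    rw [add_comm (sg s.2 * b), add_comm _ (sg s.1 * a)] at this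
    linarith

/-- discounted defects seen by the hat of the node `Z` of level `k` -/
noncomputable def Dt (G : Grid) (K : ℕ) (mx my : Arr) (k : ℕ) (Z : ℤ × ℤ) : ℝ :=
  ∑ j ∈ Finset.Ico k K, (1 / 2 : ℝ) ^ (j - k) *
    ∑ z ∈ G.nodes j, G.ht k Z (G.pt j z) * (G.dfc mx j z + G.dfc my j z)

namespace Light

theorem geo1 (d : ℕ → ℝ) (x : ℝ) (k K : ℕ) (hK : k ≤ K) :
    ∑ i ∈ Finset.Icc (k + 1) K, (1 / 2 : ℝ) ^ (i - (k + 1)) * (x + 2 * ∑ j ∈ Finset.Ico k i, d j) +
      2 * (1 / 2 : ℝ) ^ (K - k) * (x + 2 * ∑ j ∈ Finset.Ico k K, d j) =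
      2 * x + 4 * ∑ j ∈ Finset.Ico k K, (1 / 2 : ℝ) ^ (j - k) * d j := by
  induction K, hK using Nat.le_induction with
  | base => simp
  | succ K hK ih =>
    rw [Finset.sum_Icc_succ_top (by omega), Finset.sum_Ico_succ_top hK,
      Finset.sum_Ico_succ_top hK, Nat.add_sub_add_right, Nat.succ_sub hK, pow_succ]
    linarith

theorem geo2 (d : ℕ → ℝ) (K : ℕ) (hd : ∀ j < K, 0 ≤ d j) :
    ∑ k ∈ Finset.range K, ∑ j ∈ Finset.Ico k K, (1 / 2 : ℝ) ^ (j - k) * d j ≤
      2 * ∑ j ∈ Finset.range K, d j := by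
  induction K with
  | zero => simp
  | succ K ih =>
    have h1 : ∀ k ∈ Finset.range (K + 1), ∑ j ∈ Finset.Ico k (K + 1), (1 / 2 : ℝ) ^ (j - k) * d j =
        ∑ j ∈ Finset.Ico k K, (1 / 2 : ℝ) ^ (j - k) * d j + (1 / 2 : ℝ) ^ (K - k) * d K :=
      fun k hk => Finset.sum_Ico_succ_top (by have := Finset.mem_range.1 hk; omega) _
    rw [Finset.sum_congr rfl h1, Finset.sum_add_distrib, Finset.sum_range_succ, ← Finset.sum_mul,
      Finset.sum_flip (fun r => (1 / 2 : ℝ) ^ r), Finset.sum_range_succ d]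
    have h2 := mul_le_mul_of_nonneg_right (sum_geometric_two_le (K + 1)) (hd K K.lt_succ_self)
    have h3 := ih fun j hj => hd j (by omega)
    simp only [Finset.Ico_self, Finset.sum_empty]
    linarith

theorem ht_nonneg (G : Grid) (k : ℕ) (z : ℤ × ℤ) (y : E) : 0 ≤ G.ht k z y := hat_nonneg _ _ _

theorem Vt_le_parent (G : Grid) {K : ℕ} {m : Arr} (h : G.Refines K m) {k : ℕ} (hk : k < K)
    {c : E} {Z : ℤ × ℤ} (hZ : Z ∈ G.nodes k) (hd : dinf c (G.pt k Z) ≤ G.mesh k / 2) :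
    G.Vt m K (k + 1) c (3 * G.mesh (k + 1)) ≤ 32 * |m k Z| + 64 * ∑ j ∈ Finset.Ico k K,
      (1 / 2 : ℝ) ^ (j - k) * ∑ z ∈ G.nodes j, G.ht k Z (G.pt j z) * G.dfc m j z := by
  have h0 : ∑ z ∈ G.nodes k, G.ht k Z (G.pt k z) * |m k z| = |m k Z| := by
    have : ∀ z, G.ht k Z (G.pt k z) = if Z = z then 1 else 0 := hat_node (G.mesh_pos k) Z
    simp [this, hZ]
  have h1 : ∀ i ∈ Finset.Icc (k + 1) K, G.loc m i c (3 * G.mesh (k + 1)) ≤ 16 * (|m k Z| +
      2 * ∑ j ∈ Finset.Ico k i, ∑ z ∈ G.nodes j, G.ht k Z (G.pt j z) * G.dfc m j z) := by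
    intro i hi
    obtain ⟨hi1, hi2⟩ := Finset.mem_Icc.1 hi
    rw [← h0, ← G.transport_abs h (by omega) hi2 (G.interp_ht le_rfl Z), Finset.mul_sum, Grid.loc,
      Grid.near, Finset.sum_filter]
    refine Finset.sum_le_sum fun z _ => ?_
    split_ifs with hz
    · have h2 : 1 / 16 ≤ G.ht k Z (G.pt i z) := by
        refine hat_ge (G.mesh_pos k) ((dinf_triangle _ c _).trans ?_)
        have h3 := G.mesh_succ k
        have h4 := G.mesh_pos (k + 1)
        simp only [Lam, Nat.cast_ofNat] at h3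
        change _ + dinf c (G.pt k Z) ≤ _
        linarith
      nlinarith [abs_nonneg (m i z)]
    · exact mul_nonneg (by norm_num) (mul_nonneg (ht_nonneg G k Z _) (abs_nonneg _))
  have h2 := geo1 (fun j => ∑ z ∈ G.nodes j, G.ht k Z (G.pt j z) * G.dfc m j z) |m k Z| k K hk.le
  have h3 : 0 ≤ ∑ j ∈ Finset.Ico k K, ∑ z ∈ G.nodes j, G.ht k Z (G.pt j z) * G.dfc m j z :=
    Finset.sum_nonneg fun j hj => Finset.sum_nonneg fun z hz =>
      mul_nonneg (ht_nonneg G _ _ _) (G.dfc_nonneg h (Finset.mem_Ico.1 hj).2 hz)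
  have h4 : 0 ≤ 2 * (1 / 2 : ℝ) ^ (K - k) * (|m k Z| +
      2 * ∑ j ∈ Finset.Ico k K, ∑ z ∈ G.nodes j, G.ht k Z (G.pt j z) * G.dfc m j z) :=
    mul_nonneg (by positivity) (add_nonneg (abs_nonneg _) (mul_nonneg zero_le_two h3))
  refine (Finset.sum_le_sum fun i hi =>
    mul_le_mul_of_nonneg_left (h1 i hi) (by positivity)).trans ?_
  rw [Finset.sum_congr rfl fun i _ => mul_left_comm _ _ _, ← Finset.mul_sum]
  linarith

end Light

theorem Y_le_parent (G : Grid) {K : ℕ} {mx my : Arr} (hx : G.Refines K mx) (hy : G.Refines K my)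
    {k : ℕ} (hk : k < K) {z Z : ℤ × ℤ} (hZ : Z ∈ G.nodes k)
    (hd : dinf (G.pt (k + 1) z) (G.pt k Z) ≤ G.mesh k / 2) :
    G.Y mx my K (k + 1) z ≤ 32 * (|mx k Z| + |my k Z|) + 64 * Dt G K mx my k Z := by
  have h1 := Light.Vt_le_parent G hx hk hZ hd
  have h2 := Light.Vt_le_parent G hy hk hZ hd
  simp only [Grid.Y, Dt, mul_add, Finset.sum_add_distrib]
  linarith

namespace Light

variable {G : Grid} {K : ℕ} {mx my : Arr}

open Classical in
/-- weighted mass of a bad node -/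
noncomputable def tm (W : Wts G K mx my) (s : St) (t : ℝ) (k : ℕ) (z : ℤ × ℤ) : ℝ :=
  if Bad s t (mx k z) (my k z) then W.w k s (G.pt k z) * (|mx k z| + |my k z|) else 0

open Classical in
/-- gain at a seed -/
noncomputable def gn (W : Wts G K mx my) (k : ℕ) (s : St) (z : ℤ × ℤ) : ℝ :=
  if eps * G.Y mx my K k z < Neg s (mx k z) (my k z) then
    W.w k s (G.pt k z) * Neg s (mx k z) (my k z) else 0

/-- first functional of the cone -/
def m1 (mx my : Arr) (s : St) (t : ℝ) : Arr := fun k z => t * sg s.1 * mx k z + sg s.2 * my k z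

/-- second functional of the cone -/
def m2 (mx my : Arr) (s : St) (t : ℝ) : Arr := fun k z => sg s.1 * mx k z + t * sg s.2 * my k z

theorem tm_nonneg (W : Wts G K mx my) (s : St) (t : ℝ) (k : ℕ) (z : ℤ × ℤ) : 0 ≤ tm W s t k z := by
  have := W.w_nonneg k s (G.pt k z)
  unfold tm
  positivity

theorem gn_nonneg (W : Wts G K mx my) (k : ℕ) (s : St) (z : ℤ × ℤ) : 0 ≤ gn W k s z := by
  have := W.w_nonneg k s (G.pt k z)
  have : 0 ≤ Neg s (mx k z) (my k z) := add_nonneg (ng_nonneg _) (ng_nonneg _)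
  unfold gn
  positivity

theorem sum_tm_le (hx : G.Refines K mx) (hy : G.Refines K my) (W : Wts G K mx my) (s : St) (t : ℝ)
    {k : ℕ} (hk : k ≤ K) : ∑ z ∈ G.nodes k, tm W s t k z ≤ G.tot mx my K := by
  have h1 := G.sum_abs_le hx hk
  have h2 := G.sum_abs_le hy hk
  rw [Grid.tot, Finset.sum_add_distrib]
  refine le_trans (Finset.sum_le_sum (g := fun z => |mx k z| + |my k z|) fun z _ => ?_)
    (by rw [Finset.sum_add_distrib]; linarith)
  unfold tm
  split_ifs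
  · exact mul_le_of_le_one_left (by positivity) (W.w_le_one _ _ _)
  · positivity

theorem Dt_nonneg (hx : G.Refines K mx) (hy : G.Refines K my) (k : ℕ) (Z : ℤ × ℤ) :
    0 ≤ Dt G K mx my k Z :=
  Finset.sum_nonneg fun _ hj => mul_nonneg (by positivity) (Finset.sum_nonneg fun _ hz =>
    mul_nonneg (ht_nonneg G _ _ _) (add_nonneg (G.dfc_nonneg hx (Finset.mem_Ico.1 hj).2 hz)
      (G.dfc_nonneg hy (Finset.mem_Ico.1 hj).2 hz)))

theorem sum_Dt_le (hx : G.Refines K mx) (hy : G.Refines K my) :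
    ∑ k ∈ Finset.range K, ∑ Z ∈ G.nodes k, Dt G K mx my k Z ≤ 2 * G.tot mx my K := by
  have h0 : ∀ j < K, ∀ z ∈ G.nodes j, 0 ≤ G.dfc mx j z + G.dfc my j z := fun j hj z hz =>
    add_nonneg (G.dfc_nonneg hx hj hz) (G.dfc_nonneg hy hj hz)
  have h1 := geo2 (fun j => ∑ z ∈ G.nodes j, (G.dfc mx j z + G.dfc my j z)) K
    fun j hj => Finset.sum_nonneg (h0 j hj)
  have h2 := G.sum_dfc_le mx K
  have h3 := G.sum_dfc_le my K
  refine le_trans (Finset.sum_le_sum fun k _ => ?_) (h1.trans ?_)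
  · unfold Dt
    rw [Finset.sum_comm]
    refine Finset.sum_le_sum fun j hj => ?_
    rw [← Finset.mul_sum, Finset.sum_comm]
    refine mul_le_mul_of_nonneg_left (Finset.sum_le_sum fun z hz => ?_) (by positivity)
    rw [← Finset.sum_mul]
    exact mul_le_of_le_one_left (h0 j (Finset.mem_Ico.1 hj).2 z hz) (G.sum_ht_le k _)
  · simp only [Grid.tot, Finset.sum_add_distrib]
    linarith

/-- what a bad parent pays -/
noncomputable def F (W : Wts G K mx my) (s : St) (t : ℝ) (k : ℕ) (Z : ℤ × ℤ) : ℝ :=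
  tm W s t k Z + W.H k (G.pt k Z) * (|mx k Z| + |my k Z|) + Dt G K mx my k Z

theorem F_nonneg (hx : G.Refines K mx) (hy : G.Refines K my) (W : Wts G K mx my) (s : St) (t : ℝ)
    (k : ℕ) (Z : ℤ × ℤ) : 0 ≤ F W s t k Z := by
  have := tm_nonneg W s t k Z
  have := W.H_nonneg k (G.pt k Z)
  have := Dt_nonneg hx hy k Z
  unfold F
  positivity

open Classical in
theorem node_step (hx : G.Refines K mx) (hy : G.Refines K my) (W : Wts G K mx my) (s : St)
    {t δ : ℝ} (h3 : 3 ≤ t) (hδ : 0 < δ) (h4 : t + δ ≤ 4) {k : ℕ} (hk : k < K) {z : ℤ × ℤ}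
    (hz : z ∈ G.nodes (k + 1)) :
    tm W s t (k + 1) z ≤ 5 * gn W (k + 1) s z +
      80 / δ * ∑ Z ∈ G.nodes k, (if Bad s (t + δ) (mx k Z) (my k Z) then 0 else
        G.ht k Z (G.pt (k + 1) z) *
          (ng (m1 mx my s (t + δ) (k + 1) z) + ng (m2 mx my s (t + δ) (k + 1) z))) +
      320 * eps * ∑ Z ∈ G.nodes k, (if dinf (G.pt (k + 1) z) (G.pt k Z) ≤
        (2048 : ℕ) * G.mesh (k + 1) then F W s (t + δ) k Z else 0) := by
  obtain ⟨Z, hZ, hd⟩ := G.exists_parent k (G.pt_mem_dom hz)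
  have hm := G.mesh_succ k
  have hm0 := G.mesh_pos (k + 1)
  simp only [Lam, Nat.cast_ofNat] at hm
  have he : 0 < eps := by unfold eps; positivity
  have n1 := ng_nonneg (m1 mx my s (t + δ) (k + 1) z)
  have n2 := ng_nonneg (m2 mx my s (t + δ) (k + 1) z)
  have p1 := gn_nonneg W (k + 1) s z
  have q2 : ∀ Z ∈ G.nodes k, 0 ≤ (if Bad s (t + δ) (mx k Z) (my k Z) then 0 else
      G.ht k Z (G.pt (k + 1) z) *
        (ng (m1 mx my s (t + δ) (k + 1) z) + ng (m2 mx my s (t + δ) (k + 1) z))) := fun Z _ => by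
    have := ht_nonneg G k Z (G.pt (k + 1) z)
    positivity
  have q3 : ∀ Z ∈ G.nodes k, 0 ≤ (if dinf (G.pt (k + 1) z) (G.pt k Z) ≤
      (2048 : ℕ) * G.mesh (k + 1) then F W s (t + δ) k Z else 0) := fun Z _ => by
    have := F_nonneg hx hy W s (t + δ) k Z
    positivity
  have p2 := mul_nonneg (div_pos (by norm_num : (0 : ℝ) < 80) hδ).le (Finset.sum_nonneg q2)
  have p3 := mul_nonneg (mul_pos (by norm_num : (0 : ℝ) < 320) he).le (Finset.sum_nonneg q3)
  have r2 := mul_le_mul_of_nonneg_left (Finset.single_le_sum q2 hZ)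
    (div_pos (by norm_num : (0 : ℝ) < 80) hδ).le
  have r3 := mul_le_mul_of_nonneg_left (Finset.single_le_sum q3 hZ)
    (mul_pos (by norm_num : (0 : ℝ) < 320) he).le
  have w0 := W.w_nonneg (k + 1) s (G.pt (k + 1) z)
  have w1 := W.w_le_one (k + 1) s (G.pt (k + 1) z)
  clear q2 q3
  generalize 80 / δ * ∑ Z ∈ G.nodes k, _ = S2 at p2 r2 ⊢
  generalize 320 * eps * ∑ Z ∈ G.nodes k, _ = S3 at p3 r3 ⊢
  rw [tm]
  split_ifs with hb
  swap
  · linarith
  have hA := bad_neg h3 (by linarith) hb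
  by_cases hs : eps * G.Y mx my K (k + 1) z < Neg s (mx (k + 1) z) (my (k + 1) z)
  · have := mul_le_mul_of_nonneg_left hA w0
    rw [gn, if_pos hs]
    linarith
  by_cases hp : Bad s (t + δ) (mx k Z) (my k Z)
  · rw [if_pos (by push_cast; linarith), F, tm, if_pos hp] at r3
    have a1 := mul_le_mul_of_nonneg_left (Y_le_parent G hx hy hk hZ hd) he.le
    have a2 := W.osc2 k s (x := G.pt (k + 1) z) (c := G.pt k Z) (by linarith)
    have a3 := Dt_nonneg hx hy k Z
    have a4 : 0 ≤ |mx k Z| + |my k Z| := by positivity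
    have a5 := mul_le_mul_of_nonneg_left (hA.trans (mul_le_mul_of_nonneg_left
      ((not_lt.1 hs).trans a1) (by norm_num))) w0
    have a6 := mul_le_mul_of_nonneg_left (mul_le_mul_of_nonneg_right a2 a4) he.le
    have a7 := mul_le_mul_of_nonneg_left (mul_le_of_le_one_left a3 w1) he.le
    have a8 := mul_nonneg he.le (mul_nonneg (W.w_nonneg k s (G.pt k Z)) a4)
    nlinarith
  · rw [if_neg hp] at r2
    have a1 := bad_strict h3 hδ h4 hb
    have a2 : 1 / 16 ≤ G.ht k Z (G.pt (k + 1) z) := hat_ge (G.mesh_pos k) (hd.trans (by linarith))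
    have a3 := mul_le_mul_of_nonneg_right a2 (add_nonneg n1 n2)
    have a4 : |mx (k + 1) z| + |my (k + 1) z| ≤ 80 / δ * (G.ht k Z (G.pt (k + 1) z) *
        (ng (m1 mx my s (t + δ) (k + 1) z) + ng (m2 mx my s (t + δ) (k + 1) z))) := by
      rw [div_mul_eq_mul_div, le_div_iff₀ hδ]
      simp only [m1, m2, mul_assoc] at a3 ⊢
      linarith
    have a5 := mul_le_of_le_one_left (b := |mx (k + 1) z| + |my (k + 1) z|) (by positivity) w1
    linarith

theorem level_step (hx : G.Refines K mx) (hy : G.Refines K my) (W : Wts G K mx my) (s : St)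
    {t δ : ℝ} (h3 : 3 ≤ t) (hδ : 0 < δ) (h4 : t + δ ≤ 4) {k : ℕ} (hk : k < K) :
    ∑ z ∈ G.nodes (k + 1), tm W s t (k + 1) z ≤ 5 * ∑ z ∈ G.nodes (k + 1), gn W (k + 1) s z +
      80 / δ * ∑ Z ∈ G.nodes k,
        (G.dfc (m1 mx my s (t + δ)) k Z + G.dfc (m2 mx my s (t + δ)) k Z) +
      1 / 4 * ∑ Z ∈ G.nodes k, F W s (t + δ) k Z := by
  classical
  refine (Finset.sum_le_sum fun z hz => node_step hx hy W s h3 hδ h4 hk hz).trans ?_
  rw [Finset.sum_add_distrib, Finset.sum_add_distrib, ← Finset.mul_sum, ← Finset.mul_sum,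
    ← Finset.mul_sum]
  refine add_le_add (add_le_add le_rfl (mul_le_mul_of_nonneg_left ?_ (by positivity))) ?_
  · rw [Finset.sum_comm]
    refine Finset.sum_le_sum fun Z hZ => ?_
    split_ifs with hb
    · rw [Finset.sum_const_zero]
      exact add_nonneg (G.dfc_nonneg (hx.lin hy _ _) hk hZ) (G.dfc_nonneg (hx.lin hy _ _) hk hZ)
    · rw [Bad, not_or, not_lt, not_lt] at hb
      rw [Grid.dfc, Grid.dfc, ng_eq_zero (t := m1 mx my s (t + δ) k Z) (by
        rw [m1, mul_assoc]; exact hb.1), ng_eq_zero (t := m2 mx my s (t + δ) k Z) (by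
        rw [m2, mul_assoc]; exact hb.2)]
      simp only [mul_add, Finset.sum_add_distrib, sub_zero, le_refl]
  · rw [Finset.sum_comm, Finset.mul_sum, Finset.mul_sum]
    refine Finset.sum_le_sum fun Z _ => ?_
    rw [← Finset.sum_filter, Finset.sum_const, nsmul_eq_mul, ← mul_assoc]
    refine mul_le_mul_of_nonneg_right ?_ (F_nonneg hx hy W s _ k Z)
    have := G.card_near (k + 1) (G.pt k Z) 2048
    refine (mul_le_mul_of_nonneg_left this (by unfold eps; positivity)).trans ?_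
    unfold eps
    norm_num

theorem total_step (hx : G.Refines K mx) (hy : G.Refines K my) (W : Wts G K mx my) (s : St)
    {t δ : ℝ} (h3 : 3 ≤ t) (hδ : 0 < δ) (h4 : t + δ ≤ 4) :
    ∑ k ∈ Finset.range (K + 1), ∑ z ∈ G.nodes k, tm W s t k z ≤ 10 ^ 12 / δ * G.tot mx my K +
      1 / 4 * ∑ k ∈ Finset.range (K + 1), ∑ z ∈ G.nodes k, tm W s (t + δ) k z := by
  have h0 := G.tot_nonneg mx my K
  have a0 := sum_tm_le hx hy W s t (Nat.zero_le K)
  have a1 := Finset.sum_le_sum fun k (hk : k ∈ Finset.range K) =>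
    level_step hx hy W s h3 hδ h4 (Finset.mem_range.1 hk)
  have a2 : ∑ k ∈ Finset.range K, ∑ z ∈ G.nodes (k + 1), gn W (k + 1) s z ≤ G.tot mx my K := by
    refine le_trans ?_ W.gain
    rw [Finset.sum_range_succ']
    refine le_add_of_le_of_nonneg (Finset.sum_le_sum fun k _ => ?_)
      (Finset.sum_nonneg fun s _ => Finset.sum_nonneg fun z _ => gn_nonneg W 0 s z)
    exact Finset.single_le_sum (f := fun s => ∑ z ∈ G.nodes (k + 1), gn W (k + 1) s z)
      (fun s _ => Finset.sum_nonneg fun z _ => gn_nonneg W _ s z) (Finset.mem_univ s)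
  have ht : |t + δ| ≤ 4 := abs_le.2 ⟨by linarith, h4⟩
  have a3 : ∑ z ∈ G.nodes K, |m1 mx my s (t + δ) K z| ≤ 4 * G.tot mx my K := by
    rw [Grid.tot, Finset.mul_sum]
    refine Finset.sum_le_sum fun z _ => (abs_add_le _ _).trans ?_
    rw [mul_assoc, abs_mul, abs_sg, abs_sg]
    linarith [mul_le_mul_of_nonneg_right ht (abs_nonneg (mx K z)), abs_nonneg (my K z)]
  have a4 : ∑ z ∈ G.nodes K, |m2 mx my s (t + δ) K z| ≤ 4 * G.tot mx my K := by
    rw [Grid.tot, Finset.mul_sum]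
    refine Finset.sum_le_sum fun z _ => (abs_add_le _ _).trans ?_
    rw [mul_assoc, abs_mul (t + δ), abs_sg, abs_sg]
    linarith [mul_le_mul_of_nonneg_right ht (abs_nonneg (my K z)), abs_nonneg (mx K z)]
  have a5 := (G.sum_dfc_le _ K).trans a3
  have a6 := (G.sum_dfc_le _ K).trans a4
  have a7 : ∑ k ∈ Finset.range K, ∑ z ∈ G.nodes k, W.H k (G.pt k z) * (|mx k z| + |my k z|) ≤
      10 ^ 11 * G.tot mx my K := by
    have b1 := W.H_bound
    have b2 := W.pay
    rw [Finset.sum_range_succ] at b1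
    have b3 : 0 ≤ ∑ z ∈ G.nodes K, W.H K (G.pt K z) * (|mx K z| + |my K z|) :=
      Finset.sum_nonneg fun z _ => mul_nonneg (W.H_nonneg _ _) (by positivity)
    unfold eps at b2
    linarith
  have a8 := sum_Dt_le hx hy
  have a9 : 0 ≤ ∑ z ∈ G.nodes K, tm W s (t + δ) K z :=
    Finset.sum_nonneg fun z _ => tm_nonneg W s _ K z
  have b1 := mul_le_mul_of_nonneg_left (add_le_add a5 a6)
    (div_pos (by norm_num : (0 : ℝ) < 80) hδ).le
  have b2 : G.tot mx my K ≤ 1 / δ * G.tot mx my K :=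
    le_mul_of_one_le_left h0 (one_le_one_div hδ (by linarith))
  rw [Finset.sum_range_succ' _ K, Finset.sum_range_succ _ K]
  simp only [F, Finset.sum_add_distrib, ← Finset.mul_sum] at a1
  simp only [div_eq_mul_inv, mul_assoc] at a1 b1 b2 ⊢
  linarith

end Light

open Classical in
theorem light : ∃ C : ℝ, 0 ≤ C ∧ ∀ (G : Grid) (K : ℕ) (mx my : Arr), G.Refines K mx →
    G.Refines K my → ∀ (W : Wts G K mx my) (s : St),
    ∑ k ∈ Finset.range (K + 1), ∑ z ∈ G.nodes k,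
      (if Bad s 3 (mx k z) (my k z) then W.w k s (G.pt k z) * (|mx k z| + |my k z|) else 0) ≤
      C * G.tot mx my K := by
  refine ⟨4 * 10 ^ 12, by norm_num, fun G K mx my hx hy W s => ?_⟩
  have h0 := G.tot_nonneg mx my K
  have key : ∀ n i : ℕ, ∑ k ∈ Finset.range (K + 1), ∑ z ∈ G.nodes k,
      Light.tm W s (4 - (1 / 2) ^ i) k z ≤ 4 * 10 ^ 12 * 2 ^ i * G.tot mx my K +
        (1 / 4) ^ n * ((K + 1) * G.tot mx my K) := by
    intro n
    induction n with
    | zero =>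
      intro i
      have := Finset.sum_le_card_nsmul _ _ _ fun k (hk : k ∈ Finset.range (K + 1)) =>
        Light.sum_tm_le hx hy W s (4 - (1 / 2) ^ i) (Nat.lt_succ_iff.1 (Finset.mem_range.1 hk))
      rw [Finset.card_range, nsmul_eq_mul] at this
      push_cast at this
      rw [pow_zero, one_mul]
      exact le_add_of_nonneg_of_le (by positivity) this
    | succ n ih =>
      intro i
      have h1 : (1 / 2 : ℝ) ^ i ≤ 1 := pow_le_one₀ (by norm_num) (by norm_num)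
      have h2 : (0 : ℝ) < (1 / 2) ^ i := by positivity
      have h3 := Light.total_step hx hy W s (t := 4 - (1 / 2) ^ i) (δ := (1 / 2) ^ (i + 1))
        (by linarith) (by positivity) (by rw [pow_succ]; linarith)
      have h4 := ih (i + 1)
      rw [show (4 : ℝ) - (1 / 2) ^ i + (1 / 2) ^ (i + 1) = 4 - (1 / 2) ^ (i + 1) by ring,
        show (10 : ℝ) ^ 12 / (1 / 2) ^ (i + 1) = 2 * 10 ^ 12 * 2 ^ i by
          rw [one_div, inv_pow, div_inv_eq_mul]; ring] at h3
      rw [pow_succ (2 : ℝ)] at h4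
      rw [pow_succ (1 / 4 : ℝ)]
      linarith
  have lim := ((tendsto_pow_atTop_nhds_zero_of_lt_one (r := (1 / 4 : ℝ)) (by norm_num)
    (by norm_num)).mul_const ((K + 1) * G.tot mx my K)).const_add
      (4 * 10 ^ 12 * 2 ^ 0 * G.tot mx my K)
  have := ge_of_tendsto' lim fun n => key n 0
  rw [pow_zero, pow_zero, mul_one, zero_mul, add_zero, show (4 : ℝ) - 1 = 3 by norm_num] at this
  exact this

end Crest.Agent.R112
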