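import Crest.Agent.R112.Arr

/-!
# R112/LipL: a density tested against a Lipschitz function is controlled by the node masses

Put `S i = ∑ z ∈ nodes i, u (pt i z) * mass w i z`. Then
* `|S l| ≤ H * loc (mass w) l c T`;
* `S (i+1) - S i = ∑ z' ∈ nodes (i+1), (u (pt (i+1) z') - ∑ z ∈ nodes i, u (pt i z) * ht i z (pt (i+1) z')) * mass w (i+1) z'`
  (`mass_refines`); by `sum_ht` the bracket is `∑ z, (u (pt (i+1) z') - u (pt i z)) * ht i z ..`,
  at most `Lu * mesh i` in absolute value (`dinf_lt_of_hat_ne_zero`), and it vanishes unless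
  `dinf (pt (i+1) z') c ≤ T + mesh i`; `mesh i ≤ (1/2)^(i-l) * mesh l = 2 * (1/2)^(i+1-l) * mesh l`;
* `∫ u w - S K = ∫ (u y - ∑ z, u (pt K z) * ht K z y) * w y`, same estimate for `y ∈ dom`.
(`0 ≤ H` and `0 ≤ Lu` follow from the hypotheses, or see `hL0`.)

`integral_loc_le`, `integral_Vt_le`, `integral_Bot_le`: a node (or a point `y`) is in `Q x S`
only for `x ∈ Q (node) S`, a set of area `4 S²`; and then it is in `Q c (T + S)` (Fubini for `Bot`).
`sum_Bot_le`: each `y` lies in at most `49` of the squares (`card_near`), and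
`∑_{l ≤ K} (1/2)^(K-l) ≤ 2`.
-/

namespace Crest.Agent.R112

open MeasureTheory Metric Set
open scoped RealInnerProductSpace

/-- interpolation error -/
private noncomputable def lipLErr (G : Grid) (u : E → ℝ) (i : ℕ) (y : E) : ℝ :=
  u y - ∑ z ∈ G.nodes i, u (G.pt i z) * G.ht i z y

private theorem lipL_err_le (G : Grid) {u : E → ℝ} {Lu : ℝ} (hL0 : 0 ≤ Lu)
    (hL : ∀ y y', |u y - u y'| ≤ Lu * dinf y y') (i : ℕ) {y : E} (hy : y ∈ G.dom) :
    |lipLErr G u i y| ≤ Lu * G.mesh i := by
  have h1 := G.sum_ht i hy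
  have e : lipLErr G u i y = ∑ z ∈ G.nodes i, (u y - u (G.pt i z)) * G.ht i z y := by
    unfold lipLErr
    simp only [sub_mul]
    rw [Finset.sum_sub_distrib, ← Finset.mul_sum, h1, mul_one]
  rw [e]
  refine (Finset.abs_sum_le_sum_abs _ _).trans ?_
  have h2 : ∑ z ∈ G.nodes i, |(u y - u (G.pt i z)) * G.ht i z y| ≤
      ∑ z ∈ G.nodes i, Lu * G.mesh i * G.ht i z y := by
    refine Finset.sum_le_sum fun z _ => ?_
    have h0 : 0 ≤ G.ht i z y := hat_nonneg _ _ _
    rw [abs_mul, abs_of_nonneg h0]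
    by_cases hz : G.ht i z y = 0
    · rw [hz, mul_zero, mul_zero]
    · refine mul_le_mul_of_nonneg_right ((hL _ _).trans ?_) h0
      exact mul_le_mul_of_nonneg_left (dinf_lt_of_hat_ne_zero (G.mesh_pos i) hz).le hL0
  refine h2.trans (le_of_eq ?_)
  rw [← Finset.mul_sum, h1, mul_one]

private theorem lipL_err_zero (G : Grid) {u : E → ℝ} {T : ℝ} {c : E}
    (h0 : ∀ y, T < dinf y c → u y = 0) (i : ℕ) {y : E} (hy : T + G.mesh i < dinf y c) :
    lipLErr G u i y = 0 := by
  unfold lipLErr
  have hm := G.mesh_pos i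
  rw [h0 y (by linarith), Finset.sum_eq_zero, sub_zero]
  intro z _
  by_cases hz : G.ht i z y = 0
  · rw [hz, mul_zero]
  · have h1 : dinf y (G.pt i z) < G.mesh i := dinf_lt_of_hat_ne_zero hm hz
    have h2 := dinf_triangle y (G.pt i z) c
    rw [h0 _ (by linarith), zero_mul]

private theorem lipL_sum_le_loc (G : Grid) (m : Arr) (i : ℕ) (c : E) (T : ℝ) {A : ℝ}
    (g : ℤ × ℤ → ℝ) (hA : ∀ z ∈ G.nodes i, |g z| ≤ A)
    (hg : ∀ z ∈ G.nodes i, T < dinf (G.pt i z) c → g z = 0) :
    |∑ z ∈ G.nodes i, g z * m i z| ≤ A * G.loc m i c T := by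
  unfold Grid.loc Grid.near
  rw [Finset.sum_filter, Finset.mul_sum]
  refine (Finset.abs_sum_le_sum_abs _ _).trans (Finset.sum_le_sum fun z hz => ?_)
  split_ifs with h
  · rw [abs_mul]
    exact mul_le_mul_of_nonneg_right (hA z hz) (abs_nonneg _)
  · rw [hg z hz (not_le.1 h), zero_mul, abs_zero, mul_zero]

private theorem lipL_step (G : Grid) {m : Arr} {k : ℕ} (hm : G.Refines (k + 1) m) (u : E → ℝ) :
    ∑ z ∈ G.nodes (k + 1), u (G.pt (k + 1) z) * m (k + 1) z =
      ∑ z ∈ G.nodes k, u (G.pt k z) * m k z +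
        ∑ z ∈ G.nodes (k + 1), lipLErr G u k (G.pt (k + 1) z) * m (k + 1) z := by
  have e : ∑ Z ∈ G.nodes k, u (G.pt k Z) * m k Z = ∑ z ∈ G.nodes (k + 1),
      (∑ Z ∈ G.nodes k, u (G.pt k Z) * G.ht k Z (G.pt (k + 1) z)) * m (k + 1) z := by
    simp only [Finset.sum_mul]
    rw [Finset.sum_comm]
    refine Finset.sum_congr rfl fun Z hZ => ?_
    rw [hm k (Nat.lt_succ_self k) Z hZ, Finset.mul_sum]
    exact Finset.sum_congr rfl fun z _ => by ring
  rw [e, ← Finset.sum_add_distrib]
  refine Finset.sum_congr rfl fun z _ => ?_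
  unfold lipLErr
  ring

private theorem lipL_mem_Q {x p : E} {S : ℝ} : x ∈ Q p S ↔ dinf p x ≤ S := by
  rw [dinf_comm]; rfl

private theorem lipL_fin (c : E) (T : ℝ) : volume (Q c T) < ⊤ := (isCompact_Q c T).measure_lt_top

open Classical in
private theorem lipL_ind (c p : E) {T S a : ℝ} (hS : 0 ≤ S) (ha : 0 ≤ a) :
    ∫ x in Q c T, (Q p S).indicator (fun _ => a) x ≤
      if dinf p c ≤ T + S then 4 * S ^ 2 * a else 0 := by
  rw [integral_indicator_const _ (measurableSet_Q p S), smul_eq_mul,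
    measureReal_restrict_apply (measurableSet_Q p S)]
  split_ifs with h
  · refine mul_le_mul_of_nonneg_right ?_ ha
    rw [← volume_real_Q p hS]
    exact measureReal_mono inter_subset_left (lipL_fin p S).ne
  · have e : Q p S ∩ Q c T = ∅ := by
      refine Set.eq_empty_of_forall_notMem fun x hx => h ?_
      have h1 : dinf p x ≤ S := lipL_mem_Q.1 hx.1
      have h2 : dinf x c ≤ T := hx.2
      have h3 := dinf_triangle p x c
      linarith
    rw [e, measureReal_empty, zero_mul]

private theorem lipL_loc_eq (G : Grid) (m : Arr) (i : ℕ) (S : ℝ) (x : E) :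
    G.loc m i x S = ∑ z ∈ G.nodes i, (Q (G.pt i z) S).indicator (fun _ => |m i z|) x := by
  unfold Grid.loc Grid.near
  rw [Finset.sum_filter]
  refine Finset.sum_congr rfl fun z _ => ?_
  split_ifs with h
  · rw [indicator_of_mem (lipL_mem_Q.2 h)]
  · rw [indicator_of_notMem fun h' => h (lipL_mem_Q.1 h')]

private theorem lipL_ind_int (p : E) (S a : ℝ) : Integrable ((Q p S).indicator fun _ => a) :=
  (integrableOn_const (lipL_fin p S).ne).integrable_indicator (measurableSet_Q p S)

theorem lipL_integral_loc_le (G : Grid) (m : Arr) (i : ℕ) (c : E) {T S : ℝ} (hS : 0 ≤ S) :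
    IntegrableOn (fun x => G.loc m i x S) (Q c T) ∧
      ∫ x in Q c T, G.loc m i x S ≤ 4 * S ^ 2 * G.loc m i c (T + S) := by
  simp only [lipL_loc_eq G m i S]
  refine ⟨(integrable_finsetSum _ fun z _ => lipL_ind_int _ _ _).integrableOn, ?_⟩
  rw [integral_finsetSum _ fun z _ => (lipL_ind_int _ _ _).integrableOn]
  unfold Grid.loc Grid.near
  rw [Finset.sum_filter, Finset.mul_sum]
  refine Finset.sum_le_sum fun z _ => (lipL_ind c _ hS (abs_nonneg _)).trans (le_of_eq ?_)
  split_ifs
  · rfl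
  · rw [mul_zero]

theorem lipL (G : Grid) {K l : ℕ} (hl : l ≤ K) {w : E → ℝ} (hw : Integrable w)
    (hs : ∀ y, w y ≠ 0 → y ∈ G.dom) {u : E → ℝ} {H Lu T : ℝ} {c : E} (hL0 : 0 ≤ Lu)
    (hH : ∀ y, |u y| ≤ H) (hL : ∀ y y', |u y - u y'| ≤ Lu * dinf y y')
    (h0 : ∀ y, T < dinf y c → u y = 0) :
    |∫ y, u y * w y| ≤ (H + 2 * Lu * G.mesh l) *
      (G.Vt (G.mass w) K l c (T + G.mesh l) + Bot w K l c (T + G.mesh l)) := by
  have hH0 : 0 ≤ H := (abs_nonneg _).trans (hH 0)
  have hml := G.mesh_pos l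
  set T' := T + G.mesh l with hT'
  set m := G.mass w with hm
  have key : ∀ k, l ≤ k → |∑ z ∈ G.nodes k, u (G.pt k z) * m k z| ≤
      (H + 2 * Lu * G.mesh l) * G.Vt m k l c T' := by
    intro k hk
    induction k, hk using Nat.le_induction with
    | base =>
      unfold Grid.Vt
      rw [Finset.Icc_self, Finset.sum_singleton, Nat.sub_self, pow_zero, one_mul]
      refine (lipL_sum_le_loc G m l c T' _ (fun z _ => hH _) fun z _ hz => h0 _ (by linarith)).trans ?_
      refine mul_le_mul_of_nonneg_right ?_ (G.loc_nonneg _ _ _ _)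
      have : 0 ≤ 2 * Lu * G.mesh l := by positivity
      linarith
    | succ k hk ih =>
      rw [lipL_step G (G.mass_refines hw hs (k + 1)) u]
      refine (abs_add_le _ _).trans ?_
      have e : G.Vt m (k + 1) l c T' =
          G.Vt m k l c T' + (1 / 2 : ℝ) ^ (k + 1 - l) * G.loc m (k + 1) c T' := by
        unfold Grid.Vt
        rw [Finset.sum_Icc_succ_top (by omega)]
      rw [e, mul_add]
      refine add_le_add ih ?_
      have h1 := lipL_sum_le_loc G m (k + 1) c T' (fun z => lipLErr G u k (G.pt (k + 1) z))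
        (fun z hz => lipL_err_le G hL0 hL k (G.pt_mem_dom hz))
        (fun z _ hz => lipL_err_zero G h0 k (by have := G.mesh_anti hk; linarith))
      refine h1.trans ?_
      rw [← mul_assoc]
      refine mul_le_mul_of_nonneg_right ?_ (G.loc_nonneg _ _ _ _)
      have h2 := mul_le_mul_of_nonneg_left (G.mesh_le_half_pow hk) hL0
      have e2 : (1 / 2 : ℝ) ^ (k + 1 - l) = (1 / 2 : ℝ) ^ (k - l) * (1 / 2) := by
        rw [← pow_succ]; congr 1; omega
      rw [e2]
      have h3 : 0 ≤ H * ((1 / 2 : ℝ) ^ (k - l) * (1 / 2)) := by positivity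
      nlinarith
  have huc : Continuous u := by
    refine (LipschitzWith.of_dist_le_mul (K := Real.toNNReal Lu) fun x y => ?_).continuous
    rw [Real.dist_eq, dist_eq_norm, Real.coe_toNNReal _ hL0]
    exact (hL x y).trans (mul_le_mul_of_nonneg_left (dinf_le_norm x y) hL0)
  have hi1 : Integrable fun y => u y * w y :=
    hw.bdd_mul huc.aestronglyMeasurable (Filter.Eventually.of_forall hH)
  have hi2 : ∀ z ∈ G.nodes K, Integrable fun y => u (G.pt K z) * (G.ht K z y * w y) :=
    fun z _ => (G.integrable_ht_mul hw K z).const_mul _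
  have e3 : ∫ y, u y * w y = ∑ z ∈ G.nodes K, u (G.pt K z) * m K z +
      ∫ y, lipLErr G u K y * w y := by
    have e4 : (fun y => lipLErr G u K y * w y) =
        fun y => u y * w y - ∑ z ∈ G.nodes K, u (G.pt K z) * (G.ht K z y * w y) := by
      funext y
      unfold lipLErr
      rw [sub_mul, Finset.sum_mul]
      simp only [mul_assoc]
    rw [e4, integral_sub hi1 (integrable_finsetSum _ hi2), integral_finsetSum _ hi2]
    simp only [integral_const_mul]
    rw [hm]
    unfold Grid.mass
    ring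
  have h5 : |∫ y, lipLErr G u K y * w y| ≤ Lu * G.mesh K * ∫ y in Q c T', |w y| := by
    rw [← integral_const_mul, ← integral_indicator (measurableSet_Q c T'), ← Real.norm_eq_abs]
    refine norm_integral_le_of_norm_le
      ((hw.abs.const_mul _).indicator (measurableSet_Q c T')) (Filter.Eventually.of_forall fun y => ?_)
    rw [Real.norm_eq_abs, abs_mul]
    by_cases hy : y ∈ Q c T'
    · rw [indicator_of_mem hy]
      by_cases hwy : w y = 0
      · rw [hwy, abs_zero, mul_zero, mul_zero]
      · exact mul_le_mul_of_nonneg_right (lipL_err_le G hL0 hL K (hs y hwy)) (abs_nonneg _)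
    · have hy' : T' < dinf y c := not_le.1 hy
      rw [indicator_of_notMem hy,
        lipL_err_zero G h0 K (by have := G.mesh_anti hl; linarith), abs_zero, zero_mul]
  rw [e3, mul_add]
  refine (abs_add_le _ _).trans (add_le_add (key K hl) (h5.trans ?_))
  unfold Bot
  rw [← mul_assoc]
  refine mul_le_mul_of_nonneg_right ?_ (integral_nonneg fun y => abs_nonneg _)
  have h2 := mul_le_mul_of_nonneg_left (G.mesh_le_half_pow hl) hL0
  have h3 : 0 ≤ H * (1 / 2 : ℝ) ^ (K - l) := by positivity
  have h4 : 0 ≤ Lu * ((1 / 2 : ℝ) ^ (K - l) * G.mesh l) := by positivity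
  nlinarith

theorem integral_Vt_le (G : Grid) (m : Arr) (K l : ℕ) (c : E) {T S : ℝ} (hS : 0 ≤ S) :
    IntegrableOn (fun x => G.Vt m K l x S) (Q c T) ∧
      ∫ x in Q c T, G.Vt m K l x S ≤ 4 * S ^ 2 * G.Vt m K l c (T + S) := by
  unfold Grid.Vt
  have hi : ∀ i ∈ Finset.Icc l K, Integrable (fun x => (1 / 2 : ℝ) ^ (i - l) * G.loc m i x S)
      (volume.restrict (Q c T)) := fun i _ =>
    Integrable.const_mul (lipL_integral_loc_le G m i c (T := T) hS).1 _
  refine ⟨integrable_finsetSum _ hi, ?_⟩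
  rw [integral_finsetSum _ hi, Finset.mul_sum]
  refine Finset.sum_le_sum fun i _ => ?_
  rw [integral_const_mul]
  refine (mul_le_mul_of_nonneg_left (lipL_integral_loc_le G m i c hS).2 (by positivity)).trans
    (le_of_eq ?_)
  ring

theorem integral_Bot_le {w : E → ℝ} (hw : Integrable w) (K l : ℕ) (c : E) {T S : ℝ} (hS : 0 ≤ S) :
    IntegrableOn (fun x => Bot w K l x S) (Q c T) ∧
      ∫ x in Q c T, Bot w K l x S ≤ 4 * S ^ 2 * Bot w K l c (T + S) := by
  classical
  have : IsFiniteMeasure (volume.restrict (Q c T)) := isFiniteMeasure_restrict.2 (lipL_fin c T).ne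
  have hA : MeasurableSet {p : E × E | dinf p.2 p.1 ≤ S} := by
    refine (isClosed_le ?_ continuous_const).measurableSet
    unfold dinf
    fun_prop
  set f : E → E → ℝ := fun x y => (Q x S).indicator (fun y => |w y|) y with hf
  have hF : Integrable (Function.uncurry f) ((volume.restrict (Q c T)).prod volume) :=
    (hw.abs.comp_snd (volume.restrict (Q c T))).indicator hA
  have e : (fun x => Bot w K l x S) = fun x => (1 / 2 : ℝ) ^ (K - l) * ∫ y, f x y := by
    funext x
    unfold Bot
    rw [hf, integral_indicator (measurableSet_Q x S)]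
  rw [e]
  refine ⟨Integrable.const_mul hF.integral_prod_left _, ?_⟩
  rw [integral_const_mul, integral_integral_swap hF]
  have h1 : ∫ y, ∫ x in Q c T, f x y ≤ 4 * S ^ 2 * ∫ y in Q c (T + S), |w y| := by
    rw [← integral_const_mul, ← integral_indicator (measurableSet_Q c (T + S))]
    refine integral_mono hF.integral_prod_right
      ((hw.abs.const_mul _).indicator (measurableSet_Q c (T + S))) fun y => ?_
    have e2 : (fun x => f x y) = (Q y S).indicator fun _ => |w y| := by
      funext x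
      by_cases hx : x ∈ Q y S
      · rw [indicator_of_mem hx]
        exact indicator_of_mem (show y ∈ Q x S from lipL_mem_Q.1 hx) _
      · rw [indicator_of_notMem hx]
        exact indicator_of_notMem (show y ∉ Q x S from fun h => hx (lipL_mem_Q.2 h)) _
    change ∫ x in Q c T, f x y ≤ _
    rw [e2]
    refine (lipL_ind c y hS (abs_nonneg _)).trans (le_of_eq ?_)
    split_ifs with h
    · rw [indicator_of_mem (show y ∈ Q c (T + S) from h)]
    · rw [indicator_of_notMem (show y ∉ Q c (T + S) from h)]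
  unfold Bot
  refine (mul_le_mul_of_nonneg_left h1 (by positivity)).trans (le_of_eq ?_)
  ring

theorem sum_Bot_le (G : Grid) {w : E → ℝ} (hw : Integrable w) (K : ℕ) :
    ∑ l ∈ Finset.range (K + 1), ∑ z ∈ G.nodes l, Bot w K l (G.pt l z) (3 * G.mesh l) ≤
      98 * ∫ y, |w y| := by
  have h0 : 0 ≤ ∫ y, |w y| := integral_nonneg fun y => abs_nonneg _
  have key : ∀ l, ∑ z ∈ G.nodes l, Bot w K l (G.pt l z) (3 * G.mesh l) ≤
      (1 / 2 : ℝ) ^ (K - l) * (49 * ∫ y, |w y|) := by
    intro l
    unfold Bot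
    rw [← Finset.mul_sum]
    refine mul_le_mul_of_nonneg_left ?_ (by positivity)
    have hi : ∀ z ∈ G.nodes l,
        Integrable ((Q (G.pt l z) (3 * G.mesh l)).indicator fun y => |w y|) :=
      fun z _ => hw.abs.indicator (measurableSet_Q _ _)
    simp only [← integral_indicator (measurableSet_Q _ _)]
    rw [← integral_finsetSum _ hi, ← integral_const_mul]
    refine integral_mono (integrable_finsetSum _ hi) (hw.abs.const_mul _) fun y => ?_
    have e : ∑ z ∈ G.nodes l, (Q (G.pt l z) (3 * G.mesh l)).indicator (fun y => |w y|) y =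
        ((G.near l y (3 * G.mesh l)).card : ℝ) * |w y| := by
      rw [← nsmul_eq_mul, ← Finset.sum_const]
      unfold Grid.near
      rw [Finset.sum_filter]
      refine Finset.sum_congr rfl fun z _ => ?_
      split_ifs with h
      · rw [indicator_of_mem (lipL_mem_Q.2 h)]
      · rw [indicator_of_notMem fun h' => h (lipL_mem_Q.1 h')]
    have h1 := G.card_near l y 3
    have h2 : ((G.near l y (3 * G.mesh l)).card : ℝ) ≤ 49 := by
      rw [Nat.cast_ofNat] at h1
      linarith
    change ∑ z ∈ G.nodes l, (Q (G.pt l z) (3 * G.mesh l)).indicator (fun y => |w y|) y ≤ 49 * |w y|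
    rw [e]
    exact mul_le_mul_of_nonneg_right h2 (abs_nonneg _)
  refine (Finset.sum_le_sum fun l _ => key l).trans ?_
  rw [← Finset.sum_mul, Finset.sum_flip fun j => (1 / 2 : ℝ) ^ j]
  have h3 := mul_le_mul_of_nonneg_right (sum_geometric_two_le (K + 1))
    (mul_nonneg (by norm_num : (0 : ℝ) ≤ 49) h0)
  linarith

end Crest.Agent.R112
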