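import Crest.Agent.R112.Avg

/-!
# R112/Poinc: the Poincaré inequality on a square for `C¹` functions

Let `S = Q c T`, `|S| = 4T²`, `c₀ = |S|⁻¹ ∫_S h`. Then `∫_S |h - c₀| ≤ |S|⁻¹ ∫_{x ∈ S} ∫_{y ∈ S} |h x - h y|`.
Substitute `y = x + v` (`v ∈ Q 0 (2T)`, `‖v‖ ≤ 4T`) and use
`|h (x+v) - h x| ≤ ∫ t in 0..1, ‖v‖ ‖∇h (x + t v)‖` with `x + t v ∈ S` (`convex_Q`); after exchanging
the integrals, for fixed `v`, `t`, translation invariance gives
`∫ x, 1[x + t v ∈ S] ‖∇h (x + t v)‖ = ∫_S ‖∇h‖`. Total: `|S|⁻¹ * 16 T² * 4T * ∫_S ‖∇h‖`.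
It is easiest to do the exchange of integrals with `∫⁻` (Tonelli, `lintegral_lintegral_swap`).
-/

namespace Crest.Agent.R112

open MeasureTheory Metric Set Filter Topology
open scoped RealInnerProductSpace NNReal

open scoped ENNReal

private theorem poinc_seg {h : E → ℝ} (hh : ContDiff ℝ 1 h) {S : Set E} (hS : Convex ℝ S) {x y : E}
    (hx : x ∈ S) (hy : y ∈ S) {D : ℝ} (hD : ‖y - x‖ ≤ D) :
    ‖h y - h x‖ₑ ≤ ENNReal.ofReal D *
      ∫⁻ t in Ioc (0 : ℝ) 1, S.indicator (fun z => ‖gradient h z‖ₑ) (x + t • (y - x)) := by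
  have hd : Differentiable ℝ h := hh.differentiable one_ne_zero
  have hc : Continuous (fderiv ℝ h) := hh.continuous_fderiv one_ne_zero
  have h1 : ∀ t : ℝ, HasDerivAt (fun t : ℝ => h (x + t • (y - x)))
      (fderiv ℝ h (x + t • (y - x)) (y - x)) t := fun t => by
    have h2 : HasDerivAt (fun t : ℝ => x + t • (y - x)) (y - x) t := by
      simpa using ((hasDerivAt_id t).smul_const (y - x)).const_add x
    exact (hd _).hasFDerivAt.comp_hasDerivAt t h2
  have h3 : Continuous fun t : ℝ => fderiv ℝ h (x + t • (y - x)) (y - x) := by fun_prop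
  have h4 := intervalIntegral.integral_eq_sub_of_hasDerivAt (a := 0) (b := 1) (fun t _ => h1 t)
    (h3.intervalIntegrable 0 1)
  simp only [one_smul, zero_smul, add_zero, add_sub_cancel] at h4
  rw [← h4, intervalIntegral.integral_of_le zero_le_one,
    ← lintegral_const_mul' _ _ ENNReal.ofReal_ne_top]
  refine (enorm_integral_le_lintegral_enorm _).trans ?_
  refine setLIntegral_mono' measurableSet_Ioc fun t ht => ?_
  rw [Set.indicator_of_mem (hS.add_smul_sub_mem hx hy ⟨ht.1.le, ht.2⟩), ← ofReal_norm,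
    ← ofReal_norm, ← ENNReal.ofReal_mul ((norm_nonneg _).trans hD), norm_gradient]
  refine ENNReal.ofReal_le_ofReal ?_
  rw [mul_comm]
  exact (ContinuousLinearMap.le_opNorm _ _).trans (mul_le_mul_of_nonneg_left hD (norm_nonneg _))

private theorem poinc_swap {g : E → ℝ≥0∞} (hg : Measurable g) (A : Set E) :
    ∫⁻ x, ∫⁻ v in A, ∫⁻ t in Ioc (0 : ℝ) 1, g (x + t • v) = volume A * ∫⁻ x, g x := by
  have hm : Measurable fun p : (E × E) × ℝ => g (p.1.1 + p.2 • p.1.2) := hg.comp (by fun_prop)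
  rw [lintegral_lintegral_swap (f := fun x v => ∫⁻ t in Ioc (0 : ℝ) 1, g (x + t • v))
    (hm.lintegral_prod_right' (ν := volume.restrict (Ioc (0 : ℝ) 1))).aemeasurable]
  have h1 : ∀ v : E, ∫⁻ x, ∫⁻ t in Ioc (0 : ℝ) 1, g (x + t • v) = ∫⁻ x, g x := fun v => by
    rw [lintegral_lintegral_swap (f := fun x (t : ℝ) => g (x + t • v))
      (hg.comp (by fun_prop)).aemeasurable]
    simp only [lintegral_add_right_eq_self]
    simp
  simp only [h1]
  rw [setLIntegral_const, mul_comm]

private theorem poinc_dinf_sub (x y : E) : dinf (y - x) 0 = dinf y x := by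
  have := dinf_add_right (y - x) 0 x
  simpa using this.symm

private theorem poinc_double {h : E → ℝ} (hh : ContDiff ℝ 1 h) (c : E) {T : ℝ} (hT : 0 < T) :
    ∫⁻ x in Q c T, ∫⁻ y in Q c T, ‖h y - h x‖ₑ ≤
      ENNReal.ofReal (4 * T) * (ENNReal.ofReal (4 * (2 * T) ^ 2) *
        ∫⁻ x in Q c T, ‖gradient h x‖ₑ) := by
  set g : E → ℝ≥0∞ := (Q c T).indicator fun z => ‖gradient h z‖ₑ with hgdef
  have hg : Measurable g := (measurable_gradient h).enorm.indicator (measurableSet_Q c T)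
  have hd : ∀ x ∈ Q c T, ∀ y ∈ Q c T, dinf y x ≤ 2 * T := fun x hx y hy => by
    have h1 := dinf_triangle y c x
    rw [dinf_comm c x] at h1
    have h2 : dinf x c ≤ T := hx
    have h3 : dinf y c ≤ T := hy
    linarith
  have h1 : ∀ x ∈ Q c T, ∫⁻ y in Q c T, ‖h y - h x‖ₑ ≤ ENNReal.ofReal (4 * T) *
      ∫⁻ v in Q 0 (2 * T), ∫⁻ t in Ioc (0 : ℝ) 1, g (x + t • v) := fun x hx => by
    rw [← lintegral_indicator (measurableSet_Q 0 (2 * T)), ← lintegral_sub_right_eq_self (μ := volume) _ x,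
      ← lintegral_const_mul' _ _ ENNReal.ofReal_ne_top, ← lintegral_indicator (measurableSet_Q c T)]
    refine lintegral_mono fun y => ?_
    by_cases hy : y ∈ Q c T
    · have h2 := hd x hx y hy
      have h3 : y - x ∈ Q 0 (2 * T) := by
        change dinf (y - x) 0 ≤ 2 * T
        rwa [poinc_dinf_sub]
      rw [Set.indicator_of_mem hy, Set.indicator_of_mem h3]
      exact poinc_seg hh (convex_Q c T) hx hy ((norm_le_two_dinf y x).trans (by linarith))
    · rw [Set.indicator_of_notMem hy]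
      exact zero_le
  refine (setLIntegral_mono' (measurableSet_Q c T) h1).trans ?_
  refine (setLIntegral_le_lintegral _ _).trans_eq ?_
  rw [lintegral_const_mul' _ _ ENNReal.ofReal_ne_top, poinc_swap hg,
    volume_Q 0 (by positivity : 0 ≤ 2 * T), hgdef, lintegral_indicator (measurableSet_Q c T)]

theorem poincare {h : E → ℝ} (hh : ContDiff ℝ 1 h) (c : E) {T : ℝ} (hT : 0 < T) :
    ∃ c₀ : ℝ, ∫ x in Q c T, |h x - c₀| ≤ 16 * T * ∫ x in Q c T, ‖gradient h x‖ := by
  have hc : Continuous h := hh.continuous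
  have hi : IntegrableOn h (Q c T) := hc.continuousOn.integrableOn_compact (isCompact_Q c T)
  have hvol : volume (Q c T) ≠ ⊤ := (isCompact_Q c T).measure_lt_top.ne
  have hT2 : 0 < 4 * T ^ 2 := by positivity
  set c₀ : ℝ := (4 * T ^ 2)⁻¹ * ∫ y in Q c T, h y with hc₀
  refine ⟨c₀, ?_⟩
  have h1 : ∀ x, ENNReal.ofReal (4 * T ^ 2) * ‖h x - c₀‖ₑ ≤ ∫⁻ y in Q c T, ‖h y - h x‖ₑ := fun x => by
    refine le_trans (le_of_eq ?_) (enorm_integral_le_lintegral_enorm _)
    rw [integral_sub hi (integrableOn_const hvol), setIntegral_const, volume_real_Q c hT.le,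
      ← ofReal_norm, ← ofReal_norm, ← ENNReal.ofReal_mul hT2.le]
    congr 1
    rw [norm_sub_rev, ← Real.norm_of_nonneg hT2.le, ← norm_mul, Real.norm_of_nonneg hT2.le, hc₀,
      smul_eq_mul]
    congr 1
    field_simp
  have h2 := (lintegral_mono (μ := volume.restrict (Q c T)) h1).trans (poinc_double hh c hT)
  rw [lintegral_const_mul' _ _ ENNReal.ofReal_ne_top] at h2
  have hgc : Continuous fun x => ‖gradient h x‖ := by
    simp only [norm_gradient]
    exact (hh.continuous_fderiv one_ne_zero).norm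
  have hgi : IntegrableOn (fun x => ‖gradient h x‖) (Q c T) :=
    hgc.continuousOn.integrableOn_compact (isCompact_Q c T)
  have hfin : ∫⁻ x in Q c T, ‖gradient h x‖ₑ ≠ ⊤ := by
    have := hgi.2
    simp only [HasFiniteIntegral, enorm_norm] at this
    exact this.ne
  have h3 := ENNReal.toReal_mono (ENNReal.mul_ne_top ENNReal.ofReal_ne_top
    (ENNReal.mul_ne_top ENNReal.ofReal_ne_top hfin)) h2
  rw [ENNReal.toReal_mul, ENNReal.toReal_mul, ENNReal.toReal_mul, ENNReal.toReal_ofReal hT2.le,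
    ENNReal.toReal_ofReal (by positivity), ENNReal.toReal_ofReal (by positivity),
    ← integral_norm_eq_lintegral_enorm (measurable_gradient h).aestronglyMeasurable,
    ← integral_norm_eq_lintegral_enorm (f := fun x => h x - c₀)
      (hc.sub continuous_const).aestronglyMeasurable] at h3
  simp only [Real.norm_eq_abs] at h3
  refine le_of_mul_le_mul_left (h3.trans_eq ?_) hT2
  ring

end Crest.Agent.R112
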