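import Crest.Agent.R112.MT
import Crest.Agent.R112.Poinc

/-!
# R112/Loc: the local form of the main estimate

`loc1`: let `h₁ y = h y - ⟪a, y⟫` (`C¹`, gradient `∇h - a`), `c₀` from `poincare` on `Q c (4ρ)`,
`χ₀` a fixed smooth bump (`ContDiffBump (0 : E)`, `rIn = 3`, `rOut = 4`) with `‖∇χ₀‖ ≤ C₀`,
`χ y = χ₀ (ρ⁻¹ • (y - c))`, `h₂ = χ * (h₁ - c₀)`. Then `C1c h₂`, `∇h₂` vanishes off `Q c (4ρ)` and
`‖∇h₂‖ ≤ ‖∇h - a‖ + C₀/ρ |h₁ - c₀|`, so `∫ ‖∇h₂‖ ≤ (1 + 64 C₀) ∫_{Q c (4ρ)} ‖∇h - a‖`.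
For `‖x - c‖ < 2ρ` (an open set that contains `Q c ρ`, as `√2 < 2`: `norm_sq_eq`), `ball x ρ ⊆ ball c (3ρ)`
where `h = h₂ + (c₀ + ⟪a, ·⟫)`, so `mx h .. x = mx h₂ .. x + (c₀ + ⟪a, x⟫)` (`mx_congr`,
`mx_add_affine`), hence `∇(mx h) x - a = ∇(mx h₂) x` at points where `mx h₂` is differentiable
(a.e.). Use `mt` for `h₂`.

`loc2`: choose a grid `G = ⟨ρ, N, _⟩` with `G.Fits h` (any large `N`). Off `G.dom` both gradients
vanish (`mx_eq_zero`). The squares `Q (pt 0 z) ρ`, `z ∈ nodes 0`, cover `G.dom` (`exists_parent`).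
On each use `loc1` with `a = Γ (pt 0 z)`:
`∫_{Q z ρ} ‖∇(mx h) - ∇h‖ ≤ (C+1) ∫_{Q z (4ρ)} ‖∇h - a‖ ≤ (C+1) (∫_{Q z 4ρ} ‖∇h - Γ‖ + ∫_{Q z 4ρ} ‖Γ - a‖)`.
Each point lies in at most `81` of the squares `Q z (4ρ)` (`card_near`). The function
`‖Γ y - Γ (pt 0 z)‖` on `Q z (4ρ)` is at most `ω` and vanishes unless `y ∈ Q 0 (T + 4ρ)`; so the
second terms add up to at most `81 * ω * 4 (T + 4ρ)²`.
-/

namespace Crest.Agent.R112

open MeasureTheory Metric Set Filter Topology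
open scoped RealInnerProductSpace NNReal

private theorem loc_grad_affine {u : E → ℝ} {x : E} (hu : DifferentiableAt ℝ u x) (c : ℝ) (a : E) :
    gradient (fun y => u y + (c + ⟪a, y⟫)) x = gradient u x + a := by
  apply HasGradientAt.gradient
  rw [hasGradientAt_iff_hasFDerivAt]
  have h1 : HasFDerivAt u (InnerProductSpace.toDual ℝ E (gradient u x)) x :=
    hasGradientAt_iff_hasFDerivAt.1 hu.hasGradientAt
  have h2 : HasFDerivAt (fun y : E => c + ⟪a, y⟫) (InnerProductSpace.toDual ℝ E a) x :=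
    ((InnerProductSpace.toDual ℝ E a).hasFDerivAt).const_add c
  rw [map_add]
  exact h1.add h2

/-- the cutoff function -/
private theorem loc_cutoff : ∃ C₀ : ℝ, 0 ≤ C₀ ∧ ∀ (c : E) (ρ : ℝ), 0 < ρ → ∃ χ : E → ℝ,
    ContDiff ℝ 1 χ ∧ HasCompactSupport χ ∧ (∀ y, |χ y| ≤ 1) ∧ (∀ y ∈ ball c (3 * ρ), χ y = 1) ∧
    (∀ y, ‖fderiv ℝ χ y‖ ≤ C₀ / ρ) ∧ ∀ y, y ∉ Q c (4 * ρ) → χ =ᶠ[𝓝 y] fun _ => 0 := by
  let χ₀ : ContDiffBump (0 : E) := ⟨3, 4, by norm_num, by norm_num⟩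
  have hc : ContDiff ℝ 1 χ₀ := χ₀.contDiff
  have hs : HasCompactSupport χ₀ := χ₀.hasCompactSupport
  obtain ⟨C₀, hC₀⟩ := (hc.continuous_fderiv (by norm_num)).bounded_above_of_compact_support
    (hs.fderiv ℝ)
  refine ⟨C₀, (norm_nonneg _).trans (hC₀ 0), fun c ρ hρ => ?_⟩
  have hA : ∀ y : E, HasFDerivAt (fun y : E => ρ⁻¹ • (y - c))
      (ρ⁻¹ • ContinuousLinearMap.id ℝ E) y := fun y =>
    ((hasFDerivAt_id y).sub_const c).const_smul ρ⁻¹
  have hn : ∀ y : E, ‖ρ⁻¹ • (y - c)‖ = ρ⁻¹ * ‖y - c‖ := fun y => by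
    rw [norm_smul, Real.norm_eq_abs, abs_of_pos (inv_pos.2 hρ)]
  have hzero : ∀ y : E, 4 * ρ < ‖y - c‖ → χ₀ (ρ⁻¹ • (y - c)) = 0 := by
    intro y hy
    apply χ₀.zero_of_le_dist
    rw [dist_zero_right, hn]
    show (4 : ℝ) ≤ _
    rw [← div_eq_inv_mul, le_div_iff₀ hρ]
    exact hy.le
  refine ⟨fun y => χ₀ (ρ⁻¹ • (y - c)), ?_, ?_, ?_, ?_, ?_, ?_⟩
  · exact hc.comp ((contDiff_id.sub contDiff_const).const_smul ρ⁻¹)
  · refine HasCompactSupport.intro (isCompact_closedBall c (4 * ρ)) fun y hy => hzero y ?_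
    rwa [mem_closedBall, dist_eq_norm, not_le] at hy
  · intro y
    rw [abs_of_nonneg χ₀.nonneg]
    exact χ₀.le_one
  · intro y hy
    apply χ₀.one_of_mem_closedBall
    rw [mem_closedBall, dist_zero_right, hn]
    show _ ≤ (3 : ℝ)
    rw [mem_ball, dist_eq_norm] at hy
    rw [← div_eq_inv_mul, div_le_iff₀ hρ]
    exact hy.le
  · intro y
    have h1 := ((hc.differentiable (by norm_num)) (ρ⁻¹ • (y - c))).hasFDerivAt.comp y (hA y)
    have h2 : fderiv ℝ (fun y => χ₀ (ρ⁻¹ • (y - c))) y =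
        (fderiv ℝ χ₀ (ρ⁻¹ • (y - c))).comp (ρ⁻¹ • ContinuousLinearMap.id ℝ E) := h1.fderiv
    rw [h2]
    refine (ContinuousLinearMap.opNorm_comp_le _ _).trans ?_
    have h3 : ‖ρ⁻¹ • ContinuousLinearMap.id ℝ E‖ ≤ ρ⁻¹ := by
      rw [norm_smul, Real.norm_eq_abs, abs_of_pos (inv_pos.2 hρ)]
      exact mul_le_of_le_one_right (inv_pos.2 hρ).le ContinuousLinearMap.norm_id_le
    rw [div_eq_mul_inv]
    exact mul_le_mul (hC₀ _) h3 (norm_nonneg _) ((norm_nonneg _).trans (hC₀ 0))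
  · intro y hy
    have hy' : 4 * ρ < ‖y - c‖ := by
      have : 4 * ρ < dinf y c := not_le.1 hy
      exact this.trans_le (dinf_le_norm y c)
    have ho : IsOpen {y : E | 4 * ρ < ‖y - c‖} :=
      isOpen_lt continuous_const (continuous_id.sub continuous_const).norm
    filter_upwards [ho.mem_nhds hy'] with y' hy'
    exact hzero y' hy'

private theorem loc_rad {ρ : ℝ} (hρ : 0 < ρ) (K : ℕ) :
    0 < ρ / (Lam : ℝ) ^ (K + 1) ∧ ρ / (Lam : ℝ) ^ (K + 1) ≤ ρ := by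
  have h1 : (1 : ℝ) ≤ (Lam : ℝ) := by norm_num [Lam]
  have h2 : (1 : ℝ) ≤ (Lam : ℝ) ^ (K + 1) := one_le_pow₀ h1
  exact ⟨div_pos hρ (by linarith), div_le_self hρ.le h2⟩

private theorem loc_Q_ball {c x : E} {ρ : ℝ} (hρ : 0 < ρ) (hx : x ∈ Q c ρ) :
    x ∈ ball c (2 * ρ) := by
  rw [mem_ball, dist_eq_norm]
  have h1 := norm_sq_eq (x - c)
  have hx' : dinf x c ≤ ρ := hx
  unfold dinf at hx'
  rw [max_le_iff] at hx'
  have h2 : (x 0 - c 0) ^ 2 ≤ ρ ^ 2 := by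
    rw [← sq_abs]
    exact pow_le_pow_left₀ (abs_nonneg _) hx'.1 2
  have h3 : (x 1 - c 1) ^ 2 ≤ ρ ^ 2 := by
    rw [← sq_abs]
    exact pow_le_pow_left₀ (abs_nonneg _) hx'.2 2
  simp only [PiLp.sub_apply] at h1
  by_contra hc
  push Not at hc
  nlinarith [pow_le_pow_left₀ (by linarith) hc 2]

theorem loc1 : ∃ C : ℝ, 0 ≤ C ∧ ∀ (h : E → ℝ), C1c h → ∀ (ρ : ℝ), 0 < ρ → ∀ (K : ℕ) (c a : E),
    ∫ x in Q c ρ, ‖gradient (mx h (ρ / (Lam : ℝ) ^ (K + 1)) ρ) x - a‖ ≤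
      C * ∫ y in Q c (4 * ρ), ‖gradient h y - a‖ := by
  obtain ⟨C, hC, hmt⟩ := mt
  obtain ⟨C₀, hC₀, hcut⟩ := loc_cutoff
  refine ⟨C * (1 + 64 * C₀), by positivity, fun h hh ρ hρ K c a => ?_⟩
  obtain ⟨χ, hχ1, hχ2, hχ3, hχ4, hχ5, hχ6⟩ := hcut c ρ hρ
  obtain ⟨hr0, hr1⟩ := loc_rad hρ K
  set r := ρ / (Lam : ℝ) ^ (K + 1) with hr
  -- the function `h₁`
  have hlin : ContDiff ℝ 1 (fun y : E => ⟪-a, y⟫) := contDiff_const.inner ℝ contDiff_id
  have h1c : ContDiff ℝ 1 (fun y => h y + (0 + ⟪-a, y⟫)) := hh.1.add (contDiff_const.add hlin)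
  have h1g : ∀ y, gradient (fun y => h y + (0 + ⟪-a, y⟫)) y = gradient h y - a := fun y => by
    rw [loc_grad_affine ((hh.1.differentiable (by norm_num)) y), sub_eq_add_neg]
  obtain ⟨c₀, hc₀⟩ := poincare h1c c (T := 4 * ρ) (by positivity)
  simp only [h1g] at hc₀
  set h₁ : E → ℝ := fun y => h y + (0 + ⟪-a, y⟫) - c₀ with hh₁
  have h1c' : ContDiff ℝ 1 h₁ := h1c.sub contDiff_const
  have h1n : ∀ y, ‖fderiv ℝ h₁ y‖ = ‖gradient h y - a‖ := fun y => by
    rw [← h1g, norm_gradient, hh₁, fderiv_sub_const]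
  set h₂ : E → ℝ := fun y => χ y * h₁ y with hh₂
  have h2 : C1c h₂ := ⟨hχ1.mul h1c', hχ2.mul_right⟩
  -- gradient bound
  have hgb : ∀ y, ‖gradient h₂ y‖ ≤
      (Q c (4 * ρ)).indicator (fun y => ‖gradient h y - a‖ + C₀ / ρ * |h₁ y|) y := by
    intro y
    rw [norm_gradient]
    by_cases hy : y ∈ Q c (4 * ρ)
    · rw [indicator_of_mem hy]
      have hd := ((hχ1.differentiable (by norm_num)) y).hasFDerivAt.mul
        ((h1c'.differentiable (by norm_num)) y).hasFDerivAt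
      have hd' : fderiv ℝ h₂ y = χ y • fderiv ℝ h₁ y + h₁ y • fderiv ℝ χ y := hd.fderiv
      rw [hd']
      refine (norm_add_le _ _).trans (add_le_add ?_ ?_)
      · rw [norm_smul, h1n, Real.norm_eq_abs]
        exact mul_le_of_le_one_left (norm_nonneg _) (hχ3 y)
      · rw [norm_smul, Real.norm_eq_abs, mul_comm]
        exact mul_le_mul_of_nonneg_right (hχ5 y) (abs_nonneg _)
    · rw [indicator_of_notMem hy]
      have e : h₂ =ᶠ[𝓝 y] fun _ => 0 := by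
        filter_upwards [hχ6 y hy] with y' hy'
        simp only [hh₂, hy', zero_mul]
      rw [e.fderiv_eq]
      simp
  have hi1 : IntegrableOn (fun y => ‖gradient h y - a‖) (Q c (4 * ρ)) :=
    (hh.continuous_gradient.sub continuous_const).norm.continuousOn.integrableOn_compact
      (isCompact_Q _ _)
  have hi2 : IntegrableOn (fun y => |h₁ y|) (Q c (4 * ρ)) :=
    h1c'.continuous.abs.continuousOn.integrableOn_compact (isCompact_Q _ _)
  have hint : ∫ y, ‖gradient h₂ y‖ ≤ (1 + 64 * C₀) * ∫ y in Q c (4 * ρ), ‖gradient h y - a‖ := by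
    have hi3 : IntegrableOn (fun y => ‖gradient h y - a‖ + C₀ / ρ * |h₁ y|) (Q c (4 * ρ)) :=
      hi1.add (hi2.const_mul _)
    refine (integral_mono h2.integrable_gradient.norm
      ((integrable_indicator_iff (measurableSet_Q _ _)).2 hi3) hgb).trans ?_
    rw [integral_indicator (measurableSet_Q _ _), integral_add hi1 (hi2.const_mul _),
      integral_const_mul]
    have h3 : C₀ / ρ * ∫ y in Q c (4 * ρ), |h₁ y| ≤
        C₀ / ρ * (16 * (4 * ρ) * ∫ x in Q c (4 * ρ), ‖gradient h x - a‖) :=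
      mul_le_mul_of_nonneg_left hc₀ (by positivity)
    have h4 : C₀ / ρ * (16 * (4 * ρ) * ∫ x in Q c (4 * ρ), ‖gradient h x - a‖) =
        64 * C₀ * ∫ x in Q c (4 * ρ), ‖gradient h x - a‖ := by
      field_simp
      ring
    linarith
  -- the maximal functions
  have hmx : ∀ x ∈ ball c (2 * ρ), mx h r ρ x = mx h₂ r ρ x + (c₀ + ⟪a, x⟫) := by
    intro x hx
    rw [← mx_add_affine h2 c₀ a x hr0 hr1]
    refine mx_congr fun y hy => ?_
    have hy3 : y ∈ ball c (3 * ρ) := by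
      rw [mem_ball] at hx hy ⊢
      have := dist_triangle y x c
      linarith
    simp only [hh₂, hh₁, hχ4 y hy3, inner_neg_left]
    ring
  obtain ⟨L, hL⟩ := mx_lipschitz h2 hr0 hr1
  have hi4 : Integrable (gradient (mx h₂ r ρ)) :=
    integrable_gradient_of_lipschitz hL (mx_hasCompactSupport h2 hr1)
  have hae : ∀ᵐ x, x ∈ Q c ρ → ‖gradient (mx h r ρ) x - a‖ = ‖gradient (mx h₂ r ρ) x‖ := by
    filter_upwards [hL.ae_differentiableAt (μ := volume)] with x hx hxQ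
    have e : mx h r ρ =ᶠ[𝓝 x] fun x => mx h₂ r ρ x + (c₀ + ⟪a, x⟫) := by
      filter_upwards [isOpen_ball.mem_nhds (loc_Q_ball hρ hxQ)] with y hy
      exact hmx y hy
    rw [e.gradient_eq, loc_grad_affine hx, add_sub_cancel_right]
  calc ∫ x in Q c ρ, ‖gradient (mx h r ρ) x - a‖
      = ∫ x in Q c ρ, ‖gradient (mx h₂ r ρ) x‖ :=
        setIntegral_congr_ae (measurableSet_Q _ _) hae
    _ ≤ ∫ x, ‖gradient (mx h₂ r ρ) x‖ :=
        setIntegral_le_integral hi4.norm (Eventually.of_forall fun x => norm_nonneg _)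
    _ ≤ C * ∫ y, ‖gradient h₂ y‖ := hmt h₂ h2 ρ hρ K
    _ ≤ C * ((1 + 64 * C₀) * ∫ y in Q c (4 * ρ), ‖gradient h y - a‖) :=
        mul_le_mul_of_nonneg_left hint hC
    _ = _ := by ring

/-- bounded overlap of the squares around the nodes -/
private theorem loc_overlap (G : Grid) (i T : ℕ) {Φ : E → ℝ} (hΦ : Integrable Φ)
    (h0 : ∀ y, 0 ≤ Φ y) :
    ∑ z ∈ G.nodes i, ∫ y in Q (G.pt i z) (T * G.mesh i), Φ y ≤ (2 * T + 1) ^ 2 * ∫ y, Φ y := by
  classical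
  have hi : ∀ z ∈ G.nodes i, Integrable ((Q (G.pt i z) (T * G.mesh i)).indicator Φ) :=
    fun z _ => hΦ.indicator (measurableSet_Q _ _)
  have e : ∑ z ∈ G.nodes i, ∫ y in Q (G.pt i z) (T * G.mesh i), Φ y =
      ∫ y, ∑ z ∈ G.nodes i, (Q (G.pt i z) (T * G.mesh i)).indicator Φ y := by
    rw [integral_finsetSum _ hi]
    exact Finset.sum_congr rfl fun z _ => (integral_indicator (measurableSet_Q _ _)).symm
  rw [e, ← integral_const_mul]
  refine integral_mono (integrable_finsetSum _ hi) (hΦ.const_mul _) fun y => ?_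
  have e2 : ∑ z ∈ G.nodes i, (Q (G.pt i z) (T * G.mesh i)).indicator Φ y =
      ((G.near i y (T * G.mesh i)).card : ℝ) * Φ y := by
    unfold Grid.near
    rw [← nsmul_eq_mul _ (Φ y), ← Finset.sum_const, Finset.sum_filter]
    refine Finset.sum_congr rfl fun z _ => ?_
    by_cases hz : dinf (G.pt i z) y ≤ T * G.mesh i
    · rw [if_pos hz, indicator_of_mem]
      show dinf y _ ≤ _
      rwa [dinf_comm]
    · rw [if_neg hz, indicator_of_notMem]
      show ¬ dinf y _ ≤ _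
      rwa [dinf_comm]
  simp only
  rw [e2]
  exact mul_le_mul_of_nonneg_right (G.card_near i y T) (h0 y)

private theorem loc_fits {h : E → ℝ} (hh : C1c h) {ρ : ℝ} (hρ : 0 < ρ) :
    ∃ N : ℕ, ∀ y, h y ≠ 0 → dinf y 0 ≤ ((N : ℝ) - 2) * ρ := by
  obtain ⟨R, hR⟩ := hh.2.isCompact.isBounded.subset_closedBall (0 : E)
  obtain ⟨N, hN⟩ := exists_nat_ge (R / ρ + 2)
  refine ⟨N, fun y hy => ?_⟩
  have h1 := hR (subset_tsupport h hy)
  rw [mem_closedBall, dist_eq_norm] at h1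
  have h2 := dinf_le_norm y 0
  have h3 : R / ρ ≤ (N : ℝ) - 2 := by linarith
  rw [div_le_iff₀ hρ] at h3
  linarith

theorem loc2 : ∃ C : ℝ, 0 ≤ C ∧ ∀ (h : E → ℝ), C1c h → ∀ (ρ : ℝ), 0 < ρ → ∀ (K : ℕ) (Γ : E → E)
    (ω T : ℝ), Integrable Γ → 0 ≤ T → (∀ y, Γ y ≠ 0 → dinf y 0 ≤ T) →
    (∀ y y', dinf y y' ≤ 4 * ρ → ‖Γ y - Γ y'‖ ≤ ω) →
    ∫ x, ‖gradient (mx h (ρ / (Lam : ℝ) ^ (K + 1)) ρ) x - gradient h x‖ ≤
      C * ((∫ y, ‖gradient h y - Γ y‖) + ω * (T + 4 * ρ) ^ 2) := by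
  obtain ⟨C, hC, hl⟩ := loc1
  refine ⟨(C + 1) * 324, by positivity, fun h hh ρ hρ K Γ ω T hΓ hT hΓ0 hω => ?_⟩
  obtain ⟨N, hN⟩ := loc_fits hh hρ
  obtain ⟨hr0, hr1⟩ := loc_rad hρ K
  have hl' := hl h hh ρ hρ K
  set r := ρ / (Lam : ℝ) ^ (K + 1) with hr
  let G : Grid := ⟨ρ, N, hρ⟩
  have hm0 : G.mesh 0 = ρ := G.mesh_zero
  have hω0 : 0 ≤ ω := (norm_nonneg _).trans (hω 0 0 (by rw [dinf_self]; positivity))
  obtain ⟨L, hL⟩ := mx_lipschitz hh hr0 hr1
  have hiM : Integrable (gradient (mx h r ρ)) :=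
    integrable_gradient_of_lipschitz hL (mx_hasCompactSupport hh hr1)
  have hih := hh.integrable_gradient
  set F : E → ℝ := fun x => ‖gradient (mx h r ρ) x - gradient h x‖ with hF
  have hFi : Integrable F := (hiM.sub hih).norm
  have hF0 : ∀ x, 0 ≤ F x := fun x => norm_nonneg _
  -- covering
  have hcov : ∀ x, F x ≤ ∑ z ∈ G.nodes 0, (Q (G.pt 0 z) ρ).indicator F x := by
    intro x
    have hnn : ∀ z ∈ G.nodes 0, 0 ≤ (Q (G.pt 0 z) ρ).indicator F x :=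
      fun z _ => indicator_nonneg (fun y _ => hF0 y) x
    by_cases hx : x ∈ G.dom
    · obtain ⟨Z, hZ, hd⟩ := G.exists_parent 0 hx
      refine le_trans ?_ (Finset.single_le_sum hnn hZ)
      rw [indicator_of_mem]
      show dinf x _ ≤ ρ
      rw [hm0] at hd
      linarith
    · refine le_trans (le_of_eq ?_) (Finset.sum_nonneg hnn)
      have hx' : (N : ℝ) * ρ < dinf x 0 := not_le.1 hx
      have ho : IsOpen {y : E | ((N : ℝ) - 2) * ρ + ρ < dinf y 0} :=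
        isOpen_lt continuous_const (continuous_dinf 0)
      have hxo : x ∈ {y : E | ((N : ℝ) - 2) * ρ + ρ < dinf y 0} := by
        show ((N : ℝ) - 2) * ρ + ρ < dinf x 0
        linarith
      have e1 : mx h r ρ =ᶠ[𝓝 x] fun _ => 0 := by
        filter_upwards [ho.mem_nhds hxo] with y hy
        exact mx_eq_zero hN hr1 hy
      have e2 : h =ᶠ[𝓝 x] fun _ => 0 := by
        filter_upwards [ho.mem_nhds hxo] with y hy
        by_contra hne
        have := hN y hne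
        have hy' : ((N : ℝ) - 2) * ρ + ρ < dinf y 0 := hy
        linarith
      simp only [hF, e1.gradient_eq, e2.gradient_eq, sub_self, norm_zero]
  set Φ : E → ℝ := fun y => ‖gradient h y - Γ y‖ + (Q 0 (T + 4 * ρ)).indicator (fun _ => ω) y
    with hΦ
  have hiω : Integrable ((Q (0 : E) (T + 4 * ρ)).indicator (fun _ => ω)) :=
    (integrable_indicator_iff (measurableSet_Q _ _)).2
      (continuousOn_const.integrableOn_compact (isCompact_Q _ _))
  have hΦi : Integrable Φ := (hih.sub hΓ).norm.add hiω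
  have hΦ0 : ∀ y, 0 ≤ Φ y := fun y =>
    add_nonneg (norm_nonneg _) (indicator_nonneg (fun _ _ => hω0) y)
  have hΦv : ∫ y, Φ y = (∫ y, ‖gradient h y - Γ y‖) + 4 * (T + 4 * ρ) ^ 2 * ω := by
    have hi0 : Integrable (fun y => ‖gradient h y - Γ y‖) := (hih.sub hΓ).norm
    simp only [hΦ]
    rw [integral_add hi0 hiω, integral_indicator (measurableSet_Q _ _),
      setIntegral_const, volume_real_Q _ (by positivity), smul_eq_mul]
  have hz : ∀ z ∈ G.nodes 0, ∫ x in Q (G.pt 0 z) ρ, F x ≤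
      (C + 1) * ∫ y in Q (G.pt 0 z) (4 * ρ), Φ y := by
    intro z _
    set p := G.pt 0 z with hp
    have hia : ∀ S : ℝ, IntegrableOn (fun _ : E => Γ p) (Q p S) := fun S =>
      continuousOn_const.integrableOn_compact (isCompact_Q _ _)
    have i1 : IntegrableOn (fun x => ‖gradient (mx h r ρ) x - Γ p‖) (Q p ρ) :=
      (hiM.integrableOn.sub (hia ρ)).norm
    have i2 : ∀ S : ℝ, IntegrableOn (fun x => ‖gradient h x - Γ p‖) (Q p S) := fun S =>
      (hih.integrableOn.sub (hia S)).norm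
    have s1 : ∫ x in Q p ρ, F x ≤ (∫ x in Q p ρ, ‖gradient (mx h r ρ) x - Γ p‖) +
        ∫ x in Q p ρ, ‖gradient h x - Γ p‖ := by
      rw [← integral_add i1 (i2 ρ)]
      refine integral_mono hFi.integrableOn (i1.add (i2 ρ)) fun x => ?_
      have := norm_sub_le (gradient (mx h r ρ) x - Γ p) (gradient h x - Γ p)
      rw [sub_sub_sub_cancel_right] at this
      exact this
    have s2 : ∫ x in Q p ρ, ‖gradient h x - Γ p‖ ≤ ∫ x in Q p (4 * ρ), ‖gradient h x - Γ p‖ :=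
      setIntegral_mono_set (i2 _) (Eventually.of_forall fun x => norm_nonneg _)
        (Q_mono (by rw [dinf_self]; linarith)).eventuallyLE
    have s3 : ∫ x in Q p (4 * ρ), ‖gradient h x - Γ p‖ ≤ ∫ y in Q p (4 * ρ), Φ y := by
      refine setIntegral_mono_on (i2 _) hΦi.integrableOn (measurableSet_Q _ _) fun y hy => ?_
      have hy' : dinf y p ≤ 4 * ρ := hy
      have t1 : ‖gradient h y - Γ p‖ ≤ ‖gradient h y - Γ y‖ + ‖Γ y - Γ p‖ :=
        norm_sub_le_norm_sub_add_norm_sub _ _ _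
      refine t1.trans (add_le_add le_rfl ?_)
      by_cases hyQ : y ∈ Q (0 : E) (T + 4 * ρ)
      · rw [indicator_of_mem hyQ]
        exact hω y p hy'
      · rw [indicator_of_notMem hyQ]
        have hy2 : T + 4 * ρ < dinf y 0 := not_le.1 hyQ
        have g1 : Γ y = 0 := by
          by_contra hne
          have := hΓ0 y hne
          linarith
        have g2 : Γ p = 0 := by
          by_contra hne
          have := hΓ0 p hne
          have := dinf_triangle y p 0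
          linarith
        simp [g1, g2]
    have s4 := hl' p (Γ p)
    have s5 : (C + 1) * ∫ x in Q p (4 * ρ), ‖gradient h x - Γ p‖ ≤
        (C + 1) * ∫ y in Q p (4 * ρ), Φ y := mul_le_mul_of_nonneg_left s3 (by positivity)
    linarith
  have hov := loc_overlap G 0 4 hΦi hΦ0
  rw [hm0] at hov
  have hi : ∀ z ∈ G.nodes 0, Integrable ((Q (G.pt 0 z) ρ).indicator F) :=
    fun z _ => hFi.indicator (measurableSet_Q _ _)
  have hI0 : 0 ≤ ∫ y, ‖gradient h y - Γ y‖ := integral_nonneg fun y => norm_nonneg _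
  calc ∫ x, F x ≤ ∫ x, ∑ z ∈ G.nodes 0, (Q (G.pt 0 z) ρ).indicator F x :=
        integral_mono hFi (integrable_finsetSum _ hi) hcov
    _ = ∑ z ∈ G.nodes 0, ∫ x in Q (G.pt 0 z) ρ, F x := by
        rw [integral_finsetSum _ hi]
        exact Finset.sum_congr rfl fun z _ => integral_indicator (measurableSet_Q _ _)
    _ ≤ ∑ z ∈ G.nodes 0, (C + 1) * ∫ y in Q (G.pt 0 z) (4 * ρ), Φ y := Finset.sum_le_sum hz
    _ = (C + 1) * ∑ z ∈ G.nodes 0, ∫ y in Q (G.pt 0 z) (4 * ρ), Φ y := by rw [Finset.mul_sum]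
    _ ≤ (C + 1) * (81 * ∫ y, Φ y) := by
        refine mul_le_mul_of_nonneg_left ?_ (by positivity)
        push_cast at hov
        linarith
    _ ≤ (C + 1) * (324 * ((∫ y, ‖gradient h y - Γ y‖) + ω * (T + 4 * ρ) ^ 2)) := by
        refine mul_le_mul_of_nonneg_left ?_ (by positivity)
        rw [hΦv]
        linarith
    _ = _ := by ring

end Crest.Agent.R112
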