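import Crest.Agent.R112.Arr

/-!
# R112/States: construction of the state weights

Define `w : ℕ → St → E → ℝ` by recursion on the level: `w 0 s = 1/4`; given `w k`, call `z` an
`s`-seed of level `k` if `eps * G.Y mx my K k z < Neg s (mx k z) (my k z)`; put
`rm s k z = if seed then w k s (pt k z) else 0`, `a k z = ∑ s, rm s k z`,
`tgt k z = (decide (0 ≤ mx k z), decide (0 ≤ my k z))` (so `Neg (tgt k z) (mx k z) (my k z) = 0`),
`ad s k z = if s = tgt k z then a k z else 0`, and
`w (k+1) s y = w k s y + ∑ z ∈ nodes k, (ad s k z - rm s k z) * ht k z y`.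

* By induction: `Interp (mesh k) (w k s)` and even `Interp (mesh k) (w (k+1) s)` (`interp_const`,
  `interp_ht`, `interp_mono`, `Interp.add/sum/const_mul`), `0 ≤ w k s` (`Interp.sum_le` gives
  `rm_sum_le`), `∑ s, w k s y = 1` (because `∑ s, ad = a = ∑ s, rm`), `a ≤ 1`.
* Potential: `Ψ k = ∑ s, ∑ z ∈ nodes k, w k s (pt k z) * Neg s (mx k z) (my k z)`,
  `Gain k` = the `k`-th term of the field `gain`.
  By `sum_mul_ht_pt`, `w (k+1) s (pt k z) = w k s (pt k z) + ad s k z - rm s k z`, hence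
  `Ψ' k := ∑ s, ∑ z ∈ nodes k, w (k+1) s (pt k z) * Neg s .. = Ψ k - Gain k ≥ 0`.
  By `transport` (for the arrays `sg b * mx`, `sg b * my`, weight `w (k+1) s`), `dfc_sg` and
  `∑ s, w = 1`: `Ψ (k+1) = Ψ' k + ∑ z ∈ nodes k, (dfc mx k z + dfc my k z)` for `k < K`.
  So `∑_{k ≤ K} Gain k ≤ Ψ 0 + ∑_{k<K} D k`. Finally
  `Ψ 0 ≤ ∑ z ∈ nodes 0, (|mx 0 z| + |my 0 z|)` and `transport_abs` with `u = 1`, `l = 0`, `i = K`
  (and `dfc_nonneg`) bound this by `tot`.
* `pay`: `eps * a k z * Y = ∑ s, rm s k z * (eps * Y) ≤ ∑ s, (if seed then w * Neg else 0)`.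
-/

namespace Crest.Agent.R112

open MeasureTheory Metric Set
open scoped RealInnerProductSpace

namespace States

variable (G : Grid) (K : ℕ) (mx my : Arr)

open Classical in
/-- removed weight -/
noncomputable def rm (k : ℕ) (u : St → E → ℝ) (s : St) (z : ℤ × ℤ) : ℝ :=
  if eps * G.Y mx my K k z < Neg s (mx k z) (my k z) then u s (G.pt k z) else 0

/-- the quadrant of a vector -/
noncomputable def tgt (a b : ℝ) : St := (decide (0 ≤ a), decide (0 ≤ b))

/-- added weight -/
noncomputable def ad (k : ℕ) (u : St → E → ℝ) (s : St) (z : ℤ × ℤ) : ℝ :=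
  if s = tgt (mx k z) (my k z) then ∑ s', rm G K mx my k u s' z else 0

/-- the weights -/
noncomputable def w : ℕ → St → E → ℝ
  | 0 => fun _ _ => 1 / 4
  | k + 1 => fun s y => w k s y +
      ∑ z ∈ G.nodes k, (ad G K mx my k (w k) s z - rm G K mx my k (w k) s z) * G.ht k z y

theorem w_succ (k : ℕ) (s : St) (y : E) : w G K mx my (k + 1) s y = w G K mx my k s y +
    ∑ z ∈ G.nodes k, (ad G K mx my k (w G K mx my k) s z - rm G K mx my k (w G K mx my k) s z) *
      G.ht k z y := rfl

theorem ng_sg_decide (a : ℝ) : ng (sg (decide (0 ≤ a)) * a) = 0 := by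
  apply ng_eq_zero
  by_cases h : 0 ≤ a
  · simp [sg, h]
  · simp only [sg, h, decide_false, Bool.false_eq_true, if_false]
    linarith [not_le.1 h]

theorem Neg_tgt (a b : ℝ) : Neg (tgt a b) a b = 0 := by
  simp only [Neg, tgt, ng_sg_decide, add_zero]

theorem Neg_nonneg (s : St) (a b : ℝ) : 0 ≤ Neg s a b := add_nonneg (ng_nonneg _) (ng_nonneg _)

theorem ng_sg_le (b : Bool) (a : ℝ) : ng (sg b * a) ≤ |a| := by
  refine (ng_le_abs _).trans_eq ?_
  cases b <;> simp [sg]

theorem Neg_le (s : St) (a b : ℝ) : Neg s a b ≤ |a| + |b| :=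
  add_le_add (ng_sg_le _ _) (ng_sg_le _ _)

theorem interp_succ {k : ℕ} {s : St} (h : Interp (G.mesh k) (w G K mx my k s)) :
    Interp (G.mesh k) (w G K mx my (k + 1) s) :=
  h.add (Interp.sum _ fun z _ => (G.interp_ht le_rfl z).const_mul _)

theorem interp (k : ℕ) (s : St) : Interp (G.mesh k) (w G K mx my k s) := by
  induction k with
  | zero => exact interp_const _ _
  | succ k ih => exact G.interp_mono (Nat.le_succ k) (interp_succ G K mx my ih)

variable {G K mx my}

theorem rm_nonneg {k : ℕ} {u : St → E → ℝ} (hu : ∀ s y, 0 ≤ u s y) (s : St) (z : ℤ × ℤ) :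
    0 ≤ rm G K mx my k u s z := by
  unfold rm; split_ifs
  · exact hu _ _
  · exact le_rfl

theorem rm_le {k : ℕ} {u : St → E → ℝ} (hu : ∀ s y, 0 ≤ u s y) (s : St) (z : ℤ × ℤ) :
    rm G K mx my k u s z ≤ u s (G.pt k z) := by
  unfold rm; split_ifs
  · exact le_rfl
  · exact hu _ _

theorem ad_nonneg {k : ℕ} {u : St → E → ℝ} (hu : ∀ s y, 0 ≤ u s y) (s : St) (z : ℤ × ℤ) :
    0 ≤ ad G K mx my k u s z := by
  unfold ad; split_ifs
  · exact Finset.sum_nonneg fun s' _ => rm_nonneg hu s' z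
  · exact le_rfl

theorem ad_le {k : ℕ} {u : St → E → ℝ} (hu : ∀ s y, 0 ≤ u s y) (s : St) (z : ℤ × ℤ) :
    ad G K mx my k u s z ≤ ∑ s', rm G K mx my k u s' z := by
  unfold ad; split_ifs
  · exact le_rfl
  · exact Finset.sum_nonneg fun s' _ => rm_nonneg hu s' z

theorem sum_ad (k : ℕ) (u : St → E → ℝ) (z : ℤ × ℤ) :
    ∑ s, ad G K mx my k u s z = ∑ s', rm G K mx my k u s' z := by
  unfold ad
  rw [Finset.sum_ite_eq' Finset.univ (tgt (mx k z) (my k z))]
  simp

theorem rm_sum_le {k : ℕ} (hu : ∀ s y, 0 ≤ w G K mx my k s y) (s : St) (y : E) :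
    ∑ z ∈ G.nodes k, rm G K mx my k (w G K mx my k) s z * G.ht k z y ≤ w G K mx my k s y :=
  (interp G K mx my k s).sum_le (hu s) _ _ (fun z _ => rm_le hu s z) y

variable (G K mx my)

theorem w_nonneg (k : ℕ) : ∀ s y, 0 ≤ w G K mx my k s y := by
  induction k with
  | zero => intro s y; simp [w]
  | succ k ih =>
    intro s y
    rw [w_succ]
    simp only [sub_mul, Finset.sum_sub_distrib]
    have h1 := rm_sum_le ih s y
    have h2 : 0 ≤ ∑ z ∈ G.nodes k, ad G K mx my k (w G K mx my k) s z * G.ht k z y :=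
      Finset.sum_nonneg fun z _ => mul_nonneg (ad_nonneg ih s z) (hat_nonneg _ _ _)
    linarith

theorem w_sum (k : ℕ) (y : E) : ∑ s, w G K mx my k s y = 1 := by
  induction k with
  | zero => simp [w]
  | succ k ih =>
    simp only [w_succ, Finset.sum_add_distrib, ih]
    rw [Finset.sum_comm, Finset.sum_eq_zero, add_zero]
    intro z _
    rw [← Finset.sum_mul, Finset.sum_sub_distrib, sum_ad, sub_self, zero_mul]

/-- the potential -/
noncomputable def Psi (j k : ℕ) : ℝ :=
  ∑ s : St, ∑ z ∈ G.nodes k, w G K mx my j s (G.pt k z) * Neg s (mx k z) (my k z)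

open Classical in
/-- the gain -/
noncomputable def Gain (k : ℕ) : ℝ :=
  ∑ s : St, ∑ z ∈ G.nodes k, (if eps * G.Y mx my K k z < Neg s (mx k z) (my k z) then
    w G K mx my k s (G.pt k z) * Neg s (mx k z) (my k z) else 0)

theorem Psi_nonneg (j k : ℕ) : 0 ≤ Psi G K mx my j k :=
  Finset.sum_nonneg fun s _ => Finset.sum_nonneg fun _ _ =>
    mul_nonneg (w_nonneg G K mx my j s _) (Neg_nonneg _ _ _)

theorem Psi_gain (k : ℕ) : Psi G K mx my (k + 1) k = Psi G K mx my k k - Gain G K mx my k := by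
  unfold Psi Gain
  rw [← Finset.sum_sub_distrib]
  refine Finset.sum_congr rfl fun s _ => ?_
  rw [← Finset.sum_sub_distrib]
  refine Finset.sum_congr rfl fun z hz => ?_
  rw [w_succ, G.sum_mul_ht_pt (fun z => ad G K mx my k (w G K mx my k) s z -
    rm G K mx my k (w G K mx my k) s z) hz]
  have h1 : ad G K mx my k (w G K mx my k) s z * Neg s (mx k z) (my k z) = 0 := by
    unfold ad
    split_ifs with h
    · rw [h, Neg_tgt, mul_zero]
    · rw [zero_mul]
  rw [add_mul, sub_mul, h1]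
  unfold rm
  split_ifs <;> ring

variable {G K mx my}

theorem Psi_succ (hx : G.Refines K mx) (hy : G.Refines K my) {k : ℕ} (hk : k < K) :
    Psi G K mx my (k + 1) (k + 1) =
      Psi G K mx my (k + 1) k + ∑ z ∈ G.nodes k, (G.dfc mx k z + G.dfc my k z) := by
  have h1 : ∑ z ∈ G.nodes k, (G.dfc mx k z + G.dfc my k z) = ∑ s : St, ∑ z ∈ G.nodes k,
      w G K mx my (k + 1) s (G.pt k z) * (G.dfc mx k z + G.dfc my k z) := by
    rw [Finset.sum_comm]
    refine Finset.sum_congr rfl fun z _ => ?_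
    rw [← Finset.sum_mul, w_sum, one_mul]
  rw [h1]
  unfold Psi
  rw [← Finset.sum_add_distrib]
  refine Finset.sum_congr rfl fun s _ => ?_
  have hi := interp_succ G K mx my (interp G K mx my k s)
  have t1 := G.transport (fun k z => sg s.1 * mx k z) k hi
  have t2 := G.transport (fun k z => sg s.2 * my k z) k hi
  simp only [Neg, mul_add, Finset.sum_add_distrib] at t1 t2 ⊢
  rw [t1, t2, Finset.sum_congr (s₁ := G.nodes k) (f := fun z => w G K mx my (k + 1) s (G.pt k z) *
      G.dfc (fun k z => sg s.1 * mx k z) k z) rfl fun z hz => by rw [G.dfc_sg hx hk hz],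
    Finset.sum_congr (s₁ := G.nodes k) (f := fun z => w G K mx my (k + 1) s (G.pt k z) *
      G.dfc (fun k z => sg s.2 * my k z) k z) rfl fun z hz => by rw [G.dfc_sg hy hk hz]]
  ring

theorem gain_le (hx : G.Refines K mx) (hy : G.Refines K my) :
    ∑ k ∈ Finset.range (K + 1), Gain G K mx my k ≤ G.tot mx my K := by
  have h1 : ∀ n ≤ K, ∑ k ∈ Finset.range n, Gain G K mx my k + Psi G K mx my n n =
      Psi G K mx my 0 0 +
        ∑ k ∈ Finset.range n, ∑ z ∈ G.nodes k, (G.dfc mx k z + G.dfc my k z) := by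
    intro n
    induction n with
    | zero => simp
    | succ n ih =>
      intro hn
      rw [Finset.sum_range_succ, Finset.sum_range_succ, Psi_succ hx hy (by omega), Psi_gain]
      linarith [ih (by omega)]
  have h2 := h1 K le_rfl
  have h3 := Psi_nonneg G K mx my (K + 1) K
  rw [Psi_gain] at h3
  have h4 : Psi G K mx my 0 0 ≤ ∑ z ∈ G.nodes 0, |mx 0 z| + ∑ z ∈ G.nodes 0, |my 0 z| := by
    unfold Psi
    rw [Finset.sum_comm, ← Finset.sum_add_distrib]
    refine Finset.sum_le_sum fun z _ => ?_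
    calc ∑ s, w G K mx my 0 s (G.pt 0 z) * Neg s (mx 0 z) (my 0 z)
        ≤ ∑ s, w G K mx my 0 s (G.pt 0 z) * (|mx 0 z| + |my 0 z|) :=
          Finset.sum_le_sum fun s _ =>
            mul_le_mul_of_nonneg_left (Neg_le _ _ _) (w_nonneg G K mx my 0 s _)
      _ = |mx 0 z| + |my 0 z| := by rw [← Finset.sum_mul, w_sum, one_mul]
  have h5 := G.transport_abs hx (Nat.zero_le K) le_rfl (interp_const (G.mesh 0) 1)
  have h6 := G.transport_abs hy (Nat.zero_le K) le_rfl (interp_const (G.mesh 0) 1)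
  simp only [one_mul, ← Finset.range_eq_Ico] at h5 h6
  have h7 : 0 ≤ ∑ j ∈ Finset.range K, ∑ z ∈ G.nodes j, G.dfc mx j z :=
    Finset.sum_nonneg fun j hj => Finset.sum_nonneg fun z hz =>
      G.dfc_nonneg hx (Finset.mem_range.1 hj) hz
  have h8 : 0 ≤ ∑ j ∈ Finset.range K, ∑ z ∈ G.nodes j, G.dfc my j z :=
    Finset.sum_nonneg fun j hj => Finset.sum_nonneg fun z hz =>
      G.dfc_nonneg hy (Finset.mem_range.1 hj) hz
  simp only [Finset.sum_add_distrib] at h2
  rw [Finset.sum_range_succ]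
  unfold Grid.tot
  rw [Finset.sum_add_distrib]
  linarith

theorem pay_le (k : ℕ) :
    eps * ∑ z ∈ G.nodes k, (∑ s, rm G K mx my k (w G K mx my k) s z) * G.Y mx my K k z ≤
      Gain G K mx my k := by
  unfold Gain
  rw [Finset.sum_comm, Finset.mul_sum]
  refine Finset.sum_le_sum fun z _ => ?_
  rw [Finset.sum_mul, Finset.mul_sum]
  refine Finset.sum_le_sum fun s _ => ?_
  unfold rm
  split_ifs with h
  · rw [mul_left_comm]
    exact mul_le_mul_of_nonneg_left h.le (w_nonneg G K mx my k s _)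
  · simp

end States

open States in
theorem exists_wts (G : Grid) (K : ℕ) {mx my : Arr} (hx : G.Refines K mx) (hy : G.Refines K my) :
    Nonempty (Wts G K mx my) := by
  refine ⟨{
    w := w G K mx my
    a := fun k z => ∑ s, rm G K mx my k (w G K mx my k) s z
    ad := fun s k z => ad G K mx my k (w G K mx my k) s z
    rm := fun s k z => rm G K mx my k (w G K mx my k) s z
    w_zero := fun _ _ => rfl
    w_succ := fun _ _ _ => rfl
    w_nonneg := w_nonneg G K mx my
    w_sum := w_sum G K mx my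
    a_le := fun k z => ?_
    ad_nonneg := fun s k z => ad_nonneg (w_nonneg G K mx my k) s z
    ad_le := fun s k z => ad_le (w_nonneg G K mx my k) s z
    rm_nonneg := fun s k z => rm_nonneg (w_nonneg G K mx my k) s z
    rm_le := fun s k z => Finset.single_le_sum
      (fun s' _ => rm_nonneg (w_nonneg G K mx my k) s' z) (Finset.mem_univ s)
    rm_sum_le := fun k s y => rm_sum_le (w_nonneg G K mx my k) s y
    gain := gain_le hx hy
    pay := ?_ }⟩
  · exact (Finset.sum_le_sum fun s _ => rm_le (w_nonneg G K mx my k) s z).trans_eq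
      (w_sum G K mx my k _)
  · rw [Finset.mul_sum]
    exact (Finset.sum_le_sum fun k _ => pay_le k).trans (gain_le hx hy)

end Crest.Agent.R112
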