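import Crest.Agent.R112.NSum
import Crest.Agent.R112.States

/-!
# R112/MT: the main estimate for `C¹_c` functions

Choose `N` with `h y ≠ 0 → dinf y 0 ≤ (N - 2) ρ`, `G = ⟨ρ, N, _⟩`, `W` from `exists_wts`,
`M = mx h (mesh (K+1)) ρ`, `X k = {x | b k x = M x} \ ⋃_{j<k} {x | b j x = M x}`: measurable,
pairwise disjoint, and the `X k`, `k ≤ K`, cover the plane (`exists_b_eq`).
At a point of differentiability of `M`, for every state `s`:
`‖∇M‖ ≤ |lineDeriv M x (fdir s true)| + |lineDeriv M x (fdir s false)|` (`norm_le_fdir`), so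
`‖∇M x‖ = ∑ k, ∑ s, 1[X k] w k s x ‖∇M x‖ ≤ ...`; apply `tree` for each `s`, `b` with
`ad = W.fresh s`, `Gk = W.Gk`, `Ek = G.Ek h`, then `nsum`, `cost_fresh`, `cost_G`.
-/

namespace Crest.Agent.R112

open MeasureTheory Metric Set Filter Topology
open scoped RealInnerProductSpace NNReal

theorem norm_le_fdir (s : St) (v : E) : ‖v‖ ≤ |⟪fdir s true, v⟫| + |⟪fdir s false, v⟫| := by
  refine (norm_le_coords v).trans ?_
  have key : ∀ a b : ℝ, |a| + |b| ≤ |2 * a + b| + |a + 2 * b| := by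
    intro a b
    have h1 : |3 * a| ≤ 2 * |2 * a + b| + |a + 2 * b| := by
      rw [show 3 * a = 2 * (2 * a + b) - (a + 2 * b) by ring]
      refine (abs_sub _ _).trans ?_
      rw [abs_mul, abs_two]
    have h2 : |3 * b| ≤ 2 * |a + 2 * b| + |2 * a + b| := by
      rw [show 3 * b = 2 * (a + 2 * b) - (2 * a + b) by ring]
      refine (abs_sub _ _).trans ?_
      rw [abs_mul, abs_two]
    rw [abs_mul, abs_of_pos (by norm_num : (0 : ℝ) < 3)] at h1 h2
    linarith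
  have hs : ∀ (c : Bool) (t : ℝ), |sg c * t| = |t| := by
    intro c t
    cases c <;> simp [sg]
  have h := key (sg s.1 * v 0) (sg s.2 * v 1)
  rw [hs, hs] at h
  rw [inner_eq, inner_eq]
  simp only [fdir, if_true, Bool.false_eq_true, if_false, Matrix.cons_val_zero,
    Matrix.cons_val_one, Matrix.cons_val_fin_one]
  rw [show 2 * sg s.1 * v 0 + sg s.2 * v 1 = 2 * (sg s.1 * v 0) + sg s.2 * v 1 by ring,
    show sg s.1 * v 0 + 2 * sg s.2 * v 1 = sg s.1 * v 0 + 2 * (sg s.2 * v 1) by ring]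
  exact h

theorem mt_norm_fdir_le (s : St) (b : Bool) : ‖fdir s b‖ ≤ 3 := by
  refine (norm_le_coords _).trans ?_
  rcases s with ⟨s1, s2⟩
  cases b <;> cases s1 <;> cases s2 <;> simp [fdir, sg] <;> norm_num

theorem mt_exists_grid {h : E → ℝ} (hh : C1c h) {ρ : ℝ} (hρ : 0 < ρ) :
    ∃ N : ℕ, (⟨ρ, N, hρ⟩ : Grid).Fits h := by
  obtain ⟨R, hR⟩ := hh.2.isCompact.isBounded.subset_closedBall (0 : E)
  refine ⟨⌈R / ρ⌉₊ + 2, hh, fun y hy => ?_⟩
  have h1 : y ∈ closedBall (0 : E) R := hR (subset_tsupport _ hy)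
  rw [mem_closedBall, dist_eq_norm] at h1
  have h2 := Nat.le_ceil (R / ρ)
  rw [div_le_iff₀ hρ] at h2
  refine (dinf_le_norm _ _).trans (h1.trans ?_)
  push_cast
  linarith

theorem mt_cover (A : ℕ → Set E) (K : ℕ) (hA : ∀ x, ∃ k ≤ K, x ∈ A k) :
    ⋃ k ∈ Finset.range (K + 1), disjointed A k = univ := by
  classical
  refine eq_univ_of_forall fun x => ?_
  obtain ⟨k, hk, hx⟩ := hA x
  have hex : ∃ j, x ∈ A j := ⟨k, hx⟩
  refine mem_iUnion₂.2 ⟨Nat.find hex, ?_, ?_⟩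
  · exact Finset.mem_range.2 (Nat.lt_succ_of_le ((Nat.find_min' hex hx).trans hk))
  · rw [disjointed_eq_inter_compl]
    refine ⟨Nat.find_spec hex, mem_iInter₂.2 fun j hj => Nat.find_min hex hj⟩

theorem mt_num {C₂ C₃ I n a b c t C₁ : ℝ} (hC₂ : 0 ≤ C₂) (hC₃ : 0 ≤ C₃) (hI : 0 ≤ I) (hn0 : 0 ≤ n)
    (hn : n ≤ 3) (a1 : a ≤ C₁ * I) (a2 : b ≤ C₂ * n * I) (a3 : c ≤ C₃ * I)
    (ht : t ≤ 3 * a + b + 2 * n * c) : t ≤ (3 * C₁ + 3 * C₂ + 6 * C₃) * I := by
  have a4 : C₂ * n * I ≤ C₂ * 3 * I := by gcongr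
  have a5 : 2 * n * c ≤ 2 * 3 * (C₃ * I) :=
    (mul_le_mul_of_nonneg_left a3 (by positivity)).trans (by gcongr)
  linarith

theorem mt_tree {G : Grid} {h : E → ℝ} (hG : G.Fits h) {K : ℕ} (W : Wts G K (G.mX h) (G.mY h))
    (s : St) (f : E) {X : ℕ → Set E} (hXm : ∀ k, MeasurableSet (X k))
    (hXd : Pairwise (Function.onFun Disjoint X))
    (hXb : ∀ k, ∀ x ∈ X k, G.b h k x = mx h (G.mesh (K + 1)) G.ρ x) :
    ∑ k ∈ Finset.range (K + 1), ∫ x in X k,
        W.w k s x * |lineDeriv ℝ (mx h (G.mesh (K + 1)) G.ρ) x f| ≤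
      3 * (∑ k ∈ Finset.range (K + 1), ∫ x, W.w k s x * ng (lineDeriv ℝ (G.b h k) x f)) +
      (∑ k ∈ Finset.range (K + 1), ∫ x, W.fresh s k x * lineDeriv ℝ (G.b h k) x f) +
      2 * ‖f‖ * ∑ k ∈ Finset.range K, ∫ x, W.Gk (k + 1) x * G.Ek h (k + 1) x := by
  have hab : G.mesh (K + 1) ≤ G.ρ := by
    rw [← G.mesh_zero]; exact G.mesh_anti (Nat.zero_le _)
  exact tree K f (G.b h) (fun k => W.w k s) (W.fresh s) (G.Ek h) W.Gk _ X
    (fun k _ => ⟨hG.b_lipschitz k, hG.b_hasCompactSupport k⟩)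
    (mx_lipschitz hG.1 (G.mesh_pos (K + 1)) hab)
    (fun k hk x => hG.b_le_mx hk x) hXm hXd (fun k _ x hx => hXb k x hx)
    (fun k _ => W.w_lipschitz k s) (fun k _ x => ⟨W.w_nonneg k s x, W.w_le_one k s x⟩)
    (fun k _ => ⟨(W.continuous_fresh s k).measurable,
      fun x => ⟨W.fresh_nonneg s k x, W.fresh_le s k x⟩⟩)
    (W.fresh_zero s) (fun k _ x => W.sub_le_fresh s k x)
    (fun k _ => ⟨W.measurable_Gk k, by
      obtain ⟨D, hD⟩ := W.Gk_bdd k
      exact ⟨D, fun x => ⟨W.Gk_nonneg k x, hD x⟩⟩⟩)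
    (fun k _ x j hj => by
      filter_upwards [closedBall_mem_nhds x (G.mesh_pos k)] with y hy
      rw [mem_closedBall, dist_eq_norm] at hy
      exact W.Gk_lip s hj hy)
    (fun k _ => ⟨by
      obtain ⟨D, hD⟩ := hG.Ek_lipschitz (k + 1)
      exact hD.continuous.integrable_of_hasCompactSupport (hG.Ek_hasCompactSupport (k + 1)),
      fun x => ⟨hG.Ek_nonneg _ x, hG.b_succ_sub_le k x⟩⟩)

theorem mt_split {M : E → ℝ} {L : ℝ≥0} (hL : LipschitzWith L M) (hc : HasCompactSupport M)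
    {w : St → E → ℝ} (hw : ∀ s, Continuous (w s)) (hw0 : ∀ s x, 0 ≤ w s x)
    (hw1 : ∀ s x, w s x ≤ 1) (hws : ∀ x, ∑ s, w s x = 1) (X : Set E) :
    ∫ x in X, ‖gradient M x‖ ≤
      ∑ s : St, ∑ b : Bool, ∫ x in X, w s x * |lineDeriv ℝ M x (fdir s b)| := by
  have hint : Integrable (fun x => ‖gradient M x‖) := (integrable_gradient_of_lipschitz hL hc).norm
  have hint2 : ∀ s b, Integrable (fun x => w s x * |lineDeriv ℝ M x (fdir s b)|) := by
    intro s b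
    refine (integrable_lineDeriv hL hc (fdir s b)).abs.bdd_mul (c := 1)
      (hw s).aestronglyMeasurable (Eventually.of_forall fun x => ?_)
    rw [Real.norm_eq_abs, abs_of_nonneg (hw0 s x)]
    exact hw1 s x
  have e : ∑ s : St, ∑ b : Bool, ∫ x in X, w s x * |lineDeriv ℝ M x (fdir s b)| =
      ∫ x in X, ∑ s : St, ∑ b : Bool, w s x * |lineDeriv ℝ M x (fdir s b)| := by
    rw [integral_finsetSum _ fun s _ =>
      integrable_finsetSum _ fun b _ => (hint2 s b).integrableOn]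
    exact Finset.sum_congr rfl fun s _ =>
      (integral_finsetSum _ fun b _ => (hint2 s b).integrableOn).symm
  rw [e]
  refine integral_mono_ae hint.integrableOn (integrable_finsetSum _ fun s _ =>
    integrable_finsetSum _ fun b _ => (hint2 s b).integrableOn) ?_
  filter_upwards [ae_restrict_of_ae hL.ae_differentiableAt] with x hx
  calc ‖gradient M x‖ = ∑ s : St, w s x * ‖gradient M x‖ := by
        rw [← Finset.sum_mul, hws, one_mul]
    _ ≤ _ := by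
        refine Finset.sum_le_sum fun s _ => ?_
        rw [← Finset.mul_sum, Fintype.sum_bool, lineDeriv_eq_inner hx, lineDeriv_eq_inner hx]
        exact mul_le_mul_of_nonneg_left (norm_le_fdir s _) (hw0 s x)

theorem mt_grid : ∃ C : ℝ, 0 ≤ C ∧ ∀ (G : Grid) (h : E → ℝ), G.Fits h → ∀ K : ℕ,
    ∫ x, ‖gradient (mx h (G.mesh (K + 1)) G.ρ) x‖ ≤ C * ∫ y, ‖gradient h y‖ := by
  obtain ⟨C₁, hC₁, H₁⟩ := nsum
  obtain ⟨C₂, hC₂, H₂⟩ := cost_fresh
  obtain ⟨C₃, hC₃, H₃⟩ := cost_G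
  refine ⟨8 * (3 * C₁ + 3 * C₂ + 6 * C₃), by positivity, fun G h hG K => ?_⟩
  obtain ⟨W⟩ := exists_wts G K (hG.refines_mX K) (hG.refines_mY K)
  have hI0 : 0 ≤ ∫ y, ‖gradient h y‖ := integral_nonneg fun _ => norm_nonneg _
  have hab : G.mesh (K + 1) ≤ G.ρ := by
    rw [← G.mesh_zero]; exact G.mesh_anti (Nat.zero_le _)
  obtain ⟨L, hL⟩ := mx_lipschitz hG.1 (G.mesh_pos (K + 1)) hab
  have hc : HasCompactSupport (mx h (G.mesh (K + 1)) G.ρ) := mx_hasCompactSupport hG.1 hab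
  obtain ⟨X, hXm, hXd, hXb, hcov⟩ : ∃ X : ℕ → Set E, (∀ k, MeasurableSet (X k)) ∧
      Pairwise (Function.onFun Disjoint X) ∧
      (∀ k, ∀ x ∈ X k, G.b h k x = mx h (G.mesh (K + 1)) G.ρ x) ∧
      ⋃ k ∈ Finset.range (K + 1), X k = univ := by
    refine ⟨disjointed fun k => {x | G.b h k x = mx h (G.mesh (K + 1)) G.ρ x},
      MeasurableSet.disjointed fun k => ?_, disjoint_disjointed _,
      fun k x hx => disjointed_subset (fun k => {x | G.b h k x = mx h (G.mesh (K + 1)) G.ρ x}) k hx,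
      mt_cover _ K (hG.exists_b_eq K)⟩
    obtain ⟨D, hD⟩ := hG.b_lipschitz k
    exact (isClosed_eq hD.continuous hL.continuous).measurableSet
  have h3 := fun (s : St) (b : Bool) => mt_num hC₂ hC₃ hI0 (norm_nonneg _) (mt_norm_fdir_le s b)
    (H₁ G h hG K W s b) (H₂ G h hG K W s (fdir s b)) (H₃ G h hG K W)
    (mt_tree hG W s (fdir s b) hXm hXd hXb)
  have h2 := fun k => mt_split hL hc (w := W.w k)
    (fun s => (W.w_lipschitz k s).choose_spec.continuous) (W.w_nonneg k) (W.w_le_one k)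
    (W.w_sum k) (X k)
  have hint := (integrable_gradient_of_lipschitz hL hc).norm
  generalize mx h (G.mesh (K + 1)) G.ρ = M at *
  generalize ∫ y, ‖gradient h y‖ = I at *
  have h1 : ∫ x, ‖gradient M x‖ = ∑ k ∈ Finset.range (K + 1), ∫ x in X k, ‖gradient M x‖ := by
    rw [← integral_biUnion_finset _ (fun k _ => hXm k) (fun i _ j _ hij => hXd hij)
      (fun k _ => hint.integrableOn), hcov, Measure.restrict_univ]
  rw [h1]
  calc ∑ k ∈ Finset.range (K + 1), ∫ x in X k, ‖gradient M x‖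
      ≤ ∑ k ∈ Finset.range (K + 1), ∑ s : St, ∑ b : Bool,
          ∫ x in X k, W.w k s x * |lineDeriv ℝ M x (fdir s b)| := Finset.sum_le_sum fun k _ => h2 k
    _ = ∑ s : St, ∑ b : Bool, ∑ k ∈ Finset.range (K + 1),
          ∫ x in X k, W.w k s x * |lineDeriv ℝ M x (fdir s b)| := by
        rw [Finset.sum_comm]
        exact Finset.sum_congr rfl fun s _ => Finset.sum_comm
    _ ≤ ∑ _s : St, ∑ _b : Bool, (3 * C₁ + 3 * C₂ + 6 * C₃) * I :=
        Finset.sum_le_sum fun s _ => Finset.sum_le_sum fun b _ => h3 s b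
    _ = _ := by
        simp only [Finset.sum_const, Finset.card_univ, Fintype.card_prod, Fintype.card_bool,
          nsmul_eq_mul]
        push_cast
        ring

theorem mt : ∃ C : ℝ, 0 ≤ C ∧ ∀ (h : E → ℝ), C1c h → ∀ (ρ : ℝ), 0 < ρ → ∀ K : ℕ,
    ∫ x, ‖gradient (mx h (ρ / (Lam : ℝ) ^ (K + 1)) ρ) x‖ ≤ C * ∫ y, ‖gradient h y‖ := by
  obtain ⟨C, hC, H⟩ := mt_grid
  refine ⟨C, hC, fun h hh ρ hρ K => ?_⟩
  obtain ⟨N, hG⟩ := mt_exists_grid hh hρ
  exact H ⟨ρ, N, hρ⟩ h hG K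

end Crest.Agent.R112
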