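import Crest.Agent.R112.Ident

/-!
# R112/Ramp: the optimality conditions at a maximising radius

`rot0` is `rot_moment`. `rad0`: an interior maximiser is a local maximum of `t ↦ avg h x t`, use
`avg_hasDerivAt` and `IsLocalMax.hasDerivAt_eq_zero`.
`ramp`: `φin = rampf (r-σ) r / (((r-σ)²)⁻¹ - (r²)⁻¹)` and `φout = rampf r (r+σ) / ((r²)⁻¹ - ((r+σ)²)⁻¹)`
have values in `[0,1]`, equal `1` for `t ≤ r - σ`, vanish for `t ≥ r + σ`, and are `8/σ`-Lipschitz
(`rampf_lip`; `((r-σ)²)⁻¹ - (r²)⁻¹ ≥ 2σ/r³` and `r ≤ 2 (r - σ)`; `(r²)⁻¹ - ((r+σ)²)⁻¹ ≥ 2σ/(r+σ)³`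
and `r + σ ≤ 2r`). By `avg_sub_eq` and maximality the radial moment of `φin` is `≥ 0` and that of
`φout` is `≤ 0`; a convex combination has moment `0`.
`Opt.congr`: all test functions vanish outside `closedBall x ρ`.
-/

namespace Crest.Agent.R112

open MeasureTheory Metric Set Filter Topology
open scoped RealInnerProductSpace NNReal

private theorem ramp_integrable {h : E → ℝ} (hh : C1c h) (x : E) {r' r : ℝ} (h0 : 0 < r') :
    Integrable fun y : E => rampf r' r ‖y - x‖ * ⟪y - x, gradient h y⟫ := by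
  refine Continuous.integrable_of_hasCompactSupport ?_ ?_
  · exact ((continuous_rampf h0).comp (continuous_id.sub continuous_const).norm).mul
      ((continuous_id.sub continuous_const).inner hh.continuous_gradient)
  · refine hh.hasCompactSupport_gradient.mono fun y hy => ?_
    intro h0
    exact hy (by simp [h0])

private theorem ramp_comb {c c' M M' : ℝ} (hc : 0 < c) (hc' : 0 < c') (hM : 0 ≤ M) (hM' : M' ≤ 0) :
    ∃ α β : ℝ, 0 ≤ α ∧ 0 ≤ β ∧ α * c + β * c' = 1 ∧ α * M + β * M' = 0 := by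
  rcases hM.eq_or_lt with h | h
  · exact ⟨c⁻¹, 0, (inv_pos.2 hc).le, le_rfl, by simp [hc.ne'], by simp [← h]⟩
  · have hD : 0 < c * -M' + c' * M :=
      add_pos_of_nonneg_of_pos (mul_nonneg hc.le (by linarith)) (mul_pos hc' h)
    refine ⟨-M' / (c * -M' + c' * M), M / (c * -M' + c' * M), div_nonneg (by linarith) hD.le,
      div_nonneg hM hD.le, ?_, ?_⟩
    · rw [div_mul_eq_mul_div, div_mul_eq_mul_div, ← add_div, div_eq_one_iff_eq hD.ne']
      ring
    · rw [div_mul_eq_mul_div, div_mul_eq_mul_div, ← add_div, div_eq_zero_iff]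
      left
      ring

private theorem ramp_num {a b σ : ℝ} (ha : 0 < a) (hσ : 0 < σ) (hb : b = a + σ) (h2 : b ≤ 2 * a) :
    0 < (a ^ 2)⁻¹ - (b ^ 2)⁻¹ ∧ 2 / a ^ 3 ≤ 8 / σ * ((a ^ 2)⁻¹ - (b ^ 2)⁻¹) := by
  have hb0 : 0 < b := by linarith
  have e : (a ^ 2)⁻¹ - (b ^ 2)⁻¹ = σ * (a + b) / (a ^ 2 * b ^ 2) := by
    have : σ = b - a := by linarith
    rw [this]
    field_simp
    ring
  rw [e]
  refine ⟨by positivity, ?_⟩
  have e2 : 8 / σ * (σ * (a + b) / (a ^ 2 * b ^ 2)) = 8 * (a + b) / (a ^ 2 * b ^ 2) := by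
    field_simp
  rw [e2, div_le_div_iff₀ (by positivity) (by positivity)]
  have h3 : b ^ 2 ≤ 4 * a * (a + b) := by nlinarith [mul_pos ha hb0, mul_pos ha ha]
  have h4 := mul_le_mul_of_nonneg_left h3 (show 0 ≤ 2 * a ^ 2 by positivity)
  nlinarith

theorem opt_of_max {h : E → ℝ} (hh : C1c h) {ρ r : ℝ} (hρ : 0 < ρ) {x : E}
    (hr : r ∈ Icc (ρ / Lam) ρ) (hmax : ∀ r' ∈ Icc (ρ / Lam) ρ, avg h x r' ≤ avg h x r) :
    Opt (gradient h) ρ x r := by
  have hL : 0 < ρ / Lam := div_pos hρ (by simp [Lam])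
  have hr0 : 0 < r := hL.trans_le hr.1
  have hpi : 0 < (2 * Real.pi)⁻¹ := by positivity
  refine ⟨hr.1, hr.2, fun ψ hm h1 h0 => rot_moment hh x hm h1 h0, fun h1 h2 => ?_,
    fun σ hσ h2σ hlo hhi => ?_⟩
  · have hloc : IsLocalMax (fun t => avg h x t) r := by
      filter_upwards [Icc_mem_nhds h1 h2] with t ht using hmax t ht
    have h3 := hloc.hasDerivAt_eq_zero (avg_hasDerivAt hh x hr0)
    have h4 : (Real.pi * r ^ 3)⁻¹ ≠ 0 := by positivity
    exact (mul_eq_zero.1 h3).resolve_left h4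
  · have ha : 0 < r - σ := by linarith
    have har : r - σ ≤ r := by linarith
    have hrb : r ≤ r + σ := by linarith
    obtain ⟨hc, hlip⟩ := ramp_num (b := r) ha hσ (by ring) (by linarith)
    obtain ⟨hc', hlip'⟩ := ramp_num (b := r + σ) hr0 hσ rfl (by linarith)
    have hM : 0 ≤ ∫ y, rampf (r - σ) r ‖y - x‖ * ⟪y - x, gradient h y⟫ := by
      have h1 := avg_sub_eq hh x ha har
      have h2 := hmax (r - σ) ⟨hlo, har.trans hr.2⟩
      exact nonneg_of_mul_nonneg_right (by linarith) hpi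
    have hM' : ∫ y, rampf r (r + σ) ‖y - x‖ * ⟪y - x, gradient h y⟫ ≤ 0 := by
      have h1 := avg_sub_eq hh x hr0 hrb
      have h2 := hmax (r + σ) ⟨hr.1.trans hrb, hhi⟩
      exact nonpos_of_mul_nonpos_right (by linarith) hpi
    obtain ⟨α, β, hα, hβ, hone, hzero⟩ := ramp_comb hc hc' hM hM'
    refine ⟨fun t => α * rampf (r - σ) r t + β * rampf r (r + σ) t, ⟨?_, fun t => ⟨?_, ?_⟩,
      fun t ht => ?_, fun t ht => ?_⟩, fun t t' => ?_, ?_⟩
    · exact ((continuous_const.mul (continuous_rampf ha)).add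
        (continuous_const.mul (continuous_rampf hr0))).measurable
    · exact add_nonneg (mul_nonneg hα (rampf_nonneg ha har t)) (mul_nonneg hβ (rampf_nonneg hr0 hrb t))
    · rw [← hone]
      exact add_le_add (mul_le_mul_of_nonneg_left (rampf_le ha har t) hα)
        (mul_le_mul_of_nonneg_left (rampf_le hr0 hrb t) hβ)
    · dsimp only
      rw [rampf_of_le har ht.le, rampf_of_le hrb (ht.le.trans har), hone]
    · dsimp only
      rw [rampf_of_ge har (hrb.trans ht.le), rampf_of_ge hrb ht.le]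
      simp
    · have h1 := (rampf_lip (r := r) ha t t').trans
        (mul_le_mul_of_nonneg_right hlip (abs_nonneg (t - t')))
      have h2 := (rampf_lip (r := r + σ) hr0 t t').trans
        (mul_le_mul_of_nonneg_right hlip' (abs_nonneg (t - t')))
      have e : α * rampf (r - σ) r t + β * rampf r (r + σ) t -
          (α * rampf (r - σ) r t' + β * rampf r (r + σ) t') =
          α * (rampf (r - σ) r t - rampf (r - σ) r t') +
            β * (rampf r (r + σ) t - rampf r (r + σ) t') := by ring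
      dsimp only
      rw [e]
      refine (abs_add_le _ _).trans ?_
      rw [abs_mul, abs_mul, abs_of_nonneg hα, abs_of_nonneg hβ]
      refine (add_le_add (mul_le_mul_of_nonneg_left h1 hα) (mul_le_mul_of_nonneg_left h2 hβ)).trans
        (le_of_eq ?_)
      calc _ = (α * (((r - σ) ^ 2)⁻¹ - (r ^ 2)⁻¹) + β * ((r ^ 2)⁻¹ - ((r + σ) ^ 2)⁻¹)) *
            (8 / σ * |t - t'|) := by ring
        _ = _ := by rw [hone, one_mul]
    · rw [← hzero, ← integral_const_mul, ← integral_const_mul,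
        ← integral_add ((ramp_integrable hh x ha).const_mul α) ((ramp_integrable hh x hr0).const_mul β)]
      refine integral_congr_ae (Eventually.of_forall fun y => ?_)
      dsimp only
      ring

theorem Opt.congr {V V' : E → E} {ρ r : ℝ} {x : E} (h : Opt V ρ x r)
    (H : ∀ y, ‖y - x‖ ≤ ρ → V y = V' y) : Opt V' ρ x r := by
  refine ⟨h.lo, h.hi, fun ψ hm h1 h0 => ?_, fun h1 h2 => ?_, fun σ hσ h2σ hlo hhi => ?_⟩
  · rw [← h.rot0 ψ hm h1 h0]
    refine integral_congr_ae (Eventually.of_forall fun y => ?_)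
    dsimp only
    rcases le_or_gt ‖y - x‖ ρ with hy | hy
    · rw [H y hy]
    · rw [h0 _ hy, zero_mul, zero_mul]
  · rw [← h.rad0 h1 h2]
    refine setIntegral_congr_fun measurableSet_ball fun y hy => ?_
    rw [mem_ball, dist_eq_norm] at hy
    rw [H y (hy.trans h2).le]
  · obtain ⟨φ, hφ, hl, hz⟩ := h.ramp σ hσ h2σ hlo hhi
    refine ⟨φ, hφ, hl, ?_⟩
    rw [← hz]
    refine integral_congr_ae (Eventually.of_forall fun y => ?_)
    dsimp only
    rcases le_or_gt ‖y - x‖ ρ with hy | hy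
    · rw [H y hy]
    · rw [hφ.2.2.2 _ (hhi.trans_lt hy), zero_mul, zero_mul]

end Crest.Agent.R112
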