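import Crest.Agent.R112.FSInt
import Crest.Agent.R112.Decomp
import Crest.Agent.R112.Ramp
import Crest.Agent.R112.Mx

/-!
# R112/NLoc: the fine-scale estimate on one window

Let `σ₁ = sg s.1`, `σ₂ = sg s.2`, `a1 s = !₂[3σ₁/8, -σ₂/8]`, `a2 s = !₂[-σ₁/8, 3σ₂/8]` (the basis dual
to `g1 s`, `g2 s`): `dual_basis`. Let `ρ = mesh k`, `c = pt k z`, `f = fdir s b`,
`w₁ = dv h (g1 s)`, `w₂ = dv h (g2 s)`, so `∇h y = w₁ y • a1 + w₂ y • a2`. Apply `decomp'` to `w₁` and
`w₂`. Build `D : FSData (Bool × ℕ × (ℤ × ℤ))`: `I` = triples `(β, j, Z)` with `j ∈ Icc k K`,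
`Z ∈ near j c (3ρ)` (e.g. `univ ×ˢ ((Icc k K).sigma ..)` or a filter of
`univ ×ˢ Icc k K ×ˢ nodes K`, or any other index type in `Type`), `lev = j - k`, `c = pt j Z`,
`d = dall w_β K j Z`, `e = a_β`, `P y = (∑ Z, p₁ Z y) • a1 + (∑ Z, p₂ Z y) • a2`,
`N y = -(∑ Z ∈ near k c (3ρ), n₁ Z y) • a1 - (∑ Z ∈ near k c (3ρ), n₂ Z y) • a2`.
`mesh j = ρ / Lam^(j-k)` (`mesh_eq_div`). `D.V = ∇h` on `Q c (2ρ)`: the omitted pieces have centre at
`dinf`-distance `> 3ρ` from `c` and half side `≤ ρ`. `D.Θ ≤ ThN + ThD`.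
For a.e. `x`, `b k` is line differentiable at `x`; take the maximiser `r` (`exists_mx_eq`,
`mesh (k+1) = ρ / Lam`), `lineDeriv_mx`, `opt_of_max`, `Opt.congr` (`‖y - x‖ ≤ ρ`, `x ∈ Q c ρ` give
`y ∈ Q c (2ρ)`), `ng_mul_of_nonneg`. Conclude with `fs_int`.
-/

namespace Crest.Agent.R112

open MeasureTheory Metric Set Filter Topology
open scoped RealInnerProductSpace NNReal

/-- first vector of the basis dual to `g1 s`, `g2 s` -/
noncomputable def a1 (s : St) : E := !₂[3 * sg s.1 / 8, -sg s.2 / 8]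
/-- second vector of the basis dual to `g1 s`, `g2 s` -/
noncomputable def a2 (s : St) : E := !₂[-sg s.1 / 8, 3 * sg s.2 / 8]

theorem dual_basis (s : St) (v : E) : v = ⟪g1 s, v⟫ • a1 s + ⟪g2 s, v⟫ • a2 s := by
  obtain ⟨s1, s2⟩ := s
  ext i
  fin_cases i <;> cases s1 <;> cases s2 <;> simp [inner_eq, a1, a2, g1, g2, sg] <;> ring
theorem norm_a1_le (s : St) : ‖a1 s‖ ≤ 1 := by
  refine (norm_le_coords _).trans ?_
  obtain ⟨s1, s2⟩ := s
  cases s1 <;> cases s2 <;> simp [a1, sg, abs_div] <;> norm_num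
theorem norm_a2_le (s : St) : ‖a2 s‖ ≤ 1 := by
  refine (norm_le_coords _).trans ?_
  obtain ⟨s1, s2⟩ := s
  cases s1 <;> cases s2 <;> simp [a2, sg, abs_div] <;> norm_num
theorem norm_fdir_le (s : St) (b : Bool) : ‖fdir s b‖ ≤ 3 := by
  refine (norm_le_coords _).trans ?_
  obtain ⟨s1, s2⟩ := s
  cases s1 <;> cases s2 <;> cases b <;> simp [fdir, sg] <;> norm_num
theorem inner_fdir_a1 (s : St) (b : Bool) : 1 / 8 ≤ ⟪fdir s b, a1 s⟫ := by
  obtain ⟨s1, s2⟩ := s
  cases s1 <;> cases s2 <;> cases b <;> simp [inner_eq, fdir, a1, sg] <;> norm_num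
theorem inner_fdir_a2 (s : St) (b : Bool) : 1 / 8 ≤ ⟪fdir s b, a2 s⟫ := by
  obtain ⟨s1, s2⟩ := s
  cases s1 <;> cases s2 <;> cases b <;> simp [inner_eq, fdir, a2, sg] <;> norm_num

/-- pieces whose centre is far from `c` vanish on `Q c (2ρ)` -/
theorem nloc_sum_near (G : Grid) {j : ℕ} {c y : E} {ρ : ℝ} (hj : G.mesh j ≤ ρ)
    (hy : dinf y c ≤ 2 * ρ) (F : ℤ × ℤ → ℝ)
    (hF : ∀ Z ∈ G.nodes j, F Z ≠ 0 → dinf y (G.pt j Z) ≤ G.mesh j) :
    ∑ Z ∈ G.near j c (3 * ρ), F Z = ∑ Z ∈ G.nodes j, F Z := by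
  refine Finset.sum_filter_of_ne fun Z hZ hne => ?_
  have h1 := hF Z hZ hne
  have h2 := dinf_triangle (G.pt j Z) y c
  rw [dinf_comm (G.pt j Z) y] at h2
  linarith

theorem nloc_data (G : Grid) {h : E → ℝ} (hh : G.Fits h) {K k : ℕ} (hk : k ≤ K) (z : ℤ × ℤ)
    (s : St) (b : Bool) : ∃ D : FSData (Bool × (Σ _ : ℕ, ℤ × ℤ)), D.OK (G.mesh k) (fdir s b) ∧
      (∀ y, dinf y (G.pt k z) ≤ 2 * G.mesh k → gradient h y = D.V y) ∧
      D.Θ ≤ G.ThN h s k z + G.ThD h s K k z := by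
  set ρ := G.mesh k with hρ
  set c := G.pt k z with hc
  set gg : Bool → E := fun β => cond β (g1 s) (g2 s) with hgg
  set aa : Bool → E := fun β => cond β (a1 s) (a2 s) with haa
  have haa1 : ∀ β, ‖aa β‖ ≤ 1 := fun β => by
    cases β
    exacts [norm_a2_le s, norm_a1_le s]
  have haa2 : ∀ β, 1 / 8 ≤ ⟪fdir s b, aa β⟫ := fun β => by
    cases β
    exacts [inner_fdir_a2 s b, inner_fdir_a1 s b]
  choose p n ap am h1 h2 h3 using fun β : Bool => decomp' G hk
    (hh.1.continuous_dv (gg β)).measurable (hh.1.integrable_dv (gg β)) (hh.dv_dom (gg β))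
  have hsub : ∀ j, G.near j c (3 * ρ) ⊆ G.nodes j := fun j => Finset.filter_subset _ _
  have hI : ∀ i : Bool × (Σ _ : ℕ, ℤ × ℤ), i ∈ (Finset.univ : Finset Bool) ×ˢ
      ((Finset.Icc k K).sigma fun j => G.near j c (3 * ρ)) →
      i.2.1 ∈ Finset.Icc k K ∧ i.2.2 ∈ G.nodes i.2.1 := fun i hi => by
    have := Finset.mem_sigma.1 (Finset.mem_product.1 hi).2
    exact ⟨this.1, hsub _ this.2⟩
  refine ⟨{ I := Finset.univ ×ˢ ((Finset.Icc k K).sigma fun j => G.near j c (3 * ρ))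
            lev := fun i => i.2.1 - k
            c := fun i => G.pt i.2.1 i.2.2
            d := fun i => G.dall (dv h (gg i.1)) K i.2.1 i.2.2
            e := fun i => aa i.1
            ap := fun i => ap i.1 i.2.1 i.2.2
            am := fun i => am i.1 i.2.1 i.2.2
            P := fun y => ∑ β, (∑ Z ∈ G.nodes k, p β Z y) • aa β
            N := fun y => -∑ β, (∑ Z ∈ G.near k c (3 * ρ), n β Z y) • aa β },
    ⟨G.mesh_pos k, norm_fdir_le s b, ?_, ?_, ?_, ?_, fun y => ?_, fun i _ => haa1 _,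
      fun i hi => ?_, fun i hi => ?_⟩, fun y hy => ?_, ?_⟩
  · change Measurable fun y => ∑ β, (∑ Z ∈ G.nodes k, p β Z y) • aa β
    exact Finset.measurable_sum _ fun β _ =>
      (Finset.measurable_sum _ fun Z hZ => (h1 β Z hZ).1.1).smul_const (aa β)
  · change Integrable fun y => ∑ β, (∑ Z ∈ G.nodes k, p β Z y) • aa β
    exact integrable_finsetSum _ fun β _ =>
      (integrable_finsetSum _ fun Z hZ => (h1 β Z hZ).1.2.1).smul_const (aa β)
  · exact (Finset.measurable_sum _ fun β _ =>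
      (Finset.measurable_sum _ fun Z hZ => (h1 β Z (hsub k hZ)).2.1).smul_const _).neg
  · exact (integrable_finsetSum _ fun β _ =>
      (integrable_finsetSum _ fun Z hZ => (h1 β Z (hsub k hZ)).2.2.1).smul_const _).neg
  · change ‖∑ β, (∑ Z ∈ G.nodes k, p β Z y) • aa β‖ ≤
      8 * ⟪fdir s b, ∑ β, (∑ Z ∈ G.nodes k, p β Z y) • aa β⟫
    rw [inner_sum, Finset.mul_sum]
    refine (norm_sum_le _ _).trans (Finset.sum_le_sum fun β _ => ?_)
    have h0 : 0 ≤ ∑ Z ∈ G.nodes k, p β Z y := Finset.sum_nonneg fun Z hZ => (h1 β Z hZ).1.2.2.1 y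
    rw [norm_smul, Real.norm_of_nonneg h0, real_inner_smul_right]
    nlinarith [mul_le_mul_of_nonneg_left (haa1 β) h0, mul_le_mul_of_nonneg_left (haa2 β) h0]
  · obtain ⟨e1, e2⟩ := hI i hi
    have := (h2 i.1 _ e1 _ e2).1
    rwa [G.mesh_eq_div (Finset.mem_Icc.1 e1).1] at this
  · obtain ⟨e1, e2⟩ := hI i hi
    have := (h2 i.1 _ e1 _ e2).2
    rwa [G.mesh_eq_div (Finset.mem_Icc.1 e1).1] at this
  · have e0 : gradient h y = ∑ β, dv h (gg β) y • aa β := by
      rw [Fintype.sum_bool]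
      exact dual_basis s _
    simp only [FSData.V]
    rw [e0, Finset.sum_product, ← sub_eq_add_neg, ← Finset.sum_sub_distrib,
      ← Finset.sum_add_distrib]
    refine Finset.sum_congr rfl fun β _ => ?_
    simp only
    rw [← Finset.sum_smul, ← sub_smul, ← add_smul, h3 β y, Finset.sum_sigma,
      nloc_sum_near G le_rfl hy _ fun Z hZ hne => (h1 β Z hZ).2.2.2.2.1 y hne]
    congr 2
    refine Finset.sum_congr rfl fun j hj => ?_
    refine (nloc_sum_near G (G.mesh_anti (Finset.mem_Icc.1 hj).1) hy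
      (fun Z => ap β j Z y - am β j Z y) fun Z hZ hne => ?_).symm
    by_cases ha : ap β j Z y = 0
    · exact (h2 β j hj Z hZ).2.2.2.2.1 y fun hm => hne (by simp [ha, hm])
    · exact (h2 β j hj Z hZ).1.2.2.2.1 y ha
  · simp only [FSData.Θ]
    refine add_le_add ?_ (le_of_eq ?_)
    · have hint : ∀ β, Integrable fun y => ∑ Z ∈ G.near k c (3 * ρ), n β Z y := fun β =>
        integrable_finsetSum _ fun Z hZ => (h1 β Z (hsub k hZ)).2.2.1
      calc ∫ y, ‖-∑ β, (∑ Z ∈ G.near k c (3 * ρ), n β Z y) • aa β‖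
          ≤ ∫ y, ∑ β, ∑ Z ∈ G.near k c (3 * ρ), n β Z y := by
            refine integral_mono_of_nonneg (Eventually.of_forall fun y => norm_nonneg _)
              (integrable_finsetSum _ fun β _ => hint β) (Eventually.of_forall fun y => ?_)
            simp only [norm_neg]
            refine (norm_sum_le _ _).trans (Finset.sum_le_sum fun β _ => ?_)
            have h0 : 0 ≤ ∑ Z ∈ G.near k c (3 * ρ), n β Z y :=
              Finset.sum_nonneg fun Z hZ => (h1 β Z (hsub k hZ)).2.2.2.1 y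
            rw [norm_smul, Real.norm_of_nonneg h0]
            exact mul_le_of_le_one_right h0 (haa1 β)
        _ = ∑ β, ∑ Z ∈ G.near k c (3 * ρ), ng (G.mass (dv h (gg β)) k Z) := by
            rw [integral_finsetSum _ fun β _ => hint β]
            refine Finset.sum_congr rfl fun β _ => ?_
            rw [integral_finsetSum _ fun Z hZ => (h1 β Z (hsub k hZ)).2.2.1]
            exact Finset.sum_congr rfl fun Z hZ => (h1 β Z (hsub k hZ)).2.2.2.2.2
        _ = G.ThN h s k z := by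
            rw [Fintype.sum_bool, ← Finset.sum_add_distrib]
            rfl
    · rw [Finset.sum_product, Fintype.sum_bool, Finset.sum_sigma, Finset.sum_sigma,
        ← Finset.sum_add_distrib]
      refine Finset.sum_congr rfl fun j _ => ?_
      rw [Finset.sum_add_distrib, mul_add, Finset.mul_sum, Finset.mul_sum]
      rfl

theorem nloc : ∃ C : ℝ, 0 ≤ C ∧ ∀ (G : Grid) (h : E → ℝ), G.Fits h → ∀ K k, k ≤ K →
    ∀ (z : ℤ × ℤ) (s : St) (b : Bool),
    ∫ x in Q (G.pt k z) (G.mesh k), ng (lineDeriv ℝ (G.b h k) x (fdir s b)) ≤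
      C * (G.ThN h s k z + G.ThD h s K k z) := by
  obtain ⟨C, hC, H⟩ := fs_int
  refine ⟨C, hC, fun G h hh K k hk z s b => ?_⟩
  obtain ⟨D, hOK, hV, hΘ⟩ := nloc_data G hh hk z s b
  obtain ⟨L, hL⟩ := hh.b_lipschitz k
  refine (H _ D (G.mesh k) (fdir s b) (G.pt k z) _ hOK ?_ ?_).trans
    (mul_le_mul_of_nonneg_left hΘ hC)
  · have hi := integrable_lineDeriv hL (hh.b_hasCompactSupport k) (fdir s b)
    refine (hi.norm.mono' (continuous_ng.comp_aestronglyMeasurable hi.1)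
      (Eventually.of_forall fun x => ?_)).integrableOn
    rw [Real.norm_of_nonneg (ng_nonneg _)]
    exact ng_le_abs _
  · filter_upwards [hL.ae_lineDifferentiableAt (μ := volume) (fdir s b)] with x hx hxQ
    have hm : G.mesh (k + 1) = G.mesh k / Lam := by
      rw [G.mesh_eq_div (Nat.le_add_right k 1), Nat.add_sub_cancel_left, pow_one]
    obtain ⟨r, hr, heq, hmax⟩ := exists_mx_eq hh.1 (G.mesh_pos (k + 1))
      (G.mesh_anti (Nat.le_succ k)) x
    have hVx : ∀ y, ‖y - x‖ ≤ G.mesh k → gradient h y = D.V y := fun y hy => by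
      refine hV y ?_
      have h1 := dinf_triangle y x (G.pt k z)
      have h2 := dinf_le_norm y x
      have h3 : dinf x (G.pt k z) ≤ G.mesh k := hxQ
      linarith
    refine ⟨r, (opt_of_max hh.1 (G.mesh_pos k) (hm ▸ hr) (hm ▸ hmax)).congr hVx, le_of_eq ?_⟩
    have e1 : lineDeriv ℝ (G.b h k) x (fdir s b) = avg (dv h (fdir s b)) x r :=
      lineDeriv_mx hh.1 (G.mesh_pos (k + 1)) hr heq hx
    rw [e1, avg, ng_mul_of_nonneg (by positivity)]
    congr 2
    refine setIntegral_congr_fun measurableSet_ball fun y hy => ?_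
    simp only [dv]
    rw [hVx y ((mem_ball_iff_norm.1 hy).le.trans hr.2)]

end Crest.Agent.R112
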