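import Crest.Agent.R112.NLoc
import Crest.Agent.R112.Light
import Crest.Agent.R112.Cost

/-!
# R112/NSum: the first term of the tree lemma

`sum_ThD_le`: exchange sums; a node `Z` of level `j ≥ k` is near at most `49` nodes `z` of level `k`
(`card_near` with `T = 3`, `dinf_comm`); `∑_{k ≤ j} (1/2)^(j-k) ≤ 2`; `sum_dall_le`, `dall_nonneg`,
`abs_dv_le`, `‖g1 s‖, ‖g2 s‖ ≤ 4`.

`nsum`: let `φ k x = ng (lineDeriv (b k) x f) ≥ 0`; it vanishes off the domain
(`lineDeriv_b_eq_zero`), so `w k s x * φ k x = ∑ z ∈ nodes k, ht k z x * (w k s x * φ k x)`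
(`sum_ht`), and `ht k z ≤ 1` vanishes off `Q (pt k z) (mesh k)`. For each `z` choose a number
`S z ∈ [0,1]` with `w k s ≤ S z` on `Q (pt k z) (mesh k)` and
`S z ≤ w k s (pt k Z) + H k (pt k Z)` for all `Z ∈ near k (pt k z) (3 mesh k)` (the supremum of
`w k s` over the square; `osc1`, `w_le_one`). By `nloc` the `z`-th term is at most
`C * (S z * ThN + ThD)`. With `mass (dv h (g1 s)) k Z = 3 * (sg s.1 * mX k Z) + sg s.2 * mY k Z`
(`dv_eq`, `mass_lin`) and the same for `g2`, the summand of `ThN` at `Z` is `0` unless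
`Bad s 3 ..` and is at most `6 (|mX k Z| + |mY k Z|)`. Each `Z` is counted at most `49` times.
Finish with `light`, `H_bound`, `W.pay`, `tot_le`, `sum_ThD_le`.
-/

namespace Crest.Agent.R112

open MeasureTheory Metric Set Filter Topology
open scoped RealInnerProductSpace NNReal

theorem nsum_near_le (G : Grid) (k j : ℕ) (d : ℤ × ℤ → ℝ) (hd : ∀ Z ∈ G.nodes j, 0 ≤ d Z) :
    ∑ z ∈ G.nodes k, ∑ Z ∈ G.near j (G.pt k z) (3 * G.mesh k), d Z ≤
      49 * ∑ Z ∈ G.nodes j, d Z := by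
  classical
  unfold Grid.near
  simp_rw [Finset.sum_filter]
  rw [Finset.sum_comm, Finset.mul_sum]
  refine Finset.sum_le_sum fun Z hZ => ?_
  rw [← Finset.sum_filter, Finset.sum_const, nsmul_eq_mul]
  refine mul_le_mul_of_nonneg_right ?_ (hd Z hZ)
  have h := G.card_near k (G.pt j Z) 3
  have h2 : (G.nodes k).filter (fun z => dinf (G.pt j Z) (G.pt k z) ≤ 3 * G.mesh k) =
      G.near k (G.pt j Z) (((3 : ℕ) : ℝ) * G.mesh k) := by
    unfold Grid.near
    refine Finset.filter_congr fun z _ => ?_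
    rw [dinf_comm]; norm_num
  rw [h2]
  refine h.trans ?_
  norm_num

theorem nsum_geo (K : ℕ) (D : ℕ → ℝ) (hD : ∀ j ≤ K, 0 ≤ D j) :
    ∑ k ∈ Finset.range (K + 1), ∑ j ∈ Finset.Icc k K, (1 / 2 : ℝ) ^ (j - k) * D j ≤
      2 * ∑ j ∈ Finset.range (K + 1), D j := by
  rw [Finset.sum_comm' (t' := Finset.range (K + 1)) (s' := fun j => Finset.range (j + 1))]
  · rw [Finset.mul_sum]
    refine Finset.sum_le_sum fun j hj => ?_
    rw [← Finset.sum_mul]
    refine mul_le_mul_of_nonneg_right ?_ (hD j (by simpa [Nat.lt_succ_iff] using hj))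
    have := Finset.sum_range_reflect (fun i => (1 / 2 : ℝ) ^ i) (j + 1)
    simp only [Nat.add_sub_cancel] at this
    rw [this]
    exact sum_geometric_two_le _
  · intro k j
    simp only [Finset.mem_range, Finset.mem_Icc]
    omega

theorem nsum_sg_sq (b : Bool) : sg b ^ 2 = 1 := by cases b <;> simp [sg]

theorem nsum_abs_sg (b : Bool) (t : ℝ) : |sg b * t| = |t| := by cases b <;> simp [sg]

theorem nsum_norm_g1 (s : St) : ‖g1 s‖ ≤ 4 := by
  refine (norm_le_coords _).trans ?_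
  rcases s with ⟨a, b⟩
  cases a <;> cases b <;> simp [g1, sg] <;> norm_num

theorem nsum_norm_g2 (s : St) : ‖g2 s‖ ≤ 4 := by
  refine (norm_le_coords _).trans ?_
  rcases s with ⟨a, b⟩
  cases a <;> cases b <;> simp [g2, sg] <;> norm_num

theorem nsum_int_dv {h : E → ℝ} (hh : C1c h) {v : E} (hv : ‖v‖ ≤ 4) :
    ∫ y, |dv h v y| ≤ 4 * ∫ y, ‖gradient h y‖ := by
  rw [← integral_const_mul]
  refine integral_mono (hh.integrable_dv v).abs (hh.integrable_gradient.norm.const_mul _)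
    fun y => ?_
  exact (abs_dv_le h v y).trans (mul_le_mul_of_nonneg_right hv (norm_nonneg _))

theorem sum_ThD_le {G : Grid} {h : E → ℝ} (hh : G.Fits h) (K : ℕ) (s : St) :
    ∑ k ∈ Finset.range (K + 1), ∑ z ∈ G.nodes k, G.ThD h s K k z ≤
      784 * ∫ y, ‖gradient h y‖ := by
  set d : ℕ → ℤ × ℤ → ℝ := fun j Z =>
    G.dall (dv h (g1 s)) K j Z + G.dall (dv h (g2 s)) K j Z with hd
  have hd0 : ∀ j, ∀ Z ∈ G.nodes j, 0 ≤ d j Z := fun j Z hZ =>
    add_nonneg (G.dall_nonneg (hh.1.integrable_dv _) (hh.dv_dom _) K hZ)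
      (G.dall_nonneg (hh.1.integrable_dv _) (hh.dv_dom _) K hZ)
  have h1 : ∀ k, ∑ z ∈ G.nodes k, G.ThD h s K k z ≤
      ∑ j ∈ Finset.Icc k K, (1 / 2 : ℝ) ^ (j - k) * (49 * ∑ Z ∈ G.nodes j, d j Z) := by
    intro k
    unfold Grid.ThD
    rw [Finset.sum_comm]
    refine Finset.sum_le_sum fun j _ => ?_
    rw [← Finset.mul_sum]
    exact mul_le_mul_of_nonneg_left (nsum_near_le G k j (d j) (hd0 j)) (by positivity)
  refine (Finset.sum_le_sum fun k _ => h1 k).trans ?_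
  refine (nsum_geo K _ fun j _ => ?_).trans ?_
  · exact mul_nonneg (by norm_num) (Finset.sum_nonneg (hd0 j))
  · rw [← Finset.mul_sum]
    have h2 := G.sum_dall_le (hh.1.integrable_dv (g1 s)) K
    have h3 := G.sum_dall_le (hh.1.integrable_dv (g2 s)) K
    have h4 := nsum_int_dv hh.1 (nsum_norm_g1 s)
    have h5 := nsum_int_dv hh.1 (nsum_norm_g2 s)
    have h6 : ∑ j ∈ Finset.range (K + 1), ∑ Z ∈ G.nodes j, d j Z =
        ∑ j ∈ Finset.range (K + 1), ∑ Z ∈ G.nodes j, G.dall (dv h (g1 s)) K j Z +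
        ∑ j ∈ Finset.range (K + 1), ∑ Z ∈ G.nodes j, G.dall (dv h (g2 s)) K j Z := by
      simp only [hd, Finset.sum_add_distrib]
    rw [h6]
    linarith

theorem nsum_mass_g1 {G : Grid} {h : E → ℝ} (hh : G.Fits h) (s : St) (k : ℕ) (Z : ℤ × ℤ) :
    G.mass (dv h (g1 s)) k Z = 3 * (sg s.1 * G.mX h k Z) + sg s.2 * G.mY h k Z := by
  have : dv h (g1 s) = fun y => (3 * sg s.1) * dv h e0 y + sg s.2 * dv h e1 y := by
    funext y; rw [dv_eq]; simp [g1]
  rw [this, G.mass_lin (hh.1.integrable_dv _) (hh.1.integrable_dv _)]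
  simp only [Grid.mX, Grid.mY]; ring

theorem nsum_mass_g2 {G : Grid} {h : E → ℝ} (hh : G.Fits h) (s : St) (k : ℕ) (Z : ℤ × ℤ) :
    G.mass (dv h (g2 s)) k Z = sg s.1 * G.mX h k Z + 3 * (sg s.2 * G.mY h k Z) := by
  have : dv h (g2 s) = fun y => sg s.1 * dv h e0 y + (3 * sg s.2) * dv h e1 y := by
    funext y; rw [dv_eq]; simp [g2]
  rw [this, G.mass_lin (hh.1.integrable_dv _) (hh.1.integrable_dv _)]
  simp only [Grid.mX, Grid.mY]; ring

open Classical in
theorem nsum_neg_le {G : Grid} {h : E → ℝ} (hh : G.Fits h) (s : St) (k : ℕ) (Z : ℤ × ℤ) :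
    ng (G.mass (dv h (g1 s)) k Z) + ng (G.mass (dv h (g2 s)) k Z) ≤
      if Bad s 3 (G.mX h k Z) (G.mY h k Z) then 6 * (|G.mX h k Z| + |G.mY h k Z|) else 0 := by
  rw [nsum_mass_g1 hh, nsum_mass_g2 hh]
  set A := sg s.1 * G.mX h k Z with hA
  set B := sg s.2 * G.mY h k Z with hB
  have hA' : |A| = |G.mX h k Z| := nsum_abs_sg _ _
  have hB' : |B| = |G.mY h k Z| := nsum_abs_sg _ _
  split_ifs with hb
  · rw [← hA', ← hB']
    have h1 := ng_le_abs (3 * A + B)
    have h2 := ng_le_abs (A + 3 * B)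
    have h3 := abs_add_le (3 * A) B
    have h4 := abs_add_le A (3 * B)
    have h5 : |(3 : ℝ)| = 3 := by norm_num
    rw [abs_mul 3 A, h5] at h3
    rw [abs_mul 3 B, h5] at h4
    have := abs_nonneg A
    have := abs_nonneg B
    linarith
  · unfold Bad at hb
    push Not at hb
    rw [ng_eq_zero hb.1, ng_eq_zero hb.2]
    norm_num

/-- one window -/
theorem nsum_window {C : ℝ} (hC0 : 0 ≤ C) {G : Grid} {h : E → ℝ} (hh : G.Fits h) {K : ℕ}
    (W : Wts G K (G.mX h) (G.mY h)) (s : St) (f : E) (k : ℕ) (z : ℤ × ℤ)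
    (hC : ∫ x in Q (G.pt k z) (G.mesh k), ng (lineDeriv ℝ (G.b h k) x f) ≤
      C * (G.ThN h s k z + G.ThD h s K k z)) (hD : 0 ≤ G.ThD h s K k z) :
    ∫ x, G.ht k z x * (W.w k s x * ng (lineDeriv ℝ (G.b h k) x f)) ≤
      C * (∑ Z ∈ G.near k (G.pt k z) (3 * G.mesh k), (W.w k s (G.pt k Z) + W.H k (G.pt k Z)) *
        (ng (G.mass (dv h (g1 s)) k Z) + ng (G.mass (dv h (g2 s)) k Z)) + G.ThD h s K k z) := by
  set c := G.pt k z with hc
  set ρ := G.mesh k with hρ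
  have hρ0 : 0 < ρ := G.mesh_pos k
  have hcQ : c ∈ Q c ρ := by
    show dinf c c ≤ ρ
    rw [dinf_self]; exact hρ0.le
  have hbdd : BddAbove (W.w k s '' Q c ρ) := ⟨1, by
    rintro _ ⟨y, _, rfl⟩; exact W.w_le_one k s y⟩
  have hne : (W.w k s '' Q c ρ).Nonempty := ⟨_, c, hcQ, rfl⟩
  set S := sSup (W.w k s '' Q c ρ) with hS
  have hS1 : ∀ x ∈ Q c ρ, W.w k s x ≤ S := fun x hx => le_csSup hbdd ⟨x, hx, rfl⟩
  have hS2 : S ≤ 1 := csSup_le hne (by rintro _ ⟨y, _, rfl⟩; exact W.w_le_one k s y)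
  have hS0 : 0 ≤ S := (W.w_nonneg k s c).trans (hS1 c hcQ)
  have hS3 : ∀ Z ∈ G.near k c (3 * ρ), S ≤ W.w k s (G.pt k Z) + W.H k (G.pt k Z) := by
    intro Z hZ
    refine csSup_le hne ?_
    rintro _ ⟨y, hy, rfl⟩
    apply W.osc1
    have h1 : dinf (G.pt k Z) c ≤ 3 * ρ := (Finset.mem_filter.1 hZ).2
    have h2 : dinf y c ≤ ρ := hy
    have h3 := dinf_triangle y c (G.pt k Z)
    rw [dinf_comm c] at h3
    linarith
  obtain ⟨L, hL⟩ := hh.b_lipschitz k
  have hφ : Integrable (fun x => ng (lineDeriv ℝ (G.b h k) x f)) := by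
    have h1 := integrable_lineDeriv hL (hh.b_hasCompactSupport k) f
    refine h1.abs.mono' (continuous_ng.comp_aestronglyMeasurable h1.aestronglyMeasurable)
      (Eventually.of_forall fun x => ?_)
    rw [Real.norm_of_nonneg (ng_nonneg _)]
    exact ng_le_abs _
  have h1 : ∫ x, G.ht k z x * (W.w k s x * ng (lineDeriv ℝ (G.b h k) x f)) ≤
      ∫ x, (Q c ρ).indicator (fun x => S * ng (lineDeriv ℝ (G.b h k) x f)) x := by
    refine integral_mono_of_nonneg (Eventually.of_forall fun x => ?_)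
      ((hφ.const_mul S).indicator (measurableSet_Q c ρ)) (Eventually.of_forall fun x => ?_)
    · exact mul_nonneg (hat_nonneg _ _ _) (mul_nonneg (W.w_nonneg k s x) (ng_nonneg _))
    · simp only
      by_cases hx : x ∈ Q c ρ
      · rw [indicator_of_mem hx]
        have h2 : G.ht k z x ≤ 1 := hat_le_one _ _ _
        have h3 := hS1 x hx
        have h4 := ng_nonneg (lineDeriv ℝ (G.b h k) x f)
        have h5 := W.w_nonneg k s x
        calc _ ≤ 1 * (W.w k s x * ng (lineDeriv ℝ (G.b h k) x f)) :=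
              mul_le_mul_of_nonneg_right h2 (mul_nonneg h5 h4)
          _ ≤ _ := by rw [one_mul]; exact mul_le_mul_of_nonneg_right h3 h4
      · rw [indicator_of_notMem hx]
        have h2 : G.ht k z x = 0 := by
          by_contra h3
          exact hx (dinf_lt_of_hat_ne_zero hρ0 h3).le
        rw [h2, zero_mul]
  rw [integral_indicator (measurableSet_Q c ρ), integral_const_mul] at h1
  refine h1.trans ((mul_le_mul_of_nonneg_left hC hS0).trans ?_)
  have h2 : S * G.ThN h s k z ≤ ∑ Z ∈ G.near k c (3 * ρ),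
      (W.w k s (G.pt k Z) + W.H k (G.pt k Z)) *
        (ng (G.mass (dv h (g1 s)) k Z) + ng (G.mass (dv h (g2 s)) k Z)) := by
    unfold Grid.ThN
    rw [Finset.mul_sum]
    exact Finset.sum_le_sum fun Z hZ =>
      mul_le_mul_of_nonneg_right (hS3 Z hZ) (add_nonneg (ng_nonneg _) (ng_nonneg _))
  have h3 : S * G.ThD h s K k z ≤ G.ThD h s K k z := by nlinarith
  calc S * (C * (G.ThN h s k z + G.ThD h s K k z))
      = C * (S * G.ThN h s k z + S * G.ThD h s K k z) := by ring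
    _ ≤ _ := mul_le_mul_of_nonneg_left (add_le_add h2 h3) hC0

theorem nsum_ThD_nonneg {G : Grid} {h : E → ℝ} (hh : G.Fits h) (s : St) (K k : ℕ) (z : ℤ × ℤ) :
    0 ≤ G.ThD h s K k z := by
  unfold Grid.ThD
  refine Finset.sum_nonneg fun j _ => mul_nonneg (by positivity) (Finset.sum_nonneg fun Z hZ => ?_)
  have hZ' : Z ∈ G.nodes j := (Finset.mem_filter.1 hZ).1
  exact add_nonneg (G.dall_nonneg (hh.1.integrable_dv _) (hh.dv_dom _) K hZ')
    (G.dall_nonneg (hh.1.integrable_dv _) (hh.dv_dom _) K hZ')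

/-- split one level into windows -/
theorem nsum_split {G : Grid} {h : E → ℝ} (hh : G.Fits h) {K : ℕ}
    (W : Wts G K (G.mX h) (G.mY h)) (s : St) (f : E) (k : ℕ) :
    ∫ x, W.w k s x * ng (lineDeriv ℝ (G.b h k) x f) =
      ∑ z ∈ G.nodes k, ∫ x, G.ht k z x * (W.w k s x * ng (lineDeriv ℝ (G.b h k) x f)) := by
  obtain ⟨L, hL⟩ := hh.b_lipschitz k
  have hφ : Integrable (fun x => ng (lineDeriv ℝ (G.b h k) x f)) := by
    have h1 := integrable_lineDeriv hL (hh.b_hasCompactSupport k) f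
    refine h1.abs.mono' (continuous_ng.comp_aestronglyMeasurable h1.aestronglyMeasurable)
      (Eventually.of_forall fun x => ?_)
    rw [Real.norm_of_nonneg (ng_nonneg _)]
    exact ng_le_abs _
  obtain ⟨L', hL'⟩ := W.w_lipschitz k s
  have hψ : Integrable (fun x => W.w k s x * ng (lineDeriv ℝ (G.b h k) x f)) := by
    refine hφ.bdd_mul (c := 1) hL'.continuous.aestronglyMeasurable
      (Eventually.of_forall fun x => ?_)
    rw [Real.norm_of_nonneg (W.w_nonneg k s x)]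
    exact W.w_le_one k s x
  rw [← integral_finsetSum _ fun z _ => G.integrable_ht_mul hψ k z]
  congr 1
  funext x
  rw [← Finset.sum_mul]
  by_cases hx : x ∈ G.dom
  · rw [G.sum_ht k hx, one_mul]
  · rw [hh.lineDeriv_b_eq_zero k f hx, ng_eq_zero le_rfl]
    simp

theorem nsum : ∃ C : ℝ, 0 ≤ C ∧ ∀ (G : Grid) (h : E → ℝ), G.Fits h → ∀ (K : ℕ)
    (W : Wts G K (G.mX h) (G.mY h)) (s : St) (b : Bool),
    ∑ k ∈ Finset.range (K + 1), ∫ x, W.w k s x * ng (lineDeriv ℝ (G.b h k) x (fdir s b)) ≤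
      C * ∫ y, ‖gradient h y‖ := by
  classical
  obtain ⟨C₁, hC₁0, hC₁⟩ := nloc
  obtain ⟨C₂, hC₂0, hC₂⟩ := light
  have heps : 0 < eps := by norm_num [eps]
  refine ⟨C₁ * (49 * 6 * (2 * C₂ + 2 / eps) + 784), by positivity, fun G h hh K W s b => ?_⟩
  set I := ∫ y, ‖gradient h y‖ with hI
  set v : ℕ → ℤ × ℤ → ℝ := fun k Z => |G.mX h k Z| + |G.mY h k Z| with hv
  set t : ℕ → ℤ × ℤ → ℝ := fun k Z =>
    6 * (if Bad s 3 (G.mX h k Z) (G.mY h k Z) then W.w k s (G.pt k Z) * v k Z else 0) +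
      6 * (W.H k (G.pt k Z) * v k Z) with ht
  have hv0 : ∀ k Z, 0 ≤ v k Z := fun k Z => add_nonneg (abs_nonneg _) (abs_nonneg _)
  have ht0 : ∀ k Z, 0 ≤ t k Z := fun k Z => by
    have h1 := mul_nonneg (W.H_nonneg k (G.pt k Z)) (hv0 k Z)
    have h2 := mul_nonneg (W.w_nonneg k s (G.pt k Z)) (hv0 k Z)
    simp only [ht]
    split_ifs <;> linarith
  have hterm : ∀ k Z, (W.w k s (G.pt k Z) + W.H k (G.pt k Z)) *
      (ng (G.mass (dv h (g1 s)) k Z) + ng (G.mass (dv h (g2 s)) k Z)) ≤ t k Z := by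
    intro k Z
    have h1 := nsum_neg_le hh s k Z
    have h2 := add_nonneg (W.w_nonneg k s (G.pt k Z)) (W.H_nonneg k (G.pt k Z))
    refine (mul_le_mul_of_nonneg_left h1 h2).trans ?_
    have h3 := mul_nonneg (W.H_nonneg k (G.pt k Z)) (hv0 k Z)
    simp only [ht, hv] at h3 ⊢
    split_ifs
    · apply le_of_eq; ring
    · linarith
  have hlev : ∀ k ∈ Finset.range (K + 1),
      ∫ x, W.w k s x * ng (lineDeriv ℝ (G.b h k) x (fdir s b)) ≤
        C₁ * (49 * ∑ Z ∈ G.nodes k, t k Z + ∑ z ∈ G.nodes k, G.ThD h s K k z) := by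
    intro k hk
    have hk' : k ≤ K := by simpa [Nat.lt_succ_iff] using hk
    rw [nsum_split hh W s (fdir s b) k]
    refine (Finset.sum_le_sum fun z _ => nsum_window hC₁0 hh W s (fdir s b) k z
      (hC₁ G h hh K k hk' z s b) (nsum_ThD_nonneg hh s K k z)).trans ?_
    rw [← Finset.mul_sum, Finset.sum_add_distrib]
    refine mul_le_mul_of_nonneg_left (add_le_add ?_ le_rfl) hC₁0
    refine le_trans (Finset.sum_le_sum fun z _ => Finset.sum_le_sum fun Z _ => hterm k Z) ?_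
    exact nsum_near_le G k k (t k) fun Z _ => ht0 k Z
  refine (Finset.sum_le_sum hlev).trans ?_
  rw [← Finset.mul_sum, Finset.sum_add_distrib, ← Finset.mul_sum, mul_assoc C₁]
  refine mul_le_mul_of_nonneg_left ?_ hC₁0
  have h1 := sum_ThD_le hh K s
  have h2 := hC₂ G K _ _ (hh.refines_mX K) (hh.refines_mY K) W s
  have h3 := W.H_bound
  have h4 := W.pay
  have h5 := hh.tot_le K
  have h6 : ∑ k ∈ Finset.range (K + 1), ∑ Z ∈ G.nodes k, t k Z =
      6 * (∑ k ∈ Finset.range (K + 1), ∑ Z ∈ G.nodes k,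
        (if Bad s 3 (G.mX h k Z) (G.mY h k Z) then W.w k s (G.pt k Z) * v k Z else 0)) +
      6 * ∑ k ∈ Finset.range (K + 1), ∑ Z ∈ G.nodes k, W.H k (G.pt k Z) * v k Z := by
    simp only [ht, Finset.sum_add_distrib, Finset.mul_sum]
  have h7 : ∑ l ∈ Finset.range (K + 1), ∑ z ∈ G.nodes l,
      W.a l z * G.Y (G.mX h) (G.mY h) K l z ≤ 2 / eps * I := by
    rw [div_mul_eq_mul_div, le_div_iff₀ heps]
    linarith
  have h8 : C₂ * G.tot (G.mX h) (G.mY h) K ≤ C₂ * (2 * I) := mul_le_mul_of_nonneg_left h5 hC₂0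
  rw [h6]
  simp only [hv]
  nlinarith

end Crest.Agent.R112
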