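import Crest.Agent.R112.Geo

/-!
# R112/Switch: lightness and the change of the radial profile

`pair_le`: `∫ u (ap - am) = ∫ (u - u c) ap - ∫ (u - u c) am` because the masses agree.
`small_le`: `d i ≤ 2^n * ((1/2)^(lev i) * d i)` for `lev i ≤ n`.

`light_le`: expand `L ψ = ∫ ψ ⟪f,P⟫ + ∫ ψ ⟪f,N⟫ + ∑ i, ⟪f, e i⟫ * ∫ ψ (ap i - am i)`;
`⟪f,P⟫ ≥ ‖P‖/8`; `|⟪f,N⟫| ≤ 3‖N‖`; `|⟪f, e i⟫| ≤ 3`; for `lev i ≤ n`, `|∫ ψ (ap - am)| ≤ d i`
(both integrals lie in `[0, d i]`); for `lev i ≥ n+1` use `pair_le` with the bound from `Osc`.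

`switch_le`: let `χ = ψ - φ`, `l1, l2` from `exists_sim f (p - x)`,
`F y = f - (l1 • (y - x) + l2 • rot (y - x)) = -(l1 • (y - p) + l2 • rot (y - p))`, so
`‖F y‖ = ‖f‖ / ‖p - x‖ * ‖y - p‖ ≤ (6 Lam / ρ) ‖y - p‖` and `‖F y - F y'‖ ≤ (6 Lam / ρ) ‖y - y'‖`.
As the radial and the rotational moments of `ψ` and `φ` vanish,
`L ψ - L φ = ∫ χ ‖y-x‖ * ⟪F y, V y⟫`. Split `V = W + ∑_{lev i ≥ n+1} (ap i - am i) • e i` with
`‖W‖ ≤ lam n`. `χ ‖y-x‖ ≠ 0` forces `|‖y-x‖ - r| ≤ σ` and `‖y-x‖ ≤ ρ`, so `‖F y‖ ≤ 18 Lam`;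
`|χ| ≤ 1`, `|χ| ≤ ψ + φ`. On `ball p σ'`: `‖F‖ ≤ 6 Lam σ'/ρ` and
`∫ |χ| lam n ≤ Pm ψ + Pm φ + 2 * 2^n Θ` (`small_le`). Off `ball p σ'`: at most `24 Lam η`.
For a pair of level `j ≥ n+1` apply `pair_le` to `u y = χ ‖y-x‖ * ⟪F y, e i⟫`: for
`dinf y c ≤ s = ρ / Lam^j` (so `‖y - c‖ ≤ 2s ≤ ρ`),
`|u y - u c| ≤ |χ(y) - χ(c)| ‖F y‖ + |χ(c)| ‖F y - F c‖ ≤ 24 Lam (oψ + oφ) + 12 Lam / Lam^j`
(if `χ(y) ≠ χ(c)` then `‖y - x‖ ≤ ρ` or `‖c - x‖ ≤ ρ`, so `‖y - p‖ ≤ 4ρ`), and
`1 / Lam^j ≤ (1/2)^j / 2^n`.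
-/

namespace Crest.Agent.R112

open MeasureTheory Metric Set Filter Topology
open scoped RealInnerProductSpace NNReal

theorem Piece.mass_nonneg {g : E → ℝ} {c : E} {T d : ℝ} (h : Piece g c T d) : 0 ≤ d := by
  rw [← h.2.2.2.2]; exact integral_nonneg h.2.2.1

theorem switch_iadd {g g' : E → ℝ} (hg : Integrable g) (hg' : Integrable g') :
    Integrable fun y => g y + g' y := hg.add hg'

theorem switch_isub {g g' : E → ℝ} (hg : Integrable g) (hg' : Integrable g') :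
    Integrable fun y => g y - g' y := hg.sub hg'

theorem switch_int_mul {u g : E → ℝ} {C : ℝ} (hu : Measurable u) (hC : ∀ y, |u y| ≤ C)
    (hg : Integrable g) : Integrable fun y => u y * g y :=
  hg.bdd_mul hu.aestronglyMeasurable (Eventually.of_forall hC)

theorem switch_int_inner {U g : E → E} {C : ℝ} (hU : Measurable U) (hC : ∀ y, ‖U y‖ ≤ C)
    (hg : Integrable g) : Integrable fun y => ⟪U y, g y⟫ := by
  refine (hg.norm.const_mul C).mono' (hU.aestronglyMeasurable.inner hg.aestronglyMeasurable)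
    (Eventually.of_forall fun y => ?_)
  exact (norm_inner_le_norm _ _).trans (mul_le_mul_of_nonneg_right (hC y) (norm_nonneg _))

theorem switch_piece_le {g u : E → ℝ} {c : E} {T d o : ℝ} (hp : Piece g c T d)
    (ho : ∀ y, dinf y c ≤ T → |u y| ≤ o) : |∫ y, u y * g y| ≤ d * o := by
  have h1 : ‖∫ y, u y * g y‖ ≤ ∫ y, o * g y := by
    refine norm_integral_le_of_norm_le (hp.2.1.const_mul o) (Eventually.of_forall fun y => ?_)
    by_cases hy : g y = 0
    · simp [hy]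
    · rw [Real.norm_eq_abs, abs_mul, abs_of_nonneg (hp.2.2.1 y)]
      exact mul_le_mul_of_nonneg_right (ho y (hp.2.2.2.1 y hy)) (hp.2.2.1 y)
  rwa [integral_const_mul, hp.2.2.2.2, mul_comm, Real.norm_eq_abs] at h1

theorem pair_le {ap am u : E → ℝ} {c : E} {T d o C : ℝ} (hp : Piece ap c T d) (hm : Piece am c T d)
    (hu : Measurable u) (hC : ∀ y, |u y| ≤ C) (ho : ∀ y, dinf y c ≤ T → |u y - u c| ≤ o) :
    |∫ y, u y * (ap y - am y)| ≤ 2 * d * o := by
  have hu' : Measurable fun y => u y - u c := hu.sub_const _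
  have hC' : ∀ y, |u y - u c| ≤ C + C := fun y => (abs_sub _ _).trans (add_le_add (hC _) (hC _))
  have e : ∫ y, u y * (ap y - am y) =
      (∫ y, (u y - u c) * ap y) - ∫ y, (u y - u c) * am y := by
    have h0 : ∫ y, u c * (ap y - am y) = 0 := by
      rw [integral_const_mul, integral_sub hp.2.1 hm.2.1, hp.2.2.2.2, hm.2.2.2.2, sub_self, mul_zero]
    rw [← integral_sub (switch_int_mul hu' hC' hp.2.1) (switch_int_mul hu' hC' hm.2.1),
      ← sub_zero (∫ y, u y * (ap y - am y)), ← h0,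
      ← integral_sub (switch_int_mul hu hC (switch_isub hp.2.1 hm.2.1))
        ((switch_isub hp.2.1 hm.2.1).const_mul _)]
    congr 1; funext y; ring
  have h1 := switch_piece_le hp ho
  have h2 := switch_piece_le hm ho
  rw [e]
  exact (abs_sub _ _).trans (by linarith)

theorem switch_pair_le_mass {ap am u : E → ℝ} {c : E} {T d : ℝ} (hp : Piece ap c T d)
    (hm : Piece am c T d) (hu : Measurable u) (h01 : ∀ y, 0 ≤ u y ∧ u y ≤ 1) :
    |∫ y, u y * (ap y - am y)| ≤ d := by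
  have hC : ∀ y, |u y| ≤ 1 := fun y => abs_le.2 ⟨by linarith [(h01 y).1], (h01 y).2⟩
  have e : ∫ y, u y * (ap y - am y) = (∫ y, u y * ap y) - ∫ y, u y * am y := by
    rw [← integral_sub (switch_int_mul hu hC hp.2.1) (switch_int_mul hu hC hm.2.1)]
    congr 1; funext y; ring
  have h1 := (abs_le.1 (switch_piece_le hp fun y _ => hC y)).2
  have h2 := (abs_le.1 (switch_piece_le hm fun y _ => hC y)).2
  have h3 : 0 ≤ ∫ y, u y * ap y := integral_nonneg fun y => mul_nonneg (h01 y).1 (hp.2.2.1 y)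
  have h4 : 0 ≤ ∫ y, u y * am y := integral_nonneg fun y => mul_nonneg (h01 y).1 (hm.2.2.1 y)
  rw [e, abs_le]
  constructor <;> linarith

theorem switch_meas_prof {ψ : ℝ → ℝ} (hψ : Measurable ψ) (x : E) :
    Measurable fun y : E => ψ ‖y - x‖ := hψ.comp (measurable_id.sub_const x).norm

namespace FSData

variable {ι : Type} {D : FSData ι} {ρ : ℝ} {f : E}

theorem OK.d_nonneg (h : D.OK ρ f) {i : ι} (hi : i ∈ D.I) : 0 ≤ D.d i :=
  (h.ap_piece i hi).mass_nonneg
theorem OK.theta_nonneg (h : D.OK ρ f) : 0 ≤ D.Θ :=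
  add_nonneg (integral_nonneg fun _ => norm_nonneg _)
    (Finset.sum_nonneg fun _ hi => mul_nonneg (by positivity) (h.d_nonneg hi))
theorem OK.measurable_V (h : D.OK ρ f) : Measurable D.V :=
  (h.P_meas.add h.N_meas).add (Finset.measurable_sum _ fun i hi =>
    ((h.ap_piece i hi).1.sub (h.am_piece i hi).1).smul_const _)
theorem OK.switch_int_pair (h : D.OK ρ f) {i : ι} (hi : i ∈ D.I) :
    Integrable fun y => D.ap i y - D.am i y := (h.ap_piece i hi).2.1.sub (h.am_piece i hi).2.1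
theorem OK.integrable_V (h : D.OK ρ f) : Integrable D.V :=
  (h.P_int.add h.N_int).add (integrable_finsetSum _ fun _ hi =>
    (h.switch_int_pair hi).smul_const _)
theorem OK.measurable_lam (h : D.OK ρ f) (n : ℕ) : Measurable (D.lam n) :=
  (h.P_meas.norm.add h.N_meas.norm).add (Finset.measurable_sum _ fun i hi =>
    (h.ap_piece i (Finset.mem_filter.1 hi).1).1.add (h.am_piece i (Finset.mem_filter.1 hi).1).1)
theorem OK.switch_int_low (h : D.OK ρ f) (n : ℕ) :
    Integrable fun y => ∑ i ∈ D.I.filter (fun i => D.lev i ≤ n), (D.ap i y + D.am i y) :=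
  integrable_finsetSum _ fun i hi =>
    (h.ap_piece i (Finset.mem_filter.1 hi).1).2.1.add (h.am_piece i (Finset.mem_filter.1 hi).1).2.1
theorem OK.integrable_lam (h : D.OK ρ f) (n : ℕ) : Integrable (D.lam n) :=
  (h.P_int.norm.add h.N_int.norm).add (h.switch_int_low n)
theorem OK.switch_low_nonneg (h : D.OK ρ f) (n : ℕ) (y : E) :
    0 ≤ ∑ i ∈ D.I.filter (fun i => D.lev i ≤ n), (D.ap i y + D.am i y) :=
  Finset.sum_nonneg fun i hi => add_nonneg ((h.ap_piece i (Finset.mem_filter.1 hi).1).2.2.1 y)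
    ((h.am_piece i (Finset.mem_filter.1 hi).1).2.2.1 y)
theorem OK.lam_nonneg (h : D.OK ρ f) (n : ℕ) (y : E) : 0 ≤ D.lam n y :=
  add_nonneg (add_nonneg (norm_nonneg _) (norm_nonneg _)) (h.switch_low_nonneg n y)
theorem OK.small_le (h : D.OK ρ f) (n : ℕ) :
    (∫ y, ‖D.N y‖) + ∑ i ∈ D.I.filter (fun i => D.lev i ≤ n), D.d i ≤ 2 ^ n * D.Θ := by
  have h1 : (1 : ℝ) ≤ 2 ^ n := one_le_pow₀ one_le_two
  have h2 : 0 ≤ ∫ y, ‖D.N y‖ := integral_nonneg fun _ => norm_nonneg _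
  rw [Θ, mul_add, Finset.mul_sum]
  refine add_le_add (le_mul_of_one_le_left h2 h1) ?_
  refine le_trans (Finset.sum_le_sum fun i hi => ?_)
    (Finset.sum_le_sum_of_subset_of_nonneg (Finset.filter_subset (fun i => D.lev i ≤ n) _)
      fun i hi _ => mul_nonneg (by positivity) (mul_nonneg (by positivity) (h.d_nonneg hi)))
  obtain ⟨hi, hl⟩ := Finset.mem_filter.1 hi
  rw [← mul_assoc]
  refine le_mul_of_one_le_left (h.d_nonneg hi) ?_
  rw [one_div, inv_pow, ← div_eq_mul_inv, one_le_div (by positivity)]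
  exact pow_le_pow_right₀ one_le_two hl
theorem OK.sum_d_le (h : D.OK ρ f) :
    ∑ i ∈ D.I, (1 / 2 : ℝ) ^ (D.lev i) * D.d i ≤ D.Θ := by
  have _ := h.pos
  exact le_add_of_nonneg_left (integral_nonneg fun _ => norm_nonneg _)
theorem Pm_nonneg (D : FSData ι) (x : E) {ψ : ℝ → ℝ} (h0 : ∀ t, 0 ≤ ψ t) : 0 ≤ D.Pm x ψ :=
  integral_nonneg fun _ => mul_nonneg (h0 _) (norm_nonneg _)

theorem OK.switch_rest_le (h : D.OK ρ f) (n : ℕ) :
    ∫ y, (‖D.N y‖ + ∑ i ∈ D.I.filter (fun i => D.lev i ≤ n), (D.ap i y + D.am i y)) ≤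
      2 * 2 ^ n * D.Θ := by
  have h1 := h.small_le n
  have h2 : 0 ≤ ∫ y, ‖D.N y‖ := integral_nonneg fun _ => norm_nonneg _
  rw [integral_add h.N_int.norm (h.switch_int_low n), integral_finsetSum _ fun i hi =>
    switch_iadd (h.ap_piece i (Finset.mem_filter.1 hi).1).2.1
      (h.am_piece i (Finset.mem_filter.1 hi).1).2.1]
  have h3 : ∑ i ∈ D.I.filter (fun i => D.lev i ≤ n), ∫ y, (D.ap i y + D.am i y) =
      2 * ∑ i ∈ D.I.filter (fun i => D.lev i ≤ n), D.d i := by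
    rw [Finset.mul_sum]
    refine Finset.sum_congr rfl fun i hi => ?_
    have hp := h.ap_piece i (Finset.mem_filter.1 hi).1
    have hm := h.am_piece i (Finset.mem_filter.1 hi).1
    rw [integral_add hp.2.1 hm.2.1, hp.2.2.2.2, hm.2.2.2.2, two_mul]
  rw [h3]
  linarith

theorem switch_prof_abs {ψ : ℝ → ℝ} {r σ : ℝ} (hψ : Prof ψ r σ) (t : ℝ) : |ψ t| ≤ 1 :=
  abs_le.2 ⟨by linarith [(hψ.2.1 t).1], (hψ.2.1 t).2⟩

theorem OK.switch_int_Pm (h : D.OK ρ f) (x : E) {ψ : ℝ → ℝ} {r σ : ℝ} (hψ : Prof ψ r σ) :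
    Integrable fun y => ψ ‖y - x‖ * ‖D.P y‖ :=
  switch_int_mul (switch_meas_prof hψ.1 x) (fun _ => switch_prof_abs hψ _) h.P_int.norm

/-- the mass of `lam n` where the profile equals one -/
theorem OK.lam_ball_le (h : D.OK ρ f) (n : ℕ) {x : E} {ψ : ℝ → ℝ} {r σ : ℝ} (hψ : Prof ψ r σ) :
    ∫ y in ball x (r - σ), D.lam n y ≤ D.Pm x ψ + 2 * 2 ^ n * D.Θ := by
  have hr := switch_iadd h.N_int.norm (h.switch_int_low n)
  refine le_trans ?_ (add_le_add le_rfl (h.switch_rest_le n))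
  rw [Pm, ← integral_add (h.switch_int_Pm x hψ) hr, ← integral_indicator measurableSet_ball]
  refine integral_mono ((h.integrable_lam n).indicator measurableSet_ball)
    ((h.switch_int_Pm x hψ).add hr) fun y => ?_
  by_cases hy : y ∈ ball x (r - σ)
  · rw [indicator_of_mem hy]
    rw [mem_ball, dist_eq_norm] at hy
    simp only [lam, hψ.2.2.1 _ hy, one_mul, add_assoc, le_refl]
  · rw [indicator_of_notMem hy]
    exact add_nonneg (mul_nonneg (hψ.2.1 _).1 (norm_nonneg _))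
      (add_nonneg (norm_nonneg _) (h.switch_low_nonneg n y))

theorem OK.switch_int_e (h : D.OK ρ f) {U : E → E} {C : ℝ} (hU : Measurable U)
    (hC : ∀ y, ‖U y‖ ≤ C) {i : ι} (hi : i ∈ D.I) :
    Integrable fun y => ⟪U y, D.e i⟫ * (D.ap i y - D.am i y) :=
  switch_int_mul (C := C * ‖D.e i‖) (hU.inner_const) (fun y => (abs_real_inner_le_norm _ _).trans
    (mul_le_mul_of_nonneg_right (hC y) (norm_nonneg _))) (h.switch_int_pair hi)

/-- expansion of the pairing of a bounded field with `V` -/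
theorem OK.switch_expand (h : D.OK ρ f) {U : E → E} {C : ℝ} (hU : Measurable U)
    (hC : ∀ y, ‖U y‖ ≤ C) (n : ℕ) :
    ∫ y, ⟪U y, D.V y⟫ = ((∫ y, ⟪U y, D.P y⟫) + (∫ y, ⟪U y, D.N y⟫) +
      ∑ i ∈ D.I.filter (fun i => D.lev i ≤ n), ∫ y, ⟪U y, D.e i⟫ * (D.ap i y - D.am i y)) +
      ∑ i ∈ D.I.filter (fun i => n + 1 ≤ D.lev i), ∫ y, ⟪U y, D.e i⟫ * (D.ap i y - D.am i y) := by
  have e : D.I.filter (fun i => n + 1 ≤ D.lev i) = D.I.filter (fun i => ¬D.lev i ≤ n) :=
    Finset.filter_congr fun i _ => by omega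
  rw [e, add_assoc, Finset.sum_filter_add_sum_filter_not,
    ← integral_finsetSum _ fun i hi => h.switch_int_e hU hC hi,
    ← integral_add (switch_int_inner hU hC h.P_int) (switch_int_inner hU hC h.N_int),
    ← integral_add (switch_iadd (switch_int_inner hU hC h.P_int) (switch_int_inner hU hC h.N_int))
      (integrable_finsetSum _ fun i hi => h.switch_int_e hU hC hi)]
  congr 1; funext y
  simp only [V, inner_add_right, inner_sum, inner_smul_right, mul_comm]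

theorem OK.switch_low_le (h : D.OK ρ f) {U : E → E} {C : ℝ} (hU : Measurable U)
    (hC : ∀ y, ‖U y‖ ≤ C) (n : ℕ) :
    |(∫ y, ⟪U y, D.P y⟫) + (∫ y, ⟪U y, D.N y⟫) +
      ∑ i ∈ D.I.filter (fun i => D.lev i ≤ n), ∫ y, ⟪U y, D.e i⟫ * (D.ap i y - D.am i y)| ≤
      ∫ y, ‖U y‖ * D.lam n y := by
  have hi : ∀ i ∈ D.I.filter (fun i => D.lev i ≤ n),
      Integrable fun y => ⟪U y, D.e i⟫ * (D.ap i y - D.am i y) :=
    fun i hi => h.switch_int_e hU hC (Finset.mem_filter.1 hi).1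
  rw [← integral_finsetSum _ hi,
    ← integral_add (switch_int_inner hU hC h.P_int) (switch_int_inner hU hC h.N_int),
    ← integral_add (switch_iadd (switch_int_inner hU hC h.P_int) (switch_int_inner hU hC h.N_int))
      (integrable_finsetSum _ hi), ← Real.norm_eq_abs]
  refine norm_integral_le_of_norm_le (switch_int_mul hU.norm (C := C) (fun y => by
    rw [abs_norm]; exact hC y) (h.integrable_lam n)) (Eventually.of_forall fun y => ?_)
  rw [lam, mul_add, mul_add, Finset.mul_sum]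
  refine (norm_add_le _ _).trans (add_le_add ((norm_add_le _ _).trans
    (add_le_add (norm_inner_le_norm _ _) (norm_inner_le_norm _ _))) ?_)
  refine (norm_sum_le _ _).trans (Finset.sum_le_sum fun i hi => ?_)
  have hi' := (Finset.mem_filter.1 hi).1
  have h1 := (h.ap_piece i hi').2.2.1 y
  have h2 := (h.am_piece i hi').2.2.1 y
  rw [norm_mul]
  refine mul_le_mul ((norm_inner_le_norm _ _).trans
    (mul_le_of_le_one_right (norm_nonneg _) (h.e_le i hi'))) ?_ (norm_nonneg _) (norm_nonneg _)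
  rw [Real.norm_eq_abs, abs_le]
  constructor <;> linarith

theorem OK.switch_fe (h : D.OK ρ f) {i : ι} (hi : i ∈ D.I) : |⟪f, D.e i⟫| ≤ 3 :=
  (abs_real_inner_le_norm _ _).trans
    ((mul_le_of_le_one_right (norm_nonneg _) (h.e_le i hi)).trans h.f_le)

theorem OK.light_le (h : D.OK ρ f) {x : E} {ψ : ℝ → ℝ} {r σ B : ℝ} {n : ℕ} (hψ : Prof ψ r σ)
    (hosc : D.Osc ρ x ψ (n + 1) B) :
    D.Pm x ψ ≤ 8 * (D.L f x ψ + 3 * 2 ^ n * D.Θ + 6 * B) := by
  obtain ⟨o, ho, hB⟩ := hosc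
  have hm := switch_meas_prof hψ.1 x
  have hU : Measurable fun y : E => ψ ‖y - x‖ • f := hm.smul_const f
  have hC : ∀ y : E, ‖ψ ‖y - x‖ • f‖ ≤ 3 := fun y => by
    rw [norm_smul, Real.norm_eq_abs]
    exact (mul_le_of_le_one_left (norm_nonneg _) (switch_prof_abs hψ _)).trans h.f_le
  have hL : D.L f x ψ = ∫ y, ⟪ψ ‖y - x‖ • f, D.V y⟫ := by
    simp only [L, real_inner_smul_left]
  have he : ∀ i, ∫ y, ⟪ψ ‖y - x‖ • f, D.e i⟫ * (D.ap i y - D.am i y) =
      ⟪f, D.e i⟫ * ∫ y, ψ ‖y - x‖ * (D.ap i y - D.am i y) := by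
    intro i
    rw [← integral_const_mul]
    congr 1; funext y
    rw [real_inner_smul_left]; ring
  have h1 : D.Pm x ψ ≤ 8 * ∫ y, ⟪ψ ‖y - x‖ • f, D.P y⟫ := by
    rw [← integral_const_mul]
    refine integral_mono (h.switch_int_Pm x hψ) ((switch_int_inner hU hC h.P_int).const_mul _)
      fun y => ?_
    have := mul_le_mul_of_nonneg_left (h.cone y) (hψ.2.1 ‖y - x‖).1
    simp only [real_inner_smul_left]
    linarith
  have h2 : |∫ y, ⟪ψ ‖y - x‖ • f, D.N y⟫| ≤ 3 * ∫ y, ‖D.N y‖ := by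
    rw [← integral_const_mul, ← Real.norm_eq_abs]
    exact norm_integral_le_of_norm_le (h.N_int.norm.const_mul _) (Eventually.of_forall fun y =>
      (norm_inner_le_norm _ _).trans (mul_le_mul_of_nonneg_right (hC y) (norm_nonneg _)))
  have h3 : |∑ i ∈ D.I.filter (fun i => D.lev i ≤ n),
      ∫ y, ⟪ψ ‖y - x‖ • f, D.e i⟫ * (D.ap i y - D.am i y)| ≤
      3 * ∑ i ∈ D.I.filter (fun i => D.lev i ≤ n), D.d i := by
    rw [Finset.mul_sum]
    refine (Finset.abs_sum_le_sum_abs _ _).trans (Finset.sum_le_sum fun i hi => ?_)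
    have hi' := (Finset.mem_filter.1 hi).1
    rw [he, abs_mul]
    exact mul_le_mul (h.switch_fe hi') (switch_pair_le_mass (h.ap_piece i hi') (h.am_piece i hi') hm
      fun y => hψ.2.1 _) (abs_nonneg _) (by norm_num)
  have h4 : |∑ i ∈ D.I.filter (fun i => n + 1 ≤ D.lev i),
      ∫ y, ⟪ψ ‖y - x‖ • f, D.e i⟫ * (D.ap i y - D.am i y)| ≤
      6 * ∑ i ∈ D.I.filter (fun i => n + 1 ≤ D.lev i), D.d i * o i := by
    rw [Finset.mul_sum]
    refine (Finset.abs_sum_le_sum_abs _ _).trans (Finset.sum_le_sum fun i hi => ?_)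
    obtain ⟨hi', hl⟩ := Finset.mem_filter.1 hi
    rw [he, abs_mul]
    refine (mul_le_mul (h.switch_fe hi') (pair_le (h.ap_piece i hi') (h.am_piece i hi') hm
      (fun y => switch_prof_abs hψ _) (ho i hi' hl).2) (abs_nonneg _) (by norm_num)).trans_eq ?_
    ring
  have h5 := h.small_le n
  rw [hL, h.switch_expand hU hC n]
  have h2' := (abs_le.1 h2).1
  have h3' := (abs_le.1 h3).1
  have h4' := (abs_le.1 h4).1
  linarith

theorem switch_inv_pow_le {n j : ℕ} (hj : n ≤ j) :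
    ((Lam : ℝ) ^ j)⁻¹ ≤ (1 / 2 : ℝ) ^ j / 2 ^ n := by
  have h1 : (2 : ℝ) ^ j * 2 ^ n ≤ (Lam : ℝ) ^ j := by
    calc (2 : ℝ) ^ j * 2 ^ n ≤ 2 ^ j * 2 ^ j := by
          gcongr; exact one_le_two
      _ = 4 ^ j := by rw [← mul_pow]; norm_num
      _ ≤ (Lam : ℝ) ^ j := by
          gcongr; norm_num [Lam]
  rw [one_div, inv_pow, div_eq_mul_inv, ← mul_inv]
  exact inv_anti₀ (by positivity) h1

theorem OK.switch_le (h : D.OK ρ f) {x p : E} {ψ φ : ℝ → ℝ} {r σ σ' η B : ℝ} {n : ℕ}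
    (hopt : Opt D.V ρ x r) (hψ : Prof ψ r σ) (hφ : Prof φ r σ)
    (hψρ : ∀ t, ρ < t → ψ t = 0) (hφρ : ∀ t, ρ < t → φ t = 0)
    (hRψ : D.R x ψ = 0) (hRφ : D.R x φ = 0)
    (hoψ : D.Osc ρ x ψ (n + 1) B) (hoφ : D.Osc ρ x φ (n + 1) B)
    (hp1 : ρ / (2 * Lam) ≤ ‖p - x‖) (hp2 : ‖p - x‖ ≤ 2 * ρ) (hσ' : 0 ≤ σ')
    (hfar : ∫ y in {y | |‖y - x‖ - r| ≤ σ} \ ball p σ', D.lam n y ≤ η) :
    |D.L f x ψ - D.L f x φ| ≤
      6 * Lam * σ' / ρ * (D.Pm x ψ + D.Pm x φ + 2 * 2 ^ n * D.Θ) + 24 * Lam * η +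
        96 * Lam * B + 24 * Lam * (D.Θ / 2 ^ n) := by
  obtain ⟨oψ, hoψ, hBψ⟩ := hoψ
  obtain ⟨oφ, hoφ, hBφ⟩ := hoφ
  have hρ := h.pos
  have hLam : (2 : ℝ) ≤ Lam := by norm_num [Lam]
  have hpx : 0 < ‖p - x‖ := lt_of_lt_of_le (by positivity) hp1
  obtain ⟨l1, l2, hl, hn⟩ := exists_sim f (norm_pos_iff.1 hpx)
  set K : ℝ := 6 * Lam / ρ with hK
  have hK0 : 0 ≤ K := by positivity
  have hS : ∀ y : E, ‖l1 • y + l2 • rot y‖ ≤ K * ‖y‖ := by
    intro y
    rw [hn]
    refine mul_le_mul_of_nonneg_right ?_ (norm_nonneg _)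
    rw [div_le_iff₀ hpx]
    refine h.f_le.trans ?_
    calc (3 : ℝ) = K * (ρ / (2 * Lam)) := by rw [hK]; field_simp; ring
      _ ≤ K * ‖p - x‖ := by gcongr
  set χ : ℝ → ℝ := fun t => ψ t - φ t with hχ
  have hχm : Measurable χ := hψ.1.sub hφ.1
  have hχ1 : ∀ t, |χ t| ≤ 1 := fun t => abs_le.2
    ⟨by simp only [hχ]; linarith [(hψ.2.1 t).1, (hφ.2.1 t).2],
      by simp only [hχ]; linarith [(hψ.2.1 t).2, (hφ.2.1 t).1]⟩
  have hχ2 : ∀ t, |χ t| ≤ ψ t + φ t := fun t => abs_le.2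
    ⟨by simp only [hχ]; linarith [(hψ.2.1 t).1], by simp only [hχ]; linarith [(hφ.2.1 t).1]⟩
  have hχρ : ∀ t, ρ < t → χ t = 0 := fun t ht => by simp [hχ, hψρ t ht, hφρ t ht]
  have hχρ' : ∀ t, χ t ≠ 0 → t ≤ ρ := fun t ht => not_lt.1 fun h' => ht (hχρ t h')
  have hχz : ∀ t, χ t ≠ 0 → |t - r| ≤ σ := by
    intro t ht
    rw [abs_le]
    constructor
    · by_contra h'
      exact ht (by simp [hχ, hψ.2.2.1 t (by linarith), hφ.2.2.1 t (by linarith)])
    · by_contra h'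
      exact ht (by simp [hχ, hψ.2.2.2 t (by linarith), hφ.2.2.2 t (by linarith)])
  set F : E → E := fun y => f - (l1 • (y - x) + l2 • rot (y - x)) with hF
  have hFd : ∀ y y', ‖F y - F y'‖ ≤ K * ‖y - y'‖ := by
    intro y y'
    have e : F y - F y' = l1 • (y' - y) + l2 • rot (y' - y) := by
      have : y' - y = (y' - x) - (y - x) := by abel
      rw [this, rot_sub (y' - x)]
      simp only [hF]
      module
    rw [e, norm_sub_rev y]
    exact hS _
  have hFp : ∀ y, ‖F y‖ ≤ K * ‖y - p‖ := by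
    intro y
    have : F p = 0 := by simp only [hF]; rw [hl, sub_self]
    simpa [this] using hFd y p
  have hyp : ∀ y, ‖y - p‖ ≤ ‖y - x‖ + 2 * ρ := by
    intro y
    have := norm_sub_le_norm_sub_add_norm_sub y x p
    rw [norm_sub_rev x p] at this
    linarith
  have hKρ : K * ρ = 6 * Lam := by rw [hK]; field_simp
  have hF4 : ∀ y, ‖y - x‖ ≤ 2 * ρ → ‖F y‖ ≤ 24 * Lam := by
    intro y hy
    calc ‖F y‖ ≤ K * ‖y - p‖ := hFp y
      _ ≤ K * (4 * ρ) := by gcongr; linarith [hyp y]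
      _ = 24 * Lam := by rw [mul_left_comm, hKρ]; ring
  have hxm : Measurable fun y : E => y - x := measurable_id.sub_const x
  have hrm : Measurable fun y : E => rot (y - x) := continuous_rot.measurable.comp hxm
  have hm := switch_meas_prof hχm x
  have hFm : Measurable F := ((hxm.const_smul l1).add (hrm.const_smul l2)).const_sub f
  have hU : Measurable fun y => χ ‖y - x‖ • F y := hm.smul hFm
  have hbd : ∀ (G : E → E) (C : ℝ), 0 ≤ C → (∀ y, ‖y - x‖ ≤ ρ → ‖G y‖ ≤ C) →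
      ∀ y, ‖χ ‖y - x‖ • G y‖ ≤ C := by
    intro G C hC hG y
    by_cases hy : χ ‖y - x‖ = 0
    · simp [hy, hC]
    · rw [norm_smul, Real.norm_eq_abs]
      exact (mul_le_of_le_one_left (norm_nonneg _) (hχ1 _)).trans (hG y (hχρ' _ hy))
  have hC : ∀ y, ‖χ ‖y - x‖ • F y‖ ≤ 24 * Lam :=
    hbd F _ (by positivity) fun y hy => hF4 y (by linarith)
  -- the difference of the two functionals
  have hdiff : D.L f x ψ - D.L f x φ = ∫ y, ⟪χ ‖y - x‖ • F y, D.V y⟫ := by
    have hV := h.integrable_V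
    have key : ∀ (G : E → E) (C : ℝ), Measurable G → (∀ y, ‖y - x‖ ≤ ρ → ‖G y‖ ≤ C) → 0 ≤ C →
        ∀ θ : ℝ → ℝ, Measurable θ → (∀ t, |θ t| ≤ 1) → (∀ t, ρ < t → θ t = 0) →
        Integrable fun y => θ ‖y - x‖ * ⟪G y, D.V y⟫ := by
      intro G C hG hGC hC0 θ hθ hθ1 hθρ
      have := switch_int_inner (U := fun y => θ ‖y - x‖ • G y)
        ((switch_meas_prof hθ x).smul hG) (C := C) (fun y => by
        by_cases hy : ρ < ‖y - x‖
        · simp [hθρ _ hy, hC0]
        · rw [norm_smul, Real.norm_eq_abs]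
          exact (mul_le_of_le_one_left (norm_nonneg _) (hθ1 _)).trans (hGC y (not_lt.1 hy))) hV
      simpa only [real_inner_smul_left] using this
    have kf := key (fun _ => f) ‖f‖ measurable_const (fun _ _ => le_rfl) (norm_nonneg _)
    have kx := key (fun y => y - x) ρ hxm (fun _ hy => hy) hρ.le
    have kr := key (fun y => rot (y - x)) ρ hrm (fun _ hy => by rwa [norm_rot]) hρ.le
    have e1 : D.L f x ψ - D.L f x φ = ∫ y, χ ‖y - x‖ * ⟪f, D.V y⟫ := by
      rw [L, L, ← integral_sub (kf ψ hψ.1 (switch_prof_abs hψ) hψρ)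
        (kf φ hφ.1 (switch_prof_abs hφ) hφρ)]
      congr 1; funext y; simp only [hχ]; ring
    have e2 : ∫ y, χ ‖y - x‖ * ⟪y - x, D.V y⟫ = 0 := by
      rw [← sub_self (0 : ℝ)]
      nth_rewrite 1 [← hRψ]
      rw [← hRφ, R, R, ← integral_sub (kx ψ hψ.1 (switch_prof_abs hψ) hψρ)
        (kx φ hφ.1 (switch_prof_abs hφ) hφρ)]
      congr 1; funext y; simp only [hχ]; ring
    have e3 := hopt.rot0 χ hχm hχ1 hχρ
    have e4 : ∫ y, ⟪χ ‖y - x‖ • F y, D.V y⟫ = (∫ y, χ ‖y - x‖ * ⟪f, D.V y⟫) -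
        ((l1 * ∫ y, χ ‖y - x‖ * ⟪y - x, D.V y⟫) + l2 * ∫ y, χ ‖y - x‖ * ⟪rot (y - x), D.V y⟫) := by
      rw [← integral_const_mul, ← integral_const_mul,
        ← integral_add ((kx χ hχm hχ1 hχρ).const_mul _) ((kr χ hχm hχ1 hχρ).const_mul _),
        ← integral_sub (kf χ hχm hχ1 hχρ)
          (switch_iadd ((kx χ hχm hχ1 hχρ).const_mul _) ((kr χ hχm hχ1 hχρ).const_mul _))]
      congr 1; funext y
      simp only [hF, real_inner_smul_left, inner_sub_left f, inner_add_left]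
      ring
    rw [e1, e4, e2, e3]; ring
  -- the low part
  have hZ : MeasurableSet ({y : E | |‖y - x‖ - r| ≤ σ} \ ball p σ') :=
    (measurableSet_le (hxm.norm.sub_const r).abs measurable_const).diff measurableSet_ball
  have hrest := switch_iadd h.N_int.norm (h.switch_int_low n)
  have hlow : ∫ y, ‖χ ‖y - x‖ • F y‖ * D.lam n y ≤
      K * σ' * (D.Pm x ψ + D.Pm x φ + 2 * 2 ^ n * D.Θ) + 24 * Lam * η := by
    have i1 := switch_iadd (switch_iadd (h.switch_int_Pm x hψ) (h.switch_int_Pm x hφ)) hrest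
    have i2 := (h.integrable_lam n).indicator hZ
    calc _ ≤ ∫ y, (K * σ' * (ψ ‖y - x‖ * ‖D.P y‖ + φ ‖y - x‖ * ‖D.P y‖ +
            (‖D.N y‖ + ∑ i ∈ D.I.filter (fun i => D.lev i ≤ n), (D.ap i y + D.am i y))) +
            24 * Lam * ({y : E | |‖y - x‖ - r| ≤ σ} \ ball p σ').indicator (D.lam n) y) := by
          refine integral_mono (switch_int_mul hU.norm (C := 24 * Lam) (fun y => by
            rw [abs_norm]; exact hC y) (h.integrable_lam n))
            ((i1.const_mul _).add (i2.const_mul _)) fun y => ?_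
          have a1 := h.switch_low_nonneg n y
          have a2 := h.lam_nonneg n y
          have a3 : 0 ≤ ψ ‖y - x‖ * ‖D.P y‖ + φ ‖y - x‖ * ‖D.P y‖ +
              (‖D.N y‖ + ∑ i ∈ D.I.filter (fun i => D.lev i ≤ n), (D.ap i y + D.am i y)) :=
            add_nonneg (add_nonneg (mul_nonneg (hψ.2.1 _).1 (norm_nonneg _))
              (mul_nonneg (hφ.2.1 _).1 (norm_nonneg _))) (add_nonneg (norm_nonneg _) a1)
          have a4 : 0 ≤ ({y : E | |‖y - x‖ - r| ≤ σ} \ ball p σ').indicator (D.lam n) y :=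
            indicator_nonneg (fun y _ => h.lam_nonneg n y) y
          by_cases hb : y ∈ ball p σ'
          · refine le_add_of_le_of_nonneg ?_ (by positivity)
            have b1 : ‖F y‖ ≤ K * σ' := (hFp y).trans (by
              rw [mem_ball, dist_eq_norm] at hb
              exact mul_le_mul_of_nonneg_left hb.le hK0)
            have b2 : |χ ‖y - x‖| * D.lam n y ≤ ψ ‖y - x‖ * ‖D.P y‖ + φ ‖y - x‖ * ‖D.P y‖ +
                (‖D.N y‖ + ∑ i ∈ D.I.filter (fun i => D.lev i ≤ n), (D.ap i y + D.am i y)) := by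
              rw [lam, add_assoc, mul_add, ← add_mul]
              exact add_le_add (mul_le_mul_of_nonneg_right (hχ2 _) (norm_nonneg _))
                (mul_le_of_le_one_left (add_nonneg (norm_nonneg _) a1) (hχ1 _))
            simp only [norm_smul, Real.norm_eq_abs]
            calc _ = ‖F y‖ * (|χ ‖y - x‖| * D.lam n y) := by ring
              _ ≤ _ := mul_le_mul b1 b2 (by positivity) (by positivity)
          · refine le_add_of_nonneg_of_le (by positivity) ?_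
            by_cases hy : χ ‖y - x‖ = 0
            · simp only [hy, zero_smul, norm_zero, zero_mul]; positivity
            · rw [indicator_of_mem (show y ∈ {y : E | |‖y - x‖ - r| ≤ σ} \ ball p σ' from
                ⟨hχz _ hy, hb⟩)]
              exact mul_le_mul_of_nonneg_right (hC y) a2
      _ = K * σ' * (D.Pm x ψ + D.Pm x φ + ∫ y, (‖D.N y‖ +
            ∑ i ∈ D.I.filter (fun i => D.lev i ≤ n), (D.ap i y + D.am i y))) +
            24 * Lam * ∫ y in {y : E | |‖y - x‖ - r| ≤ σ} \ ball p σ', D.lam n y := by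
          rw [integral_add (i1.const_mul _) (i2.const_mul _), integral_const_mul,
            integral_const_mul, integral_indicator hZ,
            integral_add (switch_iadd (h.switch_int_Pm x hψ) (h.switch_int_Pm x hφ)) hrest,
            integral_add (h.switch_int_Pm x hψ) (h.switch_int_Pm x hφ)]
          rfl
      _ ≤ _ := by
          have := h.switch_rest_le n
          gcongr
  -- the high part
  have hhigh : |∑ i ∈ D.I.filter (fun i => n + 1 ≤ D.lev i),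
      ∫ y, ⟪χ ‖y - x‖ • F y, D.e i⟫ * (D.ap i y - D.am i y)| ≤
      96 * Lam * B + 24 * Lam * (D.Θ / 2 ^ n) := by
    have hone : ∀ i ∈ D.I.filter (fun i => n + 1 ≤ D.lev i),
        |∫ y, ⟪χ ‖y - x‖ • F y, D.e i⟫ * (D.ap i y - D.am i y)| ≤
        48 * Lam * (D.d i * oψ i) + 48 * Lam * (D.d i * oφ i) +
          24 * Lam / 2 ^ n * ((1 / 2 : ℝ) ^ D.lev i * D.d i) := by
      intro i hi
      obtain ⟨hi', hl'⟩ := Finset.mem_filter.1 hi
      have hpow : (2 : ℝ) ≤ (Lam : ℝ) ^ D.lev i :=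
        hLam.trans (le_self_pow₀ (by linarith) (by omega))
      have hpair := pair_le (u := fun y => ⟪χ ‖y - x‖ • F y, D.e i⟫) (C := 24 * Lam * ‖D.e i‖)
        (o := 24 * Lam * (oψ i + oφ i) + 12 * Lam * ((1 / 2 : ℝ) ^ D.lev i / 2 ^ n))
        (h.ap_piece i hi') (h.am_piece i hi') hU.inner_const
        (fun y => (abs_real_inner_le_norm _ _).trans
          (mul_le_mul_of_nonneg_right (hC y) (norm_nonneg _))) fun y hy => by
        have c1 : ‖y - D.c i‖ ≤ 2 * (ρ / (Lam : ℝ) ^ D.lev i) :=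
          (norm_le_two_dinf _ _).trans (by linarith)
        have c2 : 2 * (ρ / (Lam : ℝ) ^ D.lev i) ≤ ρ := by
          rw [mul_div_assoc', div_le_iff₀ (by positivity)]
          nlinarith
        have c3 : |χ ‖y - x‖ - χ ‖D.c i - x‖| ≤ oψ i + oφ i := by
          have e : χ ‖y - x‖ - χ ‖D.c i - x‖ =
              (ψ ‖y - x‖ - ψ ‖D.c i - x‖) - (φ ‖y - x‖ - φ ‖D.c i - x‖) := by
            simp only [hχ]; ring
          rw [e]
          exact (abs_sub _ _).trans (add_le_add ((hoψ i hi' hl').2 y hy) ((hoφ i hi' hl').2 y hy))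
        have c4 : |χ ‖y - x‖ - χ ‖D.c i - x‖| * ‖F y‖ ≤ 24 * Lam * (oψ i + oφ i) := by
          by_cases hc : χ ‖y - x‖ - χ ‖D.c i - x‖ = 0
          · rw [hc, abs_zero, zero_mul]
            have := (hoψ i hi' hl').1
            have := (hoφ i hi' hl').1
            positivity
          · have hy2 : ‖y - x‖ ≤ 2 * ρ := by
              by_cases h1 : χ ‖y - x‖ = 0
              · have h2 : χ ‖D.c i - x‖ ≠ 0 := fun h2 => hc (by rw [h1, h2, sub_self])
                have := hχρ' _ h2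
                have := norm_sub_le_norm_sub_add_norm_sub y (D.c i) x
                linarith
              · linarith [hχρ' _ h1]
            rw [mul_comm]
            exact mul_le_mul (hF4 y hy2) c3 (abs_nonneg _) (by positivity)
        have c5 : |χ ‖D.c i - x‖| * ‖F y - F (D.c i)‖ ≤
            12 * Lam * ((1 / 2 : ℝ) ^ D.lev i / 2 ^ n) := by
          refine (mul_le_of_le_one_left (norm_nonneg _) (hχ1 _)).trans ((hFd _ _).trans ?_)
          calc K * ‖y - D.c i‖ ≤ K * (2 * (ρ / (Lam : ℝ) ^ D.lev i)) := by gcongr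
            _ = 2 * (K * ρ) * ((Lam : ℝ) ^ D.lev i)⁻¹ := by ring
            _ = 12 * Lam * ((Lam : ℝ) ^ D.lev i)⁻¹ := by rw [hKρ]; ring
            _ ≤ _ := by
              gcongr
              exact switch_inv_pow_le (by omega)
        have e : χ ‖y - x‖ • F y - χ ‖D.c i - x‖ • F (D.c i) =
            (χ ‖y - x‖ - χ ‖D.c i - x‖) • F y + χ ‖D.c i - x‖ • (F y - F (D.c i)) := by module
        rw [← inner_sub_left, e]
        refine (abs_real_inner_le_norm _ _).trans ((mul_le_of_le_one_right (norm_nonneg _)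
          (h.e_le i hi')).trans ((norm_add_le _ _).trans ?_))
        rw [norm_smul, norm_smul, Real.norm_eq_abs, Real.norm_eq_abs]
        exact add_le_add c4 c5
      refine hpair.trans_eq ?_
      ring
    refine (Finset.abs_sum_le_sum_abs _ _).trans ((Finset.sum_le_sum hone).trans ?_)
    rw [Finset.sum_add_distrib, Finset.sum_add_distrib, ← Finset.mul_sum, ← Finset.mul_sum,
      ← Finset.mul_sum]
    have hs : ∑ i ∈ D.I.filter (fun i => n + 1 ≤ D.lev i), (1 / 2 : ℝ) ^ D.lev i * D.d i ≤ D.Θ :=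
      (Finset.sum_le_sum_of_subset_of_nonneg (Finset.filter_subset _ _)
        fun i hi _ => mul_nonneg (by positivity) (h.d_nonneg hi)).trans h.sum_d_le
    calc _ ≤ 48 * Lam * B + 48 * Lam * B + 24 * Lam / 2 ^ n * D.Θ := by gcongr
      _ = _ := by ring
  rw [hdiff, h.switch_expand hU hC n]
  have h1 := (h.switch_low_le hU hC n).trans hlow
  have e : 6 * Lam * σ' / ρ = K * σ' := by rw [hK]; ring
  rw [e]
  exact (abs_add_le _ _).trans (by linarith)

end FSData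

end Crest.Agent.R112
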