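import Crest.Agent.R112.Grid1

/-!
# R112/TreePt: the algebra of the tree lemma (finite sums of reals)

`rmin w a j = min (w a, ..., w (a+j))`, `mn w a k = min_{a ≤ i ≤ k} w i`,
`om w a k = mn w a k - mn w (a-1) k` (with `mn w (-1) k = 0`).
Facts: `mn w k k = w k`; `mn w a (k+1) = min (mn w a k) (w (k+1))` and
`mn w a k = min (w a) (mn w (a+1) k)` for `a < k`; so `om w (a+1) k = max (mn w (a+1) k - w a) 0` is
nonnegative and nonincreasing in `k`, and `∑_{a ≤ k} om w a k = w k` (telescoping).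

`tree_pt`: put `η a j = om w a j - om w a (j+1)` for `j < K`, `η a K = om w a K`; `η ≥ 0` and
`om w a k = ∑_{k ≤ j ≤ K} η a j`. Then
`w κ * |q| = ∑_{a ≤ κ} ∑_{j ≥ κ} η a j * |p a j| ≤ ∑_{a ≤ K} ∑_{a ≤ j ≤ K} η a j * (p a j + 2 ng (p a j))`.
Negative parts: `∑_a ∑_j η a j * ∑_{a ≤ k ≤ j} n k = ∑_k n k * ∑_{a ≤ k} om w a k = ∑_k w k * n k`.
Signed part (summation by parts in `j`):
`∑_{a ≤ j ≤ K} η a j * p a j = om w a a * p a a + ∑_{a ≤ k < K} om w a (k+1) * (p a (k+1) - p a k)`,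
and `om w a a * p a a ≤ ad a * p a a + w a * n a` because `0 ≤ om w a a ≤ ad a ≤ w a` and
`ng (p a a) ≤ n a`.

`abel_a`: summation by parts in `a`.
-/

namespace Crest.Agent.R112

open MeasureTheory Metric Set Filter Topology
open scoped RealInnerProductSpace NNReal

/-- running minimum `min (w a, ..., w (a + j))` -/
noncomputable def rmin (w : ℕ → ℝ) (a : ℕ) : ℕ → ℝ
  | 0 => w a
  | (j + 1) => min (rmin w a j) (w (a + j + 1))

/-- running maximum `max (w a, ..., w (a + j))` -/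
noncomputable def rmax (w : ℕ → ℝ) (a : ℕ) : ℕ → ℝ
  | 0 => w a
  | (j + 1) => max (rmax w a j) (w (a + j + 1))

/-- `min_{a ≤ i ≤ k} w i` -/
noncomputable def mn (w : ℕ → ℝ) (a k : ℕ) : ℝ := rmin w a (k - a)
/-- `max_{a ≤ i ≤ k} w i` -/
noncomputable def mxx (w : ℕ → ℝ) (a k : ℕ) : ℝ := rmax w a (k - a)

/-- the part of the weight of level `k` that was created at level `a` -/
noncomputable def om (w : ℕ → ℝ) : ℕ → ℕ → ℝ
  | 0, k => mn w 0 k
  | (a + 1), k => mn w (a + 1) k - mn w a k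

theorem mn_self (w : ℕ → ℝ) (k : ℕ) : mn w k k = w k := by simp [mn, rmin]
theorem mn_succ (w : ℕ → ℝ) {a k : ℕ} (h : a ≤ k) :
    mn w a (k + 1) = min (mn w a k) (w (k + 1)) := by
  obtain ⟨j, rfl⟩ := Nat.exists_eq_add_of_le h
  have e1 : a + j + 1 - a = j + 1 := by omega
  have e2 : a + j - a = j := by omega
  simp only [mn, e1, e2, rmin]
theorem mxx_self (w : ℕ → ℝ) (k : ℕ) : mxx w k k = w k := by simp [mxx, rmax]
theorem mxx_succ (w : ℕ → ℝ) {a k : ℕ} (h : a ≤ k) :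
    mxx w a (k + 1) = max (mxx w a k) (w (k + 1)) := by
  obtain ⟨j, rfl⟩ := Nat.exists_eq_add_of_le h
  have e1 : a + j + 1 - a = j + 1 := by omega
  have e2 : a + j - a = j := by omega
  simp only [mxx, e1, e2, rmax]
theorem le_mxx (w : ℕ → ℝ) {a i k : ℕ} (h : a ≤ i) (h' : i ≤ k) : w i ≤ mxx w a k := by
  induction k, h' using Nat.le_induction with
  | base =>
    rcases eq_or_lt_of_le h with rfl | hlt
    · rw [mxx_self]
    · obtain ⟨j, rfl⟩ : ∃ j, i = j + 1 := ⟨i - 1, by omega⟩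
      rw [mxx_succ w (by omega)]; exact le_max_right _ _
  | succ k hk ih => rw [mxx_succ w (by omega)]; exact ih.trans (le_max_left _ _)
theorem exists_mxx_eq (w : ℕ → ℝ) {a k : ℕ} (h : a ≤ k) :
    ∃ i, a ≤ i ∧ i ≤ k ∧ mxx w a k = w i := by
  induction k, h using Nat.le_induction with
  | base => exact ⟨a, le_rfl, le_rfl, mxx_self w a⟩
  | succ k hk ih =>
    obtain ⟨i, h1, h2, h3⟩ := ih
    rw [mxx_succ w hk]
    rcases le_total (mxx w a k) (w (k + 1)) with h | h
    · exact ⟨k + 1, by omega, le_rfl, max_eq_right h⟩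
    · exact ⟨i, h1, by omega, (max_eq_left h).trans h3⟩
theorem mxx_anti (w : ℕ → ℝ) {a k : ℕ} (h : a + 1 ≤ k) : mxx w (a + 1) k ≤ mxx w a k := by
  obtain ⟨i, h1, h2, h3⟩ := exists_mxx_eq w h
  rw [h3]; exact le_mxx w (by omega) h2
/-- the running minimum is `1`-Lipschitz for the sup norm -/
theorem abs_mn_sub_le {w w' : ℕ → ℝ} {a k : ℕ} (h : a ≤ k) {B : ℝ}
    (H : ∀ i, a ≤ i → i ≤ k → |w i - w' i| ≤ B) : |mn w a k - mn w' a k| ≤ B := by
  induction k, h using Nat.le_induction with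
  | base => rw [mn_self, mn_self]; exact H a le_rfl le_rfl
  | succ k hk ih =>
    rw [mn_succ w hk, mn_succ w' hk]
    exact (abs_min_sub_min_le_max _ _ _ _).trans
      (max_le (ih fun i h1 h2 => H i h1 (by omega)) (H _ (by omega) le_rfl))
theorem abs_mxx_sub_le {w w' : ℕ → ℝ} {a k : ℕ} (h : a ≤ k) {B : ℝ}
    (H : ∀ i, a ≤ i → i ≤ k → |w i - w' i| ≤ B) : |mxx w a k - mxx w' a k| ≤ B := by
  induction k, h using Nat.le_induction with
  | base => rw [mxx_self, mxx_self]; exact H a le_rfl le_rfl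
  | succ k hk ih =>
    rw [mxx_succ w hk, mxx_succ w' hk]
    exact (abs_max_sub_max_le_max _ _ _ _).trans
      (max_le (ih fun i h1 h2 => H i h1 (by omega)) (H _ (by omega) le_rfl))
theorem mn_mem {w : ℕ → ℝ} {a k : ℕ} (h : a ≤ k) (H : ∀ i, a ≤ i → i ≤ k → 0 ≤ w i ∧ w i ≤ 1) :
    0 ≤ mn w a k ∧ mn w a k ≤ 1 := by
  induction k, h using Nat.le_induction with
  | base => rw [mn_self]; exact H a le_rfl le_rfl
  | succ k hk ih =>
    rw [mn_succ w hk]
    have a1 := ih fun i h1 h2 => H i h1 (by omega)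
    have a2 := H (k + 1) (by omega) le_rfl
    exact ⟨le_min a1.1 a2.1, (min_le_left _ _).trans a1.2⟩

namespace TreePtAux

open Finset

theorem mn_left (w : ℕ → ℝ) {a k : ℕ} (h : a + 1 ≤ k) :
    mn w a k = min (w a) (mn w (a + 1) k) := by
  induction k, h using Nat.le_induction with
  | base => rw [mn_succ w le_rfl, mn_self, mn_self]
  | succ k hk ih => rw [mn_succ w (by omega), mn_succ w hk, ih, min_assoc]

theorem mn_nonneg {w : ℕ → ℝ} {a k : ℕ} (h : a ≤ k) (H : ∀ i ≤ k, 0 ≤ w i) : 0 ≤ mn w a k := by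
  induction k, h using Nat.le_induction with
  | base => rw [mn_self]; exact H a le_rfl
  | succ k hk ih =>
    rw [mn_succ w hk]
    exact le_min (ih fun i hi => H i (by omega)) (H _ le_rfl)

theorem om_succ (w : ℕ → ℝ) {a k : ℕ} (h : a + 1 ≤ k) :
    om w (a + 1) k = max (mn w (a + 1) k - w a) 0 := by
  simp only [om]
  rw [mn_left w h]
  rcases le_total (w a) (mn w (a + 1) k) with h1 | h1
  · rw [min_eq_left h1, max_eq_left (by linarith)]
  · rw [min_eq_right h1, max_eq_right (by linarith)]; ring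

theorem om_nonneg {w : ℕ → ℝ} {a k : ℕ} (h : a ≤ k) (H : ∀ i ≤ k, 0 ≤ w i) : 0 ≤ om w a k := by
  cases a with
  | zero => exact mn_nonneg h H
  | succ a => rw [om_succ w h]; exact le_max_right _ _

theorem om_anti (w : ℕ → ℝ) {a k : ℕ} (h : a ≤ k) : om w a (k + 1) ≤ om w a k := by
  have : mn w a (k + 1) ≤ mn w a k := by rw [mn_succ w h]; exact min_le_left _ _
  cases a with
  | zero => exact this
  | succ a =>
    rw [om_succ w h, om_succ w (by omega)]
    exact max_le_max (by linarith) le_rfl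

theorem sum_om (w : ℕ → ℝ) (a k : ℕ) : ∑ i ∈ range (a + 1), om w i k = mn w a k := by
  induction a with
  | zero => simp [om]
  | succ a ih => rw [sum_range_succ, ih]; simp [om]

/-- the weights `η` -/
noncomputable def eta (w : ℕ → ℝ) (K a j : ℕ) : ℝ :=
  if j < K then om w a j - om w a (j + 1) else om w a j

theorem eta_nonneg {w : ℕ → ℝ} {K a j : ℕ} (h : a ≤ j) (hj : j ≤ K) (H : ∀ i ≤ K, 0 ≤ w i) :
    0 ≤ eta w K a j := by
  unfold eta
  split_ifs
  · linarith [om_anti w h]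
  · exact om_nonneg h fun i hi => H i (by omega)

theorem abel_eta (w : ℕ → ℝ) (K a : ℕ) (f : ℕ → ℝ) {k : ℕ} (hk : k ≤ K) :
    ∑ j ∈ Finset.Icc k K, eta w K a j * f j =
      om w a k * f k + ∑ j ∈ Finset.Ico k K, om w a (j + 1) * (f (j + 1) - f j) := by
  induction hk using Nat.decreasingInduction with
  | self => simp [eta]
  | of_succ k hk ih =>
    rw [← Finset.insert_Icc_succ_left_eq_Icc hk.le, ← Finset.insert_Ico_succ_left_eq_Ico hk,
      sum_insert (by simp), sum_insert (by simp)]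
    simp only [Order.succ_eq_add_one]
    rw [ih]
    simp only [eta, if_pos hk]
    ring

theorem sum_eta (w : ℕ → ℝ) (K a : ℕ) {k : ℕ} (hk : k ≤ K) :
    ∑ j ∈ Finset.Icc k K, eta w K a j = om w a k := by
  simpa using abel_eta w K a (fun _ => 1) hk

theorem main (K : ℕ) (w ad n : ℕ → ℝ) (p : ℕ → ℕ → ℝ)
    (hw : ∀ k ≤ K, 0 ≤ w k) (had : ∀ k ≤ K, 0 ≤ ad k ∧ ad k ≤ w k) (had0 : ad 0 = w 0)
    (hadS : ∀ k < K, w (k + 1) - w k ≤ ad (k + 1)) (hn : ∀ k ≤ K, 0 ≤ n k)
    (hp : ∀ a j, a ≤ j → j ≤ K → ng (p a j) ≤ ∑ k ∈ Finset.Icc a j, n k) :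
    ∑ a ∈ range (K + 1), ∑ j ∈ Finset.Icc a K, eta w K a j * |p a j| ≤
      3 * ∑ k ∈ Finset.range (K + 1), w k * n k +
      ∑ a ∈ Finset.range (K + 1), ad a * p a a +
      ∑ k ∈ Finset.range K, ∑ a ∈ Finset.range (k + 1),
        om w a (k + 1) * (p a (k + 1) - p a k) := by
  have habs : ∀ x : ℝ, |x| = x + 2 * ng x := by
    intro x
    unfold ng
    rcases le_total 0 x with h | h
    · rw [abs_of_nonneg h, max_eq_right (by linarith)]; ring
    · rw [abs_of_nonpos h, max_eq_left (by linarith)]; ring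
  -- negative parts
  have h1 : ∑ a ∈ range (K + 1), ∑ j ∈ Finset.Icc a K, eta w K a j * ∑ k ∈ Finset.Icc a j, n k =
      ∑ k ∈ range (K + 1), w k * n k := by
    have e1 : ∀ a ∈ range (K + 1), ∑ j ∈ Finset.Icc a K, eta w K a j * ∑ k ∈ Finset.Icc a j, n k =
        ∑ k ∈ Finset.Icc a K, om w a k * n k := by
      intro a _
      simp only [mul_sum]
      rw [sum_comm' (t' := Finset.Icc a K) (s' := fun k => Finset.Icc k K)
        (by intro j k; simp only [Finset.mem_Icc]; omega)]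
      refine sum_congr rfl fun k hk => ?_
      rw [← sum_mul, sum_eta w K a (Finset.mem_Icc.1 hk).2]
    rw [sum_congr rfl e1, sum_comm' (t' := range (K + 1)) (s' := fun k => range (k + 1))
      (by intro a k; simp only [Finset.mem_Icc, Finset.mem_range]; omega)]
    refine sum_congr rfl fun k _ => ?_
    rw [← sum_mul, sum_om, mn_self]
  -- signed part
  have h2 : ∑ a ∈ range (K + 1), ∑ j ∈ Finset.Icc a K, eta w K a j * p a j =
      ∑ a ∈ range (K + 1), om w a a * p a a + ∑ k ∈ Finset.range K, ∑ a ∈ Finset.range (k + 1),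
        om w a (k + 1) * (p a (k + 1) - p a k) := by
    rw [sum_congr rfl fun a ha => abel_eta w K a (p a) (by simpa [Nat.lt_succ_iff] using ha),
      sum_add_distrib, sum_comm' (t' := range K) (s' := fun k => range (k + 1))
      (by intro a k; simp only [Finset.mem_Ico, Finset.mem_range]; omega)]
  have h3 : ∑ a ∈ range (K + 1), om w a a * p a a ≤
      ∑ a ∈ range (K + 1), ad a * p a a + ∑ a ∈ range (K + 1), w a * n a := by
    rw [← sum_add_distrib]
    refine sum_le_sum fun a ha => ?_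
    have ha' : a ≤ K := by simpa [Nat.lt_succ_iff] using ha
    have o0 : 0 ≤ om w a a := om_nonneg le_rfl fun i hi => hw i (by omega)
    have o1 : om w a a ≤ ad a := by
      cases a with
      | zero => simp only [om]; rw [mn_self, had0]
      | succ a =>
        rw [om_succ w le_rfl, mn_self]
        exact max_le (hadS a (by omega)) (had _ ha').1
    have o2 := (had a ha').2
    have o3 := hp a a le_rfl ha'
    simp only [Finset.Icc_self, sum_singleton] at o3
    have o4 : -p a a ≤ n a := le_trans (le_max_left _ _) o3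
    have o5 := hn a ha'
    nlinarith [mul_nonneg (sub_nonneg.2 o1) (show 0 ≤ n a + p a a by linarith),
      mul_nonneg (show 0 ≤ w a - (ad a - om w a a) by linarith) o5]
  have h4 : ∑ a ∈ range (K + 1), ∑ j ∈ Finset.Icc a K, eta w K a j * |p a j| ≤
      ∑ a ∈ range (K + 1), ∑ j ∈ Finset.Icc a K, eta w K a j * p a j +
        2 * ∑ a ∈ range (K + 1), ∑ j ∈ Finset.Icc a K,
          eta w K a j * ∑ k ∈ Finset.Icc a j, n k := by
    rw [mul_sum, ← sum_add_distrib]
    refine sum_le_sum fun a _ => ?_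
    rw [mul_sum, ← sum_add_distrib]
    refine sum_le_sum fun j hj => ?_
    have hj' := Finset.mem_Icc.1 hj
    have e0 := eta_nonneg hj'.1 hj'.2 hw
    have := mul_le_mul_of_nonneg_left (hp a j hj'.1 hj'.2) e0
    rw [habs]
    linarith
  linarith

end TreePtAux

theorem tree_pt (K κ : ℕ) (hκ : κ ≤ K) (w ad n : ℕ → ℝ) (p : ℕ → ℕ → ℝ) (q : ℝ)
    (hw : ∀ k ≤ K, 0 ≤ w k) (had : ∀ k ≤ K, 0 ≤ ad k ∧ ad k ≤ w k) (had0 : ad 0 = w 0)
    (hadS : ∀ k < K, w (k + 1) - w k ≤ ad (k + 1)) (hn : ∀ k ≤ K, 0 ≤ n k)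
    (hq : ∀ a j, a ≤ κ → κ ≤ j → j ≤ K → p a j = q)
    (hp : ∀ a j, a ≤ j → j ≤ K → ng (p a j) ≤ ∑ k ∈ Finset.Icc a j, n k) :
    w κ * |q| ≤ 3 * ∑ k ∈ Finset.range (K + 1), w k * n k +
      ∑ a ∈ Finset.range (K + 1), ad a * p a a +
      ∑ k ∈ Finset.range K, ∑ a ∈ Finset.range (k + 1),
        om w a (k + 1) * (p a (k + 1) - p a k) := by
  refine le_trans ?_ (TreePtAux.main K w ad n p hw had had0 hadS hn hp)
  have hnn : ∀ a j, j ∈ Finset.Icc a K → 0 ≤ TreePtAux.eta w K a j * |p a j| := fun a j hj =>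
    mul_nonneg (TreePtAux.eta_nonneg (Finset.mem_Icc.1 hj).1 (Finset.mem_Icc.1 hj).2 hw)
      (abs_nonneg _)
  calc w κ * |q| = ∑ a ∈ Finset.range (κ + 1), ∑ j ∈ Finset.Icc κ K,
        TreePtAux.eta w K a j * |p a j| := by
        rw [← mn_self w κ, ← TreePtAux.sum_om, Finset.sum_mul]
        refine Finset.sum_congr rfl fun a ha => ?_
        rw [← TreePtAux.sum_eta w K a hκ, Finset.sum_mul]
        refine Finset.sum_congr rfl fun j hj => ?_
        rw [hq a j (by simpa [Nat.lt_succ_iff] using ha) (Finset.mem_Icc.1 hj).1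
          (Finset.mem_Icc.1 hj).2]
    _ ≤ ∑ a ∈ Finset.range (κ + 1), ∑ j ∈ Finset.Icc a K, TreePtAux.eta w K a j * |p a j| := by
        refine Finset.sum_le_sum fun a ha => ?_
        have ha' : a ≤ κ := by simpa [Nat.lt_succ_iff] using ha
        exact Finset.sum_le_sum_of_subset_of_nonneg (Finset.Icc_subset_Icc_left ha')
          fun j hj _ => hnn a j hj
    _ ≤ _ := Finset.sum_le_sum_of_subset_of_nonneg (Finset.range_subset_range.2 (by omega))
          fun a _ _ => Finset.sum_nonneg fun j hj => hnn a j hj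

/-- the same right-hand side is nonnegative (points that belong to no `X k`): run the proof of
`tree_pt` from `0 ≤ ∑ η a j * |p a j|` -/
theorem tree_pt0 (K : ℕ) (w ad n : ℕ → ℝ) (p : ℕ → ℕ → ℝ)
    (hw : ∀ k ≤ K, 0 ≤ w k) (had : ∀ k ≤ K, 0 ≤ ad k ∧ ad k ≤ w k) (had0 : ad 0 = w 0)
    (hadS : ∀ k < K, w (k + 1) - w k ≤ ad (k + 1)) (hn : ∀ k ≤ K, 0 ≤ n k)
    (hp : ∀ a j, a ≤ j → j ≤ K → ng (p a j) ≤ ∑ k ∈ Finset.Icc a j, n k) :
    0 ≤ 3 * ∑ k ∈ Finset.range (K + 1), w k * n k +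
      ∑ a ∈ Finset.range (K + 1), ad a * p a a +
      ∑ k ∈ Finset.range K, ∑ a ∈ Finset.range (k + 1),
        om w a (k + 1) * (p a (k + 1) - p a k) :=
  le_trans (Finset.sum_nonneg fun a _ => Finset.sum_nonneg fun j hj =>
    mul_nonneg (TreePtAux.eta_nonneg (Finset.mem_Icc.1 hj).1 (Finset.mem_Icc.1 hj).2 hw)
      (abs_nonneg _)) (TreePtAux.main K w ad n p hw had had0 hadS hn hp)

theorem abel_a (w : ℕ → ℝ) (k : ℕ) (δ : ℕ → ℝ) :
    ∑ a ∈ Finset.range (k + 1), om w a (k + 1) * δ a =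
      mn w k (k + 1) * δ k - ∑ a ∈ Finset.range k, mn w a (k + 1) * (δ (a + 1) - δ a) := by
  have key : ∀ N j : ℕ, ∑ a ∈ Finset.range (j + 1), om w a N * δ a =
      mn w j N * δ j - ∑ a ∈ Finset.range j, mn w a N * (δ (a + 1) - δ a) := by
    intro N j
    induction j with
    | zero => simp [om]
    | succ j ih =>
      rw [Finset.sum_range_succ, ih, Finset.sum_range_succ]
      simp only [om]
      ring
  exact key (k + 1) k

end Crest.Agent.R112
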